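import Mathlib

/-!
# P084: Mankiewicz's theorem for compact convex sets in finite dimensions
-/

namespace Vale.Agent.P084

open Metric Set Filter Topology MeasureTheory Module

set_option linter.unusedSectionVars false

namespace MankAux

section abs

variable {M M' : Type*} [MetricSpace M] [MetricSpace M']

/-- reflection trick, abstract form -/
theorem fixed (R : M ≃ᵢ M) {x y z : M} (hxy : R x = y) (hyx : R y = x) (hz : R z = z)
    (hR : ∀ p, dist (R p) p = 2 * dist p z) :
    ∀ e : M ≃ᵢ M, e x = x → e y = y → e z = z := by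
  set s := { e : M ≃ᵢ M | e x = x ∧ e y = y }
  have : Nonempty s := ⟨⟨IsometryEquiv.refl M, rfl, rfl⟩⟩
  have h_bdd : BddAbove (range fun e : s => dist ((e : M ≃ᵢ M) z) z) := by
    refine ⟨dist x z + dist x z, forall_mem_range.2 <| Subtype.forall.2 ?_⟩
    rintro e ⟨hx, _⟩
    calc
      dist (e z) z ≤ dist (e z) x + dist x z := dist_triangle (e z) x z
      _ = dist (e x) (e z) + dist x z := by rw [hx, dist_comm]
      _ = dist x z + dist x z := by rw [e.dist_eq x z]
  set f : M ≃ᵢ M → M ≃ᵢ M := fun e => ((e.trans R).trans e.symm).trans R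
  have hfe : ∀ e p, f e p = R (e.symm (R (e p))) := fun e p => rfl
  have hf_dist : ∀ e, dist (f e z) z = 2 * dist (e z) z := by
    intro e
    have h1 : dist (f e z) z = dist (f e z) (R z) := by rw [hz]
    rw [h1, hfe, R.dist_eq, ← e.dist_eq, e.apply_symm_apply, hR]
  have hf_maps_to : MapsTo f s s := by
    rintro e ⟨hx, hy⟩
    constructor
    · rw [hfe, hx, hxy, e.symm_apply_eq.2 hy.symm, hyx]
    · rw [hfe, hy, hyx, e.symm_apply_eq.2 hx.symm, hxy]
  set c := ⨆ e : s, dist ((e : M ≃ᵢ M) z) z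
  have : c ≤ c / 2 := by
    apply ciSup_le
    rintro ⟨e, he⟩
    simp only [le_div_iff₀' (zero_lt_two' ℝ), ← hf_dist]
    exact le_ciSup h_bdd ⟨f e, hf_maps_to he⟩
  replace : c ≤ 0 := by linarith
  refine fun e hx hy => dist_le_zero.1 (le_trans ?_ this)
  exact le_ciSup h_bdd ⟨e, hx, hy⟩

theorem map_center (R : M ≃ᵢ M) (R' : M' ≃ᵢ M') {x y z : M} {z' : M'} (hxy : R x = y)
    (hyx : R y = x) (hz : R z = z) (hR : ∀ p, dist (R p) p = 2 * dist p z)
    (hR' : ∀ p, dist (R' p) p = 2 * dist p z') (f : M ≃ᵢ M') (hfx : R' (f x) = f y)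
    (hfy : R' (f y) = f x) : f z = z' := by
  have key := fixed R hxy hyx hz hR (((f.trans R').trans f.symm).trans R)
    (by
      show R (f.symm (R' (f x))) = x
      rw [hfx, f.symm_apply_apply, hyx])
    (by
      show R (f.symm (R' (f y))) = y
      rw [hfy, f.symm_apply_apply, hxy])
  have h1 : R (f.symm (R' (f z))) = R z := by
    rw [hz]; exact key
  have h2 : f.symm (R' (f z)) = z := R.injective h1
  have h3 : R' (f z) = f z := by
    rw [← f.apply_symm_apply (R' (f z)), h2]
  have h4 := hR' (f z)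
  rw [h3, dist_self] at h4
  exact dist_le_zero.1 (by linarith)

end abs

section lens

variable {X : Type*} [NormedAddCommGroup X] [NormedSpace ℝ X]

/-- the lens -/
def lens (a b : X) (r : ℝ) : Set X := closedBall a r ∩ closedBall b r

theorem lens_refl {a b : X} {r : ℝ} {p : X} (hp : p ∈ lens a b r) : a + b - p ∈ lens a b r := by
  obtain ⟨h1, h2⟩ := hp
  rw [mem_closedBall, dist_eq_norm] at h1 h2
  refine ⟨?_, ?_⟩
  · rw [mem_closedBall, dist_eq_norm, show a + b - p - a = -(p - b) by abel, norm_neg]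
    exact h2
  · rw [mem_closedBall, dist_eq_norm, show a + b - p - b = -(p - a) by abel, norm_neg]
    exact h1

/-- reflection of the lens -/
def lensR (a b : X) (r : ℝ) : lens a b r ≃ᵢ lens a b r :=
  IsometryEquiv.mk' (fun p => ⟨a + b - p.1, lens_refl p.2⟩)
    (fun p => ⟨a + b - p.1, lens_refl p.2⟩)
    (fun p => Subtype.ext (by show a + b - (a + b - p.1) = p.1; abel))
    (Isometry.of_dist_eq fun p q => by
      show dist (a + b - p.1) (a + b - q.1) = dist p.1 q.1
      rw [dist_sub_left])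

theorem lensR_apply (a b : X) (r : ℝ) (p : lens a b r) : (lensR a b r p).1 = a + b - p.1 := rfl

theorem dist_lensR (a b : X) (r : ℝ) (z : lens a b r) (hz : z.1 = (1 / 2 : ℝ) • (a + b))
    (p : lens a b r) : dist (lensR a b r p) p = 2 * dist p z := by
  rw [Subtype.dist_eq, Subtype.dist_eq, lensR_apply, hz, dist_eq_norm, dist_eq_norm]
  have : a + b - p.1 - p.1 = (-2 : ℝ) • (p.1 - (1 / 2 : ℝ) • (a + b)) := by module
  rw [this, norm_smul]
  norm_num

theorem mid_mem_lens (a b : X) : (1 / 2 : ℝ) • (a + b) ∈ lens a b (dist a b) := by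
  have h : 0 ≤ dist a b := dist_nonneg
  refine ⟨?_, ?_⟩
  · rw [mem_closedBall, dist_eq_norm]
    have : (1 / 2 : ℝ) • (a + b) - a = (-(1 / 2) : ℝ) • (a - b) := by module
    rw [this, norm_smul, ← dist_eq_norm]
    norm_num
    linarith
  · rw [mem_closedBall, dist_eq_norm]
    have : (1 / 2 : ℝ) • (a + b) - b = (1 / 2 : ℝ) • (a - b) := by module
    rw [this, norm_smul, ← dist_eq_norm]
    norm_num
    linarith

theorem left_mem_lens (a b : X) : a ∈ lens a b (dist a b) :=
  ⟨mem_closedBall_self dist_nonneg, by rw [mem_closedBall]⟩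

theorem right_mem_lens (a b : X) : b ∈ lens a b (dist a b) :=
  ⟨by rw [mem_closedBall, dist_comm], mem_closedBall_self dist_nonneg⟩

end lens

variable {X Y : Type*} [NormedAddCommGroup X] [NormedSpace ℝ X]
    [NormedAddCommGroup Y] [NormedSpace ℝ Y]

/-- a pair of mutually inverse isometries between `K` and `K'` -/
structure BI (K : Set X) (K' : Set Y) (f : X → Y) (g : Y → X) : Prop where
  iso : ∀ x ∈ K, ∀ y ∈ K, dist (f x) (f y) = dist x y
  mf : ∀ x ∈ K, f x ∈ K'
  mg : ∀ y ∈ K', g y ∈ K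
  gf : ∀ x ∈ K, g (f x) = x
  fg : ∀ y ∈ K', f (g y) = y

variable {K : Set X} {K' : Set Y} {f : X → Y} {g : Y → X}

theorem BI.symm (h : BI K K' f g) : BI K' K g f where
  iso := fun x hx y hy => by
    rw [← h.iso _ (h.mg x hx) _ (h.mg y hy), h.fg x hx, h.fg y hy]
  mf := h.mg
  mg := h.mf
  gf := h.fg
  fg := h.gf

theorem BI.mid (h : BI K K' f g) {a b : X} (ha : closedBall a (dist a b) ⊆ K)
    (ha' : closedBall (f a) (dist a b) ⊆ K') :
    f ((1 / 2 : ℝ) • (a + b)) = (1 / 2 : ℝ) • (f a + f b) := by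
  have haK : a ∈ K := ha (mem_closedBall_self dist_nonneg)
  have hbK : b ∈ K := ha (by rw [mem_closedBall, dist_comm])
  have hr : dist (f a) (f b) = dist a b := h.iso a haK b hbK
  have e1 : ∀ p ∈ lens a b (dist a b), f p ∈ lens (f a) (f b) (dist (f a) (f b)) := by
    intro p hp
    have hpK : p ∈ K := ha hp.1
    refine ⟨?_, ?_⟩
    · rw [mem_closedBall, h.iso _ hpK _ haK, hr]; exact hp.1
    · rw [mem_closedBall, h.iso _ hpK _ hbK, hr]; exact hp.2
  have e2 : ∀ q ∈ lens (f a) (f b) (dist (f a) (f b)), g q ∈ lens a b (dist a b) := by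
    intro q hq
    have hqK : q ∈ K' := ha' (by rw [← hr]; exact hq.1)
    refine ⟨?_, ?_⟩
    · have h1 := hq.1
      rw [mem_closedBall, ← h.symm.iso _ hqK _ (h.mf a haK), h.gf a haK, hr] at h1
      exact h1
    · have h1 := hq.2
      rw [mem_closedBall, ← h.symm.iso _ hqK _ (h.mf b hbK), h.gf b hbK, hr] at h1
      exact h1
  let F : lens a b (dist a b) ≃ᵢ lens (f a) (f b) (dist (f a) (f b)) :=
    IsometryEquiv.mk' (fun p => ⟨f p.1, e1 p.1 p.2⟩) (fun q => ⟨g q.1, e2 q.1 q.2⟩)
      (fun q => Subtype.ext (h.fg q.1 (ha' (by rw [← hr]; exact q.2.1))))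
      (Isometry.of_dist_eq fun p q => h.iso p.1 (ha p.2.1) q.1 (ha q.2.1))
  have key := map_center (lensR a b (dist a b)) (lensR (f a) (f b) (dist (f a) (f b)))
    (x := ⟨a, left_mem_lens a b⟩) (y := ⟨b, right_mem_lens a b⟩)
    (z := ⟨_, mid_mem_lens a b⟩) (z' := ⟨_, mid_mem_lens (f a) (f b)⟩)
    (Subtype.ext (by rw [lensR_apply]; show a + b - a = b; abel))
    (Subtype.ext (by rw [lensR_apply]; show a + b - b = a; abel))
    (Subtype.ext (by
      rw [lensR_apply]; show a + b - (1 / 2 : ℝ) • (a + b) = (1 / 2 : ℝ) • (a + b); module))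
    (dist_lensR a b _ _ rfl) (dist_lensR (f a) (f b) _ _ rfl) F
    (Subtype.ext (by rw [lensR_apply]; show f a + f b - f a = f b; abel))
    (Subtype.ext (by rw [lensR_apply]; show f a + f b - f b = f a; abel))
  exact congrArg Subtype.val key

theorem BI.lip (h : BI K K' f g) : LipschitzOnWith 1 f K :=
  LipschitzOnWith.of_dist_le_mul fun x hx y hy => by
    rw [h.iso x hx y hy, NNReal.coe_one, one_mul]

theorem BI.image (h : BI K K' f g) : f '' K = K' := by
  ext y
  constructor
  · rintro ⟨x, hx, rfl⟩; exact h.mf x hx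
  · intro hy; exact ⟨g y, h.mg y hy, h.fg y hy⟩

variable [FiniteDimensional ℝ X] [FiniteDimensional ℝ Y]

theorem BI.finrank_le (h : BI K K' f g) (hK : (interior K).Nonempty)
    (hK' : (interior K').Nonempty) : finrank ℝ Y ≤ finrank ℝ X := by
  have h1 := h.lip.dimH_image_le
  rw [h.image, Real.dimH_of_nonempty_interior hK, Real.dimH_of_nonempty_interior hK'] at h1
  exact_mod_cast h1

theorem BI.finrank_eq (h : BI K K' f g) (hK : (interior K).Nonempty)
    (hK' : (interior K').Nonempty) : finrank ℝ X = finrank ℝ Y :=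
  le_antisymm (h.symm.finrank_le hK' hK) (h.finrank_le hK hK')

theorem BI.meas [MeasurableSpace X] [BorelSpace X] [MeasurableSpace Y] [BorelSpace Y]
    (h : BI K K' f g) {s : Set X} (hs : s ⊆ K) {d : ℝ} (hd : 0 ≤ d) :
    μH[d] (f '' s) = μH[d] s := by
  apply le_antisymm
  · have := (h.lip.mono hs).hausdorffMeasure_image_le hd
    simpa using this
  · have h1 : g '' (f '' s) = s := by
      ext x
      constructor
      · rintro ⟨y, ⟨x', hx', rfl⟩, rfl⟩
        rw [h.gf x' (hs hx')]; exact hx'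
      · intro hx
        exact ⟨f x, ⟨x, hx, rfl⟩, h.gf x (hs hx)⟩
    have h2 : f '' s ⊆ K' := by
      rintro y ⟨x, hx, rfl⟩; exact h.mf x (hs hx)
    have := (h.symm.lip.mono h2).hausdorffMeasure_image_le hd
    rw [h1] at this
    simpa using this

theorem BI.ball_le [MeasurableSpace X] [BorelSpace X] [MeasurableSpace Y] [BorelSpace Y]
    (h : BI K K' f g) (hK : (interior K).Nonempty) (hK' : (interior K').Nonempty) :
    μH[finrank ℝ X] (closedBall (0 : X) 1) ≤ μH[finrank ℝ Y] (closedBall (0 : Y) 1) := by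
  have hn := h.finrank_eq hK hK'
  obtain ⟨x, hx⟩ := hK
  obtain ⟨r, hr, hrK⟩ := Metric.nhds_basis_closedBall.mem_iff.1 (mem_interior_iff_mem_nhds.1 hx)
  have hxK : x ∈ K := hrK (mem_closedBall_self hr.le)
  have h1 : f '' closedBall x r ⊆ closedBall (f x) r := by
    rintro y ⟨p, hp, rfl⟩
    rw [mem_closedBall, h.iso _ (hrK hp) _ hxK]; exact hp
  have h2 := h.meas hrK (d := finrank ℝ X) (Nat.cast_nonneg _)
  have h3 := measure_mono (μ := (μH[finrank ℝ Y] : Measure Y)) h1
  rw [← hn, h2, Measure.addHaar_closedBall' _ x hr.le] at h3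
  have h4 := Measure.addHaar_closedBall' (μH[finrank ℝ Y] : Measure Y) (f x) hr.le
  rw [← hn] at h4
  rw [h4] at h3
  rw [← hn]
  have h5 : ENNReal.ofReal (r ^ finrank ℝ X) ≠ 0 := by
    rw [Ne, ENNReal.ofReal_eq_zero, not_le]; positivity
  exact (ENNReal.mul_le_mul_iff_right h5 ENNReal.ofReal_ne_top).1 h3

theorem BI.closedBall_sub (h : BI K K' f g) (hK : (interior K).Nonempty)
    (hK' : (interior K').Nonempty) {x : X} {r : ℝ} (hr : 0 < r) (hrK : closedBall x r ⊆ K) :
    closedBall (f x) r ⊆ K' := by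
  borelize X Y
  have hn := h.finrank_eq hK hK'
  have hc := le_antisymm (h.ball_le hK hK') (h.symm.ball_le hK' hK)
  have hxK : x ∈ K := hrK (mem_closedBall_self hr.le)
  have h1 : f '' closedBall x r ⊆ closedBall (f x) r := by
    rintro y ⟨p, hp, rfl⟩
    rw [mem_closedBall, h.iso _ (hrK hp) _ hxK]; exact hp
  have hcomp : IsCompact (f '' closedBall x r) :=
    (isCompact_closedBall x r).image_of_continuousOn (h.lip.mono hrK).continuousOn
  have h2 := h.meas hrK (d := finrank ℝ X) (Nat.cast_nonneg _)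
  have h3 := Measure.addHaar_closedBall' (μH[finrank ℝ X] : Measure X) x hr.le
  have h4 := Measure.addHaar_closedBall' (μH[finrank ℝ Y] : Measure Y) (f x) hr.le
  have h5 : μH[finrank ℝ Y] (f '' closedBall x r) = μH[finrank ℝ Y] (closedBall (f x) r) := by
    rw [h4, ← hc, ← hn, ← h3, h2]
  have hfin : μH[finrank ℝ Y] (f '' closedBall x r) ≠ ⊤ := by
    rw [h5]; exact measure_closedBall_lt_top.ne
  have h6 : μH[finrank ℝ Y] (closedBall (f x) r \ (f '' closedBall x r)) = 0 := by
    rw [measure_sdiff h1 hcomp.isClosed.measurableSet.nullMeasurableSet hfin, h5, tsub_self]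
  have h7 : ball (f x) r \ (f '' closedBall x r) = ∅ := by
    rw [← (isOpen_ball.sdiff hcomp.isClosed).measure_eq_zero_iff (μH[finrank ℝ Y] : Measure Y)]
    exact measure_mono_null (sdiff_subset_sdiff_left ball_subset_closedBall) h6
  have h8 : ball (f x) r ⊆ f '' closedBall x r := sdiff_eq_empty.1 h7
  have h9 : closedBall (f x) r ⊆ f '' closedBall x r := by
    rw [← closure_ball _ hr.ne']
    exact closure_minimal h8 hcomp.isClosed
  refine h9.trans ?_
  rintro y ⟨p, hp, rfl⟩
  exact h.mf p (hrK hp)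

/-- second differences vanish, so a sequence is affine -/
theorem affine_seq {E : Type*} [AddCommGroup E] [Module ℝ E] (u : ℕ → E) (n : ℕ)
    (h : ∀ i, i + 2 ≤ n → u (i + 1) = (1 / 2 : ℝ) • (u i + u (i + 2))) :
    ∀ i, i ≤ n → u i = u 0 + (i : ℝ) • (u 1 - u 0) := by
  intro i
  induction i using Nat.strong_induction_on with
  | _ i ih =>
    intro hi
    match i, ih, hi with
    | 0, _, _ => simp
    | 1, _, _ => simp
    | k + 2, ih, hi =>
      have h1 := ih k (by omega) (by omega)
      have h2 := ih (k + 1) (by omega) (by omega)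
      have h3 := h k hi
      have h4 : u (k + 2) = (2 : ℝ) • u (k + 1) - u k := by
        rw [h3]; module
      rw [h4, h1, h2]
      push_cast
      module

theorem BI.affine_interior (h : BI K K' f g) (hcK : Convex ℝ K)
    (hK' : (interior K').Nonempty) {a b : X} (ha : a ∈ interior K) (hb : b ∈ interior K) :
    ∀ t ∈ Icc (0 : ℝ) 1, f (a + t • (b - a)) = f a + t • (f b - f a) := by
  have hK : (interior K).Nonempty := ⟨a, ha⟩
  have hseg0 : IsCompact (segment ℝ a b) := by
    rw [segment_eq_image']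
    exact isCompact_Icc.image (by fun_prop)
  obtain ⟨δ, hδ, hδK⟩ := hseg0.exists_cthickening_subset_open isOpen_interior
    (hcK.interior.segment_subset ha hb)
  have hball : ∀ t ∈ Icc (0 : ℝ) 1, ∀ r ≤ δ, closedBall (a + t • (b - a)) r ⊆ K := by
    intro t ht r hr
    have h1 : a + t • (b - a) ∈ segment ℝ a b := by
      rw [segment_eq_image']
      exact ⟨t, ht, rfl⟩
    exact (closedBall_subset_closedBall hr).trans
      ((closedBall_subset_cthickening h1 δ).trans (hδK.trans interior_subset))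
  -- the grid
  have grid : ∀ n : ℕ, 0 < n → 2 * ‖b - a‖ ≤ δ * n → ∀ i : ℕ, i ≤ n →
      f (a + ((i : ℝ) / n) • (b - a)) = f a + ((i : ℝ) / n) • (f b - f a) := by
    intro n hn hnδ
    have hn' : (0 : ℝ) < n := Nat.cast_pos.2 hn
    have key := affine_seq (fun i : ℕ => f (a + ((i : ℝ) / n) • (b - a))) n (by
      intro i hi
      have hi' : ((i : ℝ) + 2) / n ≤ 1 := by
        rw [div_le_one hn']; exact_mod_cast hi
      have hi0 : (0 : ℝ) ≤ (i : ℝ) / n := by positivity
      have hi1 : (i : ℝ) / n ≤ 1 := by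
        refine le_trans ?_ hi'
        gcongr
        linarith
      have hd : dist (a + ((i : ℝ) / n) • (b - a)) (a + (((i + 2 : ℕ) : ℝ) / n) • (b - a)) =
          2 / n * ‖b - a‖ := by
        rw [dist_eq_norm]
        have : a + ((i : ℝ) / n) • (b - a) - (a + (((i + 2 : ℕ) : ℝ) / n) • (b - a)) =
            (-(2 / n) : ℝ) • (b - a) := by
          push_cast
          have : ((i : ℝ) + 2) / n = (i : ℝ) / n + 2 / n := by ring
          rw [this]
          module
        rw [this, norm_smul, norm_neg, Real.norm_of_nonneg (by positivity)]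
      have hdδ : dist (a + ((i : ℝ) / n) • (b - a)) (a + (((i + 2 : ℕ) : ℝ) / n) • (b - a)) ≤
          δ := by
        rw [hd, div_mul_eq_mul_div, div_le_iff₀ hn']
        exact hnδ
      by_cases h0 : dist (a + ((i : ℝ) / n) • (b - a))
          (a + (((i + 2 : ℕ) : ℝ) / n) • (b - a)) = 0
      · have hab : b - a = 0 := by
          rw [hd] at h0
          have h2n : (2 / n : ℝ) ≠ 0 := by positivity
          exact norm_eq_zero.1 ((mul_eq_zero.1 h0).resolve_left h2n)
        simp only [hab, smul_zero, add_zero]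
        module
      · have hpos := lt_of_le_of_ne dist_nonneg (Ne.symm h0)
        have hb1 := hball _ ⟨hi0, hi1⟩ _ hdδ
        have hm := h.mid hb1 (h.closedBall_sub hK hK' hpos hb1)
        have e : a + (((i + 1 : ℕ) : ℝ) / n) • (b - a) = (1 / 2 : ℝ) •
            (a + ((i : ℝ) / n) • (b - a) + (a + (((i + 2 : ℕ) : ℝ) / n) • (b - a))) := by
          push_cast
          have e1 : ((i : ℝ) + 2) / n = (i : ℝ) / n + 2 / n := by ring
          have e2 : ((i : ℝ) + 1) / n = (i : ℝ) / n + 1 / n := by ring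
          have e3 : (2 : ℝ) / n = 2 * (1 / n) := by ring
          rw [e1, e2, e3]
          module
        rw [e, hm])
    intro i hi
    have k0 := key i hi
    have k1 := key n le_rfl
    simp only [Nat.cast_zero, zero_div, zero_smul, add_zero] at k0 k1
    rw [div_self hn'.ne', one_smul, add_sub_cancel] at k1
    have k2 : f (a + (((1 : ℕ) : ℝ) / n) • (b - a)) - f a = (1 / (n : ℝ)) • (f b - f a) := by
      rw [k1, add_sub_cancel_left, smul_smul, one_div_mul_cancel hn'.ne', one_smul]
    rw [k0, k2, smul_smul]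
    congr 2
    ring
  intro t ht
  have haK := interior_subset ha
  have hbK := interior_subset hb
  have hseg : ∀ s ∈ Icc (0 : ℝ) 1, a + s • (b - a) ∈ K := by
    intro s hs
    exact hcK.add_smul_sub_mem haK hbK hs
  obtain ⟨N, hN⟩ := exists_nat_gt (2 * ‖b - a‖ / δ)
  have hbound : ∀ n : ℕ, N ≤ n → 0 < n →
      ‖f (a + t • (b - a)) - (f a + t • (f b - f a))‖ ≤ 2 * ‖b - a‖ / n := by
    intro n hn hn0
    have hn' : (0 : ℝ) < n := Nat.cast_pos.2 hn0
    have hnδ : 2 * ‖b - a‖ ≤ δ * n := by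
      have h1 : 2 * ‖b - a‖ / δ ≤ n := hN.le.trans (by exact_mod_cast hn)
      rw [div_le_iff₀ hδ] at h1
      linarith
    obtain ⟨i, hi⟩ : ∃ i : ℕ, i = ⌊t * n⌋₊ := ⟨_, rfl⟩
    have htn : 0 ≤ t * n := mul_nonneg ht.1 hn'.le
    have hi1 : (i : ℝ) ≤ t * n := by rw [hi]; exact Nat.floor_le htn
    have hi2 : t * n < i + 1 := by rw [hi]; exact Nat.lt_floor_add_one _
    have hin : i ≤ n := by
      have : (i : ℝ) ≤ n := hi1.trans (by nlinarith [ht.2])
      exact_mod_cast this
    have hq := grid n hn0 hnδ i hin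
    have hq1 : (i : ℝ) / n ≤ t := by rw [div_le_iff₀ hn']; exact hi1
    have hq2 : t - i / n ≤ 1 / n := by
      rw [sub_le_iff_le_add, ← add_div, le_div_iff₀ hn']
      linarith
    have hq3 : (i : ℝ) / n ∈ Icc (0 : ℝ) 1 := ⟨by positivity, hq1.trans ht.2⟩
    have e1 : ‖f (a + t • (b - a)) - f (a + ((i : ℝ) / n) • (b - a))‖ ≤ 1 / n * ‖b - a‖ := by
      rw [← dist_eq_norm, h.iso _ (hseg t ht) _ (hseg _ hq3), dist_eq_norm]
      have : a + t • (b - a) - (a + ((i : ℝ) / n) • (b - a)) = (t - i / n) • (b - a) := by module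
      rw [this, norm_smul, Real.norm_of_nonneg (by linarith)]
      gcongr
    have e2 : ‖((i : ℝ) / n - t) • (f b - f a)‖ ≤ 1 / n * ‖b - a‖ := by
      rw [norm_smul, ← dist_eq_norm (f b), h.iso _ hbK _ haK, dist_eq_norm, Real.norm_eq_abs,
        abs_sub_comm, abs_of_nonneg (by linarith)]
      gcongr
    have e3 : f (a + t • (b - a)) - (f a + t • (f b - f a)) =
        (f (a + t • (b - a)) - f (a + ((i : ℝ) / n) • (b - a))) +
          ((i : ℝ) / n - t) • (f b - f a) := by
      rw [hq]; module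
    rw [e3]
    refine (norm_add_le _ _).trans ((add_le_add e1 e2).trans (le_of_eq (by ring)))
  have hlim : Tendsto (fun n : ℕ => 2 * ‖b - a‖ / n) atTop (𝓝 0) :=
    tendsto_const_div_atTop_nhds_zero_nat _
  have hle : ‖f (a + t • (b - a)) - (f a + t • (f b - f a))‖ ≤ 0 := by
    refine ge_of_tendsto hlim ?_
    filter_upwards [eventually_ge_atTop N, eventually_gt_atTop 0] with n h1 h2
    exact hbound n h1 h2
  exact sub_eq_zero.1 (norm_le_zero_iff.1 hle)

theorem BI.affine (h : BI K K' f g) (hcK : Convex ℝ K) (hK : (interior K).Nonempty)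
    (hK' : (interior K').Nonempty) {x y : X} (hx : x ∈ K) (hy : y ∈ K) :
    ∀ t ∈ Icc (0 : ℝ) 1, f (x + t • (y - x)) = f x + t • (f y - f x) := by
  intro t ht
  obtain ⟨c, hc⟩ := hK
  obtain ⟨D, hD⟩ : ∃ D : ℝ, D = ‖c - x‖ + ‖c - y‖ := ⟨_, rfl⟩
  have hbound : ∀ s : ℝ, 0 < s → s ≤ 1 →
      ‖f (x + t • (y - x)) - (f x + t • (f y - f x))‖ ≤ 2 * (s * D) := by
    intro s hs0 hs1
    have hxs : x + s • (c - x) ∈ interior K := hcK.add_smul_sub_mem_interior hx hc ⟨hs0, hs1⟩
    have hys : y + s • (c - y) ∈ interior K := hcK.add_smul_sub_mem_interior hy hc ⟨hs0, hs1⟩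
    have hA := h.affine_interior hcK hK' hxs hys t ht
    have hm1 : x + t • (y - x) ∈ K := hcK.add_smul_sub_mem hx hy ht
    have hm2 : x + s • (c - x) + t • (y + s • (c - y) - (x + s • (c - x))) ∈ K :=
      hcK.add_smul_sub_mem (interior_subset hxs) (interior_subset hys) ht
    have e1 : ‖f x - f (x + s • (c - x))‖ ≤ s * ‖c - x‖ := by
      rw [← dist_eq_norm, h.iso _ hx _ (interior_subset hxs), dist_eq_norm,
        show x - (x + s • (c - x)) = -(s • (c - x)) by abel, norm_neg, norm_smul,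
        Real.norm_of_nonneg hs0.le]
    have e2 : ‖f y - f (y + s • (c - y))‖ ≤ s * ‖c - y‖ := by
      rw [← dist_eq_norm, h.iso _ hy _ (interior_subset hys), dist_eq_norm,
        show y - (y + s • (c - y)) = -(s • (c - y)) by abel, norm_neg, norm_smul,
        Real.norm_of_nonneg hs0.le]
    have ht0 := ht.1
    have ht1 : 0 ≤ 1 - t := by linarith [ht.2]
    have e3 : ‖f (x + t • (y - x)) -
        f (x + s • (c - x) + t • (y + s • (c - y) - (x + s • (c - x))))‖ ≤ s * D := by
      rw [← dist_eq_norm, h.iso _ hm1 _ hm2, dist_eq_norm]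
      have : x + t • (y - x) - (x + s • (c - x) + t • (y + s • (c - y) - (x + s • (c - x)))) =
          (-((1 - t) * s)) • (c - x) + (-(t * s)) • (c - y) := by module
      rw [this]
      refine (norm_add_le _ _).trans ?_
      rw [norm_smul, norm_smul, norm_neg, norm_neg, Real.norm_of_nonneg (by positivity),
        Real.norm_of_nonneg (by positivity), hD]
      have n1 := norm_nonneg (c - x)
      have n2 := norm_nonneg (c - y)
      have n3 : (1 - t) * s * ‖c - x‖ ≤ s * ‖c - x‖ := by
        have : (1 - t) * s ≤ s := by nlinarith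
        gcongr
      have n4 : t * s * ‖c - y‖ ≤ s * ‖c - y‖ := by
        have : t * s ≤ s := by nlinarith [ht.2]
        gcongr
      linarith
    have e4 : f (x + t • (y - x)) - (f x + t • (f y - f x)) =
        (f (x + t • (y - x)) -
          f (x + s • (c - x) + t • (y + s • (c - y) - (x + s • (c - x))))) -
        ((1 - t) • (f x - f (x + s • (c - x))) + t • (f y - f (y + s • (c - y)))) := by
      rw [hA]; module
    rw [e4]
    refine (norm_sub_le _ _).trans ?_
    have e5 : ‖(1 - t) • (f x - f (x + s • (c - x))) + t • (f y - f (y + s • (c - y)))‖ ≤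
        s * D := by
      refine (norm_add_le _ _).trans ?_
      rw [norm_smul, norm_smul, Real.norm_of_nonneg ht1, Real.norm_of_nonneg ht0, hD]
      have n1 := norm_nonneg (c - x)
      have n2 := norm_nonneg (c - y)
      have m1 : (1 - t) * ‖f x - f (x + s • (c - x))‖ ≤ 1 * (s * ‖c - x‖) := by
        gcongr
        linarith
      have m2 : t * ‖f y - f (y + s • (c - y))‖ ≤ 1 * (s * ‖c - y‖) := by
        gcongr
        exact ht.2
      linarith
    linarith
  have hle : ‖f (x + t • (y - x)) - (f x + t • (f y - f x))‖ ≤ 0 := by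
    have hlim : Tendsto (fun s : ℝ => 2 * (s * D)) (𝓝[>] 0) (𝓝 0) := by
      have : Tendsto (fun s : ℝ => 2 * (s * D)) (𝓝 0) (𝓝 (2 * (0 * D))) :=
        (by fun_prop : Continuous fun s : ℝ => 2 * (s * D)).tendsto 0
      rw [zero_mul, mul_zero] at this
      exact this.mono_left nhdsWithin_le_nhds
    refine ge_of_tendsto hlim ?_
    filter_upwards [Ioc_mem_nhdsGT (zero_lt_one' ℝ)] with s hs
    exact hbound s hs.1 hs.2
  exact sub_eq_zero.1 (norm_le_zero_iff.1 hle)

/-- a convex set containing `0` has nonempty interior in its span -/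
theorem interior_span_nonempty {K : Set X} (hK : Convex ℝ K) {x0 : X} (hx0 : x0 ∈ K)
    {V : Submodule ℝ X} (hV : V = Submodule.span ℝ ((fun x => x - x0) '' K)) :
    (interior {v : V | x0 + (v : X) ∈ K}).Nonempty := by
  have hconv : Convex ℝ {v : V | x0 + (v : X) ∈ K} := by
    intro v hv w hw s t hs ht hst
    have := hK hv hw hs ht hst
    show x0 + ((s • v + t • w : V) : X) ∈ K
    have e : x0 + ((s • v + t • w : V) : X) = s • (x0 + (v : X)) + t • (x0 + (w : X)) := by
      have h1 : x0 = (s + t) • x0 := by rw [hst, one_smul]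
      conv_lhs => rw [h1]
      simp only [Submodule.coe_add, Submodule.coe_smul]
      module
    rw [e]; exact this
  rw [hconv.interior_nonempty_iff_affineSpan_eq_top]
  have h0 : (0 : V) ∈ {v : V | x0 + (v : X) ∈ K} := by
    show x0 + ((0 : V) : X) ∈ K
    simpa using hx0
  rw [AffineSubspace.affineSpan_eq_top_iff_vectorSpan_eq_top_of_nonempty ℝ V V ⟨0, h0⟩,
    vectorSpan_eq_span_vsub_set_right ℝ h0]
  have e : (fun p : V => p -ᵥ (0 : V)) '' {v : V | x0 + (v : X) ∈ K} =
      ((↑) : V → X) ⁻¹' ((fun x => x - x0) '' K) := by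
    ext v
    constructor
    · rintro ⟨w, hw, rfl⟩
      refine ⟨x0 + (w : X), hw, ?_⟩
      simp
    · rintro ⟨x, hx, hxv⟩
      refine ⟨v, ?_, by simp⟩
      show x0 + (v : X) ∈ K
      rw [← hxv]
      simpa using hx
  rw [e]
  subst hV
  exact Submodule.span_span_coe_preimage

end MankAux

open MankAux

/-- (A) finite-dimensional Mankiewicz for compact convex sets -/
theorem mankiewicz {X Y : Type*} [NormedAddCommGroup X] [NormedSpace ℝ X] [FiniteDimensional ℝ X]
    [NormedAddCommGroup Y] [NormedSpace ℝ Y] [FiniteDimensional ℝ Y]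
    {K : Set X} {K' : Set Y} (hK : Convex ℝ K) (hKc : IsCompact K) (hK' : Convex ℝ K')
    (hKc' : IsCompact K') (f : X → Y) (hf : ∀ x ∈ K, ∀ y ∈ K, ‖f x - f y‖ = ‖x - y‖)
    (himg : f '' K = K') {x y : X} (hx : x ∈ K) (hy : y ∈ K) :
    ∀ t ∈ Icc (0 : ℝ) 1, f (x + t • (y - x)) = f x + t • (f y - f x) := by
  classical
  intro t ht
  obtain ⟨V, hV⟩ : ∃ V : Submodule ℝ X, V = Submodule.span ℝ ((fun p => p - x) '' K) := ⟨_, rfl⟩
  obtain ⟨W, hW⟩ : ∃ W : Submodule ℝ Y, W = Submodule.span ℝ ((fun p => p - f x) '' K') :=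
    ⟨_, rfl⟩
  have hfx : f x ∈ K' := himg ▸ mem_image_of_mem f hx
  have iV := interior_span_nonempty hK hx hV
  have iW := interior_span_nonempty hK' hfx hW
  have memV : ∀ p ∈ K, p - x ∈ V := fun p hp => by
    rw [hV]; exact Submodule.subset_span ⟨p, hp, rfl⟩
  have memW : ∀ q ∈ K', q - f x ∈ W := fun q hq => by
    rw [hW]; exact Submodule.subset_span ⟨q, hq, rfl⟩
  have mf : ∀ p ∈ K, f p ∈ K' := fun p hp => himg ▸ mem_image_of_mem f hp
  have hinv : ∀ q ∈ K', ∃ p ∈ K, f p = q := fun q hq => by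
    rw [← himg] at hq; exact hq
  choose! G hG1 hG2 using hinv
  have hinj : ∀ p ∈ K, ∀ q ∈ K, f p = f q → p = q := by
    intro p hp q hq he
    have := hf p hp q hq
    rw [he, sub_self, norm_zero] at this
    exact sub_eq_zero.1 (norm_eq_zero.1 this.symm)
  let F : V → W := fun v => if h : x + (v : X) ∈ K then ⟨f (x + v) - f x, memW _ (mf _ h)⟩ else 0
  let H : W → V := fun w => if h : f x + (w : Y) ∈ K' then ⟨G (f x + w) - x, memV _ (hG1 _ h)⟩
    else 0
  have hF : ∀ v : V, x + (v : X) ∈ K → (F v : Y) = f (x + v) - f x := by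
    intro v hv
    simp only [F, dif_pos hv]
  have hH : ∀ w : W, f x + (w : Y) ∈ K' → (H w : X) = G (f x + w) - x := by
    intro w hw
    simp only [H, dif_pos hw]
  have bi : BI {v : V | x + (v : X) ∈ K} {w : W | f x + (w : Y) ∈ K'} F H := by
    refine ⟨?_, ?_, ?_, ?_, ?_⟩
    · intro v hv w hw
      rw [Subtype.dist_eq, Subtype.dist_eq, hF v hv, hF w hw, dist_eq_norm, dist_eq_norm,
        sub_sub_sub_cancel_right, hf _ hv _ hw, add_sub_add_left_eq_sub]
    · intro v hv
      show f x + (F v : Y) ∈ K'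
      rw [hF v hv, add_sub_cancel]
      exact mf _ hv
    · intro w hw
      show x + (H w : X) ∈ K
      rw [hH w hw, add_sub_cancel]
      exact hG1 _ hw
    · intro v hv
      have h1 : f x + (F v : Y) = f (x + v) := by rw [hF v hv, add_sub_cancel]
      have h2 : f x + (F v : Y) ∈ K' := by rw [h1]; exact mf _ hv
      apply Subtype.ext
      rw [hH _ h2, h1]
      have h3 : G (f (x + v)) = x + v := hinj _ (hG1 _ (mf _ hv)) _ hv (hG2 _ (mf _ hv))
      rw [h3, add_sub_cancel_left]
    · intro w hw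
      have h1 : x + (H w : X) = G (f x + w) := by rw [hH w hw, add_sub_cancel]
      have h2 : x + (H w : X) ∈ K := by rw [h1]; exact hG1 _ hw
      apply Subtype.ext
      rw [hF _ h2, h1, hG2 _ hw, add_sub_cancel_left]
  have hcV : Convex ℝ {v : V | x + (v : X) ∈ K} := by
    intro v hv w hw s r hs hr hsr
    have := hK hv hw hs hr hsr
    show x + ((s • v + r • w : V) : X) ∈ K
    have e : x + ((s • v + r • w : V) : X) = s • (x + (v : X)) + r • (x + (w : X)) := by
      have h1 : x = (s + r) • x := by rw [hsr, one_smul]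
      conv_lhs => rw [h1]
      simp only [Submodule.coe_add, Submodule.coe_smul]
      module
    rw [e]; exact this
  have m0 : (0 : V) ∈ {v : V | x + (v : X) ∈ K} := by
    show x + ((0 : V) : X) ∈ K
    simpa using hx
  have m1 : (⟨y - x, memV y hy⟩ : V) ∈ {v : V | x + (v : X) ∈ K} := by
    show x + (y - x) ∈ K
    simpa using hy
  have key := bi.affine hcV iV iW m0 m1 t ht
  have mt : x + ((0 + t • ((⟨y - x, memV y hy⟩ : V) - 0) : V) : X) ∈ K := by
    have := hK.add_smul_sub_mem hx hy ht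
    simpa using this
  have key2 := congrArg (Subtype.val : W → Y) key
  rw [hF _ mt] at key2
  simp only [Submodule.coe_add, Submodule.coe_smul, AddSubgroupClass.coe_sub] at key2
  rw [hF 0 m0, hF _ m1] at key2
  simp only [ZeroMemClass.coe_zero, zero_add, add_zero, sub_self, sub_zero, add_sub_cancel,
    Submodule.coe_smul] at key2
  rw [← key2, add_sub_cancel]

end Vale.Agent.P084
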