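import Vale.Agent.P084.Pos
import Vale.Agent.P084.Mankiewicz

open Metric Set Filter Topology MeasureTheory Module Asymptotics

namespace Vale.Agent.P084

section faces

variable {X : Type*} [NormedAddCommGroup X] [NormedSpace ℝ X]

/-- a maximal convex subset of the unit sphere -/
def IsMaxFace (K : Set X) : Prop :=
  Convex ℝ K ∧ (∀ y ∈ K, ‖y‖ = 1) ∧
    ∀ K' : Set X, Convex ℝ K' → (∀ y ∈ K', ‖y‖ = 1) → K ⊆ K' → K' ⊆ K

theorem aff_half_norm {x y : X} (h : ‖x + y‖ = 2) :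
    ∃ φ : X →L[ℝ] ℝ, ‖φ‖ ≤ 1 ∧ φ x + φ y = 2 := by
  obtain ⟨φ, h1, h2⟩ := exists_dual_vector'' ℝ (x + y)
  refine ⟨φ, h1, ?_⟩
  rw [← _root_.map_add, h2, h]; norm_num

theorem aff_le {φ : X →L[ℝ] ℝ} (hφ : ‖φ‖ ≤ 1) (x : X) : φ x ≤ ‖x‖ := by
  calc φ x ≤ ‖φ x‖ := le_abs_self _
    _ ≤ ‖φ‖ * ‖x‖ := φ.le_opNorm _
    _ ≤ 1 * ‖x‖ := by gcongr
    _ = _ := one_mul _

theorem aff_support {x y : X} (hx : ‖x‖ = 1) (hy : ‖y‖ = 1) (h : ‖x + y‖ = 2) :
    ∃ φ : X →L[ℝ] ℝ, ‖φ‖ ≤ 1 ∧ φ x = 1 ∧ φ y = 1 := by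
  obtain ⟨φ, h1, h2⟩ := aff_half_norm h
  have h3 := aff_le h1 x
  have h4 := aff_le h1 y
  exact ⟨φ, h1, by linarith, by linarith⟩

/-- smooth unit vectors are dense in the unit sphere -/
theorem aff_exists_smooth [FiniteDimensional ℝ X] {m : X} (hm : ‖m‖ = 1) {δ : ℝ} (hδ : 0 < δ) :
    ∃ m' : X, ‖m'‖ = 1 ∧ DifferentiableAt ℝ (fun v : X => ‖v‖) m' ∧ ‖m' - m‖ < δ := by
  let _ : MeasurableSpace X := borel X
  have _ : BorelSpace X := ⟨rfl⟩
  have h0 : m ≠ 0 := by intro h; rw [h, norm_zero] at hm; norm_num at hm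
  have hc : ContinuousAt (fun w : X => ‖w‖⁻¹ • w) m := by
    have : ‖m‖ ≠ 0 := by rw [hm]; norm_num
    exact (continuousAt_id.norm.inv₀ this).smul continuousAt_id
  have hev : ∀ᶠ w in 𝓝 m, ‖‖w‖⁻¹ • w - m‖ < δ := by
    have h1 := hc.tendsto
    simp only [hm, inv_one, one_smul] at h1
    have h2 := (Metric.tendsto_nhds.1 h1) δ hδ
    simpa [dist_eq_norm] using h2
  have hev2 : ∀ᶠ w in 𝓝 m, w ≠ 0 := isOpen_ne.mem_nhds h0
  obtain ⟨O, hO1, hO2, hO3⟩ := _root_.mem_nhds_iff.1 (hev.and hev2)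
  have hcl := open_subset_closure_diff hO2 (nonsmooth_null (X := X))
  obtain ⟨w, hw1, hw2⟩ := (closure_nonempty_iff.1 ⟨m, hcl hO3⟩)
  have hw3 := hO1 hw1
  have hwd : DifferentiableAt ℝ (fun v : X => ‖v‖) w := by
    by_contra hcon; exact hw2 hcon
  have hwn : ‖w‖ ≠ 0 := norm_ne_zero_iff.2 hw3.2
  refine ⟨‖w‖⁻¹ • w, ?_, ?_, hw3.1⟩
  · rw [norm_smul, norm_inv, norm_norm, inv_mul_cancel₀ hwn]
  · exact (differentiableAt_norm_smul (inv_ne_zero hwn)).1 hwd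

/-- a support functional at a smooth point is the derivative -/
theorem aff_eq_N1 [FiniteDimensional ℝ X] {z : X}
    (hz : DifferentiableAt ℝ (fun v : X => ‖v‖) z) {ψ : X →L[ℝ] ℝ} (h1 : ‖ψ‖ ≤ 1)
    (h2 : ψ z = ‖z‖) : ψ = N1 z := by
  have : ‖ψ - N1 z‖ ≤ 0 := by
    refine le_of_forall_pos_le_add fun ε hε => ?_
    rw [zero_add]
    exact ((support_near hz hε).self_of_nhds ψ h1 h2).le
  exact sub_eq_zero.1 (norm_le_zero_iff.1 this)

theorem aff_norm_segment {x y : X} (hx : ‖x‖ = 1) (hy : ‖y‖ = 1) (h : ‖x + y‖ = 2)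
    {α β : ℝ} (hα : 0 ≤ α) (hβ : 0 ≤ β) (hαβ : α + β = 1) : ‖α • x + β • y‖ = 1 := by
  have := norm_add_smul_eq (x := x) (y := y) (by rw [h, hx, hy]; norm_num) hα hβ
  rw [this, hx, hy]; linarith

theorem aff_norm_add_of_convex {K : Set X} (hK : Convex ℝ K) (h1 : ∀ y ∈ K, ‖y‖ = 1) {x y : X}
    (hx : x ∈ K) (hy : y ∈ K) : ‖x + y‖ = 2 := by
  have h2 := hK hx hy (by norm_num : (0 : ℝ) ≤ 1 / 2) (by norm_num : (0 : ℝ) ≤ 1 / 2) (by norm_num)
  have h3 := h1 _ h2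
  rw [← smul_add, norm_smul, Real.norm_of_nonneg (by norm_num : (0 : ℝ) ≤ 1 / 2)] at h3
  linarith

theorem exists_isMaxFace {C : Set X} (hC : Convex ℝ C) (h1 : ∀ y ∈ C, ‖y‖ = 1) :
    ∃ K : Set X, C ⊆ K ∧ IsMaxFace K := by
  obtain ⟨m, hm1, hm2⟩ := zorn_subset_nonempty {K : Set X | Convex ℝ K ∧ ∀ y ∈ K, ‖y‖ = 1}
    (fun c hc hchain hne => by
      refine ⟨⋃₀ c, ⟨?_, ?_⟩, fun s hs => subset_sUnion_of_mem hs⟩
      · exact hchain.directedOn.convex_sUnion fun A hA => (hc hA).1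
      · rintro y ⟨s, hs, hy⟩
        exact (hc hs).2 y hy) C ⟨hC, h1⟩
  exact ⟨m, hm1, hm2.prop.1, hm2.prop.2, fun K' h2 h3 h4 => hm2.le_of_ge ⟨h2, h3⟩ h4⟩

theorem IsMaxFace.isClosed {K : Set X} (hK : IsMaxFace K) : IsClosed K := by
  have h1 : closure K ⊆ K := by
    refine hK.2.2 _ hK.1.closure ?_ subset_closure
    intro y hy
    have h2 : closure K ⊆ {y : X | ‖y‖ = 1} :=
      closure_minimal (fun z hz => hK.2.1 z hz) (isClosed_eq continuous_norm continuous_const)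
    exact h2 hy
  exact isClosed_of_closure_subset h1

theorem IsMaxFace.isCompact [FiniteDimensional ℝ X] {K : Set X} (hK : IsMaxFace K) :
    IsCompact K := by
  refine (isCompact_closedBall (0 : X) 1).of_isClosed_subset hK.isClosed ?_
  intro y hy
  rw [mem_closedBall, dist_zero_right, hK.2.1 y hy]

/-- a relative interior point, in terms of functionals -/
def IsCore (K : Set X) (x : X) : Prop :=
  x ∈ K ∧ ∀ φ : X →L[ℝ] ℝ, (∀ y ∈ K, φ y ≤ 1) → φ x = 1 → ∀ y ∈ K, φ y = 1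

theorem exists_isCore [FiniteDimensional ℝ X] {K : Set X} (hK : Convex ℝ K) (hne : K.Nonempty) :
    ∃ x, IsCore K x := by
  obtain ⟨x, hx⟩ := (intrinsicInterior_nonempty hK).2 hne
  obtain ⟨z, hz, rfl⟩ := mem_intrinsicInterior.1 hx
  have hzK : (z : X) ∈ K := by
    have := interior_subset hz
    exact this
  refine ⟨z, hzK, fun φ h1 h2 y hy => ?_⟩
  by_contra hne
  have hlt : φ y < 1 := lt_of_le_of_ne (h1 y hy) hne
  -- the point `z - ε (y - z)`
  let g : ℝ → affineSpan ℝ K := fun t =>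
    ⟨AffineMap.lineMap (z : X) y t, AffineMap.lineMap_mem t z.2 (subset_affineSpan ℝ K hy)⟩
  have hg : Continuous g := Continuous.subtype_mk AffineMap.lineMap_continuous _
  have hg0 : g 0 = z := Subtype.ext (by simp [g])
  have h3 : g ⁻¹' ((↑) ⁻¹' K : Set (affineSpan ℝ K)) ∈ 𝓝 (0 : ℝ) := by
    apply hg.continuousAt.preimage_mem_nhds
    rw [hg0]
    exact mem_interior_iff_mem_nhds.1 hz
  obtain ⟨ε, hε, hball⟩ := Metric.mem_nhds_iff.1 h3
  have h4 : (-(ε / 2) : ℝ) ∈ ball (0 : ℝ) ε := by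
    rw [mem_ball, dist_zero_right, norm_neg, Real.norm_of_nonneg (by positivity)]
    linarith
  have h5 : ((g (-(ε / 2)) : affineSpan ℝ K) : X) ∈ K := hball h4
  have h6 : ((g (-(ε / 2)) : affineSpan ℝ K) : X) =
      (z : X) + (-(ε / 2)) • (y - z) := by
    simp only [g]
    rw [AffineMap.lineMap_apply]
    simp only [vsub_eq_sub, vadd_eq_add]
    rw [add_comm]
  rw [h6] at h5
  have h7 := h1 _ h5
  rw [_root_.map_add, _root_.map_smul, _root_.map_sub, h2, smul_eq_mul] at h7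
  nlinarith

theorem IsMaxFace.star_subset {K : Set X} (hK : IsMaxFace K) {x : X} (hx : IsCore K x) {y : X}
    (hy : ‖y‖ = 1) (h : ‖x + y‖ = 2) : y ∈ K := by
  obtain ⟨φ, hφ, h1, h2⟩ := aff_support (hK.2.1 x hx.1) hy h
  have h3 : ∀ k ∈ K, φ k = 1 :=
    hx.2 φ (fun k hk => (aff_le hφ k).trans (hK.2.1 k hk).le) h1
  have h4 : convexHull ℝ (insert y K) ⊆ {z | φ z = 1} ∩ closedBall 0 1 := by
    refine convexHull_min ?_ ?_
    · rintro z (rfl | hz)
      · exact ⟨h2, by rw [mem_closedBall, dist_zero_right, hy]⟩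
      · exact ⟨h3 z hz, by rw [mem_closedBall, dist_zero_right, hK.2.1 z hz]⟩
    · refine Convex.inter ?_ (convex_closedBall _ _)
      intro a ha b hb s t _ _ hst
      simp only [mem_ofPred_eq] at ha hb ⊢
      rw [_root_.map_add, _root_.map_smul, _root_.map_smul, ha, hb]
      simpa using hst
  have h5 := hK.2.2 (convexHull ℝ (insert y K)) (convex_convexHull ℝ _) ?_
    ((subset_insert _ _).trans (subset_convexHull ℝ _))
  · exact h5 (subset_convexHull ℝ _ (mem_insert _ _))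
  · intro z hz
    obtain ⟨h6, h7⟩ := h4 hz
    simp only [mem_ofPred_eq] at h6
    rw [mem_closedBall, dist_zero_right] at h7
    have h8 := aff_le hφ z
    rw [h6] at h8
    exact le_antisymm h7 h8

end faces

variable {X Y : Type*} [NormedAddCommGroup X] [NormedSpace ℝ X]
    [NormedAddCommGroup Y] [NormedSpace ℝ Y]

theorem PosMap.N1_u [FiniteDimensional ℝ X] (S : PosMap X Y) {m : X} (hm : ‖m‖ = 1)
    (hd : DifferentiableAt ℝ (fun v : X => ‖v‖) m) : N1 m (S.u m) = 1 := by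
  have h1 : ‖m + S.u m‖ = 2 := by rw [S.norm_add_u, hm]; norm_num
  obtain ⟨φ, hφ, h2, h3⟩ := aff_support hm (by rw [S.norm_u, hm]) h1
  rw [← aff_eq_N1 hd hφ (by rw [h2, hm]), h3]

theorem PosMap.norm_add_two [FiniteDimensional ℝ X] (S : PosMap X Y) {x y : X} (hx : ‖x‖ = 1)
    (hy : ‖y‖ = 1) (h : ‖x + y‖ = 2) : ‖S.F x + S.F y‖ = 2 := by
  -- the statement for interior points of the segment
  have key : ∀ s : ℝ, 0 ≤ s → s < 1 → ‖S.F x + S.F ((1 - s) • x + s • y)‖ = 2 := by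
    intro s hs0 hs1
    set m : X := (1 - s) • x + s • y with hmdef
    have hm : ‖m‖ = 1 := aff_norm_segment hx hy h (by linarith) hs0 (by ring)
    have hlow : 2 ≤ ‖x - S.u (-m)‖ := by
      refine le_of_forall_pos_le_add fun ε hε => ?_
      have h1s : 0 < 1 - s := by linarith
      obtain ⟨δ, hδ, hδ1⟩ : ∃ δ : ℝ, 0 < δ ∧ δ + δ / (1 - s) ≤ ε := by
        refine ⟨ε / (1 + 1 / (1 - s)), by positivity, le_of_eq ?_⟩
        field_simp
      have hnegm : ‖-m‖ = 1 := by rw [norm_neg, hm]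
      obtain ⟨p, hp1, hp2, hp3⟩ := aff_exists_smooth hnegm hδ
      set χ := N1 p with hχ
      have hχ1 : χ (S.u p) = 1 := S.N1_u hp1 hp2
      have hχ2 : χ p = 1 := by rw [hχ, N1_self hp2, hp1]
      have hχn : ‖χ‖ ≤ 1 := norm_N1_le p
      -- χ (-m) ≥ 1 - δ
      have h3 : 1 - δ ≤ χ (-m) := by
        have := aff_le hχn (p - -m)
        rw [_root_.map_sub, hχ2] at this
        linarith
      have h4 : χ (-m) = (1 - s) * χ (-x) + s * χ (-y) := by
        rw [hmdef]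
        simp only [_root_.map_neg, _root_.map_add, _root_.map_smul, smul_eq_mul]
        ring
      have h5 : χ (-y) ≤ 1 := by
        have := aff_le hχn (-y); rwa [norm_neg, hy] at this
      have h6 : 1 - δ / (1 - s) ≤ χ (-x) := by
        rw [h4] at h3
        have h7 : (1 - s) * (1 - δ / (1 - s)) ≤ (1 - s) * χ (-x) := by
          have : (1 - s) * (1 - δ / (1 - s)) = (1 - s) - δ := by field_simp
          rw [this]; nlinarith
        exact le_of_mul_le_mul_left h7 h1s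
      have h8 : 1 - δ ≤ χ (S.u (-m)) := by
        have h9 := aff_le hχn (S.u p - S.u (-m))
        rw [S.norm_u_sub (by rw [hp1, hnegm]), _root_.map_sub, hχ1] at h9
        linarith
      have h10 := aff_le hχn (S.u (-m) - x)
      rw [norm_sub_rev] at h10
      have h11 : χ (S.u (-m) - x) = χ (S.u (-m)) + χ (-x) := by
        rw [_root_.map_sub, _root_.map_neg]; ring
      rw [h11] at h10
      linarith
    have h12 : ‖S.F x - S.F (S.u (-m))‖ = ‖x - S.u (-m)‖ :=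
      S.norm_sub _ _ (by rw [hx, S.norm_u, norm_neg, hm])
    rw [S.F_u, neg_neg, sub_neg_eq_add] at h12
    apply le_antisymm
    · refine (norm_add_le _ _).trans ?_
      rw [S.norm_map, S.norm_map, hx, hm]; norm_num
    · rw [h12]; exact hlow
  -- the limit `s → 1`
  have hcont : Continuous fun s : ℝ => ‖S.F x + S.F ((1 - s) • x + s • y)‖ := by
    have := S.continuous
    fun_prop
  have hlim : Tendsto (fun s : ℝ => ‖S.F x + S.F ((1 - s) • x + s • y)‖) (𝓝[<] 1)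
      (𝓝 ‖S.F x + S.F ((1 - (1 : ℝ)) • x + (1 : ℝ) • y)‖) :=
    (hcont.tendsto 1).mono_left nhdsWithin_le_nhds
  have hconst : Tendsto (fun s : ℝ => ‖S.F x + S.F ((1 - s) • x + s • y)‖) (𝓝[<] 1) (𝓝 2) := by
    refine tendsto_const_nhds.congr' ?_
    have h1 : ∀ᶠ s : ℝ in 𝓝[<] 1, 0 ≤ s := by
      have : ∀ᶠ s : ℝ in 𝓝 1, 0 ≤ s := by
        filter_upwards [lt_mem_nhds (zero_lt_one : (0 : ℝ) < 1)] with s hs using hs.le
      exact this.filter_mono nhdsWithin_le_nhds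
    filter_upwards [h1, self_mem_nhdsWithin] with s hs0 hs1
    exact (key s hs0 hs1).symm
  have := tendsto_nhds_unique hlim hconst
  rwa [sub_self, zero_smul, zero_add, one_smul] at this

theorem PosMap.norm_add_two_symm [FiniteDimensional ℝ Y] (S : PosMap X Y) {x y : Y}
    (hx : ‖x‖ = 1) (hy : ‖y‖ = 1) (h : ‖x + y‖ = 2) : ‖S.G x + S.G y‖ = 2 :=
  S.symm.norm_add_two hx hy h

/-- the image of a maximal face is a maximal face, the star of the image of a core point. -/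
theorem PosMap.isMaxFace_image [FiniteDimensional ℝ X] [FiniteDimensional ℝ Y] (S : PosMap X Y)
    {K : Set X} (hK : IsMaxFace K) {x : X} (hx : IsCore K x) :
    IsMaxFace (S.F '' K) ∧ ∀ w : Y, ‖w‖ = 1 → ‖S.F x + w‖ = 2 → w ∈ S.F '' K := by
  have hxn := hK.2.1 x hx.1
  have hstar : ∀ w : Y, ‖w‖ = 1 → ‖S.F x + w‖ = 2 → w ∈ S.F '' K := by
    intro w hw h
    have h1 := S.norm_add_two_symm (by rw [S.norm_map, hxn]) hw h
    rw [S.left_inv] at h1
    refine ⟨S.G w, hK.star_subset hx ?_ h1, S.right_inv w⟩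
    rw [← S.norm_map, S.right_inv, hw]
  refine ⟨?_, hstar⟩
  obtain ⟨K', hK'1, hK'⟩ := exists_isMaxFace (C := {S.F x}) (convex_singleton _)
    (by rintro y rfl; rw [S.norm_map, hxn])
  have hxK' : S.F x ∈ K' := hK'1 rfl
  have hsub : K' ⊆ S.F '' K := fun w hw =>
    hstar w (hK'.2.1 w hw) (aff_norm_add_of_convex hK'.1 hK'.2.1 hxK' hw)
  obtain ⟨y', hy'⟩ := exists_isCore hK'.1 ⟨_, hxK'⟩
  obtain ⟨y, hy, hyy'⟩ := hsub hy'.1
  have hsub2 : S.F '' K ⊆ K' := by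
    rintro _ ⟨k, hk, rfl⟩
    have h1 := aff_norm_add_of_convex hK.1 hK.2.1 hy hk
    have h2 := S.norm_add_two (hK.2.1 y hy) (hK.2.1 k hk) h1
    rw [hyy'] at h2
    exact hK'.star_subset hy' (by rw [S.norm_map, hK.2.1 k hk]) h2
  rw [Subset.antisymm hsub2 hsub]
  exact hK'

theorem PosMap.affine [FiniteDimensional ℝ X] (S : PosMap X Y) {x y : X} (hx : ‖x‖ = 1)
    (hy : ‖y‖ = 1) (h : ‖x + y‖ = 2) :
    ∀ t ∈ Icc (0 : ℝ) 1, S.F (x + t • (y - x)) = S.F x + t • (S.F y - S.F x) := by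
  have := S.finiteDimensional
  obtain ⟨K, hK1, hK⟩ := exists_isMaxFace (C := segment ℝ x y) (convex_segment x y) (by
    rintro z ⟨a, b, ha, hb, hab, rfl⟩
    exact aff_norm_segment hx hy h ha hb hab)
  have hxK : x ∈ K := hK1 (left_mem_segment ℝ x y)
  have hyK : y ∈ K := hK1 (right_mem_segment ℝ x y)
  obtain ⟨c, hc⟩ := exists_isCore hK.1 ⟨x, hxK⟩
  have hFK := (S.isMaxFace_image hK hc).1
  exact mankiewicz hK.1 hK.isCompact hFK.1 hFK.isCompact S.F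
    (fun a ha b hb => S.norm_sub a b (by rw [hK.2.1 a ha, hK.2.1 b hb])) rfl hxK hyK

theorem aff_isMaxFace_neg {K : Set X} (hK : IsMaxFace K) : IsMaxFace (-K) := by
  refine ⟨hK.1.neg, fun y hy => by rw [← norm_neg]; exact hK.2.1 _ hy, fun K' h1 h2 h3 => ?_⟩
  have h4 := hK.2.2 (-K') h1.neg (fun y hy => by rw [← norm_neg]; exact h2 _ hy) (by
    intro y hy
    rw [Set.mem_neg]
    exact h3 (by rw [Set.mem_neg, neg_neg]; exact hy))
  intro y hy
  rw [Set.mem_neg]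
  exact h4 (by rw [Set.mem_neg, neg_neg]; exact hy)

theorem aff_isCore_neg {K : Set X} {x : X} (hx : IsCore K x) : IsCore (-K) (-x) := by
  refine ⟨by rw [Set.mem_neg, neg_neg]; exact hx.1, fun φ h1 h2 y hy => ?_⟩
  have := hx.2 (-φ) (fun z hz => by
    have := h1 (-z) (by rw [Set.mem_neg, neg_neg]; exact hz)
    rw [_root_.map_neg] at this
    simpa using this) (by simpa using h2) (-y) hy
  simpa using this

theorem PosMap.exists_invariant_face [FiniteDimensional ℝ X] (S : PosMap X Y) {x : X}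
    (hx : ‖x‖ = 1) :
    ∃ K : Set X, Convex ℝ K ∧ IsCompact K ∧ x ∈ K ∧ (∀ y ∈ K, ‖y‖ = 1) ∧ (∀ y ∈ K, S.u y ∈ K) ∧
      (∃ ψ : X →L[ℝ] ℝ, ‖ψ‖ ≤ 1 ∧ ∀ y ∈ K, ψ y = 1) ∧
      ∀ y ∈ K, ∀ z ∈ K, ∀ t ∈ Icc (0 : ℝ) 1, S.u (y + t • (z - y)) = S.u y + t • (S.u z - S.u y) := by
  have := S.finiteDimensional
  obtain ⟨K, hK1, hK⟩ := exists_isMaxFace (C := {x}) (convex_singleton _)
    (by rintro y rfl; exact hx)
  have hxK : x ∈ K := hK1 rfl
  obtain ⟨c, hc⟩ := exists_isCore hK.1 ⟨x, hxK⟩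
  have hcn := hK.2.1 c hc.1
  -- `-K`, `F(-K)`, `-F(-K)`
  have hK2 := aff_isMaxFace_neg hK
  have hc2 := aff_isCore_neg hc
  obtain ⟨hK3, hc3⟩ := S.isMaxFace_image hK2 hc2
  have hK4 := aff_isMaxFace_neg hK3
  -- `u K`
  have huK : S.u '' K = S.G '' (-(S.F '' (-K))) := by
    ext z
    constructor
    · rintro ⟨k, hk, rfl⟩
      refine ⟨-S.F (-k), ?_, rfl⟩
      rw [Set.mem_neg, neg_neg]
      exact ⟨-k, by rw [Set.mem_neg, neg_neg]; exact hk, rfl⟩
    · rintro ⟨w, hw, rfl⟩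
      rw [Set.mem_neg] at hw
      obtain ⟨k, hk, hkw⟩ := hw
      refine ⟨-k, hk, ?_⟩
      unfold PosMap.u
      rw [neg_neg, hkw, neg_neg]
  have huM : IsMaxFace (S.u '' K) := by
    obtain ⟨d, hd⟩ := exists_isCore hK4.1 ⟨-S.F (-x), by
      rw [Set.mem_neg, neg_neg]; exact ⟨-x, by rw [Set.mem_neg, neg_neg]; exact hxK, rfl⟩⟩
    rw [huK]
    exact (S.symm.isMaxFace_image hK4 hd).1
  -- `star (u c) ⊆ u K`
  have hstar : ∀ w : X, ‖w‖ = 1 → ‖S.u c + w‖ = 2 → w ∈ S.u '' K := by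
    intro w hw h
    have h1 := S.norm_add_two (by rw [S.norm_u, hcn]) hw h
    rw [S.F_u] at h1
    have h2 : ‖S.F (-c) + -S.F w‖ = 2 := by
      rw [← norm_neg, neg_add, neg_neg]; exact h1
    obtain ⟨k, hk, hkw⟩ := hc3 (-S.F w) (by rw [norm_neg, S.norm_map, hw]) h2
    refine ⟨-k, hk, ?_⟩
    unfold PosMap.u
    rw [neg_neg, hkw, neg_neg, S.left_inv]
  have hucK : S.u c ∈ K :=
    hK.star_subset hc (by rw [S.norm_u, hcn]) (by rw [S.norm_add_u, hcn]; norm_num)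
  have hsub : K ⊆ S.u '' K := fun k hk =>
    hstar k (hK.2.1 k hk) (aff_norm_add_of_convex hK.1 hK.2.1 hucK hk)
  have hsub2 : S.u '' K ⊆ K := hK.2.2 _ huM.1 huM.2.1 hsub
  refine ⟨K, hK.1, hK.isCompact, hxK, hK.2.1, fun y hy => hsub2 ⟨y, hy, rfl⟩, ?_, ?_⟩
  · obtain ⟨ψ, h1, h2⟩ := exists_dual_vector'' ℝ c
    refine ⟨ψ, h1, hc.2 ψ (fun y hy => (aff_le h1 y).trans (hK.2.1 y hy).le) ?_⟩
    rw [h2, hcn]; norm_num
  · intro y hy z hz t ht
    have h1 : ‖y + z‖ = 2 := aff_norm_add_of_convex hK.1 hK.2.1 hy hz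
    have h2 : ‖-y + -z‖ = 2 := by rw [← neg_add, norm_neg, h1]
    have hyn : ‖-y‖ = 1 := by rw [norm_neg]; exact hK.2.1 y hy
    have hzn : ‖-z‖ = 1 := by rw [norm_neg]; exact hK.2.1 z hz
    have h3 := S.affine hyn hzn h2 t ht
    have h4 := S.norm_add_two hyn hzn h2
    have h5 : ‖-S.F (-y) + -S.F (-z)‖ = 2 := by rw [← neg_add, norm_neg, h4]
    have h6 := S.symm.affine (x := -S.F (-y)) (y := -S.F (-z))
      (by rw [norm_neg, S.norm_map, hyn]) (by rw [norm_neg, S.norm_map, hzn]) h5 t ht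
    have h7 : -(y + t • (z - y)) = -y + t • (-z - -y) := by module
    have h8 : -(S.F (-y) + t • (S.F (-z) - S.F (-y))) =
        -S.F (-y) + t • (-S.F (-z) - -S.F (-y)) := by module
    unfold PosMap.u
    rw [h7, h3, h8]
    exact h6

end Vale.Agent.P084
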