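import Vale.Agent.P084.Alexandrov

/-! P084 piece (E) (helper15): Alexandrov's theorem on the open set where the norm is
differentiable. -/

open Metric Set Filter Topology MeasureTheory Module
open scoped NNReal ENNReal RealInnerProductSpace

namespace Vale.Agent.P084

namespace AlexLocal

variable {E : Type*} [NormedAddCommGroup E] [InnerProductSpace ℝ E]

/-- `g` is a subgradient of `u` at `p`. -/
def Sub (u : E → ℝ) (p g : E) : Prop := ∀ q, ⟪g, q - p⟫ ≤ u q - u p

theorem Sub.mono {u : E → ℝ} {p p' z w : E} (h : Sub u p (z - p)) (h' : Sub u p' (w - p')) :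
    ‖p - p'‖ ^ 2 ≤ ⟪z - w, p - p'⟫ := by
  have h1 := h p'
  have h2 := h' p
  have h3 : ⟪z - p, p' - p⟫ = - ⟪z - p, p - p'⟫ := by rw [← inner_neg_right, neg_sub]
  have h4 : ⟪z - w, p - p'⟫ = ⟪z - p, p - p'⟫ - ⟪w - p', p - p'⟫ + ‖p - p'‖ ^ 2 := by
    rw [← inner_sub_left, ← real_inner_self_eq_norm_sq, ← inner_add_left]
    congr 1
    abel
  rw [h4]
  linarith

theorem exists_sub [FiniteDimensional ℝ E] {u : E → ℝ} (hc : ConvexOn ℝ univ u)
    (hu0 : ∀ p, 0 ≤ u p) (hucont : Continuous u) (z : E) : ∃ p, Sub u p (z - p) := by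
  set F : E → ℝ := fun p => ‖p - z‖ ^ 2 / 2 + u p with hF
  have hFc : Continuous F := by fun_prop
  have hFlim : Tendsto F (cocompact E) atTop := by
    have h1 : Tendsto (fun p : E => ‖p - z‖) (cocompact E) atTop := by
      have := tendsto_norm_cocompact_atTop (E := E)
      exact this.comp (Homeomorph.subRight z).isClosedEmbedding.tendsto_cocompact
    have h2 : Tendsto (fun p : E => ‖p - z‖ ^ 2 / 2) (cocompact E) atTop :=
      ((tendsto_pow_atTop two_ne_zero).comp h1).atTop_div_const two_pos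
    exact tendsto_atTop_mono (fun p => le_add_of_nonneg_right (hu0 p)) h2
  obtain ⟨p, hp⟩ := hFc.exists_forall_le hFlim
  refine ⟨p, fun q => ?_⟩
  -- divide by `t` and let `t → 0`
  have hkey : ∀ t : ℝ, 0 < t → t < 1 →
      ⟪z - p, q - p⟫ ≤ u q - u p + t * (‖q - p‖ ^ 2 / 2) := by
    intro t ht0 ht1
    have h1 := hp (p + t • (q - p))
    have h3 := hc.2 (mem_univ p) (mem_univ q) (sub_nonneg.2 ht1.le) ht0.le (by ring)
    have h4 : (1 - t) • p + t • q = p + t • (q - p) := by
      rw [smul_sub, sub_smul, one_smul]; abel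
    rw [h4] at h3
    simp only [smul_eq_mul] at h3
    have h5 : ‖p + t • (q - p) - z‖ ^ 2 =
        ‖p - z‖ ^ 2 - 2 * t * ⟪z - p, q - p⟫ + t ^ 2 * ‖q - p‖ ^ 2 := by
      have e : p + t • (q - p) - z = (p - z) + t • (q - p) := by abel
      rw [e, norm_add_sq_real, inner_smul_right, norm_smul, mul_pow, Real.norm_eq_abs, sq_abs]
      have e2 : ⟪p - z, q - p⟫ = - ⟪z - p, q - p⟫ := by rw [← inner_neg_left, neg_sub]
      rw [e2]
      ring
    simp only [hF] at h1
    rw [h5] at h1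
    have h6 : t * ⟪z - p, q - p⟫ ≤ t * (u q - u p + t * (‖q - p‖ ^ 2 / 2)) := by nlinarith
    exact le_of_mul_le_mul_left h6 ht0
  have hlim : Tendsto (fun t : ℝ => u q - u p + t * (‖q - p‖ ^ 2 / 2)) (𝓝[>] 0)
      (𝓝 (u q - u p)) := by
    have : Continuous fun t : ℝ => u q - u p + t * (‖q - p‖ ^ 2 / 2) := by fun_prop
    have h1 := (this.tendsto 0).mono_left (nhdsWithin_le_nhds (s := Ioi (0 : ℝ)))
    simpa using h1
  refine ge_of_tendsto hlim ?_
  filter_upwards [Ioo_mem_nhdsGT (one_pos : (0 : ℝ) < 1)] with t ht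
  exact hkey t ht.1 ht.2

theorem Sub.eq_grad [CompleteSpace E] {u : E → ℝ} {p g : E} (h : Sub u p g)
    (hd : DifferentiableAt ℝ u p) : g = (InnerProductSpace.toDual ℝ E).symm (fderiv ℝ u p) := by
  have hFd : HasFDerivAt (fun q : E => u q - ⟪g, q - p⟫) (fderiv ℝ u p - innerSL ℝ g) p := by
    have h1 : HasFDerivAt (fun q : E => ⟪g, q - p⟫) (innerSL ℝ g) p := by
      have h2 : HasFDerivAt (fun q : E => innerSL ℝ g q - innerSL ℝ g p) (innerSL ℝ g) p :=
        (innerSL ℝ g).hasFDerivAt.sub_const _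
      refine h2.congr_of_eventuallyEq (Filter.Eventually.of_forall fun q => ?_)
      simp only [innerSL_apply_apply, inner_sub_right]
    exact hd.hasFDerivAt.sub h1
  have h0 : fderiv ℝ u p - innerSL ℝ g = 0 := by
    refine IsLocalMin.hasFDerivAt_eq_zero (Filter.Eventually.of_forall fun q => ?_) hFd
    have := h q
    simp only [sub_self, inner_zero_right, sub_zero]
    linarith
  have h1 : fderiv ℝ u p = InnerProductSpace.toDual ℝ E g := by
    rw [sub_eq_zero] at h0
    rw [h0]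
    rfl
  rw [h1, LinearIsometryEquiv.symm_apply_apply]

theorem aux [FiniteDimensional ℝ E] [MeasurableSpace E] [BorelSpace E] (ν : Measure E)
    [ν.IsAddHaarMeasure] {u : E → ℝ} (hc : ConvexOn ℝ univ u) (hu0 : ∀ p, 0 ≤ u p)
    (hucont : Continuous u) {O : Set E} (hO : IsOpen O)
    (hd : ∀ p ∈ O, DifferentiableAt ℝ u p) :
    ∀ᵐ p ∂ν, p ∈ O → DifferentiableAt ℝ (fderiv ℝ u) p := by
  set G : E → E := fun p => (InnerProductSpace.toDual ℝ E).symm (fderiv ℝ u p) with hG
  have hGi : ∀ p v, ⟪G p, v⟫ = fderiv ℝ u p v := fun p v => by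
    simp only [hG]; exact InnerProductSpace.toDual_symm_apply
  have hfo : ∀ p ∈ O, Sub u p (G p) := fun p hp q => by
    rw [hGi]; exact first_order hc (hd p hp).hasFDerivAt q
  set Ψ : E → E := fun p => p + G p with hΨ
  have hsurj : ∀ z, ∃ p, Sub u p (z - p) := exists_sub hc hu0 hucont
  choose J hJ using hsurj
  have hΨsub : ∀ p ∈ O, Sub u p (Ψ p - p) := by
    intro p hp
    have : Ψ p - p = G p := by simp only [hΨ]; abel
    rw [this]
    exact hfo p hp
  have hJΨ : ∀ p ∈ O, J (Ψ p) = p := by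
    intro p hp
    have := (hJ (Ψ p)).mono (hΨsub p hp)
    rw [sub_self, inner_zero_left] at this
    have h2 : ‖J (Ψ p) - p‖ = 0 := by nlinarith [norm_nonneg (J (Ψ p) - p)]
    exact sub_eq_zero.1 (norm_eq_zero.1 h2)
  have huniq : ∀ z, J z ∈ O → z = Ψ (J z) := by
    intro z hz
    have h1 := (hJ z).eq_grad (hd _ hz)
    have h2 : z - J z = G (J z) := h1
    simp only [hΨ]
    rw [← h2]
    abel
  have hJlip : LipschitzWith 1 J := by
    refine LipschitzWith.of_dist_le_mul fun z w => ?_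
    rw [dist_eq_norm, dist_eq_norm, NNReal.coe_one, one_mul]
    have h1 := (hJ z).mono (hJ w)
    have h2 := h1.trans (real_inner_le_norm _ _)
    by_contra hlt
    push Not at hlt
    nlinarith [norm_nonneg (z - w), norm_nonneg (J z - J w)]
  -- local boundedness of the gradient
  have hGb : ∀ R : ℝ, ∃ M, ∀ p ∈ O, ‖p‖ ≤ R → ‖Ψ p‖ ≤ M := by
    intro R
    obtain ⟨M, hM⟩ := (isCompact_closedBall (0 : E) (R + 1)).bddAbove_image hucont.continuousOn
    refine ⟨R + max M 0, fun p hpO hp => ?_⟩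
    have h1 : ‖G p‖ ≤ max M 0 := by
      rcases eq_or_ne (G p) 0 with h0 | h0
      · rw [h0, norm_zero]; exact le_max_right _ _
      · have hn : 0 < ‖G p‖ := norm_pos_iff.2 h0
        have h2 := hfo p hpO (p + (‖G p‖)⁻¹ • G p)
        rw [add_sub_cancel_left, inner_smul_right, real_inner_self_eq_norm_sq] at h2
        have h3 : (‖G p‖)⁻¹ * ‖G p‖ ^ 2 = ‖G p‖ := by field_simp
        rw [h3] at h2
        have h4 : u (p + (‖G p‖)⁻¹ • G p) ≤ M := by
          refine hM ⟨_, ?_, rfl⟩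
          rw [mem_closedBall_zero_iff]
          refine (norm_add_le _ _).trans (add_le_add hp ?_)
          rw [norm_smul, norm_inv, norm_norm, inv_mul_cancel₀ hn.ne']
        exact le_trans (by linarith [hu0 p]) (le_max_left _ _)
    exact (norm_add_le _ _).trans (add_le_add hp h1)
  -- continuity of `Ψ`
  have hΨc : ∀ p ∈ O, ContinuousAt Ψ p := by
    intro p₀ hp₀
    obtain ⟨M, hM⟩ := hGb (‖p₀‖ + 1)
    refine (isCompact_closedBall (0 : E) M).tendsto_nhds_of_unique_mapClusterPt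
      (f := Ψ) (l := 𝓝 p₀) ?_ ?_
    · filter_upwards [ball_mem_nhds p₀ one_pos, hO.mem_nhds hp₀] with p hp hpO
      have : ‖p‖ ≤ ‖p₀‖ + 1 := by
        have h1 : ‖p - p₀‖ < 1 := by simpa [dist_eq_norm] using hp
        calc ‖p‖ = ‖p₀ + (p - p₀)‖ := by congr 1; abel
          _ ≤ ‖p₀‖ + ‖p - p₀‖ := norm_add_le _ _
          _ ≤ _ := by linarith
      simpa using hM p hpO this
    · intro z _ hz
      have h1 : MapClusterPt (J z) (𝓝 p₀) (J ∘ Ψ) :=
        hz.continuousAt_comp hJlip.continuous.continuousAt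
      have h2 : Tendsto (J ∘ Ψ) (𝓝 p₀) (𝓝 p₀) := by
        refine tendsto_id.congr' ?_
        filter_upwards [hO.mem_nhds hp₀] with p hp
        exact (hJΨ p hp).symm
      have h3 : J z = p₀ := by
        have hc : ClusterPt (J z) (𝓝 p₀) := ClusterPt.mono h1 h2
        exact eq_of_nhds_neBot (by rwa [ClusterPt] at hc)
      have h4 := huniq z (by rw [h3]; exact hp₀)
      rw [h3] at h4
      exact h4
  -- the bad set
  set N : Set E := {z | ¬ DifferentiableAt ℝ J z}
  set S : Set E := {z | DifferentiableAt ℝ J z ∧ (fderiv ℝ J z).det = 0}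
  have hN : ν (J '' N) = 0 := by
    refine lip_image_null ν hJlip ?_
    have := hJlip.ae_differentiableAt (μ := ν)
    exact this
  have hS : ν (J '' S) = 0 :=
    addHaar_image_eq_zero_of_det_fderivWithin_eq_zero ν
      (f' := fun z => fderiv ℝ J z)
      (fun z hz => hz.1.hasFDerivAt.hasFDerivWithinAt) (fun z hz => hz.2)
  have hgood : ∀ p ∈ O, p ∉ J '' N → p ∉ J '' S → DifferentiableAt ℝ (fderiv ℝ u) p := by
    intro p hpO h1 h2
    have hJd : DifferentiableAt ℝ J (Ψ p) := by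
      by_contra h
      exact h1 ⟨Ψ p, h, hJΨ p hpO⟩
    have hdet : (fderiv ℝ J (Ψ p)).det ≠ 0 := by
      intro h
      exact h2 ⟨Ψ p, ⟨hJd, h⟩, hJΨ p hpO⟩
    set e : E ≃L[ℝ] E := (fderiv ℝ J (Ψ p)).toContinuousLinearEquivOfDetNeZero hdet
    have he : HasFDerivAt J (e : E →L[ℝ] E) (Ψ p) := by
      rw [ContinuousLinearMap.coe_toContinuousLinearEquivOfDetNeZero]
      exact hJd.hasFDerivAt
    have hev : ∀ᶠ y in 𝓝 p, J (Ψ y) = y := by
      filter_upwards [hO.mem_nhds hpO] with y hy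
      exact hJΨ y hy
    have hΨd : HasFDerivAt Ψ (e.symm : E →L[ℝ] E) p :=
      HasFDerivAt.of_local_left_inverse (hΨc p hpO) he hev
    have hGd : DifferentiableAt ℝ G p := by
      have : G = fun p => Ψ p - p := by ext p; simp [hΨ]
      rw [this]
      exact hΨd.differentiableAt.sub differentiableAt_id
    have : fderiv ℝ u = fun p => InnerProductSpace.toDual ℝ E (G p) := by
      ext1 p; simp [hG]
    rw [this]
    exact ((InnerProductSpace.toDual ℝ E).toContinuousLinearEquiv.toContinuousLinearMap.differentiableAt).comp p hGd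
  rw [ae_iff]
  refine measure_mono_null (t := J '' N ∪ J '' S) ?_ (measure_union_null hN hS)
  intro p hp
  by_contra h
  rw [mem_union, not_or] at h
  exact hp fun hpO => hgood p hpO h.1 h.2

end AlexLocal

/-- (E) local Alexandrov -/
theorem alexandrov_local {X : Type*} [NormedAddCommGroup X] [NormedSpace ℝ X]
    [FiniteDimensional ℝ X] [MeasurableSpace X] [BorelSpace X]
    (O : Set X) (hO : IsOpen O) (hd : ∀ z ∈ O, DifferentiableAt ℝ (fun v : X => ‖v‖) z)
    (μ : Measure X) [μ.IsAddHaarMeasure] :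
    ∀ᵐ z ∂μ, z ∈ O → DifferentiableAt ℝ (fderiv ℝ (fun v : X => ‖v‖)) z := by
  rcases subsingleton_or_nontrivial X with hX | hX
  · refine Filter.Eventually.of_forall fun z _ => ?_
    exact (hasFDerivAt_of_subsingleton _ z).differentiableAt
  set A : EuclideanSpace ℝ (Fin (finrank ℝ X)) ≃L[ℝ] X :=
    ContinuousLinearEquiv.ofFinrankEq (by simp) with hA
  set u : EuclideanSpace ℝ (Fin (finrank ℝ X)) → ℝ := fun p => ‖A p‖ ^ 2 with hu
  have hc : ConvexOn ℝ univ u := by
    have h1 : ConvexOn ℝ univ (fun v : X => ‖v‖ ^ 2) :=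
      convexOn_univ_norm.pow (fun _ _ => norm_nonneg _) 2
    exact h1.comp_linearMap (A.toLinearEquiv : EuclideanSpace ℝ (Fin (finrank ℝ X)) →ₗ[ℝ] X)
  have hucont : Continuous u := by
    have := A.continuous
    fun_prop
  have hud : ∀ p ∈ A ⁻¹' O, DifferentiableAt ℝ u p := by
    intro p hp
    have h1 : DifferentiableAt ℝ (fun p => ‖A p‖) p :=
      (hd (A p) hp).comp p A.differentiableAt
    exact h1.pow 2
  have : (Measure.map A.symm μ).IsAddHaarMeasure :=
    ContinuousLinearEquiv.isAddHaarMeasure_map A.symm μ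
  have h := AlexLocal.aux (Measure.map A.symm μ) hc (fun p => by positivity) hucont
    (hO.preimage A.continuous) hud
  have h2 : ∀ᵐ z ∂μ, A.symm z ∈ A ⁻¹' O → DifferentiableAt ℝ (fderiv ℝ u) (A.symm z) :=
    ae_of_ae_map A.symm.continuous.aemeasurable h
  have : (𝓝[≠] (0 : X)).NeBot := Module.punctured_nhds_neBot ℝ X 0
  have h3 : ∀ᵐ z ∂μ, z ≠ 0 := by
    rw [ae_iff]
    simp
  filter_upwards [h2, h3] with z hz' hz0 hzO
  have hz : DifferentiableAt ℝ (fderiv ℝ u) (A.symm z) := hz' (by simpa using hzO)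
  have hev : fderiv ℝ (fun v : X => ‖v‖) =ᶠ[𝓝 z] fun w => (2 * ‖w‖)⁻¹ •
      ((fderiv ℝ u (A.symm w)).comp (A.symm : X →L[ℝ] EuclideanSpace ℝ (Fin (finrank ℝ X)))) := by
    filter_upwards [isOpen_ne.mem_nhds hz0, hO.mem_nhds hzO] with w hw hwO
    have hwd := hd w hwO
    have e1 : HasFDerivAt (fun v : X => ‖v‖ ^ 2) ((2 * ‖w‖) • fderiv ℝ (fun v : X => ‖v‖) w) w := by
      have := hwd.hasFDerivAt.pow 2
      simpa using this
    have e2 : HasFDerivAt (fun v : X => ‖v‖ ^ 2) ((fderiv ℝ u (A.symm w)).comp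
        (A.symm : X →L[ℝ] EuclideanSpace ℝ (Fin (finrank ℝ X)))) w := by
      have h4 := ((hud (A.symm w) (by simpa using hwO)).hasFDerivAt).comp w A.symm.hasFDerivAt
      refine h4.congr_of_eventuallyEq (Filter.Eventually.of_forall fun v => ?_)
      simp [hu]
    rw [← e1.unique e2, smul_smul, inv_mul_cancel₀ (by positivity), one_smul]
  refine DifferentiableAt.congr_of_eventuallyEq ?_ hev
  have h5 : DifferentiableAt ℝ (fun w : X => (2 * ‖w‖)⁻¹) z := by
    refine DifferentiableAt.inv ((hd z hzO).const_mul 2) (by positivity)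
  have h6 : DifferentiableAt ℝ (fun w : X => (fderiv ℝ u (A.symm w)).comp
      (A.symm : X →L[ℝ] EuclideanSpace ℝ (Fin (finrank ℝ X)))) z := by
    have h7 : DifferentiableAt ℝ (fun w : X => fderiv ℝ u (A.symm w)) z :=
      hz.comp z A.symm.differentiableAt
    exact h7.clm_comp (differentiableAt_const _)
  exact h5.smul h6

end Vale.Agent.P084
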