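import Mathlib

open Metric Set Filter Topology MeasureTheory Module
open scoped NNReal ENNReal RealInnerProductSpace

namespace Vale.Agent.P084

/-- Lipschitz images of null sets are null (same dimension). -/
theorem lip_image_null {E : Type*} [NormedAddCommGroup E] [NormedSpace ℝ E]
    [FiniteDimensional ℝ E] [MeasurableSpace E] [BorelSpace E] (ν : Measure E)
    [ν.IsAddHaarMeasure] {J : E → E} {K : ℝ≥0} (hJ : LipschitzWith K J) {s : Set E}
    (hs : ν s = 0) : ν (J '' s) = 0 := by
  have h1 : (μH[(finrank ℝ E : ℝ)] : Measure E) s = 0 :=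
    Measure.absolutelyContinuous_isAddHaarMeasure (μH[(finrank ℝ E : ℝ)] : Measure E) ν hs
  have h2 : (μH[(finrank ℝ E : ℝ)] : Measure E) (J '' s) = 0 := by
    have := hJ.hausdorffMeasure_image_le (d := (finrank ℝ E : ℝ)) (by positivity) s
    rw [h1, mul_zero] at this
    exact le_antisymm this zero_le
  exact Measure.absolutelyContinuous_isAddHaarMeasure ν (μH[(finrank ℝ E : ℝ)] : Measure E) h2

theorem first_order {E : Type*} [NormedAddCommGroup E] [NormedSpace ℝ E] {u : E → ℝ}
    (hc : ConvexOn ℝ univ u) {p : E} {u' : E →L[ℝ] ℝ} (h : HasFDerivAt u u' p) (q : E) :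
    u' (q - p) ≤ u q - u p := by
  have hg : HasDerivAt (fun t : ℝ => u (p + t • (q - p))) (u' (q - p)) 0 := by
    have h1 : HasDerivAt (fun t : ℝ => p + t • (q - p)) (q - p) 0 := by
      simpa using ((hasDerivAt_id (0 : ℝ)).smul_const (q - p)).const_add p
    have h2 : HasFDerivAt u u' (p + (0 : ℝ) • (q - p)) := by simpa using h
    exact h2.comp_hasDerivAt 0 h1
  have h2 := hg.tendsto_slope_zero_right
  refine le_of_tendsto h2 ?_
  have : Ioo (0:ℝ) 1 ∈ 𝓝[>] (0:ℝ) := Ioo_mem_nhdsGT one_pos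
  filter_upwards [this] with t ht
  have h3 := hc.2 (mem_univ p) (mem_univ q) (sub_nonneg.2 ht.2.le) ht.1.le (by ring)
  have h4 : (1 - t) • p + t • q = p + t • (q - p) := by
    rw [smul_sub, sub_smul, one_smul]; abel
  rw [h4] at h3
  simp only [smul_eq_mul] at h3
  rw [smul_eq_mul, zero_add, zero_smul, add_zero, inv_mul_le_iff₀ ht.1]
  nlinarith

theorem alex_aux {E : Type*} [NormedAddCommGroup E] [InnerProductSpace ℝ E]
    [FiniteDimensional ℝ E] [MeasurableSpace E] [BorelSpace E] (ν : Measure E)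
    [ν.IsAddHaarMeasure] {u : E → ℝ} (hc : ConvexOn ℝ univ u) (hu0 : ∀ p, 0 ≤ u p)
    (hd : Differentiable ℝ u) : ∀ᵐ p ∂ν, DifferentiableAt ℝ (fderiv ℝ u) p := by
  have hucont : Continuous u := hd.continuous
  set G : E → E := fun p => (InnerProductSpace.toDual ℝ E).symm (fderiv ℝ u p) with hG
  have hGi : ∀ p v, ⟪G p, v⟫ = fderiv ℝ u p v := fun p v => by
    simp only [hG]; exact InnerProductSpace.toDual_symm_apply
  have hfo : ∀ p q, ⟪G p, q - p⟫ ≤ u q - u p := fun p q => by
    rw [hGi]; exact first_order hc (hd p).hasFDerivAt q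
  set Ψ : E → E := fun p => p + G p with hΨ
  have hmono : ∀ p q, ‖p - q‖ ^ 2 ≤ ⟪Ψ p - Ψ q, p - q⟫ := by
    intro p q
    have h1 := hfo p q
    have h2 := hfo q p
    have h3 : ⟪Ψ p - Ψ q, p - q⟫ = ‖p - q‖ ^ 2 + ⟪G p - G q, p - q⟫ := by
      simp only [hΨ]
      rw [show p + G p - (q + G q) = (p - q) + (G p - G q) by abel, inner_add_left,
        real_inner_self_eq_norm_sq]
    have h4 : ⟪G p, q - p⟫ = - ⟪G p, p - q⟫ := by rw [← inner_neg_right, neg_sub]
    rw [h3, inner_sub_left]
    linarith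
  -- surjectivity
  have hsurj : ∀ z, ∃ p, Ψ p = z := by
    intro z
    set F : E → ℝ := fun p => ‖p - z‖ ^ 2 / 2 + u p with hF
    have hFc : Continuous F := by fun_prop
    have hFlim : Tendsto F (cocompact E) atTop := by
      have h1 : Tendsto (fun p : E => ‖p - z‖) (cocompact E) atTop := by
        have := tendsto_norm_cocompact_atTop (E := E)
        exact this.comp (Homeomorph.subRight z).isClosedEmbedding.tendsto_cocompact
      have h2 : Tendsto (fun p : E => ‖p - z‖ ^ 2 / 2) (cocompact E) atTop :=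
        ((tendsto_pow_atTop two_ne_zero).comp h1).atTop_div_const two_pos
      exact tendsto_atTop_mono (fun p => le_add_of_nonneg_right (hu0 p)) h2
    obtain ⟨p, hp⟩ := hFc.exists_forall_le hFlim
    refine ⟨p, ?_⟩
    have hFd : HasFDerivAt F (innerSL ℝ (p - z) + fderiv ℝ u p) p := by
      have h1 : HasFDerivAt (fun p : E => ‖p - z‖ ^ 2) (2 • (innerSL ℝ (p - z)).comp
          (ContinuousLinearMap.id ℝ E)) p :=
        HasFDerivAt.norm_sq ((hasFDerivAt_id p).sub_const z)
      have h2 : HasFDerivAt F ((1/2 : ℝ) • (2 • (innerSL ℝ (p - z)).comp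
          (ContinuousLinearMap.id ℝ E)) + fderiv ℝ u p) p := by
        refine ((h1.const_mul (1/2 : ℝ)).add (hd p).hasFDerivAt).congr_of_eventuallyEq
          (Filter.Eventually.of_forall fun q => ?_)
        simp only [hF, Pi.add_apply]; ring
      have h3 : (1/2 : ℝ) • (2 • (innerSL ℝ (p - z)).comp (ContinuousLinearMap.id ℝ E))
          = innerSL ℝ (p - z) := by
        ext v; simp
      rwa [h3] at h2
    have h0 : innerSL ℝ (p - z) + fderiv ℝ u p = 0 :=
      IsLocalMin.hasFDerivAt_eq_zero (Filter.Eventually.of_forall fun q => hp q) hFd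
    have h3 : ∀ v, ⟪Ψ p - z, v⟫ = 0 := by
      intro v
      have := congrArg (fun L : E →L[ℝ] ℝ => L v) h0
      simp only [add_apply, innerSL_apply_apply, zero_apply] at this
      rw [show Ψ p - z = (p - z) + G p by simp only [hΨ]; abel, inner_add_left, hGi]
      exact this
    exact sub_eq_zero.1 (inner_self_eq_zero.1 (h3 _))
  choose J hJ using hsurj
  have hinj : ∀ p q, Ψ p = Ψ q → p = q := by
    intro p q h
    have := hmono p q
    rw [h, sub_self, inner_zero_left] at this
    have h2 : ‖p - q‖ = 0 := by nlinarith [norm_nonneg (p - q)]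
    exact sub_eq_zero.1 (norm_eq_zero.1 h2)
  have hJΨ : ∀ p, J (Ψ p) = p := fun p => hinj _ _ (hJ _)
  have hJlip : LipschitzWith 1 J := by
    refine LipschitzWith.of_dist_le_mul fun z w => ?_
    rw [dist_eq_norm, dist_eq_norm, NNReal.coe_one, one_mul]
    have h1 := hmono (J z) (J w)
    rw [hJ, hJ] at h1
    have h2 := h1.trans (real_inner_le_norm _ _)
    by_contra hlt
    push Not at hlt
    nlinarith [norm_nonneg (z - w), norm_nonneg (J z - J w)]
  -- local boundedness of the gradient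
  have hGb : ∀ R : ℝ, ∃ M, ∀ p, ‖p‖ ≤ R → ‖Ψ p‖ ≤ M := by
    intro R
    obtain ⟨M, hM⟩ := (isCompact_closedBall (0 : E) (R + 1)).bddAbove_image hucont.continuousOn
    refine ⟨R + max M 0, fun p hp => ?_⟩
    have h1 : ‖G p‖ ≤ max M 0 := by
      rcases eq_or_ne (G p) 0 with h0 | h0
      · rw [h0, norm_zero]; exact le_max_right _ _
      · have hn : 0 < ‖G p‖ := norm_pos_iff.2 h0
        have h2 := hfo p (p + (‖G p‖)⁻¹ • G p)
        rw [add_sub_cancel_left, inner_smul_right, real_inner_self_eq_norm_sq] at h2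
        have h3 : (‖G p‖)⁻¹ * ‖G p‖ ^ 2 = ‖G p‖ := by field_simp
        rw [h3] at h2
        have h4 : u (p + (‖G p‖)⁻¹ • G p) ≤ M := by
          refine hM ⟨_, ?_, rfl⟩
          rw [mem_closedBall_zero_iff]
          refine (norm_add_le _ _).trans (add_le_add hp ?_)
          rw [norm_smul, norm_inv, norm_norm, inv_mul_cancel₀ hn.ne']
        exact le_trans (by linarith [hu0 p]) (le_max_left _ _)
    exact (norm_add_le _ _).trans (add_le_add hp h1)
  -- continuity of `Ψ`
  have hΨc : Continuous Ψ := by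
    rw [continuous_iff_continuousAt]
    intro p₀
    obtain ⟨M, hM⟩ := hGb (‖p₀‖ + 1)
    set B : Set E := closedBall (0 : E) M
    have hBc : CompactSpace B := isCompact_iff_compactSpace.1 (isCompact_closedBall _ _)
    have hemb : IsClosedEmbedding (fun z : B => J z) := by
      refine Continuous.isClosedEmbedding (hJlip.continuous.comp continuous_subtype_val) ?_
      intro z w h
      have : Ψ (J z) = Ψ (J w) := by simpa using congrArg Ψ h
      rw [hJ, hJ] at this
      exact Subtype.ext this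
    have hmemB : ∀ p ∈ ball p₀ 1, Ψ p ∈ B := by
      intro p hp
      have : ‖p‖ ≤ ‖p₀‖ + 1 := by
        have h1 : ‖p - p₀‖ < 1 := by simpa [dist_eq_norm] using hp
        calc ‖p‖ = ‖p₀ + (p - p₀)‖ := by congr 1; abel
          _ ≤ ‖p₀‖ + ‖p - p₀‖ := norm_add_le _ _
          _ ≤ _ := by linarith
      simpa [B] using hM p this
    have hp₀ : Ψ p₀ ∈ B := hmemB p₀ (mem_ball_self one_pos)
    have hrest : Tendsto (fun p : ball p₀ 1 => (⟨Ψ p, hmemB p p.2⟩ : B))
        (𝓝 ⟨p₀, mem_ball_self one_pos⟩) (𝓝 ⟨Ψ p₀, hp₀⟩) := by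
      rw [hemb.isInducing.tendsto_nhds_iff]
      have : ((fun z : B => J z) ∘ fun p : ball p₀ 1 => (⟨Ψ p, hmemB p p.2⟩ : B))
          = fun p : ball p₀ 1 => (p : E) := by
        ext p; simp [hJΨ]
      rw [this]
      simp only [hJΨ]
      exact continuous_subtype_val.continuousAt
    have h5 : ContinuousAt (fun p : ball p₀ 1 => Ψ p) ⟨p₀, mem_ball_self one_pos⟩ :=
      (continuous_subtype_val.tendsto _).comp hrest
    exact (IsOpenEmbedding.continuousAt_iff (g := Ψ)
      (isOpen_ball (x := p₀) (ε := 1)).isOpenEmbedding_subtypeVal).1 h5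
  -- the bad set
  set N : Set E := {z | ¬ DifferentiableAt ℝ J z}
  set S : Set E := {z | DifferentiableAt ℝ J z ∧ (fderiv ℝ J z).det = 0}
  have hN : ν (J '' N) = 0 := by
    refine lip_image_null ν hJlip ?_
    have := hJlip.ae_differentiableAt (μ := ν)
    exact this
  have hS : ν (J '' S) = 0 :=
    addHaar_image_eq_zero_of_det_fderivWithin_eq_zero ν
      (f' := fun z => fderiv ℝ J z)
      (fun z hz => hz.1.hasFDerivAt.hasFDerivWithinAt) (fun z hz => hz.2)
  have hgood : ∀ p, p ∉ J '' N → p ∉ J '' S → DifferentiableAt ℝ (fderiv ℝ u) p := by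
    intro p h1 h2
    have hJd : DifferentiableAt ℝ J (Ψ p) := by
      by_contra h
      exact h1 ⟨Ψ p, h, hJΨ p⟩
    have hdet : (fderiv ℝ J (Ψ p)).det ≠ 0 := by
      intro h
      exact h2 ⟨Ψ p, ⟨hJd, h⟩, hJΨ p⟩
    set e : E ≃L[ℝ] E := (fderiv ℝ J (Ψ p)).toContinuousLinearEquivOfDetNeZero hdet
    have he : HasFDerivAt J (e : E →L[ℝ] E) (Ψ p) := by
      rw [ContinuousLinearMap.coe_toContinuousLinearEquivOfDetNeZero]
      exact hJd.hasFDerivAt
    have hΨd : HasFDerivAt Ψ (e.symm : E →L[ℝ] E) p :=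
      HasFDerivAt.of_local_left_inverse hΨc.continuousAt he (Filter.Eventually.of_forall hJΨ)
    have hGd : DifferentiableAt ℝ G p := by
      have : G = fun p => Ψ p - p := by ext p; simp [hΨ]
      rw [this]
      exact hΨd.differentiableAt.sub differentiableAt_id
    have : fderiv ℝ u = fun p => InnerProductSpace.toDual ℝ E (G p) := by
      ext1 p; simp [hG]
    rw [this]
    exact ((InnerProductSpace.toDual ℝ E).toContinuousLinearEquiv.toContinuousLinearMap.differentiableAt).comp p hGd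
  rw [ae_iff]
  refine measure_mono_null (t := J '' N ∪ J '' S) ?_ (measure_union_null hN hS)
  intro p hp
  by_contra h
  rw [mem_union, not_or] at h
  exact hp (hgood p h.1 h.2)

/-- Alexandrov for a `C^1` norm. -/
theorem alexandrov {X : Type*} [NormedAddCommGroup X] [NormedSpace ℝ X]
    [FiniteDimensional ℝ X] [MeasurableSpace X] [BorelSpace X]
    (hd : ∀ z : X, z ≠ 0 → DifferentiableAt ℝ (fun v : X => ‖v‖) z)
    (μ : Measure X) [μ.IsAddHaarMeasure] :
    ∀ᵐ z ∂μ, DifferentiableAt ℝ (fderiv ℝ (fun v : X => ‖v‖)) z := by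
  rcases subsingleton_or_nontrivial X with hX | hX
  · refine Filter.Eventually.of_forall fun z => ?_
    exact (hasFDerivAt_of_subsingleton _ z).differentiableAt
  set A : EuclideanSpace ℝ (Fin (finrank ℝ X)) ≃L[ℝ] X :=
    ContinuousLinearEquiv.ofFinrankEq (by simp) with hA
  set u : EuclideanSpace ℝ (Fin (finrank ℝ X)) → ℝ := fun p => ‖A p‖ ^ 2 with hu
  have hc : ConvexOn ℝ univ u := by
    have h1 : ConvexOn ℝ univ (fun v : X => ‖v‖ ^ 2) :=
      convexOn_univ_norm.pow (fun _ _ => norm_nonneg _) 2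
    exact h1.comp_linearMap (A.toLinearEquiv : EuclideanSpace ℝ (Fin (finrank ℝ X)) →ₗ[ℝ] X)
  have hud : Differentiable ℝ u := by
    intro p
    by_cases hp : p = 0
    · subst hp
      have h1 : u =O[𝓝 0] fun x : EuclideanSpace ℝ (Fin (finrank ℝ X)) => ‖x - 0‖ ^ 2 := by
        refine Asymptotics.IsBigO.of_bound (‖(A : EuclideanSpace ℝ (Fin (finrank ℝ X)) →L[ℝ] X)‖ ^ 2)
          (Filter.Eventually.of_forall fun x => ?_)
        have := (A : EuclideanSpace ℝ (Fin (finrank ℝ X)) →L[ℝ] X).le_opNorm x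
        simp only [hu, sub_zero, norm_pow, norm_norm]
        rw [← mul_pow]
        exact pow_le_pow_left₀ (norm_nonneg _) this 2
      exact (h1.hasFDerivAt one_lt_two).differentiableAt
    · have hAp : A p ≠ 0 := by simpa using hp
      have h1 : DifferentiableAt ℝ (fun p => ‖A p‖) p :=
        (hd (A p) hAp).comp p A.differentiableAt
      exact h1.pow 2
  have : (Measure.map A.symm μ).IsAddHaarMeasure :=
    ContinuousLinearEquiv.isAddHaarMeasure_map A.symm μ
  have h := alex_aux (Measure.map A.symm μ) hc (fun p => by positivity) hud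
  have h2 : ∀ᵐ z ∂μ, DifferentiableAt ℝ (fderiv ℝ u) (A.symm z) :=
    ae_of_ae_map A.symm.continuous.aemeasurable h
  have : (𝓝[≠] (0 : X)).NeBot := Module.punctured_nhds_neBot ℝ X 0
  have h3 : ∀ᵐ z ∂μ, z ≠ 0 := by
    rw [ae_iff]
    simp
  filter_upwards [h2, h3] with z hz hz0
  have hev : fderiv ℝ (fun v : X => ‖v‖) =ᶠ[𝓝 z] fun w => (2 * ‖w‖)⁻¹ •
      ((fderiv ℝ u (A.symm w)).comp (A.symm : X →L[ℝ] EuclideanSpace ℝ (Fin (finrank ℝ X)))) := by
    filter_upwards [isOpen_ne.mem_nhds hz0] with w hw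
    have hwd := hd w hw
    have e1 : HasFDerivAt (fun v : X => ‖v‖ ^ 2) ((2 * ‖w‖) • fderiv ℝ (fun v : X => ‖v‖) w) w := by
      have := hwd.hasFDerivAt.pow 2
      simpa using this
    have e2 : HasFDerivAt (fun v : X => ‖v‖ ^ 2) ((fderiv ℝ u (A.symm w)).comp
        (A.symm : X →L[ℝ] EuclideanSpace ℝ (Fin (finrank ℝ X)))) w := by
      have h4 := ((hud (A.symm w)).hasFDerivAt).comp w A.symm.hasFDerivAt
      refine h4.congr_of_eventuallyEq (Filter.Eventually.of_forall fun v => ?_)
      simp [hu]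
    rw [← e1.unique e2, smul_smul, inv_mul_cancel₀ (by positivity), one_smul]
  refine DifferentiableAt.congr_of_eventuallyEq ?_ hev
  have h5 : DifferentiableAt ℝ (fun w : X => (2 * ‖w‖)⁻¹) z := by
    refine DifferentiableAt.inv ((hd z hz0).const_mul 2) (by positivity)
  have h6 : DifferentiableAt ℝ (fun w : X => (fderiv ℝ u (A.symm w)).comp
      (A.symm : X →L[ℝ] EuclideanSpace ℝ (Fin (finrank ℝ X)))) z := by
    have h7 : DifferentiableAt ℝ (fun w : X => fderiv ℝ u (A.symm w)) z :=
      hz.comp z A.symm.differentiableAt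
    exact h7.clm_comp (differentiableAt_const _)
  exact h5.smul h6

end Vale.Agent.P084
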