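import Mathlib

/-!
# The algebraic lemma for P084

A totally symmetric trilinear form `h (B u v) w` which is compatible with the differential of a
`C^1` norm is zero.
-/

open Metric Set Filter Topology MeasureTheory Module

namespace Vale.Agent.P084

section Alg

variable {V : Type*} [NormedAddCommGroup V] [NormedSpace ℝ V]

/-- A positive semidefinite symmetric form vanishing at `(v₀, v₀)` vanishes at `(v₀, w)`. -/
theorem psd_zero (r : V →ₗ[ℝ] V →ₗ[ℝ] ℝ) (W : Submodule ℝ V)
    (hs : ∀ u v, r u v = r v u) (hp : ∀ u ∈ W, 0 ≤ r u u) {v₀ : V} (hv : v₀ ∈ W)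
    (h0 : r v₀ v₀ = 0) : ∀ w ∈ W, r v₀ w = 0 := by
  intro w hw
  by_contra hne
  have hrw := hp w hw
  set c := r v₀ w with hc
  set s : ℝ := 1 / (r w w + 1) with hsdef
  have hpos : 0 < r w w + 1 := by linarith
  have hspos : 0 < s := by positivity
  have hs1 : s * r w w < 1 := by
    rw [hsdef, one_div, inv_mul_lt_iff₀ hpos]
    linarith
  have key := hp (v₀ + (-(c * s)) • w) (W.add_mem hv (W.smul_mem _ hw))
  have e : r (v₀ + (-(c * s)) • w) (v₀ + (-(c * s)) • w)
      = -2 * s * c ^ 2 + s ^ 2 * c ^ 2 * r w w := by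
    simp only [map_add, map_smul, LinearMap.add_apply, LinearMap.smul_apply, smul_eq_mul, h0,
      hs w v₀, ← hc]
    ring
  rw [e] at key
  have hc2 : 0 < c ^ 2 := by positivity
  have : -2 * s * c ^ 2 + s ^ 2 * c ^ 2 * r w w = s * c ^ 2 * (-2 + s * r w w) := by ring
  rw [this] at key
  have : s * c ^ 2 * (-2 + s * r w w) < 0 := by
    apply mul_neg_of_pos_of_neg
    · positivity
    · linarith
  linarith

variable [FiniteDimensional ℝ V]

theorem continuous_quad (q : V →ₗ[ℝ] V →ₗ[ℝ] ℝ) : Continuous fun v => q v v := by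
  have h1 : Continuous fun v : V => LinearMap.toContinuousLinearMap (q v) := by
    exact (LinearMap.toContinuousLinearMap.toLinearMap ∘ₗ q).continuous_of_finiteDimensional
  have h2 : (fun v => q v v) = fun v => (LinearMap.toContinuousLinearMap (q v)) v := by
    ext v; rfl
  rw [h2]
  exact h1.clm_apply continuous_id

/-- One half of the quadratic form lemma. -/
theorem quad_nonpos (h : V →ₗ[ℝ] V →ₗ[ℝ] ℝ) (hsymm : ∀ u v, h u v = h v u)
    (hpos : ∀ u, u ≠ 0 → 0 < h u u) (W : Submodule ℝ V)
    (q : V →ₗ[ℝ] V →ₗ[ℝ] ℝ) (qsymm : ∀ u v, q u v = q v u)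
    (hq : ∀ v ∈ W, v ≠ 0 → ∀ α : ℝ, (∀ w ∈ W, q v w = α * h v w) → α = 0) :
    ∀ v ∈ W, q v v ≤ 0 := by
  intro v hv
  by_cases hv0 : v = 0
  · simp [hv0]
  -- compactness
  have hcomp : IsCompact ((W : Set V) ∩ sphere (0 : V) 1) := by
    apply (isCompact_sphere (0 : V) 1).inter_left
    exact W.closed_of_finiteDimensional
  have hne : ((W : Set V) ∩ sphere (0 : V) 1).Nonempty := by
    refine ⟨(‖v‖⁻¹) • v, W.smul_mem _ hv, ?_⟩
    simp [norm_smul, hv0]
  have hcont : ContinuousOn (fun v => q v v / h v v) ((W : Set V) ∩ sphere (0 : V) 1) := by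
    apply ContinuousOn.div (continuous_quad q).continuousOn (continuous_quad h).continuousOn
    rintro x ⟨_, hx⟩
    have : x ≠ 0 := by
      rintro rfl
      simp at hx
    exact (hpos x this).ne'
  obtain ⟨v₀, ⟨hv₀W, hv₀s⟩, hmax⟩ := hcomp.exists_isMaxOn hne hcont
  have hv₀ : v₀ ≠ 0 := by
    rintro rfl
    simp at hv₀s
  set α : ℝ := q v₀ v₀ / h v₀ v₀ with hα
  have hle : ∀ w ∈ W, q w w ≤ α * h w w := by
    intro w hw
    by_cases hw0 : w = 0
    · simp [hw0]
    have hmem : (‖w‖⁻¹) • w ∈ ((W : Set V) ∩ sphere (0 : V) 1) :=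
      ⟨W.smul_mem _ hw, by simp [norm_smul, hw0]⟩
    have := hmax hmem
    simp only [map_smul, LinearMap.smul_apply, smul_eq_mul, mem_ofPred_eq] at this
    have hn : ‖w‖⁻¹ ≠ 0 := inv_ne_zero (norm_ne_zero_iff.mpr hw0)
    rw [mul_div_mul_left _ _ hn, mul_div_mul_left _ _ hn, ← hα, div_le_iff₀ (hpos w hw0)] at this
    exact this
  have hα0 : α = 0 := by
    apply hq v₀ hv₀W hv₀ α
    intro w hw
    have := psd_zero (α • h - q) W (by intro u v; simp [hsymm u v, qsymm u v])
      (by intro u hu; simpa using hle u hu) hv₀W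
      (by
        simp only [LinearMap.sub_apply, LinearMap.smul_apply, smul_eq_mul]
        rw [hα, div_mul_cancel₀ _ (hpos v₀ hv₀).ne', sub_self]) w hw
    simp only [LinearMap.sub_apply, LinearMap.smul_apply, smul_eq_mul] at this
    linarith
  have := hle v hv
  rw [hα0, zero_mul] at this
  exact this

/-- The quadratic form lemma: a symmetric form without nonzero eigenvalues vanishes. -/
theorem quad_zero (h : V →ₗ[ℝ] V →ₗ[ℝ] ℝ) (hsymm : ∀ u v, h u v = h v u)
    (hpos : ∀ u, u ≠ 0 → 0 < h u u) (W : Submodule ℝ V)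
    (q : V →ₗ[ℝ] V →ₗ[ℝ] ℝ) (qsymm : ∀ u v, q u v = q v u)
    (hq : ∀ v ∈ W, v ≠ 0 → ∀ α : ℝ, (∀ w ∈ W, q v w = α * h v w) → α = 0) :
    ∀ v ∈ W, ∀ w ∈ W, q v w = 0 := by
  have hd : ∀ v ∈ W, q v v = 0 := by
    intro v hv
    apply le_antisymm
    · exact quad_nonpos h hsymm hpos W q qsymm hq v hv
    · have := quad_nonpos h hsymm hpos W (-q) (by intro u v; simp [qsymm u v])
        (by
          intro v hv hv0 α hα
          have : -α = 0 := by
            apply hq v hv hv0
            intro w hw
            have := hα w hw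
            simp only [LinearMap.neg_apply] at this
            linarith
          linarith) v hv
      simp only [LinearMap.neg_apply] at this
      linarith
  intro v hv w hw
  have h1 := hd (v + w) (W.add_mem hv hw)
  simp only [map_add, LinearMap.add_apply, hd v hv, hd w hw, qsymm w v] at h1
  linarith

theorem alg_lemma
    (hdim : 2 ≤ finrank ℝ V)
    (φ : V → V →L[ℝ] ℝ) (hφ : ∀ u, u ≠ 0 → HasFDerivAt (fun v : V => ‖v‖) (φ u) u)
    (hφc : ∀ u, u ≠ 0 → ContinuousAt φ u)
    (h : V →ₗ[ℝ] V →ₗ[ℝ] ℝ) (hsymm : ∀ u v, h u v = h v u) (hpos : ∀ u, u ≠ 0 → 0 < h u u)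
    (B : V →ₗ[ℝ] V →ₗ[ℝ] V) (Bsymm : ∀ u v, B u v = B v u)
    (Btot : ∀ u v w, h (B u v) w = h (B u w) v)
    (κ : V → ℝ) (hB : ∀ u, u ≠ 0 → ∀ v, φ u (B u v) = κ u * h u v) :
    ∀ u v, B u v = 0 := by
  -- `φ u u = ‖u‖`
  have hφu : ∀ u, u ≠ 0 → φ u u = ‖u‖ := by
    intro u hu
    have h1 : HasDerivAt (fun t : ℝ => ‖u + t • u‖) (φ u u) 0 := by
      have hl : HasDerivAt (fun t : ℝ => u + t • u) u 0 := by
        simpa using ((hasDerivAt_id (0 : ℝ)).smul_const u).const_add u
      have := (hφ u hu)
      have h2 : HasFDerivAt (fun v : V => ‖v‖) (φ u) (u + (0 : ℝ) • u) := by simpa using this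
      exact h2.comp_hasDerivAt (0 : ℝ) hl
    have h2 : HasDerivAt (fun t : ℝ => ‖u + t • u‖) ‖u‖ 0 := by
      have h3 : HasDerivAt (fun t : ℝ => (1 + t) * ‖u‖) ‖u‖ 0 := by
        simpa using ((hasDerivAt_id (0 : ℝ)).const_add 1).mul_const ‖u‖
      apply h3.congr_of_eventuallyEq
      have : ∀ᶠ t : ℝ in 𝓝 0, -1 < t := by
        exact eventually_gt_nhds (by norm_num)
      filter_upwards [this] with t ht
      have : u + t • u = (1 + t) • u := by rw [add_smul, one_smul]
      rw [this, norm_smul, Real.norm_of_nonneg (by linarith)]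
    exact h1.unique h2
  -- the separation property of `h`
  have hsep : ∀ x : V, (∀ w, h x w = 0) → x = 0 := by
    intro x hx
    by_contra hne
    exact (hpos x hne).ne' (hx x)
  -- Nontriviality
  have : Nontrivial V := by
    apply Module.nontrivial_of_finrank_pos (R := ℝ)
    omega
  -- the minimizer of `h u u` on the unit sphere
  obtain ⟨e, hes, hmin⟩ := (isCompact_sphere (0 : V) 1).exists_isMinOn
    (NormedSpace.sphere_nonempty.mpr zero_le_one) (continuous_quad h).continuousOn
  have hen : ‖e‖ = 1 := by simpa using hes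
  have he0 : e ≠ 0 := by
    rintro rfl
    simp at hen
  set m : ℝ := h e e with hm
  have hmpos : 0 < m := hpos e he0
  have hge : ∀ u : V, m * ‖u‖ ^ 2 ≤ h u u := by
    intro u
    by_cases hu : u = 0
    · simp [hu]
    have hmem : (‖u‖⁻¹) • u ∈ sphere (0 : V) 1 := by simp [norm_smul, hu]
    have h1 := hmin hmem
    simp only [map_smul, LinearMap.smul_apply, smul_eq_mul, mem_ofPred_eq] at h1
    have hn : 0 < ‖u‖ := norm_pos_iff.mpr hu
    have h2 : m * ‖u‖ ^ 2 ≤ (‖u‖⁻¹ * (‖u‖⁻¹ * h u u)) * ‖u‖ ^ 2 :=
      mul_le_mul_of_nonneg_right h1 (by positivity)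
    have h3 : (‖u‖⁻¹ * (‖u‖⁻¹ * h u u)) * ‖u‖ ^ 2 = h u u := by
      field_simp
    linarith
  -- first order condition
  have hfirst : ∀ w, m * φ e w = h e w := by
    intro w
    have hl : HasDerivAt (fun t : ℝ => e + t • w) w 0 := by
      simpa using ((hasDerivAt_id (0 : ℝ)).smul_const w).const_add e
    have h1 : HasDerivAt (fun t : ℝ => ‖e + t • w‖) (φ e w) 0 := by
      have h2 : HasFDerivAt (fun v : V => ‖v‖) (φ e) (e + (0 : ℝ) • w) := by
        simpa using hφ e he0
      exact h2.comp_hasDerivAt (0 : ℝ) hl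
    have h2 : HasDerivAt (fun t : ℝ => m * ‖e + t • w‖ ^ 2) (m * (2 * φ e w)) 0 := by
      have := (h1.pow 2).const_mul m
      simpa [hen] using this
    have h3 : HasDerivAt (fun t : ℝ => h (e + t • w) (e + t • w)) (2 * h e w) 0 := by
      have h4 : (fun t : ℝ => h (e + t • w) (e + t • w)) =
          fun t : ℝ => m + t * (2 * h e w) + t ^ 2 * h w w := by
        ext t
        simp only [map_add, map_smul, LinearMap.add_apply, LinearMap.smul_apply, smul_eq_mul,
          hsymm w e, ← hm]
        ring
      rw [h4]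
      have h5 : HasDerivAt (fun t : ℝ => m + t * (2 * h e w) + t ^ 2 * h w w)
          (1 * (2 * h e w) + ((2 : ℕ) * (0 : ℝ) ^ (2 - 1) * 1) * h w w) 0 :=
        (((hasDerivAt_id (0 : ℝ)).mul_const (2 * h e w)).const_add m).add
          (((hasDerivAt_id (0 : ℝ)).pow 2).mul_const (h w w))
      convert h5 using 1
      norm_num
    have h4 := h3.sub h2
    have h5 : IsLocalMin (fun t : ℝ => h (e + t • w) (e + t • w) - m * ‖e + t • w‖ ^ 2) 0 := by
      filter_upwards with t
      have := hge (e + t • w)
      have h0 : h (e + (0 : ℝ) • w) (e + (0 : ℝ) • w) - m * ‖e + (0 : ℝ) • w‖ ^ 2 = 0 := by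
        simp [hen, ← hm]
      rw [h0]
      linarith
    have h6 := h5.hasDerivAt_eq_zero h4
    linarith
  -- `B e e = lam • e`
  set lam : ℝ := m * κ e with hlam
  have hBee : B e e = lam • e := by
    have : B e e - lam • e = 0 := by
      apply hsep
      intro v
      have h1 := hB e he0 v
      have h2 := hfirst (B e v)
      rw [h1] at h2
      have h3 : h e (B e v) = h (B e e) v := by rw [hsymm, Btot]
      simp only [map_sub, map_smul, LinearMap.sub_apply, LinearMap.smul_apply, smul_eq_mul]
      rw [← h3, ← h2, hlam]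
      ring
    exact sub_eq_zero.mp this
  -- the orthogonal complement
  let W : Submodule ℝ V := LinearMap.ker (h e)
  have hW : ∀ v, v ∈ W ↔ h e v = 0 := fun v => LinearMap.mem_ker
  have hBeW : ∀ v ∈ W, B e v = 0 := by
    intro v hv
    have hve : h (B e v) e = 0 := by
      rw [Btot, hBee]
      simp only [map_smul, LinearMap.smul_apply, smul_eq_mul]
      rw [(hW v).mp hv, mul_zero]
    have hq := quad_zero h hsymm hpos W (h.comp (B e)) (by
        intro u w
        show h (B e u) w = h (B e w) u
        exact Btot e u w)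
      (by
        intro u hu hu0 α hα
        -- `B e u = α • u`
        have h1 : B e u - α • u = 0 := by
          apply hsep
          intro w
          -- decompose `w`
          have hwW : w - (h e w / m) • e ∈ W := by
            rw [hW]
            simp only [map_sub, map_smul, smul_eq_mul]
            rw [← hm]
            field_simp
            ring
          have h2 := hα _ hwW
          have h2' : h (B e u) (w - (h e w / m) • e) = α * h u (w - (h e w / m) • e) := h2
          have h3 : h (B e u) e = 0 := by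
            rw [Btot, hBee]
            simp only [map_smul, LinearMap.smul_apply, smul_eq_mul]
            rw [(hW u).mp hu, mul_zero]
          have h4 : h u e = 0 := by rw [hsymm]; exact (hW u).mp hu
          simp only [map_sub, map_smul, smul_eq_mul, h3, h4, mul_zero, sub_zero] at h2'
          simp only [map_sub, map_smul, LinearMap.sub_apply, LinearMap.smul_apply, smul_eq_mul]
          linarith
        have h2 : B e u = α • u := sub_eq_zero.mp h1
        have h3 := hB u hu0 e
        rw [Bsymm u e, h2, map_smul, hφu u hu0, hsymm u e, (hW u).mp hu, mul_zero,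
          smul_eq_mul] at h3
        exact (mul_eq_zero.mp h3).resolve_right (norm_ne_zero_iff.mpr hu0))
    apply hsep
    intro w
    have hwW : w - (h e w / m) • e ∈ W := by
      rw [hW]
      simp only [map_sub, map_smul, smul_eq_mul]
      rw [← hm]
      field_simp
      ring
    have h2 : h (B e v) (w - (h e w / m) • e) = 0 := hq v hv _ hwW
    simp only [map_sub, map_smul, smul_eq_mul, hve, mul_zero, sub_zero] at h2
    exact h2
  -- existence of a nonzero element of `W`
  obtain ⟨u', hu'W, hu'0⟩ : ∃ u' ∈ W, u' ≠ 0 := by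
    by_contra hcon
    push Not at hcon
    have hbot : W = ⊥ := by
      rw [eq_bot_iff]
      intro x hx
      exact (Submodule.mem_bot ℝ).mpr (hcon x hx)
    have hinj : Function.Injective (h e) := LinearMap.ker_eq_bot.mp hbot
    have := LinearMap.finrank_le_finrank_of_injective hinj
    rw [finrank_self] at this
    omega
  -- `lam = 0`
  have hcurve : ∀ w : V, Tendsto (fun s : ℝ => w + s • e) (𝓝[≠] 0) (𝓝 w) := by
    intro w
    have : Continuous fun s : ℝ => w + s • e := by fun_prop
    have h1 := this.tendsto 0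
    simp only [zero_smul, add_zero] at h1
    exact h1.mono_left nhdsWithin_le_nhds
  have hlam0 : lam = 0 := by
    have hBue : B u' e = 0 := by rw [Bsymm]; exact hBeW u' hu'W
    have heu' : h e u' = 0 := (hW u').mp hu'W
    have hid : ∀ s : ℝ, s ≠ 0 →
        φ (e + s • u') (B u' u') = lam * φ (e + s • u') e * h u' u' / m := by
      intro s hs
      have hne : e + s • u' ≠ 0 := by
        intro h0
        have : h e (e + s • u') = 0 := by rw [h0, map_zero]
        simp only [map_add, map_smul, heu', smul_eq_mul, mul_zero, add_zero] at this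
        exact hmpos.ne' this
      have h1 := hB _ hne e
      have h2 := hB _ hne u'
      simp only [map_add, map_smul, LinearMap.add_apply, LinearMap.smul_apply, hBee, hBue,
        smul_zero, add_zero, smul_eq_mul] at h1
      simp only [map_add, map_smul, LinearMap.add_apply, LinearMap.smul_apply,
        hBeW u' hu'W, heu', smul_eq_mul, zero_add] at h2
      rw [hsymm u' e, heu', mul_zero, add_zero, ← hm] at h1
      have h3 : φ (e + s • u') (B u' u') = κ (e + s • u') * h u' u' := by
        have : s * φ (e + s • u') (B u' u') = s * (κ (e + s • u') * h u' u') := by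
          rw [h2]; ring
        exact mul_left_cancel₀ hs this
      rw [h3]
      have h4 : κ (e + s • u') = lam * φ (e + s • u') e / m := by
        rw [h1]; field_simp
      rw [h4]
      ring
    have hcont : Tendsto (fun s : ℝ => φ (e + s • u')) (𝓝[≠] 0) (𝓝 (φ e)) := by
      have hc : Continuous fun s : ℝ => e + s • u' := by fun_prop
      have h1 := hc.tendsto 0
      simp only [zero_smul, add_zero] at h1
      exact (hφc e he0).tendsto.comp (h1.mono_left nhdsWithin_le_nhds)
    have hL : Tendsto (fun s : ℝ => φ (e + s • u') (B u' u')) (𝓝[≠] 0) (𝓝 (φ e (B u' u'))) := by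
      exact ((ContinuousLinearMap.apply ℝ ℝ (B u' u')).continuous.tendsto (φ e)).comp hcont
    have hR : Tendsto (fun s : ℝ => lam * φ (e + s • u') e * h u' u' / m) (𝓝[≠] 0)
        (𝓝 (lam * φ e e * h u' u' / m)) := by
      have h1 : Tendsto (fun s : ℝ => φ (e + s • u') e) (𝓝[≠] 0) (𝓝 (φ e e)) :=
        ((ContinuousLinearMap.apply ℝ ℝ e).continuous.tendsto (φ e)).comp hcont
      exact ((h1.const_mul lam).mul_const (h u' u')).div_const m
    have heq : φ e (B u' u') = lam * φ e e * h u' u' / m := by
      apply tendsto_nhds_unique hL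
      apply hR.congr'
      filter_upwards [self_mem_nhdsWithin] with s hs
      exact (hid s hs).symm
    have h1 : m * φ e (B u' u') = 0 := by
      rw [hfirst, hsymm, Btot, hBue]
      simp
    rw [heq, hφu e he0, hen] at h1
    have h2 : lam * h u' u' = 0 := by
      field_simp at h1
      simpa using h1
    exact (mul_eq_zero.mp h2).resolve_right (hpos u' hu'0).ne'
  have hBe : ∀ v, B e v = 0 := by
    intro v
    have hvW : v - (h e v / m) • e ∈ W := by
      rw [hW]
      simp only [map_sub, map_smul, smul_eq_mul]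
      rw [← hm]
      field_simp
      ring
    have h1 := hBeW _ hvW
    rw [map_sub, map_smul, hBee, hlam0, zero_smul, smul_zero, sub_zero] at h1
    exact h1
  have hκ : ∀ u, u ≠ 0 → h u e ≠ 0 → ∀ v, φ u (B u v) = 0 := by
    intro u hu hue v
    have h1 := hB u hu e
    rw [Bsymm, hBe, map_zero] at h1
    have h2 : κ u = 0 := (mul_eq_zero.mp h1.symm).resolve_right hue
    rw [hB u hu v, h2, zero_mul]
  have hall : ∀ u, u ≠ 0 → ∀ v, φ u (B u v) = 0 := by
    intro u hu v
    by_cases hue : h u e = 0
    · have hcont : Tendsto (fun s : ℝ => φ (u + s • e)) (𝓝[≠] 0) (𝓝 (φ u)) :=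
        (hφc u hu).tendsto.comp (hcurve u)
      have hL : Tendsto (fun s : ℝ => φ (u + s • e) (B u v)) (𝓝[≠] 0) (𝓝 (φ u (B u v))) :=
        ((ContinuousLinearMap.apply ℝ ℝ (B u v)).continuous.tendsto (φ u)).comp hcont
      have hz : ∀ s : ℝ, s ≠ 0 → φ (u + s • e) (B u v) = 0 := by
        intro s hs
        have h1 : h (u + s • e) e = s * m := by
          simp only [map_add, map_smul, LinearMap.add_apply, LinearMap.smul_apply, hue,
            smul_eq_mul, zero_add, ← hm]
        have h2 : h (u + s • e) e ≠ 0 := by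
          rw [h1]; exact mul_ne_zero hs hmpos.ne'
        have h3 : u + s • e ≠ 0 := by
          intro h0
          rw [h0] at h2
          simp at h2
        have h4 := hκ _ h3 h2 v
        simpa [hBe v] using h4
      apply tendsto_nhds_unique hL
      apply tendsto_const_nhds.congr'
      filter_upwards [self_mem_nhdsWithin] with s hs
      exact (hz s hs).symm
    · exact hκ u hu hue v
  -- conclusion
  intro u v
  apply hsep
  intro w
  have hq := quad_zero h hsymm hpos ⊤ (h.comp (B u)) (by
      intro x y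
      show h (B u x) y = h (B u y) x
      exact Btot u x y)
    (by
      intro x _ hx0 α hα
      have h1 : B u x - α • x = 0 := by
        apply hsep
        intro w
        have h2 : h (B u x) w = α * h x w := hα w Submodule.mem_top
        simp only [map_sub, map_smul, LinearMap.sub_apply, LinearMap.smul_apply, smul_eq_mul]
        linarith
      have h2 : B u x = α • x := sub_eq_zero.mp h1
      have h3 := hall x hx0 u
      rw [Bsymm, h2, map_smul, hφu x hx0, smul_eq_mul] at h3
      exact (mul_eq_zero.mp h3).resolve_right (norm_ne_zero_iff.mpr hx0))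
  exact hq v Submodule.mem_top w Submodule.mem_top

end Alg

end Vale.Agent.P084
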