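import Mathlib
import Vale.Agent.P084.Alg

/-!
# The general algebraic lemma for P084
-/

open Metric Set Filter Topology MeasureTheory Module

namespace Vale.Agent.P084

section AlgG

variable {V : Type*} [NormedAddCommGroup V] [NormedSpace ℝ V]

/-- A direction along which the norm has zero derivative is Birkhoff orthogonal. -/
theorem norm_le_of_hasDerivAt_zero {u x : V}
    (h : HasDerivAt (fun t : ℝ => ‖u + t • x‖) 0 0) (t : ℝ) : ‖u‖ ≤ ‖u + t • x‖ := by
  have hconv : ConvexOn ℝ univ (fun t : ℝ => ‖u + t • x‖) := by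
    refine ⟨convex_univ, ?_⟩
    intro a _ b _ s r hs hr hsr
    have e : u + (s • a + r • b) • x = s • (u + a • x) + r • (u + b • x) := by
      have : u = (s + r) • u := by rw [hsr, one_smul]
      conv_lhs => rw [this]
      simp only [smul_add, add_smul, smul_smul, smul_eq_mul]
      abel
    show ‖u + (s • a + r • b) • x‖ ≤ s • ‖u + a • x‖ + r • ‖u + b • x‖
    rw [e]
    calc ‖s • (u + a • x) + r • (u + b • x)‖ ≤ ‖s • (u + a • x)‖ + ‖r • (u + b • x)‖ :=
          norm_add_le _ _
      _ = s • ‖u + a • x‖ + r • ‖u + b • x‖ := by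
          rw [norm_smul, norm_smul, Real.norm_of_nonneg hs, Real.norm_of_nonneg hr]; rfl
  have h0 : ‖u‖ = ‖u + (0 : ℝ) • x‖ := by simp
  rw [h0]
  rcases lt_trichotomy t 0 with ht | ht | ht
  · have h1 := hconv.slope_le_of_hasDerivAt (mem_univ t) (mem_univ 0) ht h
    rw [slope_def_field, div_le_iff₀ (by linarith)] at h1
    linarith
  · rw [ht]
  · have h1 := hconv.le_slope_of_hasDerivAt (mem_univ 0) (mem_univ t) ht h
    rw [slope_def_field, le_div_iff₀ (by linarith)] at h1
    linarith

/-- An eigenvalue in a Birkhoff orthogonal direction vanishes. -/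
theorem eigen_zero {u : V} (hu : u ≠ 0) {α : ℝ} (h : ∀ t : ℝ, ‖u‖ ≤ ‖u + t • (α • u)‖) :
    α = 0 := by
  by_contra hα
  have h1 := h (-α⁻¹)
  rw [smul_smul, neg_mul, inv_mul_cancel₀ hα, neg_smul, one_smul, add_neg_cancel, norm_zero] at h1
  exact hu (norm_le_zero_iff.mp h1)

/-- If all points of a line off one parameter are Birkhoff orthogonal to the direction of the
line, the direction is zero. -/
theorem line_zero {u x : V} (h : ∀ s : ℝ, u + s • x ≠ 0 → ∀ t : ℝ,
    ‖u + s • x‖ ≤ ‖u + s • x + t • x‖) : x = 0 := by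
  by_contra hx
  have hxn : 0 < ‖x‖ := norm_pos_iff.mpr hx
  -- all norms of nonzero points are equal
  have h1 : ∀ s r : ℝ, u + s • x ≠ 0 → ‖u + s • x‖ ≤ ‖u + r • x‖ := by
    intro s r hs
    have := h s hs (r - s)
    have e : u + s • x + (r - s) • x = u + r • x := by
      rw [sub_smul]; abel
    rwa [e] at this
  -- a point far away
  set R : ℝ := (2 * ‖u‖ + ‖x‖ + 1) / ‖x‖ with hR
  have hRx : R * ‖x‖ = 2 * ‖u‖ + ‖x‖ + 1 := by
    rw [hR]; field_simp
  have hRpos : 0 < R := by positivity
  have h2 : ‖u‖ + ‖x‖ + 1 ≤ ‖u + R • x‖ := by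
    have h3 : ‖R • x‖ ≤ ‖u + R • x‖ + ‖u‖ := by
      calc ‖R • x‖ = ‖(u + R • x) - u‖ := by congr 1; abel
        _ ≤ _ := norm_sub_le _ _
    rw [norm_smul, Real.norm_of_nonneg hRpos.le, hRx] at h3
    linarith
  have h4 : u + R • x ≠ 0 := by
    intro h0
    rw [h0, norm_zero] at h2
    have := norm_nonneg u
    linarith
  have h5 := h1 R 0 h4
  simp only [zero_smul, add_zero] at h5
  linarith

/-- The canonical inner product. -/
theorem canon_form (V : Type*) [NormedAddCommGroup V] [NormedSpace ℝ V] [FiniteDimensional ℝ V] :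
    ∃ q : V →ₗ[ℝ] V →ₗ[ℝ] ℝ, (∀ u v, q u v = q v u) ∧ (∀ u, u ≠ 0 → 0 < q u u) ∧
      ∀ g : V →L[ℝ] V, (∀ u, ‖g u‖ = ‖u‖) → ∀ u v, q (g u) (g v) = q u v := by
  let E := V →L[ℝ] ℝ
  let : MeasurableSpace E := borel E
  have : BorelSpace E := ⟨rfl⟩
  have : FiniteDimensional ℝ E :=
    LinearEquiv.finiteDimensional (LinearMap.toContinuousLinearMap (𝕜 := ℝ) (E := V) (F' := ℝ))
  have : ProperSpace E := FiniteDimensional.proper ℝ E
  let μ : Measure E := Measure.hausdorffMeasure (finrank ℝ E : ℝ)
  have : μ.IsAddHaarMeasure := isAddHaarMeasure_hausdorffMeasure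
  have hev : ∀ u : V, Continuous fun ξ : E => ξ u := fun u =>
    (ContinuousLinearMap.apply ℝ ℝ u).continuous
  have hint : ∀ u v : V, IntegrableOn (fun ξ : E => ξ u * ξ v) (closedBall 0 1) μ := by
    intro u v
    exact ((hev u).mul (hev v)).continuousOn.integrableOn_compact (isCompact_closedBall 0 1)
  let q : V →ₗ[ℝ] V →ₗ[ℝ] ℝ := LinearMap.mk₂ ℝ
    (fun u v => ∫ ξ in closedBall (0 : E) 1, ξ u * ξ v ∂μ)
    (by
      intro u u' v
      rw [← integral_add (hint u v) (hint u' v)]
      congr 1
      ext ξ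
      rw [map_add]; ring)
    (by
      intro c u v
      rw [smul_eq_mul, ← integral_const_mul]
      congr 1
      ext ξ
      rw [map_smul, smul_eq_mul]; ring)
    (by
      intro u v v'
      rw [← integral_add (hint u v) (hint u v')]
      congr 1
      ext ξ
      rw [map_add]; ring)
    (by
      intro c u v
      rw [smul_eq_mul, ← integral_const_mul]
      congr 1
      ext ξ
      rw [map_smul, smul_eq_mul]; ring)
  have hq : ∀ u v, q u v = ∫ ξ in closedBall (0 : E) 1, ξ u * ξ v ∂μ := fun u v => rfl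
  refine ⟨q, ?_, ?_, ?_⟩
  · intro u v
    rw [hq, hq]
    congr 1
    ext ξ
    ring
  · intro u hu
    rw [hq]
    -- a functional which does not vanish at `u`
    obtain ⟨ξ₀, hξ₀⟩ := exists_dual_vector ℝ u (by simpa using hu)
    have hξn : ‖ξ₀‖ = 1 := hξ₀.1
    have hξu : ξ₀ u = ‖u‖ := hξ₀.2
    have hpos : 0 < ‖u‖ := norm_pos_iff.mpr hu
    rw [setIntegral_pos_iff_support_of_nonneg_ae]
    · -- an open subset
      have hopen : IsOpen ({ξ : E | ξ u ≠ 0} ∩ ball 0 1) :=
        (isOpen_ne_fun (hev u) continuous_const).inter isOpen_ball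
      have hne : ({ξ : E | ξ u ≠ 0} ∩ ball (0 : E) 1).Nonempty := by
        refine ⟨(1 / 2 : ℝ) • ξ₀, ?_, ?_⟩
        · show ((1 / 2 : ℝ) • ξ₀) u ≠ 0
          rw [smul_apply, hξu, smul_eq_mul]
          positivity
        · rw [mem_ball_zero_iff, norm_smul, hξn]
          norm_num
      refine lt_of_lt_of_le (hopen.measure_pos μ hne) (measure_mono ?_)
      rintro ξ ⟨h1, h2⟩
      refine ⟨?_, ball_subset_closedBall h2⟩
      rw [Function.mem_support]
      exact mul_ne_zero h1 h1
    · filter_upwards with ξ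
      exact mul_self_nonneg _
    · exact hint u u
  · intro g hg u v
    have hginj : Function.Injective g := by
      intro a b hab
      have : ‖g (a - b)‖ = 0 := by rw [map_sub, hab, sub_self, norm_zero]
      rw [hg, norm_eq_zero, sub_eq_zero] at this
      exact this
    have hgsurj : Function.Surjective g :=
      (LinearMap.injective_iff_surjective (f := (g : V →ₗ[ℝ] V))).mp hginj
    -- the dual isometry
    have hG : ∀ ξ : E, ‖ξ.comp g‖ = ‖ξ‖ := by
      intro ξ
      apply le_antisymm
      · refine ContinuousLinearMap.opNorm_le_bound _ (norm_nonneg _) ?_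
        intro x
        calc ‖ξ (g x)‖ ≤ ‖ξ‖ * ‖g x‖ := ξ.le_opNorm _
          _ = ‖ξ‖ * ‖x‖ := by rw [hg]
      · refine ContinuousLinearMap.opNorm_le_bound _ (norm_nonneg _) ?_
        intro x
        obtain ⟨y, rfl⟩ := hgsurj x
        calc ‖ξ (g y)‖ = ‖(ξ.comp g) y‖ := rfl
          _ ≤ ‖ξ.comp g‖ * ‖y‖ := (ξ.comp g).le_opNorm _
          _ = ‖ξ.comp g‖ * ‖g y‖ := by rw [hg]
    let G : E →ₗᵢ[ℝ] E :=
      { toFun := fun ξ => ξ.comp g
        map_add' := fun ξ η => rfl
        map_smul' := fun c ξ => rfl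
        norm_map' := hG }
    let Ge : E ≃ₗᵢ[ℝ] E := G.toLinearIsometryEquiv rfl
    have hGe : ∀ ξ : E, Ge ξ = ξ.comp g := fun ξ => rfl
    have hmp : MeasurePreserving Ge.toIsometryEquiv μ μ :=
      Ge.toIsometryEquiv.measurePreserving_hausdorffMeasure _
    rw [hq, hq]
    have hpre : Ge.toIsometryEquiv ⁻¹' (closedBall (0 : E) 1) = closedBall (0 : E) 1 := by
      ext ξ
      simp only [mem_preimage, mem_closedBall_zero_iff, LinearIsometryEquiv.coe_toIsometryEquiv,
        LinearIsometryEquiv.norm_map]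
    have hemb : MeasurableEmbedding Ge.toIsometryEquiv :=
      Ge.toIsometryEquiv.toHomeomorph.measurableEmbedding
    have := hmp.setIntegral_preimage_emb hemb (fun ξ : E => ξ u * ξ v) (closedBall (0 : E) 1)
    rw [hpre] at this
    rw [← this]
    rfl

/-- The flow of a linear vector field tangent to the spheres is isometric. -/
theorem killing [CompleteSpace V] (L : V →L[ℝ] V)
    (hL : ∀ u, u ≠ 0 → HasDerivAt (fun t : ℝ => ‖u + t • L u‖) 0 0) (t : ℝ) (u : V) :
    ‖NormedSpace.exp (t • L) u‖ = ‖u‖ := by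
  by_cases hu : u = 0
  · simp [hu]
  -- the derivative of the flow at time `0`
  have hflow : ∀ y : V, HasDerivAt (fun s : ℝ => NormedSpace.exp (s • L) y) (L y) 0 := by
    intro y
    have h1 := (hasDerivAt_exp_smul_const L (0 : ℝ)).clm_apply (hasDerivAt_const (0 : ℝ) y)
    simpa using h1
  have hadd : ∀ (a b : ℝ) (y : V), NormedSpace.exp ((a + b) • L) y =
      NormedSpace.exp (b • L) (NormedSpace.exp (a • L) y) := by
    intro a b y
    have : NormedAlgebra ℚ (V →L[ℝ] V) := NormedAlgebra.restrictScalars ℚ ℝ _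
    rw [add_comm a b, add_smul, NormedSpace.exp_add_of_commute]
    · rfl
    · exact ((Commute.refl L).smul_left b).smul_right a
  have hne : ∀ a : ℝ, NormedSpace.exp (a • L) u ≠ 0 := by
    intro a h0
    have h1 := hadd a (-a) u
    rw [h0, map_zero, add_neg_cancel, zero_smul, NormedSpace.exp_zero] at h1
    exact hu h1
  -- at time `0`
  have hzero : ∀ y : V, y ≠ 0 → HasDerivAt (fun s : ℝ => ‖NormedSpace.exp (s • L) y‖) 0 0 := by
    intro y hy
    have h1 : HasDerivAt (fun s : ℝ => NormedSpace.exp (s • L) y - (y + s • L y)) 0 0 := by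
      have h2 : HasDerivAt (fun s : ℝ => y + s • L y) (L y) 0 := by
        simpa using ((hasDerivAt_id (0 : ℝ)).smul_const (L y)).const_add y
      have h3 := (hflow y).fun_sub h2
      rwa [sub_self] at h3
    have h3 : HasDerivAt (fun s : ℝ => ‖NormedSpace.exp (s • L) y‖ - ‖y + s • L y‖) 0 0 := by
      rw [hasDerivAt_iff_isLittleO_nhds_zero] at h1 ⊢
      refine Asymptotics.IsBigO.trans_isLittleO ?_ h1
      refine Asymptotics.IsBigO.of_bound 1 ?_
      filter_upwards with s
      simp only [zero_add, zero_smul, NormedSpace.exp_zero, smul_zero, add_zero, sub_zero,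
        one_apply_eq_self, sub_self, one_mul]
      exact abs_norm_sub_norm_le _ _
    have h4 := h3.fun_add (hL y hy)
    simp only [add_zero, sub_add_cancel] at h4
    exact h4
  have hder : ∀ a : ℝ, HasDerivAt (fun s : ℝ => ‖NormedSpace.exp (s • L) u‖) 0 a := by
    intro a
    have h1 := hzero _ (hne a)
    have h3 : HasDerivAt (fun s : ℝ => ‖NormedSpace.exp (s • L) (NormedSpace.exp (a • L) u)‖) 0
        (a - a) := by rw [sub_self]; exact h1
    have h4 := h3.comp_sub_const a a
    refine h4.congr_of_eventuallyEq ?_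
    filter_upwards with s
    rw [← hadd]
    simp
  have h1 := is_const_of_deriv_eq_zero (f := fun s : ℝ => ‖NormedSpace.exp (s • L) u‖)
    (fun a => (hder a).differentiableAt) (fun a => (hder a).deriv) t 0
  simpa using h1

variable [FiniteDimensional ℝ V]

/-- Linear vector fields tangent to the spheres are skew for the canonical inner product. -/
theorem killing_skew (q : V →ₗ[ℝ] V →ₗ[ℝ] ℝ)
    (hq : ∀ g : V →L[ℝ] V, (∀ u, ‖g u‖ = ‖u‖) → ∀ u v, q (g u) (g v) = q u v)
    (L : V →ₗ[ℝ] V)
    (hL : ∀ u, u ≠ 0 → HasDerivAt (fun t : ℝ => ‖u + t • L u‖) 0 0) (u v : V) :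
    q (L u) v + q u (L v) = 0 := by
  have : CompleteSpace V := FiniteDimensional.complete ℝ V
  set L' : V →L[ℝ] V := LinearMap.toContinuousLinearMap L with hL'
  have hflow : ∀ y : V, HasDerivAt (fun s : ℝ => NormedSpace.exp (s • L') y) (L y) 0 := by
    intro y
    have h1 := (hasDerivAt_exp_smul_const L' (0 : ℝ)).clm_apply (hasDerivAt_const (0 : ℝ) y)
    simpa [hL'] using h1
  let q' : V →L[ℝ] V →L[ℝ] ℝ :=
    LinearMap.toContinuousLinearMap
      ((LinearMap.toContinuousLinearMap (𝕜 := ℝ) (E := V) (F' := ℝ)).toLinearMap ∘ₗ q)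
  have hq' : ∀ x y, q' x y = q x y := fun x y => rfl
  have h1 : HasDerivAt (fun s : ℝ => q' (NormedSpace.exp (s • L') u) (NormedSpace.exp (s • L') v))
      (q (L u) v + q u (L v)) 0 := by
    have h2 : HasDerivAt (fun s : ℝ => q' (NormedSpace.exp (s • L') u)) (q' (L u)) 0 :=
      q'.hasFDerivAt.comp_hasDerivAt (0 : ℝ) (hflow u)
    have h3 := h2.clm_apply (hflow v)
    simpa [hq'] using h3
  have h2 : (fun s : ℝ => q' (NormedSpace.exp (s • L') u) (NormedSpace.exp (s • L') v)) =
      fun _ => q u v := by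
    ext s
    rw [hq', hq _ (fun w => killing L' hL s w)]
  rw [h2] at h1
  exact h1.unique (hasDerivAt_const _ _)

/-- `B` vanishes on the kernel of `h`. -/
theorem ker_zero (h : V →ₗ[ℝ] V →ₗ[ℝ] ℝ) (hsymm : ∀ u v, h u v = h v u)
    (B : V →ₗ[ℝ] V →ₗ[ℝ] V) (Bsymm : ∀ u v, B u v = B v u)
    (Btot : ∀ u v w, h (B u v) w = h (B u w) v)
    (hB : ∀ u v, u ≠ 0 → h u v = 0 → HasDerivAt (fun t : ℝ => ‖u + t • B u v‖) 0 0)
    {v : V} (hv : ∀ w, h v w = 0) (u : V) : B u v = 0 := by
  obtain ⟨q, qsymm, qpos, qinv⟩ := canon_form V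
  -- the skewness
  have hskew : ∀ v : V, (∀ w, h v w = 0) → ∀ x y : V, q (B x v) y + q x (B y v) = 0 := by
    intro v hv x y
    have := killing_skew q qinv (B v) (by
      intro u hu
      have h1 := hB u v hu (by rw [hsymm]; exact hv u)
      rwa [Bsymm u v] at h1) x y
    rwa [Bsymm v x, Bsymm v y] at this
  have hmap : ∀ v : V, (∀ w, h v w = 0) → ∀ x w : V, h (B x v) w = 0 := by
    intro v hv x w
    rw [Btot, hsymm]
    exact hv _
  -- `B` vanishes on `K × K`
  have hKK : ∀ x y : V, (∀ w, h x w = 0) → (∀ w, h y w = 0) → B x y = 0 := by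
    intro x y hx hy
    have hT : ∀ a b c : V, (∀ w, h a w = 0) → (∀ w, h b w = 0) → (∀ w, h c w = 0) →
        q (B a b) c = - q (B c b) a := by
      intro a b c ha hb hc
      have h1 := hskew b hb a c
      rw [qsymm a] at h1
      linarith
    have hz := hmap y hy x
    set z := B x y with hzdef
    -- `T x y z = 0`
    have e1 : q (B x y) z = - q (B z y) x := hT x y z hx hy hz
    have e2 : q (B y z) x = - q (B x z) y := hT y z x hy hz hx
    have e3 : q (B z x) y = - q (B y x) z := hT z x y hz hx hy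
    rw [Bsymm z y] at e1
    rw [Bsymm z x] at e3
    rw [Bsymm y x] at e3
    have e4 : q z z = 0 := by
      have : q (B x y) z = 0 := by linarith
      rw [hzdef] at this ⊢
      exact this
    by_contra hne
    exact (qpos z hne).ne' e4
  by_cases hu : ∀ w, h u w = 0
  · exact hKK u v hu hv
  · apply line_zero (u := u) (x := B u v)
    intro s hs t
    have h0 : B (B u v) v = 0 := hKK _ _ (hmap v hv u) hv
    have h1 := hB (u + s • B u v) v hs (by rw [hsymm]; exact hv _)
    have h2 : B (u + s • B u v) v = B u v := by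
      rw [map_add, map_smul, LinearMap.add_apply, LinearMap.smul_apply, h0, smul_zero, add_zero]
    rw [h2] at h1
    exact norm_le_of_hasDerivAt_zero h1 t

/-- The quadratic form lemma for semidefinite forms. -/
theorem quad_zero' (h : V →ₗ[ℝ] V →ₗ[ℝ] ℝ) (hsymm : ∀ u v, h u v = h v u)
    (hpos : ∀ u, 0 ≤ h u u) (W : Submodule ℝ V) (hKW : ∀ u, (∀ w, h u w = 0) → u ∈ W)
    (q : V →ₗ[ℝ] V →ₗ[ℝ] ℝ) (qsymm : ∀ u v, q u v = q v u)
    (hqK : ∀ u, (∀ w, h u w = 0) → ∀ v, q u v = 0)
    (hq : ∀ v ∈ W, h v v ≠ 0 → ∀ α : ℝ, (∀ w ∈ W, q v w = α * h v w) → α = 0) :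
    ∀ v ∈ W, ∀ w ∈ W, q v w = 0 := by
  let K : Submodule ℝ V := LinearMap.ker h
  have hK : ∀ v, v ∈ K ↔ ∀ w, h v w = 0 := by
    intro v
    rw [LinearMap.mem_ker]
    constructor
    · intro h0 w
      rw [h0]; rfl
    · intro h0
      ext w
      rw [h0]; rfl
  obtain ⟨C, hC⟩ := K.exists_isCompl
  let D : Submodule ℝ V := C ⊓ W
  -- decomposition
  have hdec : ∀ w ∈ W, ∃ k ∈ K, ∃ c ∈ D, w = k + c := by
    intro w hw
    have h1 : w ∈ K ⊔ C := by rw [hC.sup_eq_top]; exact Submodule.mem_top
    obtain ⟨k, hk, c, hc, hkc⟩ := Submodule.mem_sup.mp h1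
    refine ⟨k, hk, c, ⟨hc, ?_⟩, hkc.symm⟩
    have : c = w - k := by rw [← hkc]; abel
    rw [this]
    exact W.sub_mem hw (hKW k ((hK k).mp hk))
  have hnull : ∀ u, h u u = 0 → ∀ w, h u w = 0 := by
    intro u hu w
    exact psd_zero h ⊤ hsymm (fun u _ => hpos u) Submodule.mem_top hu w Submodule.mem_top
  have hDpos : ∀ u ∈ D, u ≠ 0 → h u u ≠ 0 := by
    intro u hu hu0 h0
    have h1 : u ∈ K := (hK u).mpr (hnull u h0)
    have h2 : u ∈ K ⊓ C := ⟨h1, hu.1⟩
    rw [hC.inf_eq_bot] at h2
    exact hu0 ((Submodule.mem_bot ℝ).mp h2)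
  have key := quad_zero (V := D) (h.domRestrict₁₂ D D)
    (by intro u v; exact hsymm _ _)
    (by
      intro u hu
      have h1 : (u : V) ≠ 0 := by
        intro h0
        exact hu (Subtype.ext h0)
      exact lt_of_le_of_ne (hpos _) (hDpos u u.2 h1).symm) ⊤
    (q.domRestrict₁₂ D D) (by intro u v; exact qsymm _ _)
    (by
      intro v _ hv0 α hα
      have h1 : (v : V) ≠ 0 := by
        intro h0
        exact hv0 (Subtype.ext h0)
      apply hq v v.2.2 (hDpos v v.2 h1) α
      intro w hw
      obtain ⟨k, hk, c, hc, rfl⟩ := hdec w hw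
      have h2 : q v c = α * h v c := hα ⟨c, hc⟩ Submodule.mem_top
      rw [map_add, map_add, h2, hsymm _ k, (hK k).mp hk, qsymm _ k, hqK k ((hK k).mp hk)]
      ring)
  intro v hv w hw
  obtain ⟨k, hk, c, hc, rfl⟩ := hdec v hv
  obtain ⟨k', hk', c', hc', rfl⟩ := hdec w hw
  have h1 : q c c' = 0 := key ⟨c, hc⟩ Submodule.mem_top ⟨c', hc'⟩ Submodule.mem_top
  have h2 : q (k + c) = q k + q c := map_add q k c
  rw [h2, LinearMap.add_apply, hqK k ((hK k).mp hk), map_add, h1, qsymm _ k',
    hqK k' ((hK k').mp hk')]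
  ring

/-- The general algebraic lemma. -/
theorem alg_general {V : Type*} [NormedAddCommGroup V] [NormedSpace ℝ V] [FiniteDimensional ℝ V]
    (h : V →ₗ[ℝ] V →ₗ[ℝ] ℝ) (hsymm : ∀ u v, h u v = h v u) (hpos : ∀ u, 0 ≤ h u u)
    (B : V →ₗ[ℝ] V →ₗ[ℝ] V) (Bsymm : ∀ u v, B u v = B v u)
    (Btot : ∀ u v w, h (B u v) w = h (B u w) v)
    (hB : ∀ u v, u ≠ 0 → h u v = 0 → HasDerivAt (fun t : ℝ => ‖u + t • B u v‖) 0 0) :
    ∃ β : V, (∀ u v, B u v = h u v • β) ∧
      (2 ≤ finrank ℝ (LinearMap.range h) → ∀ w, h β w = 0) := by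
  have hnull : ∀ u, h u u = 0 → ∀ w, h u w = 0 := by
    intro u hu w
    exact psd_zero h ⊤ hsymm (fun u _ => hpos u) Submodule.mem_top hu w Submodule.mem_top
  have hK1 : ∀ v, (∀ w, h v w = 0) → ∀ u, B u v = 0 := fun v hv u =>
    ker_zero h hsymm B Bsymm Btot hB hv u
  have hK1' : ∀ v, (∀ w, h v w = 0) → ∀ u, B v u = 0 := by
    intro v hv u
    rw [Bsymm]
    exact hK1 v hv u
  by_cases hzero : ∀ u, h u u = 0
  · refine ⟨0, ?_, ?_⟩
    · intro u v
      rw [smul_zero]
      exact hK1 v (hnull v (hzero v)) u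
    · intro _ w
      simp
  push Not at hzero
  obtain ⟨x₀, hx₀⟩ := hzero
  have hx₀n : x₀ ≠ 0 := by
    rintro rfl
    simp at hx₀
  have : Nontrivial V := ⟨x₀, 0, hx₀n⟩
  obtain ⟨e, hes, hmax⟩ := (isCompact_sphere (0 : V) 1).exists_isMaxOn
    (NormedSpace.sphere_nonempty.mpr zero_le_one) (continuous_quad h).continuousOn
  have hen : ‖e‖ = 1 := by simpa using hes
  have he0 : e ≠ 0 := by
    rintro rfl
    simp at hen
  set m : ℝ := h e e with hm
  have hle : ∀ u : V, h u u ≤ m * ‖u‖ ^ 2 := by
    intro u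
    by_cases hu : u = 0
    · simp [hu]
    have hmem : (‖u‖⁻¹) • u ∈ sphere (0 : V) 1 := by simp [norm_smul, hu]
    have h1 := hmax hmem
    simp only [map_smul, LinearMap.smul_apply, smul_eq_mul, mem_ofPred_eq] at h1
    have hn : 0 < ‖u‖ := norm_pos_iff.mpr hu
    have h2 : (‖u‖⁻¹ * (‖u‖⁻¹ * h u u)) * ‖u‖ ^ 2 ≤ m * ‖u‖ ^ 2 :=
      mul_le_mul_of_nonneg_right h1 (by positivity)
    have h3 : (‖u‖⁻¹ * (‖u‖⁻¹ * h u u)) * ‖u‖ ^ 2 = h u u := by
      field_simp
    linarith
  have hmpos : 0 < m := by
    have h1 := hle x₀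
    have h2 : 0 < h x₀ x₀ := lt_of_le_of_ne (hpos x₀) (Ne.symm hx₀)
    have h3 : 0 < m * ‖x₀‖ ^ 2 := lt_of_lt_of_le h2 h1
    have h4 : 0 < ‖x₀‖ ^ 2 := by positivity
    exact (pos_iff_pos_of_mul_pos h3).mpr h4
  -- first order condition
  have hfirst : ∀ w, HasDerivAt (fun t : ℝ => ‖e + t • w‖) 0 0 → h e w = 0 := by
    intro w h1
    have h2 : HasDerivAt (fun t : ℝ => m * ‖e + t • w‖ ^ 2) 0 0 := by
      have := (h1.pow 2).const_mul m
      simpa [hen] using this
    have h3 : HasDerivAt (fun t : ℝ => h (e + t • w) (e + t • w)) (2 * h e w) 0 := by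
      have h4 : (fun t : ℝ => h (e + t • w) (e + t • w)) =
          fun t : ℝ => m + t * (2 * h e w) + t ^ 2 * h w w := by
        ext t
        simp only [map_add, map_smul, LinearMap.add_apply, LinearMap.smul_apply, smul_eq_mul,
          hsymm w e, ← hm]
        ring
      rw [h4]
      have h5 : HasDerivAt (fun t : ℝ => m + t * (2 * h e w) + t ^ 2 * h w w)
          (1 * (2 * h e w) + ((2 : ℕ) * (0 : ℝ) ^ (2 - 1) * 1) * h w w) 0 :=
        (((hasDerivAt_id (0 : ℝ)).mul_const (2 * h e w)).const_add m).add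
          (((hasDerivAt_id (0 : ℝ)).pow 2).mul_const (h w w))
      convert h5 using 1
      norm_num
    have h4 := h3.sub h2
    have h5 : IsLocalMax ((fun t : ℝ => h (e + t • w) (e + t • w)) -
        (fun t : ℝ => m * ‖e + t • w‖ ^ 2)) 0 := by
      filter_upwards with t
      have := hle (e + t • w)
      simp only [Pi.sub_apply]
      have h0 : h (e + (0 : ℝ) • w) (e + (0 : ℝ) • w) - m * ‖e + (0 : ℝ) • w‖ ^ 2 = 0 := by
        simp [hen, ← hm]
      rw [h0]
      linarith
    have h6 := h5.hasDerivAt_eq_zero h4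
    linarith
  -- `h (B e e)` vanishes on the orthogonal complement of `e`
  have ha : ∀ v, h e v = 0 → h (B e e) v = 0 := by
    intro v hv
    rw [Btot, hsymm]
    exact hfirst _ (hB e v he0 hv)
  have hproj : ∀ w, h e (w - (h e w / m) • e) = 0 := by
    intro w
    rw [map_sub, map_smul, smul_eq_mul, ← hm]
    field_simp
    ring
  have hWperp : ∀ x, (∀ w, h e w = 0 → h x w = 0) → ∀ w, h (x - (h x e / m) • e) w = 0 := by
    intro x hx w
    have h1 := hx _ (hproj w)
    rw [map_sub, map_smul, smul_eq_mul] at h1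
    rw [map_sub, LinearMap.sub_apply, map_smul, LinearMap.smul_apply, smul_eq_mul]
    have h2 : h x w = h e w / m * h x e := by linarith
    rw [h2]
    ring
  let W : Submodule ℝ V := LinearMap.ker (h e)
  have hW : ∀ v, v ∈ W ↔ h e v = 0 := fun v => LinearMap.mem_ker
  have hKW : ∀ u, (∀ w, h u w = 0) → u ∈ W := by
    intro u hu
    rw [hW, hsymm]
    exact hu e
  -- `B e` maps `W` into `K`
  have hA : ∀ v ∈ W, ∀ w, h (B e v) w = 0 := by
    intro v hv
    have hbe : ∀ v ∈ W, h (B e v) e = 0 := by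
      intro v hv
      rw [Btot]
      exact ha v ((hW v).mp hv)
    have hq := quad_zero' h hsymm hpos W hKW (h.comp (B e)) (by
        intro u w
        exact Btot e u w)
      (by
        intro u hu w
        show h (B e u) w = 0
        rw [hK1 u hu e, map_zero, LinearMap.zero_apply])
      (by
        intro v hv hvv α hα
        by_contra hα0
        have hα' : ∀ w ∈ W, h (B e v) w = α * h v w := hα
        have hx1 : h (B e v - α • v) e = 0 := by
          rw [map_sub, LinearMap.sub_apply, map_smul, LinearMap.smul_apply, hbe v hv, hsymm v e,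
            (hW v).mp hv, smul_zero, sub_zero]
        have hx : ∀ w, h (B e v - α • v) w = 0 := by
          have h1 := hWperp (B e v - α • v) (by
            intro w hw
            rw [map_sub, LinearMap.sub_apply, map_smul, LinearMap.smul_apply, smul_eq_mul,
              hα' w ((hW w).mpr hw), sub_self])
          rw [hx1, zero_div, zero_smul, sub_zero] at h1
          exact h1
        set x := B e v - α • v with hxdef
        have hBv : B e v = α • v + x := by rw [hxdef]; abel
        have hBv1 : B (v + α⁻¹ • x) e = α • (v + α⁻¹ • x) := by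
          rw [map_add, LinearMap.add_apply, map_smul, LinearMap.smul_apply, hK1' x hx, smul_zero,
            add_zero, Bsymm v e, hBv, smul_add, smul_smul, mul_inv_cancel₀ hα0, one_smul]
        have hv1 : v + α⁻¹ • x ≠ 0 := by
          intro h0
          have h1 : h (v + α⁻¹ • x) v = h v v := by
            rw [map_add, LinearMap.add_apply, map_smul, LinearMap.smul_apply, hx, smul_zero,
              add_zero]
          rw [h0, map_zero, LinearMap.zero_apply] at h1
          exact hvv h1.symm
        have hv1e : h (v + α⁻¹ • x) e = 0 := by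
          rw [map_add, LinearMap.add_apply, map_smul, LinearMap.smul_apply, hx, smul_zero,
            add_zero, hsymm]
          exact (hW v).mp hv
        have h1 := hB _ e hv1 hv1e
        rw [hBv1] at h1
        exact hα0 (eigen_zero hv1 (norm_le_of_hasDerivAt_zero h1)))
    have h1 := hWperp (B e v) (fun w hw => hq v hv w ((hW w).mpr hw))
    rw [hbe v hv, zero_div, zero_smul, sub_zero] at h1
    exact h1
  have hA0 : ∀ v ∈ W, B e v = 0 := by
    intro v hv
    apply line_zero (u := v)
    intro s hs t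
    have h1 : h (v + s • B e v) e = 0 := by
      rw [map_add, LinearMap.add_apply, map_smul, LinearMap.smul_apply, hA v hv, smul_zero,
        add_zero, hsymm]
      exact (hW v).mp hv
    have h2 := hB _ e hs h1
    have h3 : B (v + s • B e v) e = B e v := by
      rw [map_add, LinearMap.add_apply, map_smul, LinearMap.smul_apply, hK1' _ (hA v hv),
        smul_zero, add_zero, Bsymm]
    rw [h3] at h2
    exact norm_le_of_hasDerivAt_zero h2 t
  -- `B u e`
  have hBue : ∀ u, B u e = (h u e / m) • B e e := by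
    intro u
    have h1 := hA0 _ ((hW _).mpr (hproj u))
    rw [map_sub, map_smul, sub_eq_zero] at h1
    rw [Bsymm, h1, hsymm u e]
  -- the maps `C v`
  have hC : ∀ v ∈ W, ∀ u, B u v = (h u v / m) • B e e := by
    intro v hv
    let C : V → V := fun u => B u v - (h u v / m) • B e e
    have hCadd : ∀ u w, C (u + w) = C u + C w := by
      intro u w
      simp only [C, map_add, LinearMap.add_apply, add_div, add_smul]
      abel
    have hCsmul : ∀ (c : ℝ) u, C (c • u) = c • C u := by
      intro c u
      simp only [C, map_smul, LinearMap.smul_apply, smul_eq_mul, smul_sub, smul_smul]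
      congr 2
      ring
    have hCe : C e = 0 := by
      simp only [C]
      rw [hA0 v hv, (hW v).mp hv, zero_div, zero_smul, sub_zero]
    have hCK : ∀ y, (∀ w, h y w = 0) → C y = 0 := by
      intro y hy
      simp only [C]
      rw [hK1' y hy, hy, zero_div, zero_smul, sub_zero]
    -- Birkhoff orthogonality off `W`
    have h1 : ∀ u, h u e ≠ 0 → ∀ t : ℝ, ‖u‖ ≤ ‖u + t • C u‖ := by
      intro u hu
      have hu0 : u ≠ 0 := by
        rintro rfl
        simp at hu
      have h2 : h u (v - (h u v / h u e) • e) = 0 := by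
        rw [map_sub, map_smul, smul_eq_mul, div_mul_cancel₀ _ hu, sub_self]
      have h3 := hB u _ hu0 h2
      have h4 : B u (v - (h u v / h u e) • e) = C u := by
        simp only [C]
        rw [map_sub, map_smul, hBue, smul_smul]
        congr 2
        field_simp
      rw [h4] at h3
      exact norm_le_of_hasDerivAt_zero h3
    -- closure
    have h2 : ∀ u, ∀ t : ℝ, ‖u‖ ≤ ‖u + t • C u‖ := by
      intro u t
      by_cases hu : h u e = 0
      · have h3 : ∀ s : ℝ, s ≠ 0 → ‖u + s • e‖ ≤ ‖u + s • e + t • C u‖ := by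
          intro s hs
          have h4 : h (u + s • e) e ≠ 0 := by
            rw [map_add, LinearMap.add_apply, map_smul, LinearMap.smul_apply, hu, zero_add,
              smul_eq_mul, ← hm]
            exact mul_ne_zero hs hmpos.ne'
          have h5 := h1 _ h4 t
          rw [hCadd, hCsmul, hCe, smul_zero, add_zero] at h5
          exact h5
        have h4 : Tendsto (fun s : ℝ => ‖u + s • e‖) (𝓝[≠] 0) (𝓝 ‖u‖) := by
          have hc : Continuous fun s : ℝ => ‖u + s • e‖ := by fun_prop
          have h5 := hc.tendsto 0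
          simp only [zero_smul, add_zero] at h5
          exact h5.mono_left nhdsWithin_le_nhds
        have h5 : Tendsto (fun s : ℝ => ‖u + s • e + t • C u‖) (𝓝[≠] 0) (𝓝 ‖u + t • C u‖) := by
          have hc : Continuous fun s : ℝ => ‖u + s • e + t • C u‖ := by fun_prop
          have h5 := hc.tendsto 0
          simp only [zero_smul, add_zero] at h5
          exact h5.mono_left nhdsWithin_le_nhds
        refine le_of_tendsto_of_tendsto h4 h5 ?_
        filter_upwards [self_mem_nhdsWithin] with s hs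
        exact h3 s hs
      · exact h1 u hu t
    -- `C` kills vectors orthogonal to `W`
    have hCperp : ∀ x, (∀ w, h e w = 0 → h x w = 0) → C x = 0 := by
      intro x hx
      have h3 := hCK _ (hWperp x hx)
      have h4 : x = (x - (h x e / m) • e) + (h x e / m) • e := by abel
      rw [h4, hCadd, h3, hCsmul, hCe, smul_zero, add_zero]
    -- the form vanishes on `W`
    have hq := quad_zero' h hsymm hpos W hKW (h.comp (B v)) (by
        intro u w
        exact Btot v u w)
      (by
        intro u hu w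
        show h (B v u) w = 0
        rw [hK1 u hu v, map_zero, LinearMap.zero_apply])
      (by
        intro u hu huu α hα
        by_contra hα0
        have hα' : ∀ w ∈ W, h (B v u) w = α * h u w := hα
        have hx : ∀ w, h e w = 0 → h (C u - α • u) w = 0 := by
          intro w hw
          simp only [C]
          rw [map_sub, map_sub, map_smul, map_smul, LinearMap.sub_apply, LinearMap.sub_apply,
            LinearMap.smul_apply, LinearMap.smul_apply, ha w hw, Bsymm u v,
            hα' w ((hW w).mpr hw)]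
          simp
        have hCx := hCperp _ hx
        set x := C u - α • u with hxdef
        have hCu : C u = α • u + x := by rw [hxdef]; abel
        have hCu1 : C (u + α⁻¹ • x) = α • (u + α⁻¹ • x) := by
          rw [hCadd, hCsmul, hCx, smul_zero, add_zero, hCu, smul_add, smul_smul,
            mul_inv_cancel₀ hα0, one_smul]
        have hu1 : u + α⁻¹ • x ≠ 0 := by
          intro h0
          have h3 : h (u + α⁻¹ • x) u = h u u := by
            rw [map_add, LinearMap.add_apply, map_smul, LinearMap.smul_apply,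
              hx u ((hW u).mp hu), smul_zero, add_zero]
          rw [h0, map_zero, LinearMap.zero_apply] at h3
          exact huu h3.symm
        have h3 := h2 (u + α⁻¹ • x)
        rw [hCu1] at h3
        exact hα0 (eigen_zero hu1 h3))
    have hCW : ∀ u ∈ W, C u = 0 := by
      intro u hu
      have hx : ∀ w, h e w = 0 → h (C u) w = 0 := by
        intro w hw
        simp only [C]
        have h3 : h (B v u) w = 0 := hq u hu w ((hW w).mpr hw)
        rw [map_sub, map_smul, LinearMap.sub_apply, LinearMap.smul_apply, ha w hw, Bsymm u v, h3]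
        simp
      apply line_zero (u := u)
      intro s hs t
      have h3 := h2 (u + s • C u) t
      rw [hCadd, hCsmul, hCperp _ hx, smul_zero, add_zero] at h3
      exact h3
    intro u
    have h3 : C u = 0 := by
      have h4 : u = (u - (h e u / m) • e) + (h e u / m) • e := by abel
      rw [h4, hCadd, hCsmul, hCe, smul_zero, add_zero]
      exact hCW _ ((hW _).mpr (hproj u))
    exact sub_eq_zero.mp h3
  have hall : ∀ u v, B u v = (h u v / m) • B e e := by
    intro u v
    have h1 := hC _ ((hW _).mpr (hproj v)) u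
    rw [map_sub, map_smul, hBue, map_sub, map_smul, smul_eq_mul, sub_div, sub_smul,
      sub_eq_sub_iff_add_eq_add, smul_smul] at h1
    have h2 : h e v / m * (h u e / m) = h e v / m * h u e / m := by ring
    rw [h2] at h1
    exact add_right_cancel h1
  refine ⟨m⁻¹ • B e e, ?_, ?_⟩
  · intro u v
    rw [hall u v, smul_smul]
    rfl
  · intro hrank w
    obtain ⟨u, huW, huu⟩ : ∃ u ∈ W, h u u ≠ 0 := by
      by_contra hcon
      push Not at hcon
      have hWK : W ≤ LinearMap.ker h := by
        intro u hu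
        rw [LinearMap.mem_ker]
        ext w
        exact hnull u (hcon u hu) w
      have h1 := LinearMap.finrank_range_add_finrank_ker h
      have h2 := LinearMap.finrank_range_add_finrank_ker (h e)
      have h3 : finrank ℝ (LinearMap.range (h e)) ≤ 1 := by
        have := Submodule.finrank_le (LinearMap.range (h e))
        rwa [finrank_self] at this
      have h4 : finrank ℝ W ≤ finrank ℝ (LinearMap.ker h) := Submodule.finrank_mono hWK
      have h5 : finrank ℝ (LinearMap.ker (h e)) = finrank ℝ W := rfl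
      omega
    have h1 : h (B u u) e = 0 := by
      rw [Btot, Bsymm u e, hA0 u huW, map_zero, LinearMap.zero_apply]
    have h2 : h (B e e) e = 0 := by
      rw [hall u u, map_smul, LinearMap.smul_apply, smul_eq_mul] at h1
      exact (mul_eq_zero.mp h1).resolve_left (div_ne_zero huu hmpos.ne')
    have h3 := hWperp (B e e) ha w
    rw [h2, zero_div, zero_smul, sub_zero] at h3
    rw [map_smul, LinearMap.smul_apply, h3, smul_zero]

end AlgG

end Vale.Agent.P084
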