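import Mathlib

/-!
# Generic strict differentiability (P084)

A map which is differentiable away from the origin is strictly differentiable at the points of a
residual set.
-/

open Metric Set Filter Topology MeasureTheory Module

namespace Vale.Agent.P084

section Baire

variable {X : Type*} [TopologicalSpace X] [BaireSpace X] {G : Type*} [PseudoMetricSpace G]

omit [BaireSpace X] in
theorem isOpen_osc (F : X → G) (ε : ℝ) :
    IsOpen {z : X | ∃ W ∈ 𝓝 z, ∀ x ∈ W, ∀ y ∈ W, dist (F x) (F y) ≤ ε} := by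
  rw [isOpen_iff_mem_nhds]
  rintro z ⟨W, hW, h⟩
  obtain ⟨W', hW', hWo, hz⟩ := mem_nhds_iff.mp hW
  refine mem_nhds_iff.mpr ⟨W', ?_, hWo, hz⟩
  intro x hx
  exact ⟨W', hWo.mem_nhds hx, fun a ha b hb => h a (hW' ha) b (hW' hb)⟩

theorem dense_osc {O : Set X} (hO : IsOpen O) (hd : Dense O) (f : ℕ → X → G) (F : X → G)
    (hf : ∀ n, ContinuousOn (f n) O)
    (hlim : ∀ z ∈ O, Tendsto (fun n => f n z) atTop (𝓝 (F z))) {ε : ℝ} (hε : 0 < ε) :
    Dense {z : X | ∃ W ∈ 𝓝 z, ∀ x ∈ W, ∀ y ∈ W, dist (F x) (F y) ≤ ε} := by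
  set δ : ℝ := ε / 3 with hδ
  have hδ0 : 0 < δ := by positivity
  let E : ℕ → Set X := fun N => {z | z ∈ O ∧ ∀ m ≥ N, ∀ n ≥ N, dist (f m z) (f n z) ≤ δ}
  have hEcl : ∀ N, ∀ z ∈ O, z ∈ closure (E N) → z ∈ E N := by
    intro N z hzO hz
    refine ⟨hzO, fun m hm n hn => ?_⟩
    by_contra hlt
    push Not at hlt
    have hc : ContinuousAt (fun x => dist (f m x) (f n x)) z := by
      exact ((hf m).continuousAt (hO.mem_nhds hzO)).dist ((hf n).continuousAt (hO.mem_nhds hzO))
    have hev : ∀ᶠ x in 𝓝 z, δ < dist (f m x) (f n x) := hc.eventually (lt_mem_nhds hlt)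
    obtain ⟨x, hx1, hx2⟩ := mem_closure_iff_nhds.mp hz _ hev
    have := hx2.2 m hm n hn
    have h3 : δ < dist (f m x) (f n x) := hx1
    linarith
  let C : ℕ → Set X := fun N => closure (E N) ∪ Oᶜ
  have hCc : ∀ N, IsClosed (C N) := fun N => isClosed_closure.union hO.isClosed_compl
  have hCU : ⋃ N, C N = univ := by
    rw [eq_univ_iff_forall]
    intro z
    by_cases hz : z ∈ O
    · have hcs : CauchySeq (fun n => f n z) := (hlim z hz).cauchySeq
      obtain ⟨N, hN⟩ := Metric.cauchySeq_iff.mp hcs δ hδ0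
      refine mem_iUnion.mpr ⟨N, Or.inl (subset_closure ⟨hz, fun m hm n hn => ?_⟩)⟩
      exact (hN m hm n hn).le
    · exact mem_iUnion.mpr ⟨0, Or.inr hz⟩
  have hdense := dense_iUnion_interior_of_closed hCc hCU
  rw [dense_iff_inter_open]
  intro O' hO' hne
  have hne2 : (O' ∩ O).Nonempty := hd.inter_open_nonempty O' hO' hne
  obtain ⟨z, ⟨hz1, hz2⟩, hz3⟩ := hdense.inter_open_nonempty (O' ∩ O) (hO'.inter hO) hne2
  obtain ⟨N, hzN⟩ := mem_iUnion.mp hz3
  refine ⟨z, hz1, ?_⟩
  have hEz : ∀ x ∈ interior (C N) ∩ O, x ∈ E N := by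
    rintro x ⟨hx1, hx2⟩
    have := interior_subset hx1
    rcases this with h | h
    · exact hEcl N x hx2 h
    · exact absurd hx2 h
  have hlimle : ∀ x ∈ interior (C N) ∩ O, dist (f N x) (F x) ≤ δ := by
    intro x hx
    have hE := hEz x hx
    have ht : Tendsto (fun n => dist (f N x) (f n x)) atTop (𝓝 (dist (f N x) (F x))) :=
      tendsto_const_nhds.dist (hlim x hx.2)
    apply le_of_tendsto ht
    filter_upwards [eventually_ge_atTop N] with n hn
    exact hE.2 N le_rfl n hn
  have hcN : ContinuousAt (f N) z := (hf N).continuousAt (hO.mem_nhds hz2)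
  have hW2 : {x | dist (f N x) (f N z) < δ / 2} ∈ 𝓝 z := by
    have := Metric.tendsto_nhds.mp hcN (δ / 2) (by positivity)
    exact this
  refine ⟨(interior (C N) ∩ O) ∩ {x | dist (f N x) (f N z) < δ / 2}, ?_, ?_⟩
  · exact inter_mem (inter_mem (isOpen_interior.mem_nhds hzN) (hO.mem_nhds hz2)) hW2
  · rintro x ⟨hx1, hx2⟩ y ⟨hy1, hy2⟩
    have h1 := hlimle x hx1
    have h2 := hlimle y hy1
    have hx3 : dist (f N x) (f N z) < δ / 2 := hx2
    have hy3 : dist (f N y) (f N z) < δ / 2 := hy2
    calc dist (F x) (F y) ≤ dist (F x) (f N x) + dist (f N x) (f N z) + dist (f N z) (F y) :=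
          dist_triangle4 _ _ _ _
      _ ≤ dist (F x) (f N x) + dist (f N x) (f N z) + (dist (f N z) (f N y) + dist (f N y) (F y)) := by
          gcongr
          exact dist_triangle _ _ _
      _ ≤ δ + δ / 2 + (δ / 2 + δ) := by
          rw [dist_comm (F x) (f N x), dist_comm (f N z) (f N y)]
          gcongr
      _ = ε := by rw [hδ]; ring

/-- The points of continuity of a pointwise limit of continuous functions are generic. -/
theorem residual_continuousAt {O : Set X} (hO : IsOpen O) (hd : Dense O) (f : ℕ → X → G)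
    (F : X → G) (hf : ∀ n, ContinuousOn (f n) O)
    (hlim : ∀ z ∈ O, Tendsto (fun n => f n z) atTop (𝓝 (F z))) :
    {z : X | ContinuousAt F z} ∈ residual X := by
  have h1 : ∀ k : ℕ, {z : X | ∃ W ∈ 𝓝 z, ∀ x ∈ W, ∀ y ∈ W, dist (F x) (F y) ≤ 1 / ((k : ℝ) + 1)}
      ∈ residual X := fun k =>
    residual_of_dense_open (isOpen_osc F _) (dense_osc hO hd f F hf hlim (by positivity))
  have h2 := countable_iInter_mem.mpr h1
  refine mem_of_superset h2 ?_
  intro z hz
  rw [mem_iInter] at hz
  show ContinuousAt F z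
  rw [ContinuousAt, Metric.tendsto_nhds]
  intro ε hε
  obtain ⟨k, hk⟩ := exists_nat_one_div_lt hε
  obtain ⟨W, hW, h⟩ := hz k
  filter_upwards [hW] with x hx
  exact lt_of_le_of_lt (h x hx z (mem_of_mem_nhds hW)) hk

end Baire

/-- generic strict differentiability. -/
theorem residual_strict {X G : Type*} [NormedAddCommGroup X] [NormedSpace ℝ X]
    [FiniteDimensional ℝ X] [NormedAddCommGroup G] [NormedSpace ℝ G] [FiniteDimensional ℝ G]
    (g : X → G) (hg : ∀ z : X, z ≠ 0 → DifferentiableAt ℝ g z) :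
    {z : X | ∃ L : X →L[ℝ] G, HasStrictFDerivAt g L z} ∈ residual X := by
  have : CompleteSpace X := FiniteDimensional.complete ℝ X
  rcases subsingleton_or_nontrivial X with hX | hX
  · have : {z : X | ∃ L : X →L[ℝ] G, HasStrictFDerivAt g L z} = univ := by
      rw [eq_univ_iff_forall]
      intro z
      refine ⟨0, ?_⟩
      have : g = fun _ => g 0 := by
        ext x
        rw [Subsingleton.elim x 0]
      rw [this]
      exact hasStrictFDerivAt_const _ _
    rw [this]
    exact univ_mem
  have hO : IsOpen ({0}ᶜ : Set X) := isOpen_compl_singleton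
  have hd : Dense ({0}ᶜ : Set X) := by
    have : NeBot (𝓝[≠] (0 : X)) := Module.punctured_nhds_neBot ℝ X 0
    exact dense_compl_singleton 0
  -- continuity of the directional derivatives
  have key : ∀ v : X, {z : X | ContinuousAt (fun z => fderiv ℝ g z v) z} ∈ residual X := by
    intro v
    let t : ℕ → X → ℝ := fun n z => min (1 / ((n : ℝ) + 1)) (‖z‖ / (2 * (‖v‖ + 1)))
    have htc : ∀ n, Continuous (t n) := fun n => by fun_prop
    have htpos : ∀ n, ∀ z, z ≠ 0 → 0 < t n z := by
      intro n z hz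
      have : 0 < ‖z‖ := norm_pos_iff.mpr hz
      exact lt_min (by positivity) (by positivity)
    have htne : ∀ n, ∀ z, z ≠ 0 → z + t n z • v ≠ 0 := by
      intro n z hz h0
      have hz' : 0 < ‖z‖ := norm_pos_iff.mpr hz
      have h1 : ‖z‖ = t n z * ‖v‖ := by
        have : z = -(t n z • v) := eq_neg_of_add_eq_zero_left h0
        calc ‖z‖ = ‖-(t n z • v)‖ := by rw [← this]
          _ = t n z * ‖v‖ := by rw [norm_neg, norm_smul, Real.norm_of_nonneg (htpos n z hz).le]
      have h2 : t n z * ‖v‖ ≤ ‖z‖ / (2 * (‖v‖ + 1)) * ‖v‖ :=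
        mul_le_mul_of_nonneg_right (min_le_right _ _) (norm_nonneg v)
      have h3 : ‖z‖ / (2 * (‖v‖ + 1)) * ‖v‖ < ‖z‖ := by
        have hv : 0 ≤ ‖v‖ := norm_nonneg v
        rw [div_mul_eq_mul_div, div_lt_iff₀ (by positivity)]
        nlinarith
      linarith
    apply residual_continuousAt hO hd (fun n z => (t n z)⁻¹ • (g (z + t n z • v) - g z))
    · intro n z hz
      have hz : z ≠ 0 := hz
      apply ContinuousAt.continuousWithinAt
      apply ContinuousAt.smul
      · exact ((htc n).continuousAt).inv₀ (htpos n z hz).ne'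
      · apply ContinuousAt.sub
        · have h1 : ContinuousAt g (z + t n z • v) := (hg _ (htne n z hz)).continuousAt
          have h2 : ContinuousAt (fun z => z + t n z • v) z := by
            have := htc n
            fun_prop
          exact ContinuousAt.comp (f := fun z => z + t n z • v) h1 h2
        · exact (hg z hz).continuousAt
    · intro z hz
      have hz : z ≠ 0 := hz
      have hder : HasFDerivAt g (fderiv ℝ g z) z := (hg z hz).hasFDerivAt
      have hline : HasLineDerivAt ℝ g (fderiv ℝ g z v) z v := hder.hasLineDerivAt v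
      have hslope := hline.tendsto_slope_zero
      have ht0 : Tendsto (fun n => t n z) atTop (𝓝[≠] 0) := by
        rw [tendsto_nhdsWithin_iff]
        refine ⟨?_, Eventually.of_forall fun n => (htpos n z hz).ne'⟩
        have h1 : Tendsto (fun n : ℕ => 1 / ((n : ℝ) + 1)) atTop (𝓝 0) :=
          tendsto_one_div_add_atTop_nhds_zero_nat
        exact squeeze_zero (fun n => (htpos n z hz).le) (fun n => min_le_left _ _) h1
      exact hslope.comp ht0
  -- a basis
  let b := Module.finBasis ℝ X
  have hall : ∀ᶠ z in residual X, ∀ i, ContinuousAt (fun z => fderiv ℝ g z (b i)) z := by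
    rw [eventually_all]
    intro i
    exact key (b i)
  have hne0 : ∀ᶠ z in residual X, z ≠ 0 := residual_of_dense_open hO hd
  filter_upwards [hall, hne0] with z hz hz0
  refine ⟨fderiv ℝ g z, ?_⟩
  apply hasStrictFDerivAt_of_hasFDerivAt_of_continuousAt
  · filter_upwards [hO.mem_nhds hz0] with y hy
    exact (hg y hy).hasFDerivAt
  · rw [continuousAt_clm_apply]
    intro y
    have : (fun x => fderiv ℝ g x y) =
        fun x => ∑ i, b.repr y i • fderiv ℝ g x (b i) := by
      ext x
      conv_lhs => rw [← b.sum_repr y, map_sum]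
      simp only [map_smul]
    rw [this]
    have h : ∀ i, ContinuousAt (fun x => b.repr y i • fderiv ℝ g x (b i)) z :=
      fun i => (hz i).const_smul _
    exact tendsto_finsetSum _ fun i _ => h i

end Vale.Agent.P084
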