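import Vale.Agent.P084.Baire

/-!
# Generic strict differentiability on a dense open set (P084, piece (F), helper15)

A map which is differentiable on a dense open set is strictly differentiable at the points of a
residual set.
-/

open Metric Set Filter Topology MeasureTheory Module

namespace Vale.Agent.P084

/-- A continuous positive radius of balls inside an open set. -/
theorem exists_radius {X : Type*} [PseudoMetricSpace X] {O : Set X} (hO : IsOpen O) :
    ∃ δ : X → ℝ, Continuous δ ∧ (∀ z ∈ O, 0 < δ z) ∧ (∀ z, 0 ≤ δ z) ∧
      ∀ z ∈ O, ∀ y, dist y z < δ z → y ∈ O := by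
  rcases (Oᶜ).eq_empty_or_nonempty with h | h
  · refine ⟨fun _ => 1, continuous_const, fun _ _ => one_pos, fun _ => zero_le_one, ?_⟩
    intro z _ y _
    by_contra hy
    have : y ∈ Oᶜ := hy
    rw [h] at this
    exact this
  · refine ⟨fun z => infDist z Oᶜ, continuous_infDist_pt _, ?_, fun _ => infDist_nonneg, ?_⟩
    · intro z hz
      have h1 : z ∉ closure Oᶜ := by
        rw [hO.isClosed_compl.closure_eq]
        exact fun h' => h' hz
      exact lt_of_le_of_ne infDist_nonneg
        fun h0 => h1 ((mem_closure_iff_infDist_zero h).2 h0.symm)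
    · intro z _ y hy
      by_contra hcon
      have h1 : infDist z Oᶜ ≤ dist z y := infDist_le_dist_of_mem hcon
      rw [dist_comm] at h1
      exact absurd hy (not_lt.2 h1)

/-- (F) local generic strict differentiability. -/
theorem residual_strict_local {X G : Type*} [NormedAddCommGroup X] [NormedSpace ℝ X]
    [FiniteDimensional ℝ X] [NormedAddCommGroup G] [NormedSpace ℝ G] [FiniteDimensional ℝ G]
    (O : Set X) (hO : IsOpen O) (hOd : Dense O)
    (g : X → G) (hg : ∀ z ∈ O, DifferentiableAt ℝ g z) :
    {z : X | z ∈ O ∧ ∃ L : X →L[ℝ] G, HasStrictFDerivAt g L z} ∈ residual X := by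
  have : CompleteSpace X := FiniteDimensional.complete ℝ X
  obtain ⟨δ, hδc, hδpos, hδ0, hδ⟩ := exists_radius hO
  -- continuity of the directional derivatives
  have key : ∀ v : X, {z : X | ContinuousAt (fun z => fderiv ℝ g z v) z} ∈ residual X := by
    intro v
    let t : ℕ → X → ℝ := fun n z => min (1 / ((n : ℝ) + 1)) (δ z / (2 * (‖v‖ + 1)))
    have htc : ∀ n, Continuous (t n) := fun n => by fun_prop
    have htpos : ∀ n, ∀ z ∈ O, 0 < t n z := by
      intro n z hz
      have := hδpos z hz
      exact lt_min (by positivity) (by positivity)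
    have htne : ∀ n, ∀ z ∈ O, z + t n z • v ∈ O := by
      intro n z hz
      refine hδ z hz _ ?_
      have hz' := hδpos z hz
      rw [dist_eq_norm, add_sub_cancel_left, norm_smul, Real.norm_of_nonneg (htpos n z hz).le]
      have h2 : t n z * ‖v‖ ≤ δ z / (2 * (‖v‖ + 1)) * ‖v‖ :=
        mul_le_mul_of_nonneg_right (min_le_right _ _) (norm_nonneg v)
      have h3 : δ z / (2 * (‖v‖ + 1)) * ‖v‖ < δ z := by
        have hv : 0 ≤ ‖v‖ := norm_nonneg v
        rw [div_mul_eq_mul_div, div_lt_iff₀ (by positivity)]
        nlinarith
      linarith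
    apply residual_continuousAt hO hOd (fun n z => (t n z)⁻¹ • (g (z + t n z • v) - g z))
    · intro n z hz
      apply ContinuousAt.continuousWithinAt
      apply ContinuousAt.smul
      · exact ((htc n).continuousAt).inv₀ (htpos n z hz).ne'
      · apply ContinuousAt.sub
        · have h1 : ContinuousAt g (z + t n z • v) := (hg _ (htne n z hz)).continuousAt
          have h2 : ContinuousAt (fun z => z + t n z • v) z := by
            have := htc n
            fun_prop
          exact ContinuousAt.comp (f := fun z => z + t n z • v) h1 h2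
        · exact (hg z hz).continuousAt
    · intro z hz
      have hder : HasFDerivAt g (fderiv ℝ g z) z := (hg z hz).hasFDerivAt
      have hline : HasLineDerivAt ℝ g (fderiv ℝ g z v) z v := hder.hasLineDerivAt v
      have hslope := hline.tendsto_slope_zero
      have ht0 : Tendsto (fun n => t n z) atTop (𝓝[≠] 0) := by
        rw [tendsto_nhdsWithin_iff]
        refine ⟨?_, Eventually.of_forall fun n => (htpos n z hz).ne'⟩
        have h1 : Tendsto (fun n : ℕ => 1 / ((n : ℝ) + 1)) atTop (𝓝 0) :=
          tendsto_one_div_add_atTop_nhds_zero_nat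
        exact squeeze_zero (fun n => (htpos n z hz).le) (fun n => min_le_left _ _) h1
      exact hslope.comp ht0
  -- a basis
  let b := Module.finBasis ℝ X
  have hall : ∀ᶠ z in residual X, ∀ i, ContinuousAt (fun z => fderiv ℝ g z (b i)) z := by
    rw [eventually_all]
    intro i
    exact key (b i)
  have hne0 : ∀ᶠ z in residual X, z ∈ O := residual_of_dense_open hO hOd
  filter_upwards [hall, hne0] with z hz hz0
  refine ⟨hz0, fderiv ℝ g z, ?_⟩
  apply hasStrictFDerivAt_of_hasFDerivAt_of_continuousAt
  · filter_upwards [hO.mem_nhds hz0] with y hy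
    exact (hg y hy).hasFDerivAt
  · rw [continuousAt_clm_apply]
    intro y
    have : (fun x => fderiv ℝ g x y) =
        fun x => ∑ i, b.repr y i • fderiv ℝ g x (b i) := by
      ext x
      conv_lhs => rw [← b.sum_repr y, map_sum]
      simp only [map_smul]
    rw [this]
    have h : ∀ i, ContinuousAt (fun x => b.repr y i • fderiv ℝ g x (b i)) z :=
      fun i => (hz i).const_smul _
    exact tendsto_finsetSum _ fun i _ => h i

end Vale.Agent.P084
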