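import Mathlib

open Metric Set Filter Topology MeasureTheory Module

namespace Vale.Agent.P084

/-- A bijection `F : X → Y` with inverse `G` that commutes with all real scalars and preserves the
distance of any two points of equal norm.  Surjective isometries between unit spheres that commute
with `x ↦ -x` are the same thing as such maps. -/
structure SphMap (X Y : Type*) [NormedAddCommGroup X] [NormedSpace ℝ X]
    [NormedAddCommGroup Y] [NormedSpace ℝ Y] where
  F : X → Y
  G : Y → X
  left_inv : ∀ x, G (F x) = x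
  right_inv : ∀ y, F (G y) = y
  map_smul : ∀ (t : ℝ) (x : X), F (t • x) = t • F x
  norm_sub : ∀ x y : X, ‖x‖ = ‖y‖ → ‖F x - F y‖ = ‖x - y‖

namespace SphMap

variable {X Y : Type*} [NormedAddCommGroup X] [NormedSpace ℝ X]
    [NormedAddCommGroup Y] [NormedSpace ℝ Y] (S : SphMap X Y)

theorem map_neg (x : X) : S.F (-x) = -S.F x := by
  have := S.map_smul (-1) x
  simpa using this

theorem map_zero : S.F 0 = 0 := by
  have := S.map_smul 0 0
  simpa using this

theorem norm_map (x : X) : ‖S.F x‖ = ‖x‖ := by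
  have h := S.norm_sub x (-x) (by simp)
  rw [S.map_neg, sub_neg_eq_add, sub_neg_eq_add, ← two_smul ℝ, ← two_smul ℝ, norm_smul,
    norm_smul] at h
  have h2 : ‖(2 : ℝ)‖ ≠ 0 := by norm_num
  exact mul_left_cancel₀ h2 h

theorem norm_add (x y : X) (h : ‖x‖ = ‖y‖) : ‖S.F x + S.F y‖ = ‖x + y‖ := by
  have := S.norm_sub x (-y) (by simpa using h)
  rwa [S.map_neg, sub_neg_eq_add, sub_neg_eq_add] at this

/-- the inverse map -/
def symm : SphMap Y X where
  F := S.G
  G := S.F
  left_inv := S.right_inv
  right_inv := S.left_inv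
  map_smul := by
    intro t y
    have : S.F (t • S.G y) = t • y := by rw [S.map_smul, S.right_inv]
    rw [← this, S.left_inv]
  norm_sub := by
    intro a b hab
    have h1 : ‖S.G a‖ = ‖S.G b‖ := by
      rw [← S.norm_map (S.G a), ← S.norm_map (S.G b), S.right_inv, S.right_inv, hab]
    have := S.norm_sub (S.G a) (S.G b) h1
    rw [S.right_inv, S.right_inv] at this
    exact this.symm

theorem injective : Function.Injective S.F := fun x y h => by
  rw [← S.left_inv x, ← S.left_inv y, h]

theorem surjective : Function.Surjective S.F := fun y => ⟨S.G y, S.right_inv y⟩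

theorem lipschitz : LipschitzWith 3 S.F := by
  refine LipschitzWith.of_dist_le_mul fun u v => ?_
  rw [dist_eq_norm, dist_eq_norm]
  push_cast
  by_cases hv : v = 0
  · subst hv
    rw [S.map_zero, sub_zero, sub_zero, S.norm_map]
    nlinarith [norm_nonneg u]
  · have hv' : ‖v‖ ≠ 0 := norm_ne_zero_iff.mpr hv
    set r : ℝ := ‖u‖ / ‖v‖ with hr
    have hr0 : 0 ≤ r := by positivity
    have h1 : ‖u‖ = ‖r • v‖ := by
      rw [norm_smul, Real.norm_of_nonneg hr0, hr]; field_simp
    have h2 : ‖r • v - v‖ = |‖u‖ - ‖v‖| := by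
      have : r • v - v = (r - 1) • v := by rw [sub_smul, one_smul]
      rw [this, norm_smul, Real.norm_eq_abs, ← abs_of_nonneg (norm_nonneg v), ← abs_mul, sub_mul,
        one_mul, hr, abs_of_nonneg (norm_nonneg v)]
      congr 1
      field_simp
    have h3 : ‖S.F (r • v) - S.F v‖ = ‖r • v - v‖ := by
      rw [S.map_smul]
      have e1 : r • S.F v - S.F v = (r - 1) • S.F v := by rw [sub_smul, one_smul]
      have e2 : r • v - v = (r - 1) • v := by rw [sub_smul, one_smul]
      rw [e1, e2, norm_smul, norm_smul, S.norm_map]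
    have h4 : |‖u‖ - ‖v‖| ≤ ‖u - v‖ := abs_norm_sub_norm_le u v
    have h5 : ‖u - r • v‖ ≤ ‖u - v‖ + ‖r • v - v‖ := by
      have : u - r • v = (u - v) - (r • v - v) := by abel
      rw [this]; exact norm_sub_le _ _
    have h6 : ‖S.F u - S.F v‖ ≤ ‖S.F u - S.F (r • v)‖ + ‖S.F (r • v) - S.F v‖ := by
      have : S.F u - S.F v = (S.F u - S.F (r • v)) + (S.F (r • v) - S.F v) := by abel
      rw [this]; exact norm_add_le _ _
    rw [S.norm_sub u (r • v) h1, h3] at h6
    rw [h2] at h5 h6
    linarith

theorem continuous : Continuous S.F := S.lipschitz.continuous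

/-- the homeomorphism -/
def homeo : X ≃ₜ Y where
  toFun := S.F
  invFun := S.G
  left_inv := S.left_inv
  right_inv := S.right_inv
  continuous_toFun := S.continuous
  continuous_invFun := S.symm.continuous

include S in
theorem finiteDimensional [FiniteDimensional ℝ X] : FiniteDimensional ℝ Y := by
  have h : IsCompact (closedBall (0 : Y) 1) := by
    have h1 : S.F '' closedBall (0 : X) 1 = closedBall (0 : Y) 1 := by
      ext y
      simp only [mem_image, mem_closedBall, dist_zero_right]
      constructor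
      · rintro ⟨x, hx, rfl⟩; rwa [S.norm_map]
      · intro hy; exact ⟨S.G y, by rw [← S.norm_map, S.right_inv]; exact hy, S.right_inv y⟩
    rw [← h1]
    exact (isCompact_closedBall (0 : X) 1).image S.continuous
  exact FiniteDimensional.of_isCompact_closedBall₀ ℝ one_pos h

include S in
theorem finrank_eq [FiniteDimensional ℝ X] : finrank ℝ X = finrank ℝ Y := by
  have := S.finiteDimensional
  have h1 : dimH (univ : Set Y) ≤ dimH (univ : Set X) := by
    have := S.lipschitz.dimH_image_le univ
    rwa [image_univ, S.surjective.range_eq] at this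
  have h2 : dimH (univ : Set X) ≤ dimH (univ : Set Y) := by
    have := S.symm.lipschitz.dimH_image_le univ
    rwa [image_univ, S.symm.surjective.range_eq] at this
  have h3 := le_antisymm h1 h2
  rw [Real.dimH_univ_eq_finrank, Real.dimH_univ_eq_finrank] at h3
  exact_mod_cast h3.symm

include S in
theorem strictConvex [StrictConvexSpace ℝ X] : StrictConvexSpace ℝ Y := by
  refine StrictConvexSpace.of_norm_add_ne_two fun a b ha hb hab h => ?_
  have h1 : ‖S.G a‖ = 1 := by rw [← S.norm_map, S.right_inv, ha]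
  have h2 : ‖S.G b‖ = 1 := by rw [← S.norm_map, S.right_inv, hb]
  have h3 := S.norm_add (S.G a) (S.G b) (h1.trans h2.symm)
  rw [S.right_inv, S.right_inv, h] at h3
  have h4 : S.G a = S.G b := by
    apply eq_of_norm_eq_of_norm_add_eq (h1.trans h2.symm)
    rw [← h3, h1, h2]; norm_num
  apply hab
  rw [← S.right_inv a, ← S.right_inv b, h4]

end SphMap

open Classical in
/-- positively homogeneous extension of a map of unit spheres -/
noncomputable def hext {X Y : Type*} [NormedAddCommGroup X] [NormedSpace ℝ X]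
    [NormedAddCommGroup Y] [NormedSpace ℝ Y]
    (g : sphere (0 : X) 1 → sphere (0 : Y) 1) (z : X) : Y :=
  if h : z = 0 then 0 else ‖z‖ • (g ⟨‖z‖⁻¹ • z, by
    rw [mem_sphere_zero_iff_norm, norm_smul, norm_inv, norm_norm,
        inv_mul_cancel₀ (norm_ne_zero_iff.mpr h)]⟩ : Y)

theorem hext_smul {X Y : Type*} [NormedAddCommGroup X] [NormedSpace ℝ X]
    [NormedAddCommGroup Y] [NormedSpace ℝ Y]
    (g : sphere (0 : X) 1 → sphere (0 : Y) 1) {t : ℝ} (ht : 0 ≤ t) (x : sphere (0 : X) 1) :
    hext g (t • (x : X)) = t • (g x : Y) := by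
  have hx : ‖(x : X)‖ = 1 := norm_eq_of_mem_sphere x
  rcases ht.eq_or_lt with rfl | ht
  · simp [hext]
  · have hne : t • (x : X) ≠ 0 := by
      apply smul_ne_zero ht.ne'
      intro h; rw [h, norm_zero] at hx; exact zero_ne_one hx
    have hn : ‖t • (x : X)‖ = t := by rw [norm_smul, hx, mul_one, Real.norm_of_nonneg ht.le]
    have hxx : ∀ h, (⟨‖t • (x : X)‖⁻¹ • (t • (x : X)), h⟩ : sphere (0 : X) 1) = x := by
      intro h
      apply Subtype.ext
      show ‖t • (x : X)‖⁻¹ • (t • (x : X)) = x
      rw [hn, smul_smul, inv_mul_cancel₀ ht.ne', one_smul]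
    rw [hext, dif_neg hne, hxx, hn]

theorem exists_sphere_smul {X : Type*} [NormedAddCommGroup X] [NormedSpace ℝ X] {z : X}
    (hz : z ≠ 0) : ∃ x : sphere (0 : X) 1, z = ‖z‖ • (x : X) := by
  have hz' := norm_ne_zero_iff.mpr hz
  refine ⟨⟨‖z‖⁻¹ • z, ?_⟩, ?_⟩
  · rw [mem_sphere_zero_iff_norm, norm_smul, norm_inv, norm_norm, inv_mul_cancel₀ hz']
  · show z = ‖z‖ • (‖z‖⁻¹ • z)
    rw [smul_smul, mul_inv_cancel₀ hz', one_smul]

/-- A surjective isometry of unit spheres, with strictly convex source, comes from a `SphMap`. -/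
theorem exists_sphMap {X Y : Type*} [NormedAddCommGroup X] [NormedSpace ℝ X]
    [StrictConvexSpace ℝ X] [NormedAddCommGroup Y] [NormedSpace ℝ Y]
    (f : sphere (0 : X) 1 → sphere (0 : Y) 1) (hf : Isometry f) (hs : Function.Surjective f) :
    ∃ S : SphMap X Y, ∀ x : sphere (0 : X) 1, S.F x = f x := by
  have hodd : ∀ x : sphere (0 : X) 1, f (-x) = -(f x) := by
    intro x
    obtain ⟨u, hu⟩ := hs (-(f x))
    have h1 : ‖(x : X) - u‖ = 2 := by
      have h := hf.dist_eq x u
      rw [Subtype.dist_eq, Subtype.dist_eq, dist_eq_norm, dist_eq_norm, hu] at h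
      rw [← h]
      have : (f x : Y) - ((-(f x) : sphere (0 : Y) 1) : Y) = (2 : ℝ) • (f x : Y) := by
        rw [coe_neg_sphere, sub_neg_eq_add, two_smul]
      rw [this, norm_smul]
      have : ‖(f x : Y)‖ = 1 := norm_eq_of_mem_sphere (f x)
      rw [this]; norm_num
    have hx : ‖(x : X)‖ = 1 := norm_eq_of_mem_sphere x
    have hu' : ‖(u : X)‖ = 1 := norm_eq_of_mem_sphere u
    have h2 : (x : X) = -u := by
      apply eq_of_norm_eq_of_norm_add_eq
      · rw [norm_neg, hx, hu']
      · rw [← sub_eq_add_neg, h1, norm_neg, hx, hu']; norm_num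
    have h3 : -x = u := by
      apply Subtype.ext
      rw [coe_neg_sphere, h2, neg_neg]
    rw [h3, hu]
  have hinj : Function.Injective f := hf.injective
  let g : sphere (0 : Y) 1 → sphere (0 : X) 1 := fun y => (hs y).choose
  have hfg : ∀ y, f (g y) = y := fun y => (hs y).choose_spec
  have hgf : ∀ x, g (f x) = x := fun x => hinj (hfg (f x))
  have hsmul : ∀ (t : ℝ) (x : sphere (0 : X) 1), hext f (t • (x : X)) = t • (f x : Y) := by
    intro t x
    rcases le_total 0 t with ht | ht
    · exact hext_smul f ht x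
    · have h1 : t • (x : X) = (-t) • ((-x : sphere (0 : X) 1) : X) := by
        rw [coe_neg_sphere, smul_neg, neg_smul, neg_neg]
      rw [h1, hext_smul f (by linarith) (-x), hodd, coe_neg_sphere, smul_neg, neg_smul, neg_neg]
  have h0 : hext f 0 = 0 := by simp [hext]
  have h0' : hext g 0 = 0 := by simp [hext]
  refine ⟨⟨hext f, hext g, ?_, ?_, ?_, ?_⟩, ?_⟩
  · intro x
    by_cases hx : x = 0
    · rw [hx, h0, h0']
    · obtain ⟨u, hu⟩ := exists_sphere_smul hx
      rw [hu, hsmul, hext_smul g (norm_nonneg x), hgf]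
  · intro y
    by_cases hy : y = 0
    · rw [hy, h0', h0]
    · obtain ⟨u, hu⟩ := exists_sphere_smul hy
      rw [hu, hext_smul g (norm_nonneg y), hsmul, hfg]
  · intro t x
    by_cases hx : x = 0
    · rw [hx, smul_zero, h0, smul_zero]
    · obtain ⟨u, hu⟩ := exists_sphere_smul hx
      rw [hu, smul_smul, hsmul, hsmul, smul_smul]
  · intro x y hxy
    by_cases hx : x = 0
    · have hy : y = 0 := by rw [← norm_eq_zero, ← hxy, hx, norm_zero]
      rw [hx, hy]; simp
    · have hy : y ≠ 0 := by
        intro h; apply hx; rw [← norm_eq_zero, hxy, h, norm_zero]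
      obtain ⟨u, hu⟩ := exists_sphere_smul hx
      obtain ⟨v, hv⟩ := exists_sphere_smul hy
      have h1 : ‖(f u : Y) - f v‖ = ‖(u : X) - v‖ := by
        have h := hf.dist_eq u v
        rwa [Subtype.dist_eq, Subtype.dist_eq, dist_eq_norm, dist_eq_norm] at h
      rw [hu, hv, hxy, hsmul, hsmul, ← smul_sub, ← smul_sub, norm_smul, norm_smul, h1]
  · intro x
    have := hsmul 1 x
    rwa [one_smul, one_smul] at this

end Vale.Agent.P084
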