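import Vale.Agent.P084.Regular

open Metric Set Filter Topology MeasureTheory Module Asymptotics

namespace Vale.Agent.P084

theorem continuousAt_fderiv_of_strict {E G : Type*} [NormedAddCommGroup E] [NormedSpace ℝ E]
    [NormedAddCommGroup G] [NormedSpace ℝ G] {f : E → G} {f' : E →L[ℝ] G} {x : E}
    (h : HasStrictFDerivAt f f' x) (hd : ∀ᶠ z in 𝓝 x, DifferentiableAt ℝ f z) :
    ContinuousAt (fderiv ℝ f) x := by
  have hf' : fderiv ℝ f x = f' := h.hasFDerivAt.fderiv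
  rw [ContinuousAt, Metric.tendsto_nhds]
  intro ε hε
  obtain ⟨c, hc0, hcε⟩ : ∃ c : NNReal, 0 < c ∧ (c : ℝ) < ε :=
    ⟨(ε / 2).toNNReal, Real.toNNReal_pos.mpr (by positivity), by
      rw [Real.coe_toNNReal _ (by positivity)]; linarith⟩
  obtain ⟨s, hs, happ⟩ := h.approximates_deriv_on_nhds (c := c) (Or.inr hc0)
  filter_upwards [hd, eventually_mem_nhds_iff.mpr hs] with z hz hzs
  rw [dist_eq_norm, hf']
  have h1 : HasFDerivAt (fun w => f w - f' w) (fderiv ℝ f z - f') z :=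
    hz.hasFDerivAt.sub f'.hasFDerivAt
  have h2 : LipschitzOnWith c (fun w => f w - f' w) s := by
    apply LipschitzOnWith.of_dist_le_mul
    intro a ha b hb
    rw [dist_eq_norm, dist_eq_norm]
    have h3 := happ a ha b hb
    have e : f a - f' a - (f b - f' b) = f a - f b - f' (a - b) := by
      rw [_root_.map_sub]; abel
    rw [e]
    exact h3
  calc ‖fderiv ℝ f z - f'‖ ≤ c := h1.le_of_lipschitzOn hzs h2
    _ < ε := hcε

section
variable {X : Type*} [NormedAddCommGroup X] [NormedSpace ℝ X] {E : Type*} [NormedAddCommGroup E]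
    [NormedSpace ℝ E]

theorem hasDerivAt_line (x u : X) : HasDerivAt (fun t : ℝ => x + t • u) u 0 := by
  simpa using ((hasDerivAt_id (0 : ℝ)).smul_const u).const_add x

theorem comp_line {f : X → E} {f' : X →L[ℝ] E} {x : X} (hf : HasFDerivAt f f' x) (u : X) :
    HasDerivAt (fun t : ℝ => f (x + t • u)) (f' u) 0 := by
  have h2 : HasFDerivAt f f' (x + (0 : ℝ) • u) := by rw [zero_smul, add_zero]; exact hf
  exact h2.comp_hasDerivAt 0 (hasDerivAt_line x u)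

theorem hom_fderiv_self {f : X → E} (hf : ∀ t : ℝ, 0 < t → ∀ z, f (t • z) = f z) {f' : X →L[ℝ] E}
    {z : X} (h : HasFDerivAt f f' z) : f' z = 0 := by
  have h1 := comp_line h z
  have h2 : HasDerivAt (fun t : ℝ => f (z + t • z)) 0 0 := by
    have h3 : HasDerivAt (fun _ : ℝ => f z) 0 0 := hasDerivAt_const _ _
    refine h3.congr_of_eventuallyEq ?_
    filter_upwards [eventually_gt_nhds (show (-1 : ℝ) < 0 by norm_num)] with t ht
    have : z + t • z = (1 + t) • z := by rw [add_smul, one_smul]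
    rw [this, hf _ (by linarith)]
  exact h1.unique h2

theorem hom_fderiv_smul {f : X → E} (hf : ∀ t : ℝ, 0 < t → ∀ z, f (t • z) = f z)
    {f' : X →L[ℝ] E} {z : X} (h : HasFDerivAt f f' z) {t : ℝ} (ht : 0 < t) :
    HasFDerivAt f (t⁻¹ • f') (t • z) := by
  have h2 : HasFDerivAt f f' (t⁻¹ • (t • z)) := by
    rwa [smul_smul, inv_mul_cancel₀ ht.ne', one_smul]
  have h3 : HasFDerivAt (fun z : X => t⁻¹ • z) (t⁻¹ • ContinuousLinearMap.id ℝ X) (t • z) :=
    (hasFDerivAt_id (t • z)).const_smul t⁻¹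
  have h4 := h2.comp (t • z) h3
  have h5 : (f ∘ fun z : X => t⁻¹ • z) = f := by
    ext w
    exact hf _ (inv_pos.mpr ht) w
  rw [h5] at h4
  refine h4.congr_fderiv ?_
  ext v
  simp

/-- the second derivative of the norm -/
noncomputable def N2 (z : X) : X →L[ℝ] X →L[ℝ] ℝ := fderiv ℝ (N1 : X → X →L[ℝ] ℝ) z

theorem norm_deriv_eq {Y : Type*} [NormedAddCommGroup Y] [NormedSpace ℝ Y] {g : ℝ → Y} {k : ℝ → X}
    {g' : Y} {k' : X} (hg : HasDerivAt g g' 0) (hk : HasDerivAt k k' 0) (hg0 : g 0 = 0)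
    (hk0 : k 0 = 0) (h : ∀ t, ‖g t‖ = ‖k t‖) : ‖g'‖ = ‖k'‖ := by
  have h1 := hg.tendsto_slope_zero.norm
  have h2 := hk.tendsto_slope_zero.norm
  refine tendsto_nhds_unique h1 (h2.congr ?_)
  intro t
  rw [zero_add, hg0, hk0, sub_zero, sub_zero, norm_smul, norm_smul, h]

end

section
variable {X Y : Type*} [NormedAddCommGroup X] [NormedSpace ℝ X]
    [NormedAddCommGroup Y] [NormedSpace ℝ Y]

theorem SphMap.F_ne (S : SphMap X Y) {z : X} (hz : z ≠ 0) : S.F z ≠ 0 := by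
  rw [← norm_ne_zero_iff, S.norm_map]; exact norm_ne_zero_iff.mpr hz

/-- the second derivative of the isometry -/
noncomputable def SphMap.Q (S : SphMap X Y) (z : X) : X →L[ℝ] X →L[ℝ] Y := fderiv ℝ S.T1 z

namespace SphMap.Reg
variable {S : SphMap X Y} (R : S.Reg)

include R

theorem hN (z : X) (hz : z ≠ 0) : HasFDerivAt (N1 : X → X →L[ℝ] ℝ) (N2 z) z := by
  obtain ⟨f', hf⟩ := R.hNX z hz
  exact hf.hasFDerivAt.differentiableAt.hasFDerivAt

theorem hN' (z : Y) (hz : z ≠ 0) : HasFDerivAt (N1 : Y → Y →L[ℝ] ℝ) (N2 z) z := by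
  obtain ⟨f', hf⟩ := R.hNY z hz
  exact hf.hasFDerivAt.differentiableAt.hasFDerivAt

theorem hQ (z : X) (hz : z ≠ 0) : HasFDerivAt S.T1 (S.Q z) z := by
  obtain ⟨f', hf⟩ := R.hT z hz
  exact hf.hasFDerivAt.differentiableAt.hasFDerivAt

theorem Q_cont (z : X) (hz : z ≠ 0) : ContinuousAt S.Q z := by
  obtain ⟨f', hf⟩ := R.hT z hz
  refine continuousAt_fderiv_of_strict hf ?_
  filter_upwards [isOpen_ne.mem_nhds hz] with w hw
  exact (R.hQ w hw).differentiableAt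

theorem N2_cont (z : X) (hz : z ≠ 0) : ContinuousAt (N2 : X → _) z := by
  obtain ⟨f', hf⟩ := R.hNX z hz
  refine continuousAt_fderiv_of_strict hf ?_
  filter_upwards [isOpen_ne.mem_nhds hz] with w hw
  exact (R.hN w hw).differentiableAt

theorem a {z : X} (hz : z ≠ 0) (v : X) : N1 (S.F z) (S.T1 z v) = N1 z v := by
  have h0 : HasFDerivAt (fun v : Y => ‖v‖) (N1 (S.F z)) (S.F z) :=
    (R.hY _ (S.F_ne hz)).hasFDerivAt
  have h1 : HasFDerivAt (fun w => ‖S.F w‖) ((N1 (S.F z)).comp (S.T1 z)) z :=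
    h0.comp z (R.hF z hz).hasFDerivAt
  have h2 : (fun w => ‖S.F w‖) = fun w => ‖w‖ := funext S.norm_map
  rw [h2] at h1
  have h3 : HasFDerivAt (fun w : X => ‖w‖) (N1 z) z := (R.hX z hz).hasFDerivAt
  have := h1.unique h3
  rw [← this]
  rfl

theorem bstar {x : X} (hx : ‖x‖ = 1) (u : X) :
    ‖S.T1 x u - N1 x u • S.F x‖ = ‖u - N1 x u • x‖ := by
  have hx0 : x ≠ 0 := by intro h; rw [h, norm_zero] at hx; exact zero_ne_one hx
  have hn : HasDerivAt (fun t : ℝ => ‖x + t • u‖) (N1 x u) 0 :=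
    comp_line (f := fun v : X => ‖v‖) (R.hX x hx0).hasFDerivAt u
  have hF : HasDerivAt (fun t : ℝ => S.F (x + t • u)) (S.T1 x u) 0 :=
    comp_line (R.hF x hx0).hasFDerivAt u
  have hg := hF.sub (hn.smul_const (S.F x))
  have hk := (hasDerivAt_line x u).sub (hn.smul_const x)
  refine norm_deriv_eq hg hk ?_ ?_ ?_
  · simp [hx]
  · simp [hx]
  · intro t
    show ‖S.F (x + t • u) - ‖x + t • u‖ • S.F x‖ = ‖(x + t • u) - ‖x + t • u‖ • x‖
    rw [← S.map_smul]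
    apply S.norm_sub
    rw [norm_smul, hx, mul_one, norm_norm]

theorem bz {z : X} (hz : z ≠ 0) (u : X) :
    ‖S.T1 z u - N1 z u • (‖z‖⁻¹ • S.F z)‖ = ‖u - N1 z u • (‖z‖⁻¹ • z)‖ := by
  have h := R.bstar (unit_of_ne hz) u
  rwa [N1_normalize hz, S.T1_smul (inv_ne_zero (norm_ne_zero_iff.mpr hz)), S.map_smul] at h

theorem N1_self' {z : X} (hz : z ≠ 0) : N1 z z = ‖z‖ := N1_self (R.hX z hz)

theorem N2_left {z : X} (hz : z ≠ 0) : N2 z z = 0 :=
  hom_fderiv_self (fun _ ht z => N1_smul_pos ht z) (R.hN z hz)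

theorem N2_symm {z : X} (hz : z ≠ 0) (u v : X) : N2 z u v = N2 z v u := by
  refine second_derivative_symmetric_of_eventually (𝕜 := ℝ) (f := fun v : X => ‖v‖) (f' := N1)
    (x := z) ?_ (R.hN z hz) u v
  filter_upwards [isOpen_ne.mem_nhds hz] with w hw
  exact (R.hX w hw).hasFDerivAt

theorem N2_left' {z : Y} (hz : z ≠ 0) : N2 z z = 0 :=
  hom_fderiv_self (fun _ ht z => N1_smul_pos ht z) (R.hN' z hz)

theorem N2_symm' {z : Y} (hz : z ≠ 0) (u v : Y) : N2 z u v = N2 z v u := by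
  refine second_derivative_symmetric_of_eventually (𝕜 := ℝ) (f := fun v : Y => ‖v‖) (f' := N1)
    (x := z) ?_ (R.hN' z hz) u v
  filter_upwards [isOpen_ne.mem_nhds hz] with w hw
  exact (R.hY w hw).hasFDerivAt

theorem N2_smul {z : X} (hz : z ≠ 0) {t : ℝ} (ht : 0 < t) : N2 (t • z) = t⁻¹ • N2 z :=
  (hom_fderiv_smul (fun _ ht z => N1_smul_pos ht z) (R.hN z hz) ht).fderiv

theorem N2_smul' {z : Y} (hz : z ≠ 0) {t : ℝ} (ht : 0 < t) : N2 (t • z) = t⁻¹ • N2 z :=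
  (hom_fderiv_smul (fun _ ht z => N1_smul_pos ht z) (R.hN' z hz) ht).fderiv

theorem Q_left {z : X} (hz : z ≠ 0) : S.Q z z = 0 :=
  hom_fderiv_self (fun _ ht z => S.T1_smul ht.ne' z) (R.hQ z hz)

theorem Q_smul {z : X} (hz : z ≠ 0) {t : ℝ} (ht : 0 < t) : S.Q (t • z) = t⁻¹ • S.Q z :=
  (hom_fderiv_smul (fun _ ht z => S.T1_smul ht.ne' z) (R.hQ z hz) ht).fderiv

/-- second derivative of `‖F y + ‖y‖ F x‖ = ‖y + ‖y‖ x‖` -/
theorem c1 {x : X} (hx : ‖x‖ = 1) (u v : X) :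
    2⁻¹ * N2 (S.F x) (S.T1 x u) (S.T1 x v) + N1 (S.F x) (S.Q x u v) = 2⁻¹ * N2 x u v := by
  have hx0 : x ≠ 0 := by intro h; rw [h, norm_zero] at hx; exact zero_ne_one hx
  have hFx0 : S.F x ≠ 0 := S.F_ne hx0
  have hPx : P x x = (2 : ℝ) • x := by unfold P; rw [hx, two_smul, one_smul]
  have hPFx : P (S.F x) (S.F x) = (2 : ℝ) • S.F x := by
    unfold P; rw [S.norm_map, hx, two_smul, one_smul]
  -- first derivatives
  have hfirst : ∀ y : X, y ≠ 0 → P x y ≠ 0 → P (S.F x) (S.F y) ≠ 0 → ∀ v : X,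
      N1 (P (S.F x) (S.F y)) (N1 y v • S.F x + S.T1 y v) = N1 (P x y) (N1 y v • x + v) := by
    intro y hy hP hP' v
    have hn : HasDerivAt (fun t : ℝ => ‖y + t • v‖) (N1 y v) 0 :=
      comp_line (f := fun v : X => ‖v‖) (R.hX y hy).hasFDerivAt v
    have hF : HasDerivAt (fun t : ℝ => S.F (y + t • v)) (S.T1 y v) 0 :=
      comp_line (R.hF y hy).hasFDerivAt v
    have hg := (hn.smul_const (S.F x)).add hF
    have hk := (hn.smul_const x).add (hasDerivAt_line y v)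
    have h1 : HasFDerivAt (fun v : Y => ‖v‖) (N1 (P (S.F x) (S.F y)))
        (‖y + (0 : ℝ) • v‖ • S.F x + S.F (y + (0 : ℝ) • v)) := by
      have e : ‖y + (0 : ℝ) • v‖ • S.F x + S.F (y + (0 : ℝ) • v) = P (S.F x) (S.F y) := by
        unfold P; rw [zero_smul, add_zero, S.norm_map]
      rw [e]; exact (R.hY _ hP').hasFDerivAt
    have h2 : HasFDerivAt (fun v : X => ‖v‖) (N1 (P x y))
        (‖y + (0 : ℝ) • v‖ • x + (y + (0 : ℝ) • v)) := by
      have e : ‖y + (0 : ℝ) • v‖ • x + (y + (0 : ℝ) • v) = P x y := by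
        unfold P; rw [zero_smul, add_zero]
      rw [e]; exact (R.hX _ hP).hasFDerivAt
    have h3 := h1.comp_hasDerivAt (0 : ℝ) hg
    have h4 := h2.comp_hasDerivAt (0 : ℝ) hk
    have h5 : ((fun v : Y => ‖v‖) ∘ ((fun t : ℝ => ‖y + t • v‖ • S.F x) +
          fun t : ℝ => S.F (y + t • v))) =
        ((fun v : X => ‖v‖) ∘ ((fun t : ℝ => ‖y + t • v‖ • x) + fun t : ℝ => (y + t • v))) := by
      ext t
      show ‖‖y + t • v‖ • S.F x + S.F (y + t • v)‖ = ‖‖y + t • v‖ • x + (y + t • v)‖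
      rw [← S.map_smul]
      apply S.norm_add
      rw [norm_smul, hx, mul_one, norm_norm]
    rw [h5] at h3
    exact h3.unique h4
  -- second derivatives
  have hn : HasDerivAt (fun t : ℝ => ‖x + t • u‖) (N1 x u) 0 :=
    comp_line (f := fun v : X => ‖v‖) (R.hX x hx0).hasFDerivAt u
  have hF : HasDerivAt (fun t : ℝ => S.F (x + t • u)) (S.T1 x u) 0 :=
    comp_line (R.hF x hx0).hasFDerivAt u
  have hN : HasDerivAt (fun t : ℝ => N1 (x + t • u)) (N2 x u) 0 := comp_line (R.hN x hx0) u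
  have hT : HasDerivAt (fun t : ℝ => S.T1 (x + t • u)) (S.Q x u) 0 := comp_line (R.hQ x hx0) u
  have hNv : HasDerivAt (fun t : ℝ => N1 (x + t • u) v) (N2 x u v) 0 := by
    simpa using hN.clm_apply (hasDerivAt_const (0 : ℝ) v)
  have hTv : HasDerivAt (fun t : ℝ => S.T1 (x + t • u) v) (S.Q x u v) 0 := by
    simpa using hT.clm_apply (hasDerivAt_const (0 : ℝ) v)
  have hg : HasDerivAt (fun t : ℝ => P (S.F x) (S.F (x + t • u)))
      (N1 x u • S.F x + S.T1 x u) 0 := by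
    have := (hn.smul_const (S.F x)).add hF
    refine this.congr_of_eventuallyEq ?_
    filter_upwards with t
    simp only [P, S.norm_map, Pi.add_apply]
  have hk : HasDerivAt (fun t : ℝ => P x (x + t • u)) (N1 x u • x + u) 0 :=
    (hn.smul_const x).add (hasDerivAt_line x u)
  have h2F : P (S.F x) (S.F (x + (0 : ℝ) • u)) = (2 : ℝ) • S.F x := by
    rw [zero_smul, add_zero, hPFx]
  have h2x : P x (x + (0 : ℝ) • u) = (2 : ℝ) • x := by rw [zero_smul, add_zero, hPx]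
  have h2F0 : (2 : ℝ) • S.F x ≠ 0 := smul_ne_zero two_ne_zero hFx0
  have h2x0 : (2 : ℝ) • x ≠ 0 := smul_ne_zero two_ne_zero hx0
  have hNg : HasDerivAt (fun t : ℝ => N1 (P (S.F x) (S.F (x + t • u))))
      (N2 ((2 : ℝ) • S.F x) (N1 x u • S.F x + S.T1 x u)) 0 := by
    have h1 : HasFDerivAt (N1 : Y → Y →L[ℝ] ℝ) (N2 ((2 : ℝ) • S.F x))
        (P (S.F x) (S.F (x + (0 : ℝ) • u))) := by rw [h2F]; exact R.hN' _ h2F0
    exact h1.comp_hasDerivAt 0 hg
  have hNk : HasDerivAt (fun t : ℝ => N1 (P x (x + t • u)))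
      (N2 ((2 : ℝ) • x) (N1 x u • x + u)) 0 := by
    have h1 : HasFDerivAt (N1 : X → X →L[ℝ] ℝ) (N2 ((2 : ℝ) • x)) (P x (x + (0 : ℝ) • u)) := by
      rw [h2x]; exact R.hN _ h2x0
    exact h1.comp_hasDerivAt 0 hk
  have hA := hNg.clm_apply ((hNv.smul_const (S.F x)).add hTv)
  have hB := hNk.clm_apply ((hNv.smul_const x).add (hasDerivAt_const (0 : ℝ) v))
  have hAB : ∀ᶠ t : ℝ in 𝓝 0, N1 (P (S.F x) (S.F (x + t • u)))
      (N1 (x + t • u) v • S.F x + S.T1 (x + t • u) v) =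
      N1 (P x (x + t • u)) (N1 (x + t • u) v • x + v) := by
    have c1 : ∀ᶠ t : ℝ in 𝓝 0, x + t • u ≠ 0 := by
      have : ContinuousAt (fun t : ℝ => x + t • u) 0 := (hasDerivAt_line x u).continuousAt
      apply this.eventually_ne
      rwa [zero_smul, add_zero]
    have c2 : ∀ᶠ t : ℝ in 𝓝 0, P x (x + t • u) ≠ 0 := by
      apply hk.continuousAt.eventually_ne
      rwa [h2x]
    have c3 : ∀ᶠ t : ℝ in 𝓝 0, P (S.F x) (S.F (x + t • u)) ≠ 0 := by
      apply hg.continuousAt.eventually_ne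
      rwa [h2F]
    filter_upwards [c1, c2, c3] with t h1 h2 h3
    exact hfirst _ h1 h2 h3 v
  have hAB' := hA.congr_of_eventuallyEq (hAB.mono fun t ht => ht.symm)
  have hfin := hAB'.unique hB
  simp only [Pi.add_apply, zero_smul, add_zero, hPFx, hPx, _root_.map_add, _root_.map_smul,
    R.N2_smul' hFx0 two_pos, R.N2_smul hx0 two_pos, smul_apply, add_apply, smul_eq_mul,
    R.N2_left' hFx0, R.N2_left hx0, zero_apply, N1_smul_pos two_pos] at hfin
  have e1 : N2 (S.F x) (S.T1 x u) (S.F x) = 0 := by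
    rw [R.N2_symm' hFx0, R.N2_left' hFx0]; rfl
  have e2 : N2 x u x = 0 := by rw [R.N2_symm hx0, R.N2_left hx0]; rfl
  have e3 : N1 (S.F x) (S.F x) = 1 := by rw [N1_self (R.hY _ hFx0), S.norm_map, hx]
  have e4 : N1 x x = 1 := by rw [R.N1_self' hx0, hx]
  rw [e1, e2, e3, e4] at hfin
  linarith

theorem c2 {x : X} (hx : x ≠ 0) (u v : X) :
    N2 (S.F x) (S.T1 x u) (S.T1 x v) + N1 (S.F x) (S.Q x u v) = N2 x u v := by
  have hFx0 : S.F x ≠ 0 := S.F_ne hx
  have hF : HasDerivAt (fun t : ℝ => S.F (x + t • u)) (S.T1 x u) 0 :=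
    comp_line (R.hF x hx).hasFDerivAt u
  have hN : HasDerivAt (fun t : ℝ => N1 (x + t • u)) (N2 x u) 0 := comp_line (R.hN x hx) u
  have hT : HasDerivAt (fun t : ℝ => S.T1 (x + t • u)) (S.Q x u) 0 := comp_line (R.hQ x hx) u
  have hNv : HasDerivAt (fun t : ℝ => N1 (x + t • u) v) (N2 x u v) 0 := by
    simpa using hN.clm_apply (hasDerivAt_const (0 : ℝ) v)
  have hTv : HasDerivAt (fun t : ℝ => S.T1 (x + t • u) v) (S.Q x u v) 0 := by
    simpa using hT.clm_apply (hasDerivAt_const (0 : ℝ) v)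
  have hNF : HasDerivAt (fun t : ℝ => N1 (S.F (x + t • u))) (N2 (S.F x) (S.T1 x u)) 0 := by
    have h1 : HasFDerivAt (N1 : Y → Y →L[ℝ] ℝ) (N2 (S.F x)) (S.F (x + (0 : ℝ) • u)) := by
      rw [zero_smul, add_zero]; exact R.hN' _ hFx0
    exact h1.comp_hasDerivAt 0 hF
  have hA := hNF.clm_apply hTv
  have hAB : ∀ᶠ t : ℝ in 𝓝 0, N1 (S.F (x + t • u)) (S.T1 (x + t • u) v) = N1 (x + t • u) v := by
    have c1 : ∀ᶠ t : ℝ in 𝓝 0, x + t • u ≠ 0 := by
      have : ContinuousAt (fun t : ℝ => x + t • u) 0 := (hasDerivAt_line x u).continuousAt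
      apply this.eventually_ne
      rwa [zero_smul, add_zero]
    filter_upwards [c1] with t ht
    exact R.a ht v
  have hAB' := hA.congr_of_eventuallyEq (hAB.mono fun t ht => ht.symm)
  have hfin := hAB'.unique hNv
  simpa using hfin

theorem c_iso {x : X} (hx : ‖x‖ = 1) (u v : X) :
    N2 (S.F x) (S.T1 x u) (S.T1 x v) = N2 x u v := by
  have hx0 : x ≠ 0 := by intro h; rw [h, norm_zero] at hx; exact zero_ne_one hx
  have h1 := R.c1 hx u v
  have h2 := R.c2 hx0 u v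
  linarith

theorem c_zero {x : X} (hx : ‖x‖ = 1) (u v : X) : N1 (S.F x) (S.Q x u v) = 0 := by
  have hx0 : x ≠ 0 := by intro h; rw [h, norm_zero] at hx; exact zero_ne_one hx
  have h1 := R.c1 hx u v
  have h2 := R.c2 hx0 u v
  linarith

theorem c_zero' {z : X} (hz : z ≠ 0) (u v : X) : N1 (S.F z) (S.Q z u v) = 0 := by
  have hz' : 0 < ‖z‖ := norm_pos_iff.mpr hz
  have h := R.c_zero (unit_of_ne hz) u v
  rw [R.Q_smul hz (inv_pos.mpr hz'), S.map_smul, N1_smul_pos (inv_pos.mpr hz')] at h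
  simpa [hz'.ne'] using h

theorem d {x : X} (hx : ‖x‖ = 1) {u : X} (hu : N1 x u = 0) (hu0 : u ≠ 0) (v : X) :
    N1 (S.T1 x u) (S.Q x v u) = N2 x v u * (N1 (S.T1 x u) (S.F x) - N1 u x) := by
  have hx0 : x ≠ 0 := by intro h; rw [h, norm_zero] at hx; exact zero_ne_one hx
  have hTu0 : S.T1 x u ≠ 0 := by
    have h := R.bstar hx u
    rw [hu, zero_smul, zero_smul, sub_zero, sub_zero] at h
    rw [← norm_ne_zero_iff, h]
    exact norm_ne_zero_iff.mpr hu0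
  have hn : HasDerivAt (fun t : ℝ => ‖x + t • v‖) (N1 x v) 0 :=
    comp_line (f := fun v : X => ‖v‖) (R.hX x hx0).hasFDerivAt v
  have hni : HasDerivAt (fun t : ℝ => ‖x + t • v‖⁻¹) (-(N1 x v) / ‖x + (0 : ℝ) • v‖ ^ 2) 0 :=
    hn.inv (by rw [zero_smul, add_zero, hx]; exact one_ne_zero)
  have hF : HasDerivAt (fun t : ℝ => S.F (x + t • v)) (S.T1 x v) 0 :=
    comp_line (R.hF x hx0).hasFDerivAt v
  have hN : HasDerivAt (fun t : ℝ => N1 (x + t • v)) (N2 x v) 0 := comp_line (R.hN x hx0) v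
  have hT : HasDerivAt (fun t : ℝ => S.T1 (x + t • v)) (S.Q x v) 0 := comp_line (R.hQ x hx0) v
  have hNu : HasDerivAt (fun t : ℝ => N1 (x + t • v) u) (N2 x v u) 0 := by
    simpa using hN.clm_apply (hasDerivAt_const (0 : ℝ) u)
  have hTu : HasDerivAt (fun t : ℝ => S.T1 (x + t • v) u) (S.Q x v u) 0 := by
    simpa using hT.clm_apply (hasDerivAt_const (0 : ℝ) u)
  have hg : HasDerivAt (fun t : ℝ => S.T1 (x + t • v) u -
      N1 (x + t • v) u • (‖x + t • v‖⁻¹ • S.F (x + t • v))) (S.Q x v u - N2 x v u • S.F x) 0 := by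
    refine (hTu.sub (hNu.smul (hni.smul hF))).congr_deriv ?_
    simp [hx, hu]
  have hk : HasDerivAt (fun t : ℝ => u -
      N1 (x + t • v) u • (‖x + t • v‖⁻¹ • (x + t • v))) (- N2 x v u • x) 0 := by
    refine ((hasDerivAt_const (0 : ℝ) u).sub
      (hNu.smul (hni.smul (hasDerivAt_line x v)))).congr_deriv ?_
    simp [hx, hu]
  have e1 : S.T1 (x + (0 : ℝ) • v) u - N1 (x + (0 : ℝ) • v) u •
      (‖x + (0 : ℝ) • v‖⁻¹ • S.F (x + (0 : ℝ) • v)) = S.T1 x u := by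
    simp [hu]
  have e2 : u - N1 (x + (0 : ℝ) • v) u • (‖x + (0 : ℝ) • v‖⁻¹ • (x + (0 : ℝ) • v)) = u := by
    simp [hu]
  have h1 : HasFDerivAt (fun v : Y => ‖v‖) (N1 (S.T1 x u)) (S.T1 (x + (0 : ℝ) • v) u -
      N1 (x + (0 : ℝ) • v) u • (‖x + (0 : ℝ) • v‖⁻¹ • S.F (x + (0 : ℝ) • v))) := by
    rw [e1]; exact (R.hY _ hTu0).hasFDerivAt
  have h2 : HasFDerivAt (fun v : X => ‖v‖) (N1 u) (u -
      N1 (x + (0 : ℝ) • v) u • (‖x + (0 : ℝ) • v‖⁻¹ • (x + (0 : ℝ) • v))) := by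
    rw [e2]; exact (R.hX _ hu0).hasFDerivAt
  have h3 := h1.comp_hasDerivAt (0 : ℝ) hg
  have h4 := h2.comp_hasDerivAt (0 : ℝ) hk
  have hAB : ∀ᶠ t : ℝ in 𝓝 0, ‖S.T1 (x + t • v) u -
      N1 (x + t • v) u • (‖x + t • v‖⁻¹ • S.F (x + t • v))‖ =
      ‖u - N1 (x + t • v) u • (‖x + t • v‖⁻¹ • (x + t • v))‖ := by
    have c1 : ∀ᶠ t : ℝ in 𝓝 0, x + t • v ≠ 0 := by
      have : ContinuousAt (fun t : ℝ => x + t • v) 0 := (hasDerivAt_line x v).continuousAt
      apply this.eventually_ne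
      rwa [zero_smul, add_zero]
    filter_upwards [c1] with t ht
    exact R.bz ht u
  have h5 := (h3.congr_of_eventuallyEq (hAB.mono fun t ht => ht.symm)).unique h4
  rw [_root_.map_sub, _root_.map_smul, _root_.map_smul, smul_eq_mul, smul_eq_mul] at h5
  linarith

theorem b' {x : X} (hx : ‖x‖ = 1) {u w : X} (hu : N1 x u = 0) (hu0 : u ≠ 0) (hw : N1 x w = 0) :
    N1 (S.T1 x u) (S.T1 x w) = N1 u w := by
  have hiso : ∀ u : X, N1 x u = 0 → ‖S.T1 x u‖ = ‖u‖ := by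
    intro u hu
    have h := R.bstar hx u
    rwa [hu, zero_smul, zero_smul, sub_zero, sub_zero] at h
  have hTu0 : S.T1 x u ≠ 0 := by
    rw [← norm_ne_zero_iff, hiso u hu]
    exact norm_ne_zero_iff.mpr hu0
  have h1 : HasDerivAt (fun t : ℝ => ‖u + t • w‖) (N1 u w) 0 :=
    comp_line (f := fun v : X => ‖v‖) (R.hX u hu0).hasFDerivAt w
  have h2 : HasDerivAt (fun t : ℝ => ‖S.T1 x u + t • S.T1 x w‖) (N1 (S.T1 x u) (S.T1 x w)) 0 :=
    comp_line (f := fun v : Y => ‖v‖) (R.hY _ hTu0).hasFDerivAt _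
  have h3 : (fun t : ℝ => ‖S.T1 x u + t • S.T1 x w‖) = fun t : ℝ => ‖u + t • w‖ := by
    ext t
    rw [← _root_.map_smul, ← _root_.map_add]
    apply hiso
    rw [_root_.map_add, _root_.map_smul, hu, hw, smul_zero, add_zero]
  rw [h3] at h2
  exact h2.unique h1

end SphMap.Reg

end

end Vale.Agent.P084
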