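import Mathlib

open Metric Set Filter Topology MeasureTheory Module

namespace Vale.Agent.P084

/-- product of a function vanishing at `x` and differentiable there with a function continuous
at `x` -/
theorem hasFDerivAt_clm_comp_of_zero {X G H K : Type*} [NormedAddCommGroup X] [NormedSpace ℝ X]
    [NormedAddCommGroup G] [NormedSpace ℝ G] [NormedAddCommGroup H] [NormedSpace ℝ H]
    [NormedAddCommGroup K] [NormedSpace ℝ K] (B : G →L[ℝ] H →L[ℝ] K)
    {p : X → G} {q : X → H} {p' : X →L[ℝ] G} {x : X} (hp : HasFDerivAt p p' x) (hp0 : p x = 0)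
    (hq : ContinuousAt q x) :
    HasFDerivAt (fun z => B (p z) (q z)) ((B.flip (q x)).comp p') x := by
  have h1 : HasFDerivAt (fun z => B (p z) (q x)) ((B.flip (q x)).comp p') x :=
    (B.flip (q x)).hasFDerivAt.comp x hp
  have h2 : HasFDerivAt (fun z => B (p z) (q z - q x)) (0 : X →L[ℝ] K) x := by
    rw [hasFDerivAt_iff_isLittleO]
    have h3 : p =O[𝓝 x] fun z => z - x := by
      have := hp.isBigO_sub
      simpa [hp0] using this
    have h4 : (fun z => q z - q x) =o[𝓝 x] fun _ => (1 : ℝ) := by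
      rw [Asymptotics.isLittleO_one_iff]
      have := hq.tendsto.sub_const (q x)
      simpa using this
    have h5 : (fun z => B (p z) (q z - q x)) =O[𝓝 x] fun z => ‖p z‖ * ‖q z - q x‖ := by
      apply Asymptotics.IsBigO.of_bound ‖B‖
      filter_upwards with z
      rw [norm_mul, norm_norm, norm_norm, ← mul_assoc]
      exact B.le_opNorm₂ _ _
    have h6 : (fun z => ‖p z‖ * ‖q z - q x‖) =o[𝓝 x] fun z => ‖z - x‖ * (1 : ℝ) :=
      h3.norm_norm.mul_isLittleO h4.norm_left
    have h7 := h5.trans_isLittleO h6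
    have h8 : (fun z => B (p z) (q z - q x)) =o[𝓝 x] fun z => z - x := by
      simp only [mul_one] at h7
      exact h7.of_norm_right
    refine h8.congr_left ?_
    intro z
    simp
  have h3 := h1.add h2
  rw [add_zero] at h3
  refine h3.congr_of_eventuallyEq ?_
  filter_upwards with z
  simp

theorem total_symm {X Y : Type*} [NormedAddCommGroup X] [NormedSpace ℝ X] [NormedAddCommGroup Y]
    [NormedSpace ℝ Y]
    (F : X → Y) (T : X → X →L[ℝ] Y) (Q : X → X →L[ℝ] X →L[ℝ] Y) (N : Y → Y →L[ℝ] ℝ)
    (N2 : Y →L[ℝ] Y →L[ℝ] ℝ) {x : X}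
    (hT : ∀ᶠ z in 𝓝 x, HasFDerivAt F (T z) z) (hQ : ∀ᶠ z in 𝓝 x, HasFDerivAt T (Q z) z)
    (hQc : ContinuousAt Q x)
    (hN : HasFDerivAt N N2 (F x)) (h0 : ∀ᶠ z in 𝓝 x, ∀ u v, N (F z) (Q z u v) = 0) :
    (∀ u v, Q x u v = Q x v u) ∧ ∀ u v w, N2 (T x w) (Q x u v) = N2 (T x u) (Q x w v) := by
  constructor
  · intro u v
    exact second_derivative_symmetric_of_eventually (𝕜 := ℝ) hT hQ.self_of_nhds u v
  · intro u v w
    -- the function `k`
    let k : X → ℝ := fun z => N (F x) (T z v)
    let k' : X → X →L[ℝ] ℝ := fun z => (N (F x)).comp ((Q z).flip v)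
    have hk : ∀ᶠ z in 𝓝 x, HasFDerivAt k (k' z) z := by
      filter_upwards [hQ] with z hz
      have h1 : HasFDerivAt (fun z => T z v) ((Q z).flip v) z := by
        have := hz.clm_apply (hasFDerivAt_const v z)
        refine this.congr_fderiv ?_
        simp
      exact (N (F x)).hasFDerivAt.comp z h1
    -- the derivative of `k'`
    have hp : HasFDerivAt (fun z => N (F x) - N (F z)) (-(N2.comp (T x))) x := by
      have := (hN.comp x hT.self_of_nhds).const_sub (N (F x))
      exact this
    have hq : ContinuousAt (fun z => (Q z).flip v) x := by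
      have h1 : Continuous fun q : X →L[ℝ] X →L[ℝ] Y => q.flip v := by
        have h2 : Continuous fun q : X →L[ℝ] X →L[ℝ] Y => q.flip :=
          (ContinuousLinearMap.flipₗᵢ ℝ X X Y).continuous
        exact h2.clm_apply continuous_const
      exact h1.continuousAt.comp hQc
    have h1 := hasFDerivAt_clm_comp_of_zero (ContinuousLinearMap.compL ℝ X Y ℝ) hp (by simp) hq
    have h2 : HasFDerivAt k' (((ContinuousLinearMap.compL ℝ X Y ℝ).flip ((Q x).flip v)).comp
        (-(N2.comp (T x)))) x := by
      refine h1.congr_of_eventuallyEq ?_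
      filter_upwards [h0] with z hz
      ext a
      show N (F x) (Q z a v) = (N (F x) - N (F z)) (Q z a v)
      rw [sub_apply, hz, sub_zero]
    have h3 := second_derivative_symmetric_of_eventually (𝕜 := ℝ) hk h2 w u
    have h5 : ∀ a b : X, (((ContinuousLinearMap.compL ℝ X Y ℝ).flip ((Q x).flip v)).comp
        (-(N2.comp (T x)))) a b = -(N2 (T x a) (Q x b v)) := by
      intro a b
      show (-(N2 (T x a))) (Q x b v) = _
      rw [neg_apply]
    rw [h5, h5] at h3
    exact neg_injective h3

end Vale.Agent.P084
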