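import Vale.Agent.P084.LReg
import Vale.Agent.P084.AlgG
import Vale.Agent.P084.Sym

/-!
# Calculus on the set of smooth points (piece L of T3 for P084)
-/

open Metric Set Filter Topology MeasureTheory Module Asymptotics

namespace Vale.Agent.P084

section
variable {X Y : Type*} [NormedAddCommGroup X] [NormedSpace ℝ X]
    [NormedAddCommGroup Y] [NormedSpace ℝ Y]

/-- transfer of the perpendicularity relation -/
theorem norm_perp {g : ℝ → Y} {k : ℝ → X} {g' : Y} (hg : HasDerivAt g g' 0)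
    (hk : HasDerivAt k 0 0) (h : ∀ᶠ t in 𝓝 (0 : ℝ), ‖g t‖ = ‖k t‖) :
    HasDerivAt (fun t : ℝ => ‖g 0 + t • g'‖) 0 0 := by
  rw [hasDerivAt_iff_isLittleO_nhds_zero] at hg hk ⊢
  simp only [zero_add, smul_zero, sub_zero, zero_smul, add_zero] at hg hk ⊢
  have h0 := h.self_of_nhds
  have h1 := hg.norm_left.add hk.norm_left
  refine IsBigO.trans_isLittleO ?_ h1
  refine IsBigO.of_bound 1 ?_
  filter_upwards [h] with t ht
  rw [one_mul]
  have e1 : |‖g 0 + t • g'‖ - ‖g t‖| ≤ ‖g t - g 0 - t • g'‖ := by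
    refine (abs_norm_sub_norm_le _ _).trans (le_of_eq ?_)
    rw [← norm_neg]
    congr 1
    abel
  have e2 : |‖k t‖ - ‖k 0‖| ≤ ‖k t - k 0‖ := abs_norm_sub_norm_le _ _
  rw [Real.norm_eq_abs, Real.norm_eq_abs]
  calc |‖g 0 + t • g'‖ - ‖g 0‖| = |(‖g 0 + t • g'‖ - ‖g t‖) + (‖k t‖ - ‖k 0‖)| := by
        rw [ht, h0]; congr 1; ring
    _ ≤ |‖g 0 + t • g'‖ - ‖g t‖| + |‖k t‖ - ‖k 0‖| := abs_add_le _ _
    _ ≤ ‖g t - g 0 - t • g'‖ + ‖k t - k 0‖ := add_le_add e1 e2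
    _ ≤ |‖g t - g 0 - t • g'‖ + ‖k t - k 0‖| := le_abs_self _

theorem N1_le_norm (z v : X) : N1 z v ≤ ‖v‖ := by
  have h2 : ‖N1 z‖ ≤ 1 := by
    have h3 := norm_fderiv_le_of_lipschitz ℝ (lipschitzWith_one_norm (E := X)) (x₀ := z)
    rw [NNReal.coe_one] at h3
    exact h3
  calc N1 z v ≤ ‖N1 z v‖ := le_abs_self _
    _ ≤ ‖N1 z‖ * ‖v‖ := (N1 z).le_opNorm v
    _ ≤ 1 * ‖v‖ := by gcongr
    _ = ‖v‖ := one_mul _

theorem smooth_smul {z : X} (hz : z ∈ Sm X) {t : ℝ} (ht : t ≠ 0) : t • z ∈ Sm X :=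
  (differentiableAt_norm_smul ht).mp hz

end

section
variable {X Y : Type*} [NormedAddCommGroup X] [NormedSpace ℝ X]
    [NormedAddCommGroup Y] [NormedSpace ℝ Y] [FiniteDimensional ℝ X] [FiniteDimensional ℝ Y]

namespace SphMap.LReg
variable {S : SphMap X Y} (R : S.LReg)

include R

theorem ne_zero [Nontrivial X] {z : X} (hz : z ∈ Sm X) : z ≠ 0 := by
  rintro rfl
  exact not_differentiableAt_norm_zero X hz

theorem hN {z : X} (hz : z ∈ Sm X) : HasFDerivAt (N1 : X → X →L[ℝ] ℝ) (N2 z) z := by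
  obtain ⟨f', hf⟩ := R.hNX z hz
  exact hf.hasFDerivAt.differentiableAt.hasFDerivAt

theorem hN' {z : Y} (hz : z ∈ Sm Y) : HasFDerivAt (N1 : Y → Y →L[ℝ] ℝ) (N2 z) z := by
  obtain ⟨f', hf⟩ := R.hNY z hz
  exact hf.hasFDerivAt.differentiableAt.hasFDerivAt

theorem hQ {z : X} (hz : z ∈ Sm X) : HasFDerivAt S.T1 (S.Q z) z := by
  obtain ⟨f', hf⟩ := R.hT z hz
  exact hf.hasFDerivAt.differentiableAt.hasFDerivAt

theorem Q_cont {z : X} (hz : z ∈ Sm X) : ContinuousAt S.Q z := by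
  obtain ⟨f', hf⟩ := R.hT z hz
  refine continuousAt_fderiv_of_strict hf ?_
  filter_upwards [R.hO.mem_nhds hz] with w hw
  exact (R.hQ hw).differentiableAt

theorem N2_cont {z : X} (hz : z ∈ Sm X) : ContinuousAt (N2 : X → _) z := by
  obtain ⟨f', hf⟩ := R.hNX z hz
  refine continuousAt_fderiv_of_strict hf ?_
  filter_upwards [R.hO.mem_nhds hz] with w hw
  exact (R.hN hw).differentiableAt

theorem N2_left [Nontrivial X] {z : X} (hz : z ∈ Sm X) : N2 z z = 0 :=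
  hom_fderiv_self (fun _ ht z => N1_smul_pos ht z) (R.hN hz)

theorem N2_symm [Nontrivial X] {z : X} (hz : z ∈ Sm X) (u v : X) : N2 z u v = N2 z v u := by
  refine second_derivative_symmetric_of_eventually (𝕜 := ℝ) (f := fun v : X => ‖v‖) (f' := N1)
    (x := z) ?_ (R.hN hz) u v
  filter_upwards [R.hO.mem_nhds hz] with w hw
  exact DifferentiableAt.hasFDerivAt hw

theorem N2_left' {z : Y} (hz : z ∈ Sm Y) : N2 z z = 0 :=
  hom_fderiv_self (fun _ ht z => N1_smul_pos ht z) (R.hN' hz)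

theorem N2_symm' {z : Y} (hz : z ∈ Sm Y) (u v : Y) : N2 z u v = N2 z v u := by
  refine second_derivative_symmetric_of_eventually (𝕜 := ℝ) (f := fun v : Y => ‖v‖) (f' := N1)
    (x := z) ?_ (R.hN' hz) u v
  filter_upwards [R.hO'.mem_nhds hz] with w hw
  exact DifferentiableAt.hasFDerivAt hw

theorem N2_nonneg [Nontrivial X] {z : X} (hz : z ∈ Sm X) (u : X) : 0 ≤ N2 z u u := by
  have h1 : HasDerivAt (fun t : ℝ => N1 (z + t • u) u) (N2 z u u) 0 := by
    simpa using (comp_line (R.hN hz) u).clm_apply (hasDerivAt_const (0 : ℝ) u)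
  have h2 : ∀ᶠ t : ℝ in 𝓝 0, z + t • u ∈ Sm X := by
    have hc : ContinuousAt (fun t : ℝ => z + t • u) 0 := (hasDerivAt_line z u).continuousAt
    apply hc.eventually_mem
    rw [zero_smul, add_zero]
    exact R.hO.mem_nhds hz
  have h3 : ∀ᶠ t : ℝ in 𝓝[>] 0, 0 ≤ t⁻¹ • (N1 (z + (0 + t) • u) u - N1 (z + (0 : ℝ) • u) u) := by
    filter_upwards [nhdsWithin_le_nhds h2, self_mem_nhdsWithin] with t ht ht0
    have htpos : 0 < t := ht0
    rw [zero_add, zero_smul, add_zero, smul_eq_mul]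
    apply mul_nonneg (inv_nonneg.mpr htpos.le)
    have e1 : N1 z z = ‖z‖ := N1_self hz
    have e2 : N1 (z + t • u) (z + t • u) = ‖z + t • u‖ := N1_self ht
    have e3 : N1 z (z + t • u) ≤ ‖z + t • u‖ := N1_le_norm _ _
    have e4 : N1 (z + t • u) z ≤ ‖z‖ := N1_le_norm _ _
    rw [_root_.map_add, _root_.map_smul, smul_eq_mul] at e2 e3
    have e5 : t * N1 z u ≤ t * N1 (z + t • u) u := by linarith
    have := le_of_mul_le_mul_left e5 htpos
    linarith
  have h4 := h1.tendsto_slope_zero_right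
  exact ge_of_tendsto h4 h3

theorem bstar [Nontrivial X] {x : X} (hx : ‖x‖ = 1) (hs : x ∈ Sm X) (u : X) :
    ‖S.T1 x u - N1 x u • S.F x‖ = ‖u - N1 x u • x‖ := by
  have hx0 : x ≠ 0 := R.ne_zero hs
  have hn : HasDerivAt (fun t : ℝ => ‖x + t • u‖) (N1 x u) 0 :=
    comp_line (f := fun v : X => ‖v‖) (DifferentiableAt.hasFDerivAt hs) u
  have hF : HasDerivAt (fun t : ℝ => S.F (x + t • u)) (S.T1 x u) 0 :=
    comp_line (S.diff hx0).hasFDerivAt u
  have hg := hF.sub (hn.smul_const (S.F x))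
  have hk := (hasDerivAt_line x u).sub (hn.smul_const x)
  refine norm_deriv_eq hg hk ?_ ?_ ?_
  · simp [hx]
  · simp [hx]
  · intro t
    show ‖S.F (x + t • u) - ‖x + t • u‖ • S.F x‖ = ‖(x + t • u) - ‖x + t • u‖ • x‖
    rw [← S.map_smul]
    apply S.norm_sub
    rw [norm_smul, hx, mul_one, norm_norm]

theorem bz [Nontrivial X] {z : X} (hz : z ∈ Sm X) (u : X) :
    ‖S.T1 z u - N1 z u • (‖z‖⁻¹ • S.F z)‖ = ‖u - N1 z u • (‖z‖⁻¹ • z)‖ := by
  have hz0 := R.ne_zero hz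
  have hz' : ‖z‖ ≠ 0 := norm_ne_zero_iff.mpr hz0
  have h := R.bstar (unit_of_ne hz0) (smooth_smul hz (inv_ne_zero hz')) u
  rwa [N1_normalize hz0, S.T1_smul (inv_ne_zero hz'), S.map_smul] at h

theorem N2_smul {z : X} (hz : z ∈ Sm X) {t : ℝ} (ht : 0 < t) : N2 (t • z) = t⁻¹ • N2 z :=
  (hom_fderiv_smul (fun _ ht z => N1_smul_pos ht z) (R.hN hz) ht).fderiv

theorem N2_smul' {z : Y} (hz : z ∈ Sm Y) {t : ℝ} (ht : 0 < t) : N2 (t • z) = t⁻¹ • N2 z :=
  (hom_fderiv_smul (fun _ ht z => N1_smul_pos ht z) (R.hN' hz) ht).fderiv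

theorem Q_left {z : X} (hz : z ∈ Sm X) : S.Q z z = 0 :=
  hom_fderiv_self (fun _ ht z => S.T1_smul ht.ne' z) (R.hQ hz)

theorem Q_smul {z : X} (hz : z ∈ Sm X) {t : ℝ} (ht : 0 < t) : S.Q (t • z) = t⁻¹ • S.Q z :=
  (hom_fderiv_smul (fun _ ht z => S.T1_smul ht.ne' z) (R.hQ hz) ht).fderiv

/-- second derivative of `‖F y + ‖y‖ F x‖ = ‖y + ‖y‖ x‖` -/
theorem c1 [Nontrivial X] {x : X} (hx : ‖x‖ = 1) (hs : x ∈ Sm X) (u v : X) :
    2⁻¹ * N2 (S.F x) (S.T1 x u) (S.T1 x v) + N1 (S.F x) (S.Q x u v) = 2⁻¹ * N2 x u v := by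
  have hx0 : x ≠ 0 := R.ne_zero hs
  have hFx0 : S.F x ≠ 0 := S.F_ne hx0
  have hsF : S.F x ∈ Sm Y := (S.smooth_iff hx0).mpr hs
  have hPx : P x x = (2 : ℝ) • x := by unfold P; rw [hx, two_smul, one_smul]
  have hPFx : P (S.F x) (S.F x) = (2 : ℝ) • S.F x := by
    unfold P; rw [S.norm_map, hx, two_smul, one_smul]
  -- first derivatives
  have hfirst : ∀ y : X, y ∈ Sm X → P x y ∈ Sm X → P (S.F x) (S.F y) ∈ Sm Y → ∀ v : X,
      N1 (P (S.F x) (S.F y)) (N1 y v • S.F x + S.T1 y v) = N1 (P x y) (N1 y v • x + v) := by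
    intro y hy hP hP' v
    have hn : HasDerivAt (fun t : ℝ => ‖y + t • v‖) (N1 y v) 0 :=
      comp_line (f := fun v : X => ‖v‖) (DifferentiableAt.hasFDerivAt hy) v
    have hF : HasDerivAt (fun t : ℝ => S.F (y + t • v)) (S.T1 y v) 0 :=
      comp_line (S.diff (R.ne_zero hy)).hasFDerivAt v
    have hg := (hn.smul_const (S.F x)).add hF
    have hk := (hn.smul_const x).add (hasDerivAt_line y v)
    have h1 : HasFDerivAt (fun v : Y => ‖v‖) (N1 (P (S.F x) (S.F y)))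
        (‖y + (0 : ℝ) • v‖ • S.F x + S.F (y + (0 : ℝ) • v)) := by
      have e : ‖y + (0 : ℝ) • v‖ • S.F x + S.F (y + (0 : ℝ) • v) = P (S.F x) (S.F y) := by
        unfold P; rw [zero_smul, add_zero, S.norm_map]
      rw [e]; exact DifferentiableAt.hasFDerivAt hP'
    have h2 : HasFDerivAt (fun v : X => ‖v‖) (N1 (P x y))
        (‖y + (0 : ℝ) • v‖ • x + (y + (0 : ℝ) • v)) := by
      have e : ‖y + (0 : ℝ) • v‖ • x + (y + (0 : ℝ) • v) = P x y := by
        unfold P; rw [zero_smul, add_zero]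
      rw [e]; exact DifferentiableAt.hasFDerivAt hP
    have h3 := h1.comp_hasDerivAt (0 : ℝ) hg
    have h4 := h2.comp_hasDerivAt (0 : ℝ) hk
    have h5 : ((fun v : Y => ‖v‖) ∘ ((fun t : ℝ => ‖y + t • v‖ • S.F x) +
          fun t : ℝ => S.F (y + t • v))) =
        ((fun v : X => ‖v‖) ∘ ((fun t : ℝ => ‖y + t • v‖ • x) + fun t : ℝ => (y + t • v))) := by
      ext t
      show ‖‖y + t • v‖ • S.F x + S.F (y + t • v)‖ = ‖‖y + t • v‖ • x + (y + t • v)‖
      rw [← S.map_smul]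
      apply S.norm_add
      rw [norm_smul, hx, mul_one, norm_norm]
    rw [h5] at h3
    exact h3.unique h4
  -- second derivatives
  have hn : HasDerivAt (fun t : ℝ => ‖x + t • u‖) (N1 x u) 0 :=
    comp_line (f := fun v : X => ‖v‖) (DifferentiableAt.hasFDerivAt hs) u
  have hF : HasDerivAt (fun t : ℝ => S.F (x + t • u)) (S.T1 x u) 0 :=
    comp_line (S.diff hx0).hasFDerivAt u
  have hN : HasDerivAt (fun t : ℝ => N1 (x + t • u)) (N2 x u) 0 := comp_line (R.hN hs) u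
  have hT : HasDerivAt (fun t : ℝ => S.T1 (x + t • u)) (S.Q x u) 0 := comp_line (R.hQ hs) u
  have hNv : HasDerivAt (fun t : ℝ => N1 (x + t • u) v) (N2 x u v) 0 := by
    simpa using hN.clm_apply (hasDerivAt_const (0 : ℝ) v)
  have hTv : HasDerivAt (fun t : ℝ => S.T1 (x + t • u) v) (S.Q x u v) 0 := by
    simpa using hT.clm_apply (hasDerivAt_const (0 : ℝ) v)
  have hg : HasDerivAt (fun t : ℝ => P (S.F x) (S.F (x + t • u)))
      (N1 x u • S.F x + S.T1 x u) 0 := by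
    have := (hn.smul_const (S.F x)).add hF
    refine this.congr_of_eventuallyEq ?_
    filter_upwards with t
    simp only [P, S.norm_map, Pi.add_apply]
  have hk : HasDerivAt (fun t : ℝ => P x (x + t • u)) (N1 x u • x + u) 0 :=
    (hn.smul_const x).add (hasDerivAt_line x u)
  have h2F : P (S.F x) (S.F (x + (0 : ℝ) • u)) = (2 : ℝ) • S.F x := by
    rw [zero_smul, add_zero, hPFx]
  have h2x : P x (x + (0 : ℝ) • u) = (2 : ℝ) • x := by rw [zero_smul, add_zero, hPx]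
  have h2F0 : (2 : ℝ) • S.F x ∈ Sm Y := smooth_smul hsF two_ne_zero
  have h2x0 : (2 : ℝ) • x ∈ Sm X := smooth_smul hs two_ne_zero
  have hNg : HasDerivAt (fun t : ℝ => N1 (P (S.F x) (S.F (x + t • u))))
      (N2 ((2 : ℝ) • S.F x) (N1 x u • S.F x + S.T1 x u)) 0 := by
    have h1 : HasFDerivAt (N1 : Y → Y →L[ℝ] ℝ) (N2 ((2 : ℝ) • S.F x))
        (P (S.F x) (S.F (x + (0 : ℝ) • u))) := by rw [h2F]; exact R.hN' h2F0
    exact h1.comp_hasDerivAt 0 hg
  have hNk : HasDerivAt (fun t : ℝ => N1 (P x (x + t • u)))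
      (N2 ((2 : ℝ) • x) (N1 x u • x + u)) 0 := by
    have h1 : HasFDerivAt (N1 : X → X →L[ℝ] ℝ) (N2 ((2 : ℝ) • x)) (P x (x + (0 : ℝ) • u)) := by
      rw [h2x]; exact R.hN h2x0
    exact h1.comp_hasDerivAt 0 hk
  have hA := hNg.clm_apply ((hNv.smul_const (S.F x)).add hTv)
  have hB := hNk.clm_apply ((hNv.smul_const x).add (hasDerivAt_const (0 : ℝ) v))
  have hAB : ∀ᶠ t : ℝ in 𝓝 0, N1 (P (S.F x) (S.F (x + t • u)))
      (N1 (x + t • u) v • S.F x + S.T1 (x + t • u) v) =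
      N1 (P x (x + t • u)) (N1 (x + t • u) v • x + v) := by
    have c1 : ∀ᶠ t : ℝ in 𝓝 0, x + t • u ∈ Sm X := by
      have : ContinuousAt (fun t : ℝ => x + t • u) 0 := (hasDerivAt_line x u).continuousAt
      apply this.eventually_mem
      rw [zero_smul, add_zero]
      exact R.hO.mem_nhds hs
    have c2 : ∀ᶠ t : ℝ in 𝓝 0, P x (x + t • u) ∈ Sm X := by
      apply hk.continuousAt.eventually_mem
      rw [h2x]
      exact R.hO.mem_nhds h2x0
    have c3 : ∀ᶠ t : ℝ in 𝓝 0, P (S.F x) (S.F (x + t • u)) ∈ Sm Y := by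
      apply hg.continuousAt.eventually_mem
      rw [h2F]
      exact R.hO'.mem_nhds h2F0
    filter_upwards [c1, c2, c3] with t h1 h2 h3
    exact hfirst _ h1 h2 h3 v
  have hAB' := hA.congr_of_eventuallyEq (hAB.mono fun t ht => ht.symm)
  have hfin := hAB'.unique hB
  simp only [Pi.add_apply, zero_smul, add_zero, hPFx, hPx, _root_.map_add, _root_.map_smul,
    R.N2_smul' hsF two_pos, R.N2_smul hs two_pos, smul_apply, add_apply, smul_eq_mul,
    R.N2_left' hsF, R.N2_left hs, zero_apply, N1_smul_pos two_pos] at hfin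
  have e1 : N2 (S.F x) (S.T1 x u) (S.F x) = 0 := by
    rw [R.N2_symm' hsF, R.N2_left' hsF]; rfl
  have e2 : N2 x u x = 0 := by rw [R.N2_symm hs, R.N2_left hs]; rfl
  have e3 : N1 (S.F x) (S.F x) = 1 := by rw [N1_self hsF, S.norm_map, hx]
  have e4 : N1 x x = 1 := by rw [N1_self hs, hx]
  rw [e1, e2, e3, e4] at hfin
  linarith

theorem c2 [Nontrivial X] {x : X} (hs : x ∈ Sm X) (u v : X) :
    N2 (S.F x) (S.T1 x u) (S.T1 x v) + N1 (S.F x) (S.Q x u v) = N2 x u v := by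
  have hx : x ≠ 0 := R.ne_zero hs
  have hsF : S.F x ∈ Sm Y := (S.smooth_iff hx).mpr hs
  have hF : HasDerivAt (fun t : ℝ => S.F (x + t • u)) (S.T1 x u) 0 :=
    comp_line (S.diff hx).hasFDerivAt u
  have hN : HasDerivAt (fun t : ℝ => N1 (x + t • u)) (N2 x u) 0 := comp_line (R.hN hs) u
  have hT : HasDerivAt (fun t : ℝ => S.T1 (x + t • u)) (S.Q x u) 0 := comp_line (R.hQ hs) u
  have hNv : HasDerivAt (fun t : ℝ => N1 (x + t • u) v) (N2 x u v) 0 := by
    simpa using hN.clm_apply (hasDerivAt_const (0 : ℝ) v)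
  have hTv : HasDerivAt (fun t : ℝ => S.T1 (x + t • u) v) (S.Q x u v) 0 := by
    simpa using hT.clm_apply (hasDerivAt_const (0 : ℝ) v)
  have hNF : HasDerivAt (fun t : ℝ => N1 (S.F (x + t • u))) (N2 (S.F x) (S.T1 x u)) 0 := by
    have h1 : HasFDerivAt (N1 : Y → Y →L[ℝ] ℝ) (N2 (S.F x)) (S.F (x + (0 : ℝ) • u)) := by
      rw [zero_smul, add_zero]; exact R.hN' hsF
    exact h1.comp_hasDerivAt 0 hF
  have hA := hNF.clm_apply hTv
  have hAB : ∀ᶠ t : ℝ in 𝓝 0, N1 (S.F (x + t • u)) (S.T1 (x + t • u) v) = N1 (x + t • u) v := by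
    have c1 : ∀ᶠ t : ℝ in 𝓝 0, x + t • u ∈ Sm X := by
      have : ContinuousAt (fun t : ℝ => x + t • u) 0 := (hasDerivAt_line x u).continuousAt
      apply this.eventually_mem
      rw [zero_smul, add_zero]
      exact R.hO.mem_nhds hs
    filter_upwards [c1] with t ht
    exact S.N1_T1 (R.ne_zero ht) ht v
  have hAB' := hA.congr_of_eventuallyEq (hAB.mono fun t ht => ht.symm)
  have hfin := hAB'.unique hNv
  simpa using hfin

theorem c_iso [Nontrivial X] {x : X} (hx : ‖x‖ = 1) (hs : x ∈ Sm X) (u v : X) :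
    N2 (S.F x) (S.T1 x u) (S.T1 x v) = N2 x u v := by
  have h1 := R.c1 hx hs u v
  have h2 := R.c2 hs u v
  linarith

theorem c_zero [Nontrivial X] {x : X} (hx : ‖x‖ = 1) (hs : x ∈ Sm X) (u v : X) :
    N1 (S.F x) (S.Q x u v) = 0 := by
  have h1 := R.c1 hx hs u v
  have h2 := R.c2 hs u v
  linarith

theorem c_zero' [Nontrivial X] {z : X} (hs : z ∈ Sm X) (u v : X) :
    N1 (S.F z) (S.Q z u v) = 0 := by
  have hz : z ≠ 0 := R.ne_zero hs
  have hz' : 0 < ‖z‖ := norm_pos_iff.mpr hz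
  have h := R.c_zero (unit_of_ne hz) (smooth_smul hs (inv_ne_zero hz'.ne')) u v
  rw [R.Q_smul hs (inv_pos.mpr hz'), S.map_smul, N1_smul_pos (inv_pos.mpr hz')] at h
  simpa [hz'.ne'] using h

/-- the first derivative is an isometry on the tangent space -/
theorem T1_iso [Nontrivial X] {x : X} (hx : ‖x‖ = 1) (hs : x ∈ Sm X) {u : X} (hu : N1 x u = 0) :
    ‖S.T1 x u‖ = ‖u‖ := by
  have h := R.bstar hx hs u
  rwa [hu, zero_smul, zero_smul, sub_zero, sub_zero] at h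

/-- perpendicularity -/
theorem d [Nontrivial X] {x : X} (hx : ‖x‖ = 1) (hs : x ∈ Sm X) {u : X} (hu : N1 x u = 0)
    (v : X) (huv : N2 x v u = 0) :
    HasDerivAt (fun t : ℝ => ‖S.T1 x u + t • S.Q x v u‖) 0 0 := by
  have hx0 : x ≠ 0 := R.ne_zero hs
  have hn : HasDerivAt (fun t : ℝ => ‖x + t • v‖) (N1 x v) 0 :=
    comp_line (f := fun v : X => ‖v‖) (DifferentiableAt.hasFDerivAt hs) v
  have hni : HasDerivAt (fun t : ℝ => ‖x + t • v‖⁻¹) (-(N1 x v) / ‖x + (0 : ℝ) • v‖ ^ 2) 0 :=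
    hn.inv (by rw [zero_smul, add_zero, hx]; exact one_ne_zero)
  have hF : HasDerivAt (fun t : ℝ => S.F (x + t • v)) (S.T1 x v) 0 :=
    comp_line (S.diff hx0).hasFDerivAt v
  have hN : HasDerivAt (fun t : ℝ => N1 (x + t • v)) (N2 x v) 0 := comp_line (R.hN hs) v
  have hT : HasDerivAt (fun t : ℝ => S.T1 (x + t • v)) (S.Q x v) 0 := comp_line (R.hQ hs) v
  have hNu : HasDerivAt (fun t : ℝ => N1 (x + t • v) u) (N2 x v u) 0 := by
    simpa using hN.clm_apply (hasDerivAt_const (0 : ℝ) u)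
  have hTu : HasDerivAt (fun t : ℝ => S.T1 (x + t • v) u) (S.Q x v u) 0 := by
    simpa using hT.clm_apply (hasDerivAt_const (0 : ℝ) u)
  have hg : HasDerivAt (fun t : ℝ => S.T1 (x + t • v) u -
      N1 (x + t • v) u • (‖x + t • v‖⁻¹ • S.F (x + t • v))) (S.Q x v u) 0 := by
    refine (hTu.fun_sub (hNu.fun_smul (hni.fun_smul hF))).congr_deriv ?_
    simp [hx, hu, huv]
  have hk : HasDerivAt (fun t : ℝ => u -
      N1 (x + t • v) u • (‖x + t • v‖⁻¹ • (x + t • v))) 0 0 := by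
    refine ((hasDerivAt_const (0 : ℝ) u).fun_sub
      (hNu.fun_smul (hni.fun_smul (hasDerivAt_line x v)))).congr_deriv ?_
    simp [hx, hu, huv]
  have h1 := norm_perp hg hk (by
    have c1 : ∀ᶠ t : ℝ in 𝓝 0, x + t • v ∈ Sm X := by
      have : ContinuousAt (fun t : ℝ => x + t • v) 0 := (hasDerivAt_line x v).continuousAt
      apply this.eventually_mem
      rw [zero_smul, add_zero]
      exact R.hO.mem_nhds hs
    filter_upwards [c1] with t ht
    exact R.bz ht u)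
  simpa [hu] using h1

/-- structure of the second derivative at unit vectors -/
theorem Q_struct_unit [Nontrivial X] {x : X} (hx : ‖x‖ = 1) (hs : x ∈ Sm X) : ∃ β : X,
    N1 x β = 0 ∧ (∀ u v, S.Q x u v = N2 x u v • S.T1 x β) ∧
    (2 ≤ finrank ℝ (LinearMap.range (N2 x : X →ₗ[ℝ] X →L[ℝ] ℝ)) → ∀ w, N2 x β w = 0) := by
  have hx0 : x ≠ 0 := R.ne_zero hs
  have hFx0 : S.F x ≠ 0 := S.F_ne hx0
  have hsF : S.F x ∈ Sm Y := (S.smooth_iff hx0).mpr hs
  -- total symmetry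
  obtain ⟨hQs, hQt⟩ := total_symm S.F S.T1 S.Q (N1 : Y → Y →L[ℝ] ℝ) (N2 (S.F x)) (x := x)
    (by filter_upwards [isOpen_ne.mem_nhds hx0] with z hz using (S.diff hz).hasFDerivAt)
    (by filter_upwards [R.hO.mem_nhds hs] with z hz using R.hQ hz)
    (R.Q_cont hs) (R.hN' hsF)
    (by filter_upwards [R.hO.mem_nhds hs] with z hz using R.c_zero' hz)
  -- the derivative is an isomorphism
  have hinj : Function.Injective (S.T1 x : X →ₗ[ℝ] Y) := by
    rw [← LinearMap.ker_eq_bot, LinearMap.ker_eq_bot']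
    intro u hu
    have hu' : S.T1 x u = 0 := hu
    have h1 := S.N1_T1 hx0 hs u
    rw [hu', _root_.map_zero] at h1
    have h2 := R.bstar hx hs u
    rw [hu', ← h1, zero_smul, zero_smul, sub_zero, sub_zero, norm_zero] at h2
    exact norm_eq_zero.mp h2.symm
  let e : X ≃ₗ[ℝ] Y := LinearEquiv.ofInjectiveOfFinrankEq (S.T1 x : X →ₗ[ℝ] Y) hinj S.finrank_eq
  have he : ∀ u, e u = S.T1 x u := fun u => rfl
  have he' : ∀ w, S.T1 x (e.symm w) = w := fun w => by rw [← he, e.apply_symm_apply]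
  -- the tangent space
  let V : Submodule ℝ X := LinearMap.ker (N1 x : X →ₗ[ℝ] ℝ)
  have hV : ∀ u : X, u ∈ V ↔ N1 x u = 0 := fun u => LinearMap.mem_ker
  have hBmem : ∀ u v : X, e.symm (S.Q x u v) ∈ V := by
    intro u v
    rw [hV, ← S.N1_T1 hx0 hs, he']
    exact R.c_zero hx hs u v
  let B : V →ₗ[ℝ] V →ₗ[ℝ] V := LinearMap.mk₂ ℝ
    (fun u v => ⟨e.symm (S.Q x u v), hBmem u v⟩)
    (by intro u u' v; apply Subtype.ext; simp)
    (by intro c u v; apply Subtype.ext; simp)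
    (by intro u v v'; apply Subtype.ext; simp)
    (by intro c u v; apply Subtype.ext; simp)
  have hBc : ∀ u v : V, ((B u v : V) : X) = e.symm (S.Q x u v) := fun u v => rfl
  let h : V →ₗ[ℝ] V →ₗ[ℝ] ℝ := LinearMap.mk₂ ℝ (fun u v => N2 x (u : X) (v : X))
    (by intro u u' v; simp) (by intro c u v; simp) (by intro u v v'; simp)
    (by intro c u v; simp)
  have hh : ∀ u v : V, h u v = N2 x (u : X) (v : X) := fun u v => rfl
  have hne : ∀ u : V, u ≠ 0 → (u : X) ≠ 0 := fun u hu h => hu (Subtype.ext h)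
  obtain ⟨β, hβ, hβ2⟩ := alg_general (V := V) h
    (by intro u v; rw [hh, hh]; exact R.N2_symm hs _ _)
    (by intro u; rw [hh]; exact R.N2_nonneg hs _)
    B
    (by intro u v; apply Subtype.ext; rw [hBc, hBc, hQs])
    (by
      intro u v w
      rw [hh, hh, hBc, hBc, ← R.c_iso hx hs, ← R.c_iso hx hs, he', he']
      calc N2 (S.F x) (S.Q x u v) (S.T1 x w) = N2 (S.F x) (S.T1 x w) (S.Q x v u) := by
            rw [R.N2_symm' hsF, hQs]
        _ = N2 (S.F x) (S.T1 x v) (S.Q x w u) := hQt _ _ _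
        _ = N2 (S.F x) (S.Q x u w) (S.T1 x v) := by rw [R.N2_symm' hsF, hQs (u : X)])
    (by
      intro u v _ huv
      have h1 := R.d hx hs ((hV _).mp u.2) (v : X) (by rw [R.N2_symm hs]; exact huv)
      refine h1.congr_of_eventuallyEq ?_
      filter_upwards with t
      show ‖((u + t • B u v : V) : X)‖ = _
      rw [← R.T1_iso hx hs ((hV _).mp (u + t • B u v : V).2), Submodule.coe_add,
        Submodule.coe_smul, hBc, _root_.map_add, _root_.map_smul, he', hQs])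
  -- projection on the tangent space
  have hNx : N1 x x = 1 := by rw [N1_self hs, hx]
  have hQx : ∀ v, S.Q x x v = 0 := fun v => by rw [R.Q_left hs]; rfl
  have hQx' : ∀ v, S.Q x v x = 0 := fun v => by rw [hQs, hQx]
  have hNx1 : ∀ v, N2 x x v = 0 := fun v => by rw [R.N2_left hs]; rfl
  have hNx2 : ∀ v, N2 x v x = 0 := fun v => by rw [R.N2_symm hs, hNx1]
  have k1 : ∀ u, N1 x (u - N1 x u • x) = 0 := by
    intro u
    rw [_root_.map_sub, _root_.map_smul, hNx]; simp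
  have kQ : ∀ u v, S.Q x u v = S.Q x (u - N1 x u • x) (v - N1 x v • x) := by
    intro u v
    rw [_root_.map_sub (S.Q x), _root_.map_smul (S.Q x), R.Q_left hs, smul_zero, sub_zero,
      _root_.map_sub, _root_.map_smul, hQx', smul_zero, sub_zero]
  have kN : ∀ u v, N2 x u v = N2 x (u - N1 x u • x) (v - N1 x v • x) := by
    intro u v
    rw [_root_.map_sub (N2 x), _root_.map_smul (N2 x), R.N2_left hs, smul_zero, sub_zero,
      _root_.map_sub, _root_.map_smul, hNx2, smul_zero, sub_zero]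
  have hker : ∀ u v : X, N1 x u = 0 → N1 x v = 0 → S.Q x u v = N2 x u v • S.T1 x β := by
    intro u v hu hv
    have h1 := hβ ⟨u, (hV u).mpr hu⟩ ⟨v, (hV v).mpr hv⟩
    have h2 := hBc ⟨u, (hV u).mpr hu⟩ ⟨v, (hV v).mpr hv⟩
    rw [h1] at h2
    have h3 : N2 x u v • (β : X) = e.symm (S.Q x u v) := h2
    rw [← he' (S.Q x u v), ← h3, _root_.map_smul]
  refine ⟨β, (hV _).mp β.2, ?_, ?_⟩
  · intro u v
    rw [kQ u v, kN u v]
    exact hker _ _ (k1 u) (k1 v)
  · intro hrank w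
    -- comparison of the ranks
    let π : X →ₗ[ℝ] V :=
      { toFun := fun u => ⟨u - N1 x u • x, (hV _).mpr (k1 u)⟩
        map_add' := by
          intro u v
          apply Subtype.ext
          simp only [_root_.map_add, Submodule.coe_add, add_smul]
          abel
        map_smul' := by
          intro c u
          apply Subtype.ext
          simp only [_root_.map_smul, smul_eq_mul, RingHom.id_apply, Submodule.coe_smul, smul_sub,
            smul_smul] }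
    have hπ : ∀ u, ((π u : V) : X) = u - N1 x u • x := fun u => rfl
    let A : (V →ₗ[ℝ] ℝ) →ₗ[ℝ] (X →L[ℝ] ℝ) :=
      { toFun := fun f => LinearMap.toContinuousLinearMap (f ∘ₗ π)
        map_add' := by intro f g; ext u; rfl
        map_smul' := by intro c f; ext u; rfl }
    have hsub : LinearMap.range (N2 x : X →ₗ[ℝ] X →L[ℝ] ℝ) ≤
        Submodule.map A (LinearMap.range h) := by
      rintro _ ⟨u, rfl⟩
      refine ⟨h (π u), ⟨π u, rfl⟩, ?_⟩
      ext v
      show h (π u) (π v) = N2 x u v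
      rw [hh, hπ, hπ, ← kN]
    have h1 : finrank ℝ (LinearMap.range (N2 x : X →ₗ[ℝ] X →L[ℝ] ℝ)) ≤
        finrank ℝ (LinearMap.range h) :=
      (Submodule.finrank_mono hsub).trans (Submodule.finrank_map_le A _)
    have h2 := hβ2 (hrank.trans h1) (π w)
    rw [hh, hπ] at h2
    have h3 : (β : X) - N1 x (β : X) • x = β := by
      rw [(hV _).mp β.2, zero_smul, sub_zero]
    rw [kN, h3]
    exact h2

/-- structure of the second derivative (from `alg_general`) -/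
theorem Q_struct [Nontrivial X] {z : X} (hz : z ∈ Sm X) : ∃ β : X, N1 z β = 0 ∧
    (∀ u v, S.Q z u v = N2 z u v • S.T1 z β) ∧
    (2 ≤ finrank ℝ (LinearMap.range (N2 z : X →ₗ[ℝ] X →L[ℝ] ℝ)) → ∀ w, N2 z β w = 0) := by
  have hz0 : z ≠ 0 := R.ne_zero hz
  have hz' : 0 < ‖z‖ := norm_pos_iff.mpr hz0
  have hi : (0 : ℝ) < ‖z‖⁻¹ := inv_pos.mpr hz'
  obtain ⟨β, h1, h2, h3⟩ := R.Q_struct_unit (unit_of_ne hz0) (smooth_smul hz hi.ne')
  rw [N1_normalize hz0] at h1
  have hN2 : N2 (‖z‖⁻¹ • z) = ‖z‖ • N2 z := by rw [R.N2_smul hz hi, inv_inv]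
  have hQ2 : S.Q (‖z‖⁻¹ • z) = ‖z‖ • S.Q z := by rw [R.Q_smul hz hi, inv_inv]
  have hT2 : S.T1 (‖z‖⁻¹ • z) = S.T1 z := S.T1_smul hi.ne' z
  rw [hN2] at h3
  rw [hN2, hQ2, hT2] at h2
  refine ⟨β, h1, ?_, ?_⟩
  · intro u v
    have h4 := h2 u v
    rw [smul_apply, smul_apply, smul_apply, smul_apply, smul_assoc] at h4
    exact smul_right_injective Y hz'.ne' h4
  · intro hrank w
    have h4 := h3 (by
      have hsub : LinearMap.range (N2 z : X →ₗ[ℝ] X →L[ℝ] ℝ) ≤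
          LinearMap.range ((‖z‖ • N2 z : X →L[ℝ] X →L[ℝ] ℝ) : X →ₗ[ℝ] X →L[ℝ] ℝ) := by
        rintro _ ⟨u, rfl⟩
        refine ⟨‖z‖⁻¹ • u, ?_⟩
        show (‖z‖ • N2 z) (‖z‖⁻¹ • u) = N2 z u
        rw [smul_apply, _root_.map_smul, smul_smul, mul_inv_cancel₀ hz'.ne', one_smul]
      exact hrank.trans (Submodule.finrank_mono hsub)) w
    rw [smul_apply, smul_apply, smul_eq_mul] at h4
    exact (mul_eq_zero.mp h4).resolve_left hz'.ne'

end SphMap.LReg

end

end Vale.Agent.P084
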