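import Vale.Agent.P084.TLemma

open Metric Set Filter Topology MeasureTheory Module Asymptotics

namespace Vale.Agent.P084

/-- a total set of functionals contains a coordinate system -/
theorem exists_chart {Y : Type*} [NormedAddCommGroup Y] [NormedSpace ℝ Y] [FiniteDimensional ℝ Y]
    (Φ : Set (Y →L[ℝ] ℝ)) (h : ∀ w, (∀ φ ∈ Φ, φ w = 0) → w = 0) :
    ∃ (n : ℕ) (p : Fin n → Y →L[ℝ] ℝ), (∀ i, p i ∈ Φ) ∧
      ∃ M : Y ≃L[ℝ] (Fin n → ℝ), ∀ w i, M w i = p i w := by
  classical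
  obtain ⟨b, hbΦ, hspan, hli⟩ := exists_linearIndependent ℝ Φ
  have hfin : b.Finite := hli.setFinite
  have : Fintype b := hfin.fintype
  let e : b ≃ Fin (Fintype.card b) := Fintype.equivFin b
  -- the linear map
  let L : Y →ₗ[ℝ] (Fin (Fintype.card b) → ℝ) :=
    { toFun := fun w i => ((e.symm i : b) : Y →L[ℝ] ℝ) w
      map_add' := by intro u v; ext i; simp
      map_smul' := by intro t u; ext i; simp }
  have hinj : Function.Injective L := by
    rw [← LinearMap.ker_eq_bot, LinearMap.ker_eq_bot']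
    intro w hw
    apply h
    let K : Submodule ℝ (Y →L[ℝ] ℝ) :=
      { carrier := {φ | φ w = 0}
        add_mem' := by
          intro a b ha hb
          simp only [mem_ofPred_eq] at ha hb ⊢
          rw [add_apply, ha, hb, add_zero]
        zero_mem' := by simp
        smul_mem' := by
          intro t a ha
          simp only [mem_ofPred_eq] at ha ⊢
          rw [smul_apply, ha, smul_zero] }
    have hbK : b ⊆ K := by
      intro φ hφ
      have := congrFun hw (e ⟨φ, hφ⟩)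
      simpa [L, K] using this
    intro φ hφ
    have h1 : φ ∈ Submodule.span ℝ b := by rw [hspan]; exact Submodule.subset_span hφ
    exact (Submodule.span_le.mpr hbK) h1
  have hcard : finrank ℝ Y = finrank ℝ (Fin (Fintype.card b) → ℝ) := by
    apply le_antisymm
    · exact LinearMap.finrank_le_finrank_of_injective hinj
    · rw [Module.finrank_fin_fun]
      have h1 := hli.fintype_card_le_finrank
      have h2 : finrank ℝ (Y →L[ℝ] ℝ) = finrank ℝ Y := by
        rw [← LinearEquiv.finrank_eq (LinearMap.toContinuousLinearMap (𝕜 := ℝ) (E := Y) (F' := ℝ))]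
        exact Subspace.dual_finrank_eq
      rwa [h2] at h1
  let M := (LinearMap.linearEquivOfInjective L hinj hcard).toContinuousLinearEquiv
  refine ⟨Fintype.card b, fun i => (e.symm i : b), fun i => hbΦ (e.symm i).2, M, fun w i => rfl⟩

/-- the functionals `N1 (P a ζ)`, `ζ` in a dense set, separate points -/
theorem separating {Y : Type*} [NormedAddCommGroup Y] [NormedSpace ℝ Y] [StrictConvexSpace ℝ Y]
    {a : Y} (ha : ‖a‖ = 1) (D : Set Y) (hD : Dense D)
    (hT : ∀ z ∈ D, ¬ SameRay ℝ z (-a) ∧ DifferentiableAt ℝ (fun v : Y => ‖v‖) (P a z))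
    {w : Y} (hw : ∀ z ∈ D, N1 (P a z) w = 0) : w = 0 := by
  have h1 : ∀ (t : ℝ) (ζ : Y), ‖P a ζ‖ ≤ ‖P a ζ + t • w‖ := by
    intro t
    have hcl : IsClosed {ζ : Y | ‖P a ζ‖ ≤ ‖P a ζ + t • w‖} :=
      isClosed_le (continuous_P a).norm ((continuous_P a).add continuous_const).norm
    have hsub : D ⊆ {ζ : Y | ‖P a ζ‖ ≤ ‖P a ζ + t • w‖} := by
      intro ζ hζ
      show ‖P a ζ‖ ≤ ‖P a ζ + t • w‖
      calc ‖P a ζ‖ = N1 (P a ζ) (P a ζ + t • w) := by
            rw [_root_.map_add, _root_.map_smul, hw ζ hζ, smul_zero, add_zero,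
              N1_self (hT ζ hζ).2]
        _ ≤ _ := N1_apply_le _ _
    intro ζ
    have : closure D ⊆ {ζ : Y | ‖P a ζ‖ ≤ ‖P a ζ + t • w‖} := hcl.closure_subset_iff.mpr hsub
    exact this (hD ζ)
  obtain ⟨ζ₀, hζ₀⟩ := hD.nonempty
  have hnh := P_nhds_le ha (hT ζ₀ hζ₀).1
  set u := P a ζ₀ with hu
  have hrange : ∀ᶠ v in 𝓝 u, ∃ ζ, P a ζ = v := by
    have : range (P a) ∈ map (P a) (𝓝 ζ₀) := by
      rw [mem_map]; exact univ_mem' (fun x => mem_range_self x)
    exact hnh this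
  have hcont : Tendsto (fun t : ℝ => u + t • w) (𝓝 0) (𝓝 u) := by
    have : Continuous (fun t : ℝ => u + t • w) := by fun_prop
    have h := this.tendsto 0
    simpa using h
  obtain ⟨δ, hδ, hball⟩ := Metric.eventually_nhds_iff.mp (hcont.eventually hrange)
  have key : ∀ t : ℝ, |t| < δ → ‖u + t • w‖ = ‖u‖ := by
    intro t ht
    obtain ⟨ζ, hζ⟩ := hball (show dist t 0 < δ by rwa [dist_zero_right])
    apply le_antisymm
    · have := h1 (-t) ζ
      rw [hζ] at this
      have e : u + t • w + (-t) • w = u := by rw [neg_smul]; abel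
      rwa [e] at this
    · exact h1 t ζ₀
  have c1 := key (δ / 2) (by rw [abs_of_pos (by linarith)]; linarith)
  have c2 := key (δ / 4) (by rw [abs_of_pos (by linarith)]; linarith)
  have h3 : u = u + (δ / 2) • w := by
    apply eq_of_norm_eq_of_norm_add_eq c1.symm
    have : u + (u + (δ / 2) • w) = (2 : ℝ) • (u + (δ / 4) • w) := by
      rw [smul_add, smul_smul, two_smul]
      have : (2 : ℝ) * (δ / 4) = δ / 2 := by ring
      rw [this]; abel
    rw [this, norm_smul, c2, c1, Real.norm_of_nonneg (by norm_num)]; ring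
  have h4 : (δ / 2) • w = 0 := by
    have := h3.symm
    rwa [add_eq_left] at this
  exact (smul_eq_zero.mp h4).resolve_left (by linarith)

/-- If a nonzero linear functional vanishes to first order along the unit sphere at `x₀`, then
the norm is differentiable at `x₀`. -/
theorem differentiableAt_of_isLittleO {X : Type*} [NormedAddCommGroup X] [NormedSpace ℝ X]
    {x₀ : X} (hx₀ : ‖x₀‖ = 1) (g : X →L[ℝ] ℝ) (hg : g ≠ 0)
    (ho : (fun x => g (x - x₀)) =o[𝓝[sphere (0 : X) 1] x₀] (fun x => x - x₀)) :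
    DifferentiableAt ℝ (fun v : X => ‖v‖) x₀ := by
  have hx₀' : x₀ ≠ 0 := by intro h; rw [h, norm_zero] at hx₀; exact zero_ne_one hx₀
  -- the normalisation map
  have hnorm : Tendsto (fun z : X => ‖z‖⁻¹ • z) (𝓝 x₀) (𝓝[sphere (0 : X) 1] x₀) := by
    rw [tendsto_nhdsWithin_iff]
    constructor
    · have : ContinuousAt (fun z : X => ‖z‖⁻¹ • z) x₀ :=
        (continuous_norm.continuousAt.inv₀ (by rw [hx₀]; exact one_ne_zero)).smul continuousAt_id
      have h := this.tendsto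
      simpa [hx₀] using h
    · filter_upwards [isOpen_ne.mem_nhds hx₀'] with z hz
      rw [mem_sphere_zero_iff_norm, norm_smul, norm_inv, norm_norm,
        inv_mul_cancel₀ (norm_ne_zero_iff.mpr hz)]
  have h1 := ho.comp_tendsto hnorm
  have hbig : (fun z : X => ‖z‖⁻¹ • z - x₀) =O[𝓝 x₀] (fun z => z - x₀) := by
    have hne : ∀ᶠ z in 𝓝 x₀, (1 : ℝ) / 2 < ‖z‖ := by
      apply (isOpen_lt continuous_const continuous_norm).mem_nhds
      show (1 : ℝ) / 2 < ‖x₀‖
      rw [hx₀]; norm_num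
    apply IsBigO.of_bound 4
    filter_upwards [hne] with z hz
    have hzpos : 0 < ‖z‖ := by linarith
    have e1 : ‖z‖⁻¹ • z - x₀ = ‖z‖⁻¹ • ((z - x₀) + (1 - ‖z‖) • x₀) := by
      rw [smul_add, smul_sub, smul_smul, mul_sub, mul_one, inv_mul_cancel₀ hzpos.ne', sub_smul,
        one_smul]; abel
    rw [e1, norm_smul, norm_inv, norm_norm]
    have e2 : ‖z - x₀ + (1 - ‖z‖) • x₀‖ ≤ 2 * ‖z - x₀‖ := by
      calc ‖z - x₀ + (1 - ‖z‖) • x₀‖ ≤ ‖z - x₀‖ + ‖(1 - ‖z‖) • x₀‖ := norm_add_le _ _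
        _ = ‖z - x₀‖ + |‖x₀‖ - ‖z‖| := by rw [norm_smul, hx₀, mul_one, Real.norm_eq_abs]
        _ ≤ ‖z - x₀‖ + ‖x₀ - z‖ := by gcongr; exact abs_norm_sub_norm_le _ _
        _ = 2 * ‖z - x₀‖ := by rw [norm_sub_rev x₀ z]; ring
    have e3 : ‖z‖⁻¹ ≤ 2 := by
      rw [inv_le_comm₀ hzpos (by norm_num)]; linarith
    calc ‖z‖⁻¹ * ‖z - x₀ + (1 - ‖z‖) • x₀‖ ≤ 2 * (2 * ‖z - x₀‖) := by gcongr
      _ = 4 * ‖z - x₀‖ := by ring
  have h2 : (fun z : X => g (‖z‖⁻¹ • z - x₀)) =o[𝓝 x₀] (fun z => z - x₀) :=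
    h1.trans_isBigO hbig
  have h3 : (fun z : X => g z - ‖z‖ * g x₀) =o[𝓝 x₀] (fun z => z - x₀) := by
    have hb : (fun z : X => ‖z‖) =O[𝓝 x₀] (fun _ : X => (1 : ℝ)) :=
      continuous_norm.continuousAt.isBigO_one ℝ
    have h4 : (fun z : X => ‖z‖ * g (‖z‖⁻¹ • z - x₀)) =o[𝓝 x₀] (fun z => z - x₀) := by
      have := hb.mul_isLittleO h2.norm_right
      have h5 : (fun z : X => ‖z‖ * g (‖z‖⁻¹ • z - x₀)) =o[𝓝 x₀] (fun z => ‖z - x₀‖) := by
        simpa using this
      exact h5.of_norm_right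
    refine h4.congr' ?_ EventuallyEq.rfl
    filter_upwards [isOpen_ne.mem_nhds hx₀'] with z hz
    rw [_root_.map_sub, _root_.map_smul, smul_eq_mul, mul_sub, ← mul_assoc,
      mul_inv_cancel₀ (norm_ne_zero_iff.mpr hz), one_mul]
  by_cases hg0 : g x₀ = 0
  · exfalso
    apply hg
    have h5 : HasFDerivAt (fun z : X => g z) (0 : X →L[ℝ] ℝ) x₀ := by
      rw [hasFDerivAt_iff_isLittleO]
      refine h3.congr' ?_ EventuallyEq.rfl
      filter_upwards with z
      simp [hg0]
    exact g.hasFDerivAt.unique h5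
  · have h5 : HasFDerivAt (fun z : X => ‖z‖) ((g x₀)⁻¹ • g) x₀ := by
      rw [hasFDerivAt_iff_isLittleO]
      have h6 := h3.const_mul_left (-(g x₀)⁻¹)
      refine h6.congr' ?_ EventuallyEq.rfl
      filter_upwards with z
      rw [hx₀, smul_apply, _root_.map_sub, smul_eq_mul]
      field_simp
      ring
    exact h5.differentiableAt

end Vale.Agent.P084
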