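import Vale.Agent.P084.Step0

open Metric Set Filter Topology MeasureTheory Module Asymptotics

namespace Vale.Agent.P084

variable {X Y : Type*} [NormedAddCommGroup X] [NormedSpace ℝ X]
    [NormedAddCommGroup Y] [NormedSpace ℝ Y]

theorem continuousAt_N1 [FiniteDimensional ℝ X] {z : X}
    (h : ∀ᶠ w in 𝓝 z, DifferentiableAt ℝ (fun v : X => ‖v‖) w) : ContinuousAt N1 z := by
  rw [continuousAt_clm_apply]
  intro v
  have hz : DifferentiableAt ℝ (fun v : X => ‖v‖) z := h.self_of_nhds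
  have hder : ∀ v : X, HasDerivAt (fun t : ℝ => ‖z + t • v‖) (N1 z v) 0 := by
    intro v
    have h1 : HasDerivAt (fun t : ℝ => z + t • v) v 0 := by
      simpa using ((hasDerivAt_id (0 : ℝ)).smul_const v).const_add z
    have h2 : HasFDerivAt (fun v : X => ‖v‖) (N1 z) (z + (0 : ℝ) • v) := by
      rw [zero_smul, add_zero]; exact hz.hasFDerivAt
    exact h2.comp_hasDerivAt 0 h1
  have upper : ∀ v : X, ∀ ε > 0, ∀ᶠ w in 𝓝 z, N1 w v < N1 z v + ε := by
    intro v ε hε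
    have h1 := (hder v).tendsto_slope_zero_right
    have h2 : ∀ᶠ t : ℝ in 𝓝[>] 0, t⁻¹ • (‖z + (0 + t) • v‖ - ‖z + (0 : ℝ) • v‖) < N1 z v + ε :=
      h1.eventually (gt_mem_nhds (by linarith))
    obtain ⟨t, ht, ht0⟩ := (h2.and self_mem_nhdsWithin).exists
    have ht0 : 0 < t := ht0
    rw [zero_add, zero_smul, add_zero] at ht
    have hc : ContinuousAt (fun w : X => t⁻¹ • (‖w + t • v‖ - ‖w‖)) z := by fun_prop
    have h3 : ∀ᶠ w in 𝓝 z, t⁻¹ • (‖w + t • v‖ - ‖w‖) < N1 z v + ε :=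
      hc.tendsto.eventually (gt_mem_nhds ht)
    filter_upwards [h3, h] with w hw hdw
    refine lt_of_le_of_lt ?_ hw
    have h4 : ‖w‖ + t * N1 w v ≤ ‖w + t • v‖ := by
      have := N1_apply_le w (w + t • v)
      rw [_root_.map_add, _root_.map_smul, N1_self hdw, smul_eq_mul] at this
      exact this
    rw [smul_eq_mul, inv_mul_eq_div, le_div_iff₀ ht0]
    linarith
  rw [ContinuousAt, Metric.tendsto_nhds]
  intro ε hε
  filter_upwards [upper v ε hε, upper (-v) ε hε] with w h1 h2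
  rw [_root_.map_neg, _root_.map_neg] at h2
  rw [Real.dist_eq, abs_lt]
  constructor <;> linarith

theorem hasStrictFDerivAt_norm [FiniteDimensional ℝ X] {z : X}
    (h : ∀ᶠ w in 𝓝 z, DifferentiableAt ℝ (fun v : X => ‖v‖) w) :
    HasStrictFDerivAt (fun v : X => ‖v‖) (N1 z) z :=
  hasStrictFDerivAt_of_hasFDerivAt_of_continuousAt
    (h.mono fun _ hw => hw.hasFDerivAt) (continuousAt_N1 h)

/-- transfer of little-o along the sphere to little-o in the whole space -/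
theorem isLittleO_normalize {E : Type*} [NormedAddCommGroup E] [NormedSpace ℝ E]
    {x₀ : X} (hx₀ : ‖x₀‖ = 1) {k : X → E}
    (ho : k =o[𝓝[sphere (0 : X) 1] x₀] (fun x => x - x₀)) :
    (fun z : X => ‖z‖ • k (‖z‖⁻¹ • z)) =o[𝓝 x₀] (fun z => z - x₀) := by
  have hx₀' : x₀ ≠ 0 := by intro h; rw [h, norm_zero] at hx₀; exact zero_ne_one hx₀
  have hnorm : Tendsto (fun z : X => ‖z‖⁻¹ • z) (𝓝 x₀) (𝓝[sphere (0 : X) 1] x₀) := by
    rw [tendsto_nhdsWithin_iff]
    constructor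
    · have : ContinuousAt (fun z : X => ‖z‖⁻¹ • z) x₀ :=
        (continuous_norm.continuousAt.inv₀ (by rw [hx₀]; exact one_ne_zero)).smul continuousAt_id
      have h := this.tendsto
      simpa [hx₀] using h
    · filter_upwards [isOpen_ne.mem_nhds hx₀'] with z hz
      rw [mem_sphere_zero_iff_norm, norm_smul, norm_inv, norm_norm,
        inv_mul_cancel₀ (norm_ne_zero_iff.mpr hz)]
  have h1 := ho.comp_tendsto hnorm
  have hbig : (fun z : X => ‖z‖⁻¹ • z - x₀) =O[𝓝 x₀] (fun z => z - x₀) := by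
    have hne : ∀ᶠ z in 𝓝 x₀, (1 : ℝ) / 2 < ‖z‖ := by
      apply (isOpen_lt continuous_const continuous_norm).mem_nhds
      show (1 : ℝ) / 2 < ‖x₀‖
      rw [hx₀]; norm_num
    apply IsBigO.of_bound 4
    filter_upwards [hne] with z hz
    have hzpos : 0 < ‖z‖ := by linarith
    have e1 : ‖z‖⁻¹ • z - x₀ = ‖z‖⁻¹ • ((z - x₀) + (1 - ‖z‖) • x₀) := by
      rw [smul_add, smul_sub, smul_smul, mul_sub, mul_one, inv_mul_cancel₀ hzpos.ne', sub_smul,
        one_smul]; abel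
    rw [e1, norm_smul, norm_inv, norm_norm]
    have e2 : ‖z - x₀ + (1 - ‖z‖) • x₀‖ ≤ 2 * ‖z - x₀‖ := by
      calc ‖z - x₀ + (1 - ‖z‖) • x₀‖ ≤ ‖z - x₀‖ + ‖(1 - ‖z‖) • x₀‖ := norm_add_le _ _
        _ = ‖z - x₀‖ + |‖x₀‖ - ‖z‖| := by rw [norm_smul, hx₀, mul_one, Real.norm_eq_abs]
        _ ≤ ‖z - x₀‖ + ‖x₀ - z‖ := by gcongr; exact abs_norm_sub_norm_le _ _
        _ = 2 * ‖z - x₀‖ := by rw [norm_sub_rev x₀ z]; ring
    have e3 : ‖z‖⁻¹ ≤ 2 := by
      rw [inv_le_comm₀ hzpos (by norm_num)]; linarith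
    calc ‖z‖⁻¹ * ‖z - x₀ + (1 - ‖z‖) • x₀‖ ≤ 2 * (2 * ‖z - x₀‖) := by gcongr
      _ = 4 * ‖z - x₀‖ := by ring
  have h2 : (fun z : X => k (‖z‖⁻¹ • z)) =o[𝓝 x₀] (fun z => z - x₀) :=
    h1.trans_isBigO hbig
  have hb : (fun z : X => ‖z‖) =O[𝓝 x₀] (fun _ : X => (1 : ℝ)) :=
    continuous_norm.continuousAt.isBigO_one ℝ
  have := hb.smul_isLittleO h2.norm_right
  have h5 : (fun z : X => ‖z‖ • k (‖z‖⁻¹ • z)) =o[𝓝 x₀] (fun z => ‖z - x₀‖) := by
    simpa using this
  exact h5.of_norm_right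

/-- the isometry is differentiable at points where the norm is -/
theorem SphMap.differentiableAt_unit [FiniteDimensional ℝ Y] [StrictConvexSpace ℝ Y]
    [FiniteDimensional ℝ X] (S : SphMap X Y) {x₀ : X} (hx₀ : ‖x₀‖ = 1) (hD : Dense (S.D0 x₀))
    (hd : DifferentiableAt ℝ (fun v : X => ‖v‖) x₀) : DifferentiableAt ℝ S.F x₀ := by
  have hx₀' : x₀ ≠ 0 := by intro h; rw [h, norm_zero] at hx₀; exact zero_ne_one hx₀
  obtain ⟨T, hT⟩ := S.exists_withinDeriv hx₀ hD
  have h1 := isLittleO_normalize hx₀ hT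
  have h2 : (fun z : X => S.F z - T z - ‖z‖ • (S.F x₀ - T x₀)) =o[𝓝 x₀] (fun z => z - x₀) := by
    refine h1.congr' ?_ EventuallyEq.rfl
    filter_upwards [isOpen_ne.mem_nhds hx₀'] with z hz
    have hz' : ‖z‖ ≠ 0 := norm_ne_zero_iff.mpr hz
    rw [S.map_smul, _root_.map_sub, _root_.map_smul, smul_sub, smul_sub, smul_sub, smul_smul,
      smul_smul, mul_inv_cancel₀ hz', one_smul, one_smul, smul_sub]
    abel
  have h3 : HasFDerivAt (fun z : X => S.F z - T z - ‖z‖ • (S.F x₀ - T x₀)) (0 : X →L[ℝ] Y) x₀ := by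
    rw [hasFDerivAt_iff_isLittleO]
    refine h2.congr' ?_ EventuallyEq.rfl
    filter_upwards with z
    simp [hx₀]
  have h4 : DifferentiableAt ℝ (fun z : X => T z + ‖z‖ • (S.F x₀ - T x₀)) x₀ :=
    T.differentiableAt.add (hd.smul_const _)
  have h5 := h3.differentiableAt.add h4
  refine h5.congr_of_eventuallyEq ?_
  filter_upwards with z
  simp only [Pi.add_apply]
  abel

theorem SphMap.differentiableAt_smul (S : SphMap X Y) {x : X} {t : ℝ} (ht : t ≠ 0)
    (h : DifferentiableAt ℝ S.F x) : DifferentiableAt ℝ S.F (t • x) := by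
  have h1 : S.F = fun z => t • S.F (t⁻¹ • z) := by
    ext z
    rw [← S.map_smul, smul_smul, mul_inv_cancel₀ ht, one_smul]
  rw [h1]
  apply DifferentiableAt.const_smul
  have h2 : DifferentiableAt ℝ S.F (t⁻¹ • (t • x)) := by
    rwa [smul_smul, inv_mul_cancel₀ ht, one_smul]
  exact DifferentiableAt.comp (t • x) h2 (by fun_prop)

/-- the derivative of the isometry -/
noncomputable def SphMap.T1 (S : SphMap X Y) (x : X) : X →L[ℝ] Y := fderiv ℝ S.F x

theorem SphMap.T1_smul (S : SphMap X Y) {t : ℝ} (ht : t ≠ 0) (x : X) :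
    S.T1 (t • x) = S.T1 x := by
  by_cases h : DifferentiableAt ℝ S.F x
  · have h1 : HasFDerivAt S.F (S.T1 x) (t • x) := by
      have e : S.F = fun z => t • S.F (t⁻¹ • z) := by
        ext z
        rw [← S.map_smul, smul_smul, mul_inv_cancel₀ ht, one_smul]
      have h2 : HasFDerivAt S.F (S.T1 x) (t⁻¹ • (t • x)) := by
        rw [smul_smul, inv_mul_cancel₀ ht, one_smul]; exact h.hasFDerivAt
      have h3 : HasFDerivAt (fun z : X => t⁻¹ • z) (t⁻¹ • ContinuousLinearMap.id ℝ X) (t • x) :=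
        (hasFDerivAt_id (t • x)).const_smul t⁻¹
      have h4 := (h2.comp (t • x) h3).const_smul t
      have h5 : HasFDerivAt (fun z => t • S.F (t⁻¹ • z)) (S.T1 x) (t • x) := by
        refine h4.congr_fderiv ?_
        ext v
        simp [smul_smul, mul_inv_cancel₀ ht]
      rw [← e] at h5
      exact h5
    exact h1.fderiv
  · have h' : ¬ DifferentiableAt ℝ S.F (t • x) := by
      intro h2
      apply h
      have := S.differentiableAt_smul (inv_ne_zero ht) h2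
      rwa [smul_smul, inv_mul_cancel₀ ht, one_smul] at this
    unfold SphMap.T1
    rw [fderiv_zero_of_not_differentiableAt h, fderiv_zero_of_not_differentiableAt h']

theorem SphMap.T1_self (S : SphMap X Y) {x : X} (h : DifferentiableAt ℝ S.F x) :
    S.T1 x x = S.F x := by
  have h1 : HasDerivAt (fun t : ℝ => S.F (t • x)) (S.T1 x x) 1 := by
    have e : HasDerivAt (fun t : ℝ => t • x) x 1 := by
      simpa using (hasDerivAt_id (1 : ℝ)).smul_const x
    have h2 : HasFDerivAt S.F (S.T1 x) ((1 : ℝ) • x) := by rw [one_smul]; exact h.hasFDerivAt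
    exact h2.comp_hasDerivAt 1 e
  have h2 : HasDerivAt (fun t : ℝ => S.F (t • x)) (S.F x) 1 := by
    have e : (fun t : ℝ => S.F (t • x)) = fun t : ℝ => t • S.F x := by
      ext t; rw [S.map_smul]
    rw [e]
    simpa using (hasDerivAt_id (1 : ℝ)).smul_const (S.F x)
  exact h1.unique h2

/-- chain rule for `‖‖z‖ F x + ‖x‖ F z‖ = ‖‖z‖ x + ‖x‖ z‖` along the kernel of `N1 x` -/
theorem SphMap.chain (S : SphMap X Y) {x z : X} (hx : ‖x‖ = 1) (hz : z ≠ 0)
    (hdx : DifferentiableAt ℝ (fun v : X => ‖v‖) x) (hF : DifferentiableAt ℝ S.F x)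
    (hd : DifferentiableAt ℝ (fun v : X => ‖v‖) (P x z))
    (hd' : DifferentiableAt ℝ (fun v : Y => ‖v‖) (P (S.F x) (S.F z)))
    {u : X} (hu : N1 x u = 0) :
    N1 (P (S.F x) (S.F z)) (S.T1 x u) = N1 (P x z) u := by
  have hzn : ‖z‖ ≠ 0 := norm_ne_zero_iff.mpr hz
  have hline : HasDerivAt (fun t : ℝ => x + t • u) u 0 := by
    simpa using ((hasDerivAt_id (0 : ℝ)).smul_const u).const_add x
  have hn : HasDerivAt (fun t : ℝ => ‖x + t • u‖) 0 0 := by
    have h2 : HasFDerivAt (fun v : X => ‖v‖) (N1 x) (x + (0 : ℝ) • u) := by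
      rw [zero_smul, add_zero]; exact hdx.hasFDerivAt
    have := h2.comp_hasDerivAt 0 hline
    rwa [hu] at this
  have hFl : HasDerivAt (fun t : ℝ => S.F (x + t • u)) (S.T1 x u) 0 := by
    have h2 : HasFDerivAt S.F (S.T1 x) (x + (0 : ℝ) • u) := by
      rw [zero_smul, add_zero]; exact hF.hasFDerivAt
    exact h2.comp_hasDerivAt 0 hline
  have h1 : HasDerivAt (fun t : ℝ => ‖‖z‖ • (x + t • u) + ‖x + t • u‖ • z‖) (N1 (P x z) (‖z‖ • u))
      0 := by
    have e := (hline.const_smul ‖z‖).add (hn.smul_const z)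
    have h2 : HasFDerivAt (fun v : X => ‖v‖) (N1 (P x z))
        (‖z‖ • (x + (0 : ℝ) • u) + ‖x + (0 : ℝ) • u‖ • z) := by
      have e2 : ‖z‖ • (x + (0 : ℝ) • u) + ‖x + (0 : ℝ) • u‖ • z = P x z := by
        unfold P; rw [zero_smul, add_zero, hx, one_smul]
      rw [e2]; exact hd.hasFDerivAt
    refine (h2.comp_hasDerivAt 0 e).congr_deriv ?_
    simp
  have h2 : HasDerivAt (fun t : ℝ => ‖‖z‖ • S.F (x + t • u) + ‖x + t • u‖ • S.F z‖)
      (N1 (P (S.F x) (S.F z)) (‖z‖ • S.T1 x u)) 0 := by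
    have e := (hFl.const_smul ‖z‖).add (hn.smul_const (S.F z))
    have h2 : HasFDerivAt (fun v : Y => ‖v‖) (N1 (P (S.F x) (S.F z)))
        (‖z‖ • S.F (x + (0 : ℝ) • u) + ‖x + (0 : ℝ) • u‖ • S.F z) := by
      have e2 : ‖z‖ • S.F (x + (0 : ℝ) • u) + ‖x + (0 : ℝ) • u‖ • S.F z = P (S.F x) (S.F z) := by
        unfold P; rw [zero_smul, add_zero, hx, one_smul, S.norm_map]
      rw [e2]; exact hd'.hasFDerivAt
    refine (h2.comp_hasDerivAt 0 e).congr_deriv ?_
    simp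
  have h3 : (fun t : ℝ => ‖‖z‖ • S.F (x + t • u) + ‖x + t • u‖ • S.F z‖)
      = fun t : ℝ => ‖‖z‖ • (x + t • u) + ‖x + t • u‖ • z‖ := by
    ext t
    rw [← S.map_smul, ← S.map_smul]
    apply S.norm_add
    rw [norm_smul, norm_smul, norm_norm, norm_norm, mul_comm]
  rw [h3] at h2
  have h4 := h2.unique h1
  rw [_root_.map_smul, _root_.map_smul, smul_eq_mul, smul_eq_mul] at h4
  exact mul_left_cancel₀ hzn h4

end Vale.Agent.P084
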