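import Vale.Agent.P084.Pair
import Vale.Agent.P084.Diff

open Metric Set Filter Topology MeasureTheory Module Asymptotics

namespace Vale.Agent.P084

variable {X Y : Type*} [NormedAddCommGroup X] [NormedSpace ℝ X]
    [NormedAddCommGroup Y] [NormedSpace ℝ Y]

/-- a `SphMap` is a `PosMap` -/
def SphMap.toPos (S : SphMap X Y) : PosMap X Y where
  F := S.F
  G := S.G
  left_inv := S.left_inv
  right_inv := S.right_inv
  map_smul := fun t x _ => S.map_smul t x
  norm_map := S.norm_map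
  norm_sub := S.norm_sub

/-- `T` intertwines the derivatives of the norms at `P a z` and `P (F a) (F z)` for a dense set
of points `z` -/
def FRT (S : SphMap X Y) (a : X) (T : X →L[ℝ] Y) (D : Set X) : Prop :=
  D ⊆ Wset a ∧ Wset a ⊆ closure D ∧ ∀ z ∈ D, DifferentiableAt ℝ (fun v : X => ‖v‖) (P a z) ∧
    DifferentiableAt ℝ (fun v : Y => ‖v‖) (P (S.F a) (S.F z)) ∧
    ∀ v, N1 (P (S.F a) (S.F z)) (T v) = N1 (P a z) v

theorem FRT.norm_le {S : SphMap X Y} {a : X} (ha : ‖a‖ = 1) {T : X →L[ℝ] Y} {D : Set X}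
    (h : FRT S a T D) : ∀ v ∈ Ccone a, ‖v‖ ≤ ‖T v‖ := by
  intro v hv
  obtain ⟨z, hz, rfl⟩ := exists_P_eq ha hv
  have hcl : IsClosed {ζ : X | ‖P a ζ‖ ≤ ‖T (P a ζ)‖} :=
    isClosed_le (continuous_P a).norm (T.continuous.comp (continuous_P a)).norm
  have hsub : D ⊆ {ζ : X | ‖P a ζ‖ ≤ ‖T (P a ζ)‖} := by
    intro ζ hζ
    obtain ⟨h1, h2, h3⟩ := h.2.2 ζ hζ
    show ‖P a ζ‖ ≤ ‖T (P a ζ)‖
    rw [← N1_self h1, ← h3]
    exact N1_apply_le _ _
  exact closure_minimal hsub hcl (h.2.1 hz)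

theorem P_self {a : X} (ha : ‖a‖ = 1) : P a a = (2 : ℝ) • a := by
  unfold P; rw [ha, one_smul, two_smul]

/-- comparison of the directional derivatives of the norms at `a` and `F a` -/
theorem FRT.ineq {S : SphMap X Y} {a : X} (ha : ‖a‖ = 1) {T : X →L[ℝ] Y} {D : Set X}
    (h : FRT S a T D) (v : X) {s₁ : ℝ} (hs₁ : 0 ≤ s₁) {ε : ℝ} (hε : 0 < ε) :
    ∃ s : ℝ, 0 < s ∧ ‖s • S.F a + T v‖ - s ≤ ‖s₁ • a + v‖ - s₁ + ε := by
  have ha' : ‖S.F a‖ = 1 := by rw [S.norm_map, ha]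
  set δ : ℝ := ε / (2 * (s₁ + 1)) with hδ
  have hδ0 : 0 < δ := by positivity
  have haW : a ∈ Wset a := self_mem_Wset ha
  -- a neighbourhood of `a` on which `P a z` is close to `2 a`
  have hU : {z : X | ‖P a z - (2 : ℝ) • a‖ < δ} ∩ Wset a ∈ 𝓝 a := by
    refine inter_mem ?_ ((isOpen_Wset a).mem_nhds haW)
    have hc : Continuous (fun z : X => ‖P a z - (2 : ℝ) • a‖) :=
      ((continuous_P a).sub continuous_const).norm
    refine (isOpen_lt hc continuous_const).mem_nhds ?_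
    show ‖P a a - (2 : ℝ) • a‖ < δ
    rw [P_self ha, sub_self, norm_zero]; exact hδ0
  have hFU : S.F '' ({z : X | ‖P a z - (2 : ℝ) • a‖ < δ} ∩ Wset a) ∈ 𝓝 (S.F a) :=
    (S.homeo.isOpenMap.image_mem_nhds hU)
  have hPU : P (S.F a) '' (S.F '' ({z : X | ‖P a z - (2 : ℝ) • a‖ < δ} ∩ Wset a))
      ∈ 𝓝 ((2 : ℝ) • S.F a) := by
    have := P_nhds_le' ha' (self_mem_Wset ha') (image_mem_map hFU)
    rwa [P_self ha'] at this
  -- choose `s` large
  have htend : Tendsto (fun s : ℝ => (2 : ℝ) • S.F a + (2 * s⁻¹) • T v) atTop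
      (𝓝 ((2 : ℝ) • S.F a)) := by
    have h1 : Tendsto (fun s : ℝ => 2 * s⁻¹) atTop (𝓝 0) := by
      simpa using tendsto_inv_atTop_zero.const_mul (2 : ℝ)
    have h2 := (h1.smul_const (T v)).const_add ((2 : ℝ) • S.F a)
    rwa [zero_smul, add_zero] at h2
  obtain ⟨s, hsmem, hs0⟩ := ((htend.eventually_mem hPU).and (eventually_gt_atTop 0)).exists
  refine ⟨s, hs0, ?_⟩
  obtain ⟨_, ⟨z, hzU, rfl⟩, hz⟩ := hsmem
  set q := (2 : ℝ) • S.F a + (2 * s⁻¹) • T v with hq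
  set η : ℝ := ε / (2 * s) with hη
  have hη0 : 0 < η := by positivity
  -- approximate `z` by a point of `D`
  have hV : {ζ : X | ‖P a ζ - (2 : ℝ) • a‖ < δ} ∩ {ζ | ‖P (S.F a) (S.F ζ) - q‖ < η} ∈ 𝓝 z := by
    refine inter_mem ?_ ?_
    · have hc : Continuous (fun z : X => ‖P a z - (2 : ℝ) • a‖) :=
        ((continuous_P a).sub continuous_const).norm
      exact (isOpen_lt hc continuous_const).mem_nhds hzU.1
    · have hc : Continuous (fun ζ : X => ‖P (S.F a) (S.F ζ) - q‖) :=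
        (((continuous_P _).comp S.continuous).sub continuous_const).norm
      refine (isOpen_lt hc continuous_const).mem_nhds ?_
      show ‖P (S.F a) (S.F z) - q‖ < η
      rw [hz, sub_self, norm_zero]; exact hη0
  obtain ⟨ζ, ⟨hζ1, hζ2⟩, hζD⟩ := mem_closure_iff_nhds.mp (h.2.1 hzU.2) _ hV
  obtain ⟨hd, hd', hFR⟩ := h.2.2 ζ hζD
  simp only [mem_ofPred_eq] at hζ1 hζ2
  set ω := P a ζ with hω
  set ω' := P (S.F a) (S.F ζ) with hω'
  have e1 : 1 - δ ≤ N1 ω a := by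
    have := N1_near (w := (2 : ℝ) • a) hd
    rw [norm_smul, ha, _root_.map_smul, smul_eq_mul, norm_sub_rev] at this
    simp only [Real.norm_ofNat, mul_one] at this
    linarith
  have e2 : ‖q‖ - 2 * η ≤ N1 ω' q := by
    have := N1_near (w := q) hd'
    rw [norm_sub_rev] at this
    linarith
  have e3 : N1 ω' q = 2 * N1 ω' (S.F a) + 2 * s⁻¹ * N1 ω v := by
    rw [hq, _root_.map_add, _root_.map_smul, _root_.map_smul, hFR, smul_eq_mul, smul_eq_mul]
  have e4 : N1 ω' (S.F a) ≤ 1 := by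
    have := N1_apply_le ω' (S.F a)
    rwa [ha'] at this
  have e5 : N1 ω v ≤ ‖s₁ • a + v‖ - s₁ + s₁ * δ := by
    have h1 := N1_apply_le ω (s₁ • a + v)
    rw [_root_.map_add, _root_.map_smul, smul_eq_mul] at h1
    nlinarith
  have e6 : ‖s • S.F a + T v‖ = s / 2 * ‖q‖ := by
    have : s • S.F a + T v = (s / 2) • q := by
      rw [hq, smul_add, smul_smul, smul_smul]
      congr 2
      · ring_nf
      · field_simp
        rw [one_smul]
    rw [this, norm_smul, Real.norm_of_nonneg (by positivity)]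
  have e7 : s₁ * δ ≤ ε / 2 := by
    rw [hδ, mul_div_assoc', div_le_div_iff₀ (by positivity) (by positivity)]
    nlinarith
  have e8 : ‖q‖ ≤ 2 + 2 * s⁻¹ * (‖s₁ • a + v‖ - s₁ + s₁ * δ) + 2 * η := by
    have h1 : 2 * s⁻¹ * N1 ω v ≤ 2 * s⁻¹ * (‖s₁ • a + v‖ - s₁ + s₁ * δ) := by
      apply mul_le_mul_of_nonneg_left e5; positivity
    linarith
  have e9 : s / 2 * ‖q‖ ≤ s + (‖s₁ • a + v‖ - s₁ + s₁ * δ) + s * η := by
    have h1 : s / 2 * ‖q‖ ≤ s / 2 * (2 + 2 * s⁻¹ * (‖s₁ • a + v‖ - s₁ + s₁ * δ) + 2 * η) := by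
      apply mul_le_mul_of_nonneg_left e8; positivity
    refine h1.trans (le_of_eq ?_)
    field_simp
  have e10 : s * η = ε / 2 := by rw [hη]; field_simp
  rw [e6]
  linarith

theorem FRT.mem_Ccone {S : SphMap X Y} {a : X} (ha : ‖a‖ = 1) {T : X →L[ℝ] Y} {D : Set X}
    (h : FRT S a T D) {w : X} (hw : w ∈ Ccone a) : T w ∈ Ccone (S.F a) := by
  obtain ⟨s₁, hs₁, hw⟩ := hw
  rw [ha, mul_one] at hw
  obtain ⟨s, hs, hs'⟩ := h.ineq ha (-w) hs₁.le (ε := (s₁ - ‖s₁ • a - w‖) / 2) (by linarith)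
  refine ⟨s, hs, ?_⟩
  rw [_root_.map_neg, ← sub_eq_add_neg, ← sub_eq_add_neg] at hs'
  rw [S.norm_map, ha, mul_one]
  linarith

/-- the inverse operator -/
theorem FRT.exists_equiv [FiniteDimensional ℝ X] {S : SphMap X Y} {a : X} (ha : ‖a‖ = 1)
    {T : X →L[ℝ] Y} {D : Set X} (h : FRT S a T D) :
    ∃ e : X ≃L[ℝ] Y, (∀ v, e v = T v) ∧
      FRT S.symm (S.F a) (e.symm : Y →L[ℝ] X) (S.F '' D) := by
  have : FiniteDimensional ℝ Y := S.finiteDimensional
  have hinj : Function.Injective (T : X →ₗ[ℝ] Y) := by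
    rw [← LinearMap.ker_eq_bot, LinearMap.ker_eq_bot']
    intro v hv
    have hv' : T v = 0 := hv
    refine separating' ha D h.2.1 (fun z hz => (h.2.2 z hz).1) ?_
    intro z hz
    rw [← (h.2.2 z hz).2.2 v, hv', _root_.map_zero]
  let e : X ≃ₗ[ℝ] Y := LinearEquiv.ofInjectiveOfFinrankEq (T : X →ₗ[ℝ] Y) hinj S.finrank_eq
  refine ⟨e.toContinuousLinearEquiv, fun v => rfl, ?_, ?_, ?_⟩
  · rintro _ ⟨z, hz, rfl⟩
    exact S.mem_Wset ha (h.1 hz)
  · exact S.image_Wset ha h.2.1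
  · rintro _ ⟨z, hz, rfl⟩
    obtain ⟨h1, h2, h3⟩ := h.2.2 z hz
    have e1 : S.symm.F (S.F a) = a := S.left_inv a
    have e2 : S.symm.F (S.F z) = z := S.left_inv z
    rw [e1, e2]
    refine ⟨h2, h1, fun v => ?_⟩
    rw [← h3]
    have : T (e.toContinuousLinearEquiv.symm v) = v :=
      e.toContinuousLinearEquiv.apply_symm_apply v
    show N1 _ (T (e.toContinuousLinearEquiv.symm v)) = _
    rw [this]

theorem FRT.norm_eq [FiniteDimensional ℝ X] {S : SphMap X Y} {a : X} (ha : ‖a‖ = 1)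
    {T : X →L[ℝ] Y} {D : Set X} (h : FRT S a T D) {v : X} (hv : v ∈ Ccone a) : ‖T v‖ = ‖v‖ := by
  obtain ⟨e, he, h'⟩ := h.exists_equiv ha
  apply le_antisymm
  · have h1 := h'.norm_le (by rw [S.norm_map, ha]) (T v) (h.mem_Ccone ha hv)
    have h2 : (e.symm : Y →L[ℝ] X) (T v) = v := by
      rw [← he]; exact e.symm_apply_apply v
    rwa [h2] at h1
  · exact h.norm_le ha v hv

/-- the special face -/
def Eset (a : X) : Set X := {y | ‖y‖ ≤ 1 ∧ ∀ ε : ℝ, 0 < ε → ∃ s : ℝ, 0 < s ∧ ‖s • a - y‖ - s ≤ -1 + ε}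

theorem self_mem_Eset {a : X} (ha : ‖a‖ = 1) : a ∈ Eset a := by
  refine ⟨ha.le, fun ε hε => ⟨1, one_pos, ?_⟩⟩
  rw [one_smul, sub_self, norm_zero]; linarith

theorem Eset_norm_add {a y : X} (ha : ‖a‖ = 1) (hy : y ∈ Eset a) : ‖a + y‖ = 2 ∧ ‖y‖ = 1 := by
  have h1 : 2 ≤ ‖a + y‖ := by
    refine le_of_forall_pos_le_add fun ε hε => ?_
    obtain ⟨s, hs, h⟩ := hy.2 ε hε
    have e : (s + 1) • a = (s • a - y) + (a + y) := by rw [add_smul, one_smul]; abel
    have h2 : ‖(s + 1) • a‖ = s + 1 := by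
      rw [norm_smul, ha, mul_one, Real.norm_of_nonneg (by positivity)]
    have h3 := norm_add_le (s • a - y) (a + y)
    rw [← e, h2] at h3
    linarith
  have h2 := norm_add_le a y
  rw [ha] at h2
  have h3 := hy.1
  constructor <;> linarith

theorem Eset_step [FiniteDimensional ℝ X] {S : SphMap X Y} {a : X} (ha : ‖a‖ = 1)
    {T : X →L[ℝ] Y} {D : Set X} (h : FRT S a T D)
    (hderiv : (fun x => S.F x - S.F a - T (x - a)) =o[𝓝[sphere (0 : X) 1] a] (fun x => x - a))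
    (haff : ∀ x y : X, ‖x‖ = 1 → ‖y‖ = 1 → ‖x + y‖ = 2 → ∀ t ∈ Icc (0 : ℝ) 1,
      S.F (x + t • (y - x)) = S.F x + t • (S.F y - S.F x))
    (e : X ≃L[ℝ] Y) (he : ∀ v, e v = T v) (h' : FRT S.symm (S.F a) (e.symm : Y →L[ℝ] X) (S.F '' D))
    {y : X} (hy : y ∈ Eset a) : y + (e.symm (S.F a) - a) ∈ Eset a := by
  obtain ⟨hay, hy1⟩ := Eset_norm_add ha hy
  have ha' : ‖S.F a‖ = 1 := by rw [S.norm_map, ha]
  -- `F y = F a + T (y - a)`
  have hFy : S.F y = S.F a + T (y - a) := by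
    have hunit : ∀ t ∈ Icc (0 : ℝ) 1, ‖a + t • (y - a)‖ = 1 := by
      intro t ht
      have e1 : a + t • (y - a) = (1 - t) • a + t • y := by
        rw [smul_sub, sub_smul, one_smul]; abel
      rw [e1, norm_add_smul_eq (by rw [hay, ha, hy1]; norm_num) (sub_nonneg.mpr ht.2) ht.1, ha, hy1]
      ring
    have htend : Tendsto (fun t : ℝ => a + t • (y - a)) (𝓝[>] 0) (𝓝[sphere (0 : X) 1] a) := by
      rw [tendsto_nhdsWithin_iff]
      constructor
      · have hc : Continuous (fun t : ℝ => a + t • (y - a)) := by fun_prop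
        have := hc.tendsto 0
        rw [zero_smul, add_zero] at this
        exact this.mono_left nhdsWithin_le_nhds
      · filter_upwards [Ioo_mem_nhdsGT (show (0 : ℝ) < 1 from one_pos)] with t ht
        exact mem_sphere_zero_iff_norm.mpr (hunit t ⟨ht.1.le, ht.2.le⟩)
    have h1 := hderiv.comp_tendsto htend
    have h2 : (fun t : ℝ => t • (S.F y - S.F a - T (y - a))) =o[𝓝[>] 0] (fun t : ℝ => t) := by
      have h3 : (fun t : ℝ => t • (S.F y - S.F a - T (y - a))) =o[𝓝[>] 0]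
          (fun t : ℝ => t • (y - a)) := by
        refine h1.congr' ?_ ?_
        · filter_upwards [Ioo_mem_nhdsGT (show (0 : ℝ) < 1 from one_pos)] with t ht
          simp only [Function.comp_apply]
          have e5 : a + t • (y - a) - a = t • (y - a) := by abel
          rw [haff a y ha hy1 hay t ⟨ht.1.le, ht.2.le⟩, e5, _root_.map_smul,
            smul_sub t (S.F y - S.F a), add_sub_cancel_left]
        · filter_upwards with t
          simp only [Function.comp_apply, add_sub_cancel_left]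
      refine h3.trans_isBigO ?_
      apply IsBigO.of_bound ‖y - a‖
      filter_upwards with t
      rw [norm_smul, mul_comm]
    have h3 : (fun _ : ℝ => S.F y - S.F a - T (y - a)) =o[𝓝[>] 0] (fun _ : ℝ => (1 : ℝ)) := by
      have h4 := (isBigO_refl (fun t : ℝ => t⁻¹) (𝓝[>] (0 : ℝ))).smul_isLittleO h2
      refine h4.congr' ?_ ?_
      · filter_upwards [self_mem_nhdsWithin] with t ht
        have ht' : t ≠ 0 := ne_of_gt ht
        rw [smul_smul, inv_mul_cancel₀ ht', one_smul]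
      · filter_upwards [self_mem_nhdsWithin] with t ht
        have ht' : t ≠ 0 := ne_of_gt ht
        rw [smul_eq_mul, inv_mul_cancel₀ ht']
    rw [isLittleO_one_iff, tendsto_const_nhds_iff] at h3
    have h5 : S.F y = S.F a + T (y - a) + (S.F y - S.F a - T (y - a)) := by abel
    rw [h3, add_zero] at h5
    exact h5
  have hy₁ : y + (e.symm (S.F a) - a) = e.symm (S.F y) := by
    rw [hFy, _root_.map_add, ← he, e.symm_apply_apply]; abel
  rw [hy₁]
  have hsymmF : S.symm.F (S.F a) = a := S.left_inv a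
  -- main estimate
  have key : ∀ ε : ℝ, 0 < ε → ∃ s₁ : ℝ, 0 < s₁ ∧ ‖s₁ • S.F a - S.F y‖ - s₁ ≤ -1 + 2 * ε := by
    intro ε hε
    obtain ⟨s₀, hs₀, h1⟩ := hy.2 ε hε
    have h2 : ‖(s₀ + 1) • a - y‖ ≤ (s₀ + 1) - (1 - ε) :=
      Ccone_mono ha (s := s₀) (t := s₀ + 1) (η := 1 - ε) (by linarith) (by linarith)
    obtain ⟨s₂, hs₂, h3⟩ := h.ineq ha (a - y) hs₀.le hε
    have e1 : s₀ • a + (a - y) = (s₀ + 1) • a - y := by rw [add_smul, one_smul]; abel
    rw [e1] at h3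
    refine ⟨s₂ + 1, by positivity, ?_⟩
    have e2 : (s₂ + 1) • S.F a - S.F y = s₂ • S.F a + T (a - y) := by
      rw [hFy, add_smul, one_smul, _root_.map_sub, _root_.map_sub]; abel
    rw [e2]
    linarith
  constructor
  · have : FiniteDimensional ℝ Y := S.finiteDimensional
    obtain ⟨s₁, hs₁, h1⟩ := key (1 / 4) (by norm_num)
    have hmem : S.F y ∈ Ccone (S.F a) := ⟨s₁, hs₁, by rw [ha', mul_one]; linarith⟩
    have h2 := h'.norm_eq ha' hmem
    have h3 : ‖e.symm (S.F y)‖ = ‖S.F y‖ := h2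
    rw [h3, S.norm_map, hy1]
  · intro ε hε
    obtain ⟨s₁, hs₁, h1⟩ := key (ε / 3) (by positivity)
    obtain ⟨s, hs, h2⟩ := h'.ineq ha' (-S.F y) hs₁.le (ε := ε / 3) (by positivity)
    rw [hsymmF] at h2
    have e3 : (e.symm : Y →L[ℝ] X) (-S.F y) = -e.symm (S.F y) := by
      rw [_root_.map_neg]; rfl
    rw [e3, ← sub_eq_add_neg, ← sub_eq_add_neg] at h2
    exact ⟨s, hs, by linarith⟩

theorem FRT.map_self [FiniteDimensional ℝ X] {S : SphMap X Y} {a : X} (ha : ‖a‖ = 1)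
    {T : X →L[ℝ] Y} {D : Set X} (h : FRT S a T D)
    (hderiv : (fun x => S.F x - S.F a - T (x - a)) =o[𝓝[sphere (0 : X) 1] a] (fun x => x - a))
    (haff : ∀ x y : X, ‖x‖ = 1 → ‖y‖ = 1 → ‖x + y‖ = 2 → ∀ t ∈ Icc (0 : ℝ) 1,
      S.F (x + t • (y - x)) = S.F x + t • (S.F y - S.F x)) : T a = S.F a := by
  obtain ⟨e, he, h'⟩ := h.exists_equiv ha
  set δ := e.symm (S.F a) - a with hδ
  have hmem : ∀ k : ℕ, a + (k : ℝ) • δ ∈ Eset a := by
    intro k
    induction k with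
    | zero => simpa using self_mem_Eset ha
    | succ k ih =>
      have := Eset_step ha h hderiv haff e he h' ih
      have e1 : a + ((k + 1 : ℕ) : ℝ) • δ = a + (k : ℝ) • δ + (e.symm (S.F a) - a) := by
        rw [← hδ]; push_cast; rw [add_smul, one_smul]; abel
      rw [e1]; exact this
  have hδ0 : δ = 0 := by
    by_contra hne
    have hpos : 0 < ‖δ‖ := norm_pos_iff.mpr hne
    obtain ⟨k, hk⟩ := exists_nat_gt (2 / ‖δ‖)
    have h1 := (hmem k).1
    have h2 : (k : ℝ) * ‖δ‖ ≤ 2 := by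
      have h3 : ‖(k : ℝ) • δ‖ ≤ ‖a + (k : ℝ) • δ‖ + ‖a‖ := by
        have : (k : ℝ) • δ = (a + (k : ℝ) • δ) - a := by abel
        calc ‖(k : ℝ) • δ‖ = ‖(a + (k : ℝ) • δ) - a‖ := by rw [← this]
          _ ≤ _ := norm_sub_le _ _
      rw [norm_smul, Real.norm_of_nonneg (by positivity), ha] at h3
      linarith
    rw [div_lt_iff₀ hpos] at hk
    linarith
  rw [← he]
  have h1 : e.symm (S.F a) = a := by rw [← sub_eq_zero, ← hδ]; exact hδ0
  calc e a = e (e.symm (S.F a)) := by rw [h1]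
    _ = S.F a := e.apply_symm_apply _

end Vale.Agent.P084
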