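import Mathlib

/-! P084 piece (C) (helper15): a map that is pointwise Lipschitz off the origin and has derivative
zero almost everywhere is constant off the origin. -/

open Metric Set Filter Topology MeasureTheory Module

namespace Vale.Agent.P084

namespace ConstAE

/-- A pointwise Lipschitz function maps null sets to null sets (dimension one). -/
theorem null_image {g : ℝ → ℝ} {N : Set ℝ} (hN : volume N = 0)
    (hlip : ∀ t ∈ N, ∃ C : ℝ, ∀ᶠ s in 𝓝 t, |g s - g t| ≤ C * |s - t|) :
    volume (g '' N) = 0 := by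
  -- countable decomposition
  set A : ℕ → Set ℝ := fun k =>
    {t | t ∈ N ∧ ∀ s, |s - t| < 1 / ((k : ℝ) + 1) → |g s - g t| ≤ ((k : ℝ) + 1) * |s - t|} with hA
  set J : ℕ → ℤ → Set ℝ := fun k m =>
    {t | t ∈ A k ∧ ⌊((k : ℝ) + 1) * t⌋ = m} with hJ
  have hcover : N ⊆ ⋃ k : ℕ, ⋃ m : ℤ, J k m := by
    intro t ht
    obtain ⟨C, hC⟩ := hlip t ht
    obtain ⟨r, hr, hCr⟩ := Metric.eventually_nhds_iff.1 hC
    obtain ⟨k, hk⟩ := exists_nat_gt (max C (1 / r))
    refine mem_iUnion.2 ⟨k, mem_iUnion.2 ⟨⌊((k : ℝ) + 1) * t⌋, ⟨ht, ?_⟩, rfl⟩⟩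
    intro s hs
    have hk1 : C ≤ (k : ℝ) + 1 := (le_max_left _ _).trans (hk.le.trans (by linarith))
    have hk2 : 1 / r < (k : ℝ) + 1 := (le_max_right _ _).trans_lt (hk.trans (by linarith))
    have hsr : dist s t < r := by
      rw [Real.dist_eq]
      refine hs.trans ?_
      rw [div_lt_iff₀ (by positivity)]
      rw [div_lt_iff₀ hr] at hk2
      linarith
    calc |g s - g t| ≤ C * |s - t| := hCr hsr
      _ ≤ ((k : ℝ) + 1) * |s - t| := mul_le_mul_of_nonneg_right hk1 (abs_nonneg _)
  have hJnull : ∀ k m, volume (g '' J k m) = 0 := by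
    intro k m
    have hl : LipschitzOnWith ((k : NNReal) + 1) g (J k m) := by
      rw [lipschitzOnWith_iff_dist_le_mul]
      intro s hs t ht
      rw [Real.dist_eq, Real.dist_eq]
      have hfl : ⌊((k : ℝ) + 1) * s⌋ = ⌊((k : ℝ) + 1) * t⌋ := hs.2.trans ht.2.symm
      have h1 := Int.abs_sub_lt_one_of_floor_eq_floor hfl
      rw [← mul_sub, abs_mul, abs_of_pos (by positivity : (0 : ℝ) < (k : ℝ) + 1)] at h1
      have h2 : |s - t| < 1 / ((k : ℝ) + 1) := by
        rw [lt_div_iff₀ (by positivity)]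
        linarith
      have := ht.1.2 s h2
      simpa using this
    have h1 := hl.hausdorffMeasure_image_le (d := 1) zero_le_one
    rw [hausdorffMeasure_real] at h1
    have h2 : volume (J k m) = 0 := measure_mono_null (fun t ht => ht.1.1) hN
    rw [h2, mul_zero] at h1
    exact le_antisymm h1 zero_le
  have hsub : g '' N ⊆ ⋃ k : ℕ, ⋃ m : ℤ, g '' J k m := by
    refine (image_mono hcover).trans ?_
    simp only [image_iUnion]
    exact subset_rfl
  refine measure_mono_null hsub ?_
  rw [measure_iUnion_null_iff]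
  intro k
  rw [measure_iUnion_null_iff]
  intro m
  exact hJnull k m

/-- One-dimensional statement. -/
theorem one_dim {g : ℝ → ℝ}
    (hlip : ∀ t ∈ Icc (0 : ℝ) 1, ∃ C : ℝ, ∀ᶠ s in 𝓝 t, |g s - g t| ≤ C * |s - t|)
    (hae : ∀ᵐ t ∂(volume : Measure ℝ), t ∈ Icc (0 : ℝ) 1 → HasDerivAt g 0 t) : g 0 = g 1 := by
  set Z : Set ℝ := {t | t ∈ Icc (0 : ℝ) 1 ∧ HasDerivAt g 0 t} with hZ
  set N : Set ℝ := {t | ¬ (t ∈ Icc (0 : ℝ) 1 → HasDerivAt g 0 t)} with hN
  have hN0 : volume N = 0 := hae
  have hcont : ContinuousOn g (Icc 0 1) := by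
    intro t ht
    apply ContinuousAt.continuousWithinAt
    obtain ⟨C, hC⟩ := hlip t ht
    rw [ContinuousAt, tendsto_iff_dist_tendsto_zero]
    have h1 : Tendsto (fun s : ℝ => C * |s - t|) (𝓝 t) (𝓝 0) := by
      have : Continuous fun s : ℝ => C * |s - t| := by fun_prop
      simpa using this.tendsto t
    refine squeeze_zero' (Eventually.of_forall fun s => dist_nonneg) ?_ h1
    filter_upwards [hC] with s hs
    rw [Real.dist_eq]
    exact hs
  have hZ0 : volume (g '' Z) = 0 := by
    refine addHaar_image_eq_zero_of_det_fderivWithin_eq_zero volume (f := g) (s := Z)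
      (f' := fun _ => (0 : ℝ →L[ℝ] ℝ)) ?_ ?_
    · intro x hx
      have := hx.2.hasFDerivAt.hasFDerivWithinAt (s := Z)
      convert! this using 1
      ext
      simp
    · intro x _
      simp [ContinuousLinearMap.det]
  have hN1 : volume (g '' N) = 0 := by
    refine null_image hN0 fun t ht => ?_
    have : t ∈ Icc (0 : ℝ) 1 := by
      by_contra hcon
      exact ht fun h => absurd h hcon
    exact hlip t this
  have hI : Icc (0 : ℝ) 1 ⊆ Z ∪ N := by
    intro t ht
    by_cases h : HasDerivAt g 0 t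
    · exact Or.inl ⟨ht, h⟩
    · exact Or.inr fun h' => h (h' ht)
  have hI0 : volume (g '' Icc (0 : ℝ) 1) = 0 := by
    refine measure_mono_null (image_mono hI) ?_
    rw [image_union]
    exact measure_union_null hZ0 hN1
  have hiv : uIcc (g 0) (g 1) ⊆ g '' uIcc (0 : ℝ) 1 :=
    intermediate_value_uIcc (by rwa [uIcc_of_le zero_le_one])
  rw [uIcc_of_le (zero_le_one : (0 : ℝ) ≤ 1)] at hiv
  have h0 : volume (uIcc (g 0) (g 1)) = 0 := measure_mono_null hiv hI0
  rw [Real.volume_interval, ENNReal.ofReal_eq_zero] at h0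
  have := abs_nonpos_iff.1 h0
  linarith

end ConstAE

open ConstAE in
/-- (C) -/
theorem const_of_ae {X E : Type*} [NormedAddCommGroup X] [NormedSpace ℝ X] [FiniteDimensional ℝ X]
    [MeasurableSpace X] [BorelSpace X] (μ : Measure X) [μ.IsAddHaarMeasure]
    [NormedAddCommGroup E] [NormedSpace ℝ E]
    (hdim : 2 ≤ finrank ℝ X) (T : X → E)
    (hlip : ∀ x : X, x ≠ 0 → ∃ C : ℝ, ∀ᶠ y in 𝓝 x, ‖T y - T x‖ ≤ C * ‖y - x‖)
    (hae : ∀ᵐ x ∂μ, HasFDerivAt T (0 : X →L[ℝ] E) x) :
    ∀ x y : X, x ≠ 0 → y ≠ 0 → T x = T y := by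
  -- continuity off the origin
  have hcont : ∀ x : X, x ≠ 0 → ContinuousAt T x := by
    intro x hx
    obtain ⟨C, hC⟩ := hlip x hx
    rw [ContinuousAt, tendsto_iff_dist_tendsto_zero]
    have h1 : Tendsto (fun y : X => C * ‖y - x‖) (𝓝 x) (𝓝 0) := by
      have : Continuous fun y : X => C * ‖y - x‖ := by fun_prop
      simpa using this.tendsto x
    refine squeeze_zero' (Eventually.of_forall fun s => dist_nonneg) ?_ h1
    filter_upwards [hC] with s hs
    rw [dist_eq_norm]
    exact hs
  -- the exceptional set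
  obtain ⟨N, hNsub, hNm, hN0⟩ := exists_measurable_superset_of_null
    (show μ {x | ¬ HasFDerivAt T (0 : X →L[ℝ] E) x} = 0 from hae)
  -- along almost every translate of a segment avoiding the origin
  have hseg : ∀ v : X, ∀ᵐ p ∂μ, (∀ t ∈ Icc (0 : ℝ) 1, p + t • v ≠ 0) → T p = T (p + v) := by
    intro v
    have hprod : (μ.prod (volume : Measure ℝ)) {q : X × ℝ | q.1 + q.2 • v ∈ N} = 0 := by
      have hm : MeasurableSet {q : X × ℝ | q.1 + q.2 • v ∈ N} := by
        have : Continuous fun q : X × ℝ => q.1 + q.2 • v := by fun_prop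
        exact this.measurable hNm
      rw [Measure.prod_apply_symm hm]
      have h1 : ∀ t : ℝ, μ ((fun x : X => (x, t)) ⁻¹' {q : X × ℝ | q.1 + q.2 • v ∈ N}) = 0 := by
        intro t
        have h2 : (fun x : X => (x, t)) ⁻¹' {q : X × ℝ | q.1 + q.2 • v ∈ N} =
            (fun x : X => x + t • v) ⁻¹' N := rfl
        rw [h2, measure_preimage_add_right, hN0]
      simp only [h1, lintegral_zero]
    have hae' := Measure.measure_ae_null_of_prod_null hprod
    filter_upwards [hae'] with p hp hoff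
    have hp' : (volume : Measure ℝ) {t : ℝ | p + t • v ∈ N} = 0 := hp
    have hgood : ∀ᵐ t ∂(volume : Measure ℝ), HasFDerivAt T (0 : X →L[ℝ] E) (p + t • v) := by
      have : ∀ᵐ t ∂(volume : Measure ℝ), p + t • v ∉ N := by
        rw [ae_iff]
        simpa using hp'
      filter_upwards [this] with t ht
      by_contra hcon
      exact ht (hNsub hcon)
    refine (SeparatingDual.eq_iff_forall_dual_eq (R := ℝ)).2 fun ψ => ?_
    have hline : ∀ t : ℝ, HasDerivAt (fun s : ℝ => p + s • v) v t := by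
      intro t
      simpa using ((hasDerivAt_id t).smul_const v).const_add p
    have h := one_dim (g := fun t : ℝ => ψ (T (p + t • v))) ?_ ?_
    · simpa using h
    · intro t ht
      obtain ⟨C, hC⟩ := hlip _ (hoff t ht)
      refine ⟨‖ψ‖ * (|C| * ‖v‖), ?_⟩
      have hc : Tendsto (fun s : ℝ => p + s • v) (𝓝 t) (𝓝 (p + t • v)) :=
        (hline t).continuousAt
      filter_upwards [hc.eventually hC] with s hs
      rw [← map_sub]
      calc |ψ (T (p + s • v) - T (p + t • v))| ≤ ‖ψ‖ * ‖T (p + s • v) - T (p + t • v)‖ := by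
            rw [← Real.norm_eq_abs]
            exact ψ.le_opNorm _
        _ ≤ ‖ψ‖ * (C * ‖p + s • v - (p + t • v)‖) := by gcongr
        _ ≤ ‖ψ‖ * (|C| * ‖p + s • v - (p + t • v)‖) := by
            gcongr
            exact le_abs_self C
        _ = ‖ψ‖ * (|C| * ‖v‖) * |s - t| := by
            have : p + s • v - (p + t • v) = (s - t) • v := by rw [sub_smul]; abel
            rw [this, norm_smul, Real.norm_eq_abs]
            ring
    · filter_upwards [hgood] with t ht _
      have h1 : HasFDerivAt (fun y : X => ψ (T y)) (ψ.comp (0 : X →L[ℝ] E)) (p + t • v) :=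
        ψ.hasFDerivAt.comp _ ht
      have h2 := HasFDerivAt.comp_hasDerivAt (l := fun y : X => ψ (T y)) t h1 (hline t)
      have h3 : (ψ.comp (0 : X →L[ℝ] E)) v = 0 := by simp
      rw [h3] at h2
      exact h2
  -- local constancy
  have hloc : ∀ x : X, x ≠ 0 → ∀ᶠ y in 𝓝 x, T y = T x := by
    intro x hx
    have hxn : 0 < ‖x‖ := norm_pos_iff.2 hx
    filter_upwards [Metric.ball_mem_nhds x (half_pos hxn)] with y hy
    rw [mem_ball, dist_eq_norm] at hy
    set v := y - x with hv
    have hyx : y = x + v := by rw [hv]; abel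
    have hy0 : y ≠ 0 := by
      intro h0
      rw [h0, zero_sub] at hv
      rw [hv, norm_neg] at hy
      linarith
    -- the two functions agree at almost every `p` near `x`
    have hoffx : ∀ᶠ p in 𝓝 x, ∀ t ∈ Icc (0 : ℝ) 1, p + t • v ≠ 0 := by
      filter_upwards [Metric.ball_mem_nhds x (half_pos hxn)] with p hp t ht h0
      rw [mem_ball, dist_eq_norm] at hp
      have h1 : x = -(p - x) - t • v := by
        have : p = -(t • v) := by rw [← sub_eq_zero, sub_neg_eq_add, h0]
        rw [this]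
        abel
      have h2 : ‖x‖ ≤ ‖p - x‖ + ‖t • v‖ := by
        calc ‖x‖ = ‖-(p - x) - t • v‖ := by rw [← h1]
          _ ≤ ‖-(p - x)‖ + ‖t • v‖ := norm_sub_le _ _
          _ = ‖p - x‖ + ‖t • v‖ := by rw [norm_neg]
      have h3 : ‖t • v‖ ≤ ‖v‖ := by
        rw [norm_smul, Real.norm_of_nonneg ht.1]
        exact mul_le_of_le_one_left (norm_nonneg _) ht.2
      linarith
    by_contra hne
    have hne' : T (x + v) ≠ T x := by rwa [← hyx]
    have hc1 : Tendsto T (𝓝 x) (𝓝 (T x)) := hcont x hx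
    have hc2 : Tendsto (fun p => T (p + v)) (𝓝 x) (𝓝 (T (x + v))) := by
      have h1 : ContinuousAt T (x + v) := hcont _ (hyx ▸ hy0)
      exact h1.tendsto.comp ((continuous_add_const v).tendsto x)
    have hev : ∀ᶠ p in 𝓝 x, T (p + v) ≠ T p := by
      have := (hc2.prodMk_nhds hc1).eventually
        ((isClosed_diagonal.isOpen_compl).mem_nhds (show (T (x + v), T x) ∉ diagonal E from hne'))
      filter_upwards [this] with p hp h
      exact hp h
    obtain ⟨r, hr, hball⟩ := Metric.eventually_nhds_iff_ball.1 (hev.and hoffx)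
    have hpos : 0 < μ (ball x r) := measure_ball_pos μ x hr
    have hzero : μ (ball x r) = 0 := by
      have h1 := hseg v
      rw [ae_iff] at h1
      refine measure_mono_null ?_ h1
      intro p hp
      obtain ⟨ha, hb⟩ := hball p hp
      simp only [mem_ofPred_eq]
      intro hcon
      exact ha (hcon hb).symm
    exact hpos.ne' hzero
  -- global constancy
  intro x y hx hy
  have hrank : 1 < Module.rank ℝ X := by
    rw [← finrank_eq_rank]
    exact_mod_cast (by omega : 1 < finrank ℝ X)
  have hconn : IsPreconnected ({0}ᶜ : Set X) :=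
    (isConnected_compl_singleton_of_one_lt_rank hrank 0).isPreconnected
  have hder : ∀ z ∈ ({0}ᶜ : Set X), HasFDerivAt T (0 : X →L[ℝ] E) z := by
    intro z hz
    refine (hasFDerivAt_const (T z) z).congr_of_eventuallyEq ?_
    exact hloc z hz
  exact isOpen_compl_singleton.is_const_of_fderiv_eq_zero hconn
    (fun z hz => (hder z hz).differentiableAt.differentiableWithinAt)
    (fun z hz => (hder z hz).fderiv) hx hy

end Vale.Agent.P084
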