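import Mathlib

/-! P084 piece (D) (helper15): where the second derivative of the norm has constant rank, its
kernel directions are directions of constancy of the gradient (flat leaves). -/

open Metric Set Filter Topology MeasureTheory Module

namespace Vale.Agent.P084

namespace ConstRank

variable {X : Type*} [NormedAddCommGroup X] [NormedSpace ℝ X]

theorem grad_self {φ : X →L[ℝ] ℝ} {z : X} (h : HasFDerivAt (fun v : X => ‖v‖) φ z) :
    φ z = ‖z‖ := by
  have h1 : HasDerivAt (fun t : ℝ => z + t • z) z 0 := by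
    simpa using ((hasDerivAt_id (0 : ℝ)).smul_const z).const_add z
  have h2 : HasFDerivAt (fun v : X => ‖v‖) φ (z + (0 : ℝ) • z) := by simpa using h
  have h3 := h2.comp_hasDerivAt (0 : ℝ) h1
  have h4 : HasDerivAt (fun t : ℝ => (1 + t) * ‖z‖) ‖z‖ 0 := by
    simpa using ((hasDerivAt_id (0 : ℝ)).const_add 1).mul_const ‖z‖
  have h5 : (fun t : ℝ => (1 + t) * ‖z‖) =ᶠ[𝓝 0] ((fun v : X => ‖v‖) ∘ fun t : ℝ => z + t • z) := by
    filter_upwards [lt_mem_nhds (show (-1 : ℝ) < 0 by norm_num)] with t ht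
    have : z + t • z = (1 + t) • z := by rw [add_smul, one_smul]
    simp only [Function.comp_apply]
    rw [this, norm_smul, Real.norm_of_nonneg (by linarith)]
  exact (h3.congr_of_eventuallyEq h5).unique h4

theorem grad_le {φ : X →L[ℝ] ℝ} {z : X} (h : HasFDerivAt (fun v : X => ‖v‖) φ z) (v : X) :
    φ v ≤ ‖v‖ := by
  have h1 : ‖φ‖ ≤ 1 := by
    have hl : LipschitzWith 1 (fun v : X => ‖v‖) := lipschitzWith_one_norm
    simpa using h.le_of_lipschitz hl
  calc φ v ≤ |φ v| := le_abs_self _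
    _ = ‖φ v‖ := (Real.norm_eq_abs _).symm
    _ ≤ ‖φ‖ * ‖v‖ := φ.le_opNorm v
    _ ≤ 1 * ‖v‖ := by gcongr
    _ = ‖v‖ := one_mul _

/-- A functional supporting the norm at a point of differentiability is the gradient. -/
theorem grad_unique {φ ψ : X →L[ℝ] ℝ} {z : X} (h : HasFDerivAt (fun v : X => ‖v‖) φ z)
    (hψ : ∀ v, ψ v ≤ ‖v‖) (hz : ψ z = ‖z‖) : φ = ψ := by
  have h1 : HasFDerivAt (fun v : X => ‖v‖ - ψ v) (φ - ψ) z := h.sub ψ.hasFDerivAt
  have h2 : φ - ψ = 0 := by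
    refine IsLocalMin.hasFDerivAt_eq_zero (Filter.Eventually.of_forall fun q => ?_) h1
    have := hψ q
    rw [hz, sub_self]
    linarith
  exact sub_eq_zero.1 h2

theorem exists_proj {V : Type*} [NormedAddCommGroup V] [NormedSpace ℝ V]
    [FiniteDimensional ℝ V] (S : Submodule ℝ V) :
    ∃ P : V →L[ℝ] S, ∀ s : S, P (s : V) = s := by
  obtain ⟨g, hg⟩ := LinearMap.exists_leftInverse_of_injective S.subtype S.ker_subtype
  refine ⟨LinearMap.toContinuousLinearMap g, fun s => ?_⟩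
  have := congrArg (fun f : S →ₗ[ℝ] S => f s) hg
  simpa using this

/-- Leaves of a map of constant rank. -/
theorem leaf {Z W : Type*} [FiniteDimensional ℝ X] [NormedAddCommGroup Z] [NormedSpace ℝ Z]
    [FiniteDimensional ℝ Z] [NormedAddCommGroup W] [NormedSpace ℝ W]
    (U : Set X) (hU : IsOpen U) (φ : X → Z) (h : X → X →L[ℝ] Z)
    (hh : ∀ z ∈ U, HasFDerivAt φ (h z) z) (hc : ContinuousOn h U)
    (T : X → W) (Q : X → X →L[ℝ] W) (hT : ∀ z ∈ U, HasFDerivAt T (Q z) z)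
    (hQ : ∀ z ∈ U, ∀ v, h z v = 0 → Q z v = 0)
    {x : X} (hx : x ∈ U) (hne : h x ≠ 0)
    (hrank : ∀ z ∈ U, finrank ℝ (LinearMap.ker (h z : X →ₗ[ℝ] Z)) =
      finrank ℝ (LinearMap.ker (h x : X →ₗ[ℝ] Z))) :
    ∃ (q : X →L[ℝ] LinearMap.ker (h x : X →ₗ[ℝ] Z)) (c : LinearMap.ker (h x : X →ₗ[ℝ] Z) → X)
      (v : X), (∀ k : LinearMap.ker (h x : X →ₗ[ℝ] Z), q (k : X) = k) ∧
      Tendsto c (𝓝 0) (𝓝 x) ∧ (∀ᶠ k in 𝓝 0, φ (c k) = φ x ∧ q (c k - x) = k) ∧
      h x v ≠ 0 ∧ ∀ᶠ k in 𝓝 0, ∃ v' : X, h (c k) v' = h x v ∧ Q (c k) v' = Q x v := by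
  have : CompleteSpace X := FiniteDimensional.complete ℝ X
  set K : Submodule ℝ X := LinearMap.ker (h x : X →ₗ[ℝ] Z) with hK
  set R : Submodule ℝ Z := LinearMap.range (h x : X →ₗ[ℝ] Z) with hR
  -- projections
  obtain ⟨Pr, hPr1⟩ := exists_proj R
  obtain ⟨q, hq1⟩ := exists_proj K
  set Θ : X → R × K := fun y => (Pr (φ y), q (y - x)) with hΘ
  set DΘ : X → X →L[ℝ] R × K := fun y => (Pr.comp (h y)).prod q with hDΘ
  have hder : ∀ y ∈ U, HasFDerivAt Θ (DΘ y) y := by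
    intro y hy
    have h1 : HasFDerivAt (fun y => Pr (φ y)) (Pr.comp (h y)) y :=
      Pr.hasFDerivAt.comp y (hh y hy)
    have h2 : HasFDerivAt (fun y => q (y - x)) q y := by
      have h3 : HasFDerivAt (fun y => q y - q x) q y := q.hasFDerivAt.sub_const _
      refine h3.congr_of_eventuallyEq (Filter.Eventually.of_forall fun z => ?_)
      simp only [map_sub]
    exact h1.prodMk h2
  have hDc : ContinuousAt DΘ x := by
    have h1 : ContinuousAt h x := hc.continuousAt (hU.mem_nhds hx)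
    have h2 : ContinuousAt (fun y => Pr.comp (h y)) x :=
      (ContinuousLinearMap.compL ℝ X Z R Pr).continuous.continuousAt.comp h1
    exact (ContinuousLinearMap.prodₗᵢ ℝ).continuous.continuousAt.comp
      (h2.prodMk continuousAt_const)
  -- the derivative at `x` is invertible
  have hinj : Function.Injective (DΘ x : X →ₗ[ℝ] R × K) := by
    rw [← LinearMap.ker_eq_bot, LinearMap.ker_eq_bot']
    intro v hv
    have hv' : (Pr (h x v), q v) = ((0 : R), (0 : K)) := hv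
    rw [Prod.mk.injEq] at hv'
    have h1 : h x v = 0 := by
      have := hPr1 ⟨h x v, LinearMap.mem_range_self (h x : X →ₗ[ℝ] Z) v⟩
      rw [hv'.1] at this
      exact (congrArg Subtype.val this).symm
    have h2 := hq1 ⟨v, LinearMap.mem_ker.2 h1⟩
    rw [hv'.2] at h2
    exact (congrArg Subtype.val h2).symm
  have hfr : finrank ℝ X = finrank ℝ (R × K) := by
    rw [Module.finrank_prod]
    exact (LinearMap.finrank_range_add_finrank_ker (h x : X →ₗ[ℝ] Z)).symm
  set e : X ≃L[ℝ] R × K :=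
    ((DΘ x : X →ₗ[ℝ] R × K).linearEquivOfInjective hinj hfr).toContinuousLinearEquiv with he
  have hec : (e : X →L[ℝ] R × K) = DΘ x := by
    ext v <;> rfl
  have hstrict : HasStrictFDerivAt Θ (e : X →L[ℝ] R × K) x := by
    rw [hec]
    refine hasStrictFDerivAt_of_hasFDerivAt_of_continuousAt ?_ hDc
    filter_upwards [hU.mem_nhds hx] with y hy
    exact hder y hy
  set P := hstrict.toOpenPartialHomeomorph Θ with hP
  have hPc : (P : X → R × K) = Θ := rfl
  have hxs : x ∈ P.source := hstrict.mem_toOpenPartialHomeomorph_source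
  have hxt : Θ x ∈ P.target := hstrict.image_mem_toOpenPartialHomeomorph_target
  have hgx : P.symm (Θ x) = x := P.left_inv hxs
  -- good neighbourhood of `x`
  have hV : ∀ᶠ y in 𝓝 x, y ∈ U ∧ ∃ f : X ≃L[ℝ] R × K, (f : X →L[ℝ] R × K) = DΘ y := by
    have h1 : ∀ᶠ y in 𝓝 x, DΘ y ∈ range ((↑) : (X ≃L[ℝ] R × K) → X →L[ℝ] R × K) := by
      refine hDc.eventually ?_
      rw [← hec]
      exact ContinuousLinearEquiv.nhds e
    filter_upwards [h1, hU.mem_nhds hx] with y hy hyU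
    exact ⟨hyU, hy⟩
  have hgc : ContinuousAt P.symm (Θ x) := P.continuousAt_symm hxt
  have hgood : ∀ᶠ p in 𝓝 (Θ x), p ∈ P.target ∧ P.symm p ∈ U ∧
      ∃ f : X ≃L[ℝ] R × K, (f : X →L[ℝ] R × K) = DΘ (P.symm p) := by
    have h1 : ∀ᶠ p in 𝓝 (Θ x), P.symm p ∈ U ∧
        ∃ f : X ≃L[ℝ] R × K, (f : X →L[ℝ] R × K) = DΘ (P.symm p) := by
      have h2 : Tendsto P.symm (𝓝 (Θ x)) (𝓝 x) := by
        have := hgc.tendsto
        rwa [hgx] at this
      exact h2.eventually hV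
    filter_upwards [h1, P.open_target.mem_nhds hxt] with p hp hpt
    exact ⟨hpt, hp⟩
  obtain ⟨δ, hδ, hball⟩ := Metric.eventually_nhds_iff_ball.1 hgood
  -- the kernel condition
  have hker : ∀ y ∈ U, (∃ f : X ≃L[ℝ] R × K, (f : X →L[ℝ] R × K) = DΘ y) →
      ∀ v, Pr (h y v) = 0 → h y v = 0 := by
    rintro y hyU ⟨f, hf⟩ v hv
    have hsurj : Function.Surjective (Pr.comp (h y) : X →ₗ[ℝ] R) := by
      intro r
      obtain ⟨u, hu⟩ := f.surjective (r, 0)
      refine ⟨u, ?_⟩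
      have h1 : (f : X →L[ℝ] R × K) u = (r, 0) := hu
      rw [hf] at h1
      exact (Prod.mk.injEq _ _ _ _ ▸ h1 : (Pr (h y u)) = r ∧ q u = 0).1
    have hr1 : finrank ℝ (LinearMap.ker (Pr.comp (h y) : X →ₗ[ℝ] R)) = finrank ℝ K := by
      have e1 := LinearMap.finrank_range_add_finrank_ker (Pr.comp (h y) : X →ₗ[ℝ] R)
      rw [LinearMap.range_eq_top.2 hsurj, finrank_top] at e1
      have e2 := LinearMap.finrank_range_add_finrank_ker (h x : X →ₗ[ℝ] Z)
      rw [← e2] at e1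
      exact Nat.add_left_cancel e1
    have hle : LinearMap.ker (h y : X →ₗ[ℝ] Z) ≤ LinearMap.ker (Pr.comp (h y) : X →ₗ[ℝ] R) := by
      intro u hu
      rw [LinearMap.mem_ker] at hu ⊢
      have hu' : h y u = 0 := hu
      show Pr (h y u) = 0
      rw [hu', map_zero]
    have heq := Submodule.eq_of_le_of_finrank_eq hle ((hrank y hyU).trans hr1.symm)
    have hmem : v ∈ LinearMap.ker (Pr.comp (h y) : X →ₗ[ℝ] R) := hv
    rw [← heq] at hmem
    exact hmem
  -- derivative of the inverse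
  have hgder : ∀ p ∈ ball (Θ x) δ, ∀ f : X ≃L[ℝ] R × K, (f : X →L[ℝ] R × K) = DΘ (P.symm p) →
      HasFDerivAt P.symm (f.symm : R × K →L[ℝ] X) p := by
    intro p hp f hf
    obtain ⟨hpt, hpU, _⟩ := hball p hp
    refine P.hasFDerivAt_symm hpt ?_
    rw [hf, hPc]
    exact hder _ hpU
  -- the pair of maps
  set F : X → Z × W := fun y => (φ y, T y) with hF
  set F' : X → X →L[ℝ] Z × W := fun y => (h y).prod (Q y) with hF'
  have hFder : ∀ z ∈ U, HasFDerivAt F (F' z) z := fun z hz => (hh z hz).prodMk (hT z hz)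
  have hF0 : ∀ z ∈ U, ∀ v, h z v = 0 → F' z v = 0 := by
    intro z hz v hv
    show (h z v, Q z v) = 0
    rw [hv, hQ z hz v hv]
    rfl
  have hprod : ball (Θ x) δ = ball (Θ x).1 δ ×ˢ ball (Θ x).2 δ := (ball_prod_same _ _ _).symm
  -- constancy along the second coordinate
  have hconst : ∀ (s : R) (k k' : K), s ∈ ball (Θ x).1 δ → k ∈ ball (Θ x).2 δ →
      k' ∈ ball (Θ x).2 δ → F (P.symm (s, k)) = F (P.symm (s, k')) := by
    intro s k k' hs hk hk'
    have hd : ∀ κ ∈ ball (Θ x).2 δ,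
        HasFDerivAt (fun κ : K => F (P.symm (s, κ))) (0 : K →L[ℝ] Z × W) κ := by
      intro κ hκ
      have hmem : (s, κ) ∈ ball (Θ x) δ := by rw [hprod]; exact ⟨hs, hκ⟩
      obtain ⟨hpt, hpU, f, hf⟩ := hball _ hmem
      have h1 := hgder _ hmem f hf
      have h2 : HasFDerivAt (fun κ : K => (s, κ)) (ContinuousLinearMap.inr ℝ R K) κ :=
        hasFDerivAt_prodMk_right s κ
      have h3 : HasFDerivAt (fun κ : K => P.symm (s, κ))
          ((f.symm : R × K →L[ℝ] X).comp (ContinuousLinearMap.inr ℝ R K)) κ := h1.comp κ h2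
      have h4 := (hFder _ hpU).comp κ h3
      have h5 : (F' (P.symm (s, κ))).comp
          ((f.symm : R × K →L[ℝ] X).comp (ContinuousLinearMap.inr ℝ R K)) = 0 := by
        ext1 u
        show F' (P.symm (s, κ)) (f.symm ((0 : R), u)) = 0
        refine hF0 _ hpU _ (hker _ hpU ⟨f, hf⟩ _ ?_)
        have h6 : (f : X →L[ℝ] R × K) (f.symm ((0 : R), u)) = ((0 : R), u) :=
          f.apply_symm_apply _
        rw [hf] at h6
        exact congrArg Prod.fst h6
      rw [h5] at h4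
      exact h4
    exact isOpen_ball.is_const_of_fderiv_eq_zero (convex_ball _ _).isPreconnected
      (fun κ hκ => (hd κ hκ).differentiableAt.differentiableWithinAt)
      (fun κ hκ => (hd κ hκ).fderiv) hk hk'
  have hx1 : (Θ x).1 ∈ ball (Θ x).1 δ := mem_ball_self hδ
  have hx2 : (Θ x).2 = 0 := by simp [hΘ]
  have hx2' : (0 : K) ∈ ball (Θ x).2 δ := by rw [hx2]; exact mem_ball_self hδ
  have hΘx : ((Θ x).1, (0 : K)) = Θ x := by rw [← hx2]
  have hg0 : P.symm ((Θ x).1, (0 : K)) = x := by rw [hΘx, hgx]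
  have hKball : ∀ᶠ k : K in 𝓝 0, k ∈ ball (Θ x).2 δ := isOpen_ball.mem_nhds hx2'
  -- a direction in which `φ` moves
  obtain ⟨u, hu⟩ : ∃ u, h x u ≠ 0 := by
    by_contra hcon
    push Not at hcon
    exact hne (ContinuousLinearMap.ext hcon)
  set σ : R := ⟨h x u, LinearMap.mem_range_self (h x : X →ₗ[ℝ] Z) u⟩ with hσ
  have hσ0 : σ ≠ 0 := fun h0 => hu (congrArg Subtype.val h0)
  -- derivative in the first coordinate
  have hd1 : ∀ k ∈ ball (Θ x).2 δ, ∀ f : X ≃L[ℝ] R × K,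
      (f : X →L[ℝ] R × K) = DΘ (P.symm ((Θ x).1, k)) →
      HasFDerivAt (fun s : R => F (P.symm (s, k))) ((F' (P.symm ((Θ x).1, k))).comp
          ((f.symm : R × K →L[ℝ] X).comp (ContinuousLinearMap.inl ℝ R K))) (Θ x).1 := by
    intro k hk f hf
    have hmem : ((Θ x).1, k) ∈ ball (Θ x) δ := by rw [hprod]; exact ⟨hx1, hk⟩
    have h1 := hgder _ hmem f hf
    have h2 : HasFDerivAt (fun s : R => (s, k)) (ContinuousLinearMap.inl ℝ R K) (Θ x).1 :=
      hasFDerivAt_prodMk_left _ k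
    have h3 : HasFDerivAt (fun s : R => P.symm (s, k))
        ((f.symm : R × K →L[ℝ] X).comp (ContinuousLinearMap.inl ℝ R K)) (Θ x).1 :=
      h1.comp (Θ x).1 h2
    exact (hFder _ (hball _ hmem).2.1).comp (Θ x).1 h3
  refine ⟨q, fun k => P.symm ((Θ x).1, k), e.symm (σ, 0), hq1, ?_, ?_, ?_, ?_⟩
  · have h1 : Tendsto (fun k : K => ((Θ x).1, k)) (𝓝 0) (𝓝 (Θ x)) := by
      have : Continuous fun k : K => ((Θ x).1, k) := by fun_prop
      have h2 := this.tendsto (0 : K)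
      rwa [hΘx] at h2
    have h3 := hgc.tendsto
    rw [hgx] at h3
    exact h3.comp h1
  · filter_upwards [hKball] with k hk
    have hmem : ((Θ x).1, k) ∈ ball (Θ x) δ := by rw [hprod]; exact ⟨hx1, hk⟩
    refine ⟨?_, ?_⟩
    · have := hconst (Θ x).1 k 0 hx1 hk hx2'
      rw [hg0] at this
      exact congrArg Prod.fst this
    · have h1 : Θ (P.symm ((Θ x).1, k)) = ((Θ x).1, k) := P.right_inv (hball _ hmem).1
      exact congrArg Prod.snd h1
  · intro h0
    have h1 : (e : X →L[ℝ] R × K) (e.symm (σ, (0 : K))) = (σ, 0) := e.apply_symm_apply _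
    rw [hec] at h1
    have h2 : Pr (h x (e.symm (σ, 0))) = σ := congrArg Prod.fst h1
    rw [h0, map_zero] at h2
    exact hσ0 h2.symm
  · filter_upwards [hKball] with k hk
    have hmem : ((Θ x).1, k) ∈ ball (Θ x) δ := by rw [hprod]; exact ⟨hx1, hk⟩
    obtain ⟨_, _, f, hf⟩ := hball _ hmem
    have hA := hd1 k hk f hf
    have hB := hd1 0 hx2' e (by rw [hg0]; exact hec)
    have hev : (fun s : R => F (P.symm (s, k))) =ᶠ[𝓝 (Θ x).1]
        fun s : R => F (P.symm (s, (0 : K))) := by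
      filter_upwards [isOpen_ball.mem_nhds hx1] with s hs
      exact hconst s k 0 hs hk hx2'
    have huniq := (hB.congr_of_eventuallyEq hev).unique hA
    rw [hg0] at huniq
    have h3 := congrArg (fun L : R →L[ℝ] Z × W => L σ) huniq
    have h4 : F' x (e.symm (σ, (0 : K))) = F' (P.symm ((Θ x).1, k)) (f.symm (σ, (0 : K))) := h3
    refine ⟨f.symm (σ, 0), ?_, ?_⟩
    · exact (congrArg Prod.fst h4).symm
    · exact (congrArg Prod.snd h4).symm

end ConstRank

open ConstRank in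
/-- (D) -/
theorem const_rank {X Y : Type*} [NormedAddCommGroup X] [NormedSpace ℝ X] [FiniteDimensional ℝ X]
    [NormedAddCommGroup Y] [NormedSpace ℝ Y] [FiniteDimensional ℝ Y]
    (U : Set X) (hU : IsOpen U) (φ : X → X →L[ℝ] ℝ) (h : X → X →L[ℝ] X →L[ℝ] ℝ)
    (hφ : ∀ z ∈ U, HasFDerivAt (fun v : X => ‖v‖) (φ z) z)
    (hh : ∀ z ∈ U, HasFDerivAt φ (h z) z) (hc : ContinuousOn h U)
    (T : X → X →L[ℝ] Y) (Q : X → X →L[ℝ] X →L[ℝ] Y) (b : X → Y)
    (hT : ∀ z ∈ U, HasFDerivAt T (Q z) z)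
    (hQ : ∀ z ∈ U, ∀ u v, Q z u v = h z u v • b z)
    {x : X} (hx : x ∈ U) (hne : h x ≠ 0)
    (hrank : ∀ z ∈ U, finrank ℝ (LinearMap.ker (h z : X →ₗ[ℝ] X →L[ℝ] ℝ)) =
      finrank ℝ (LinearMap.ker (h x : X →ₗ[ℝ] X →L[ℝ] ℝ)))
    (w : X) (hw : h x w = 0) :
    ∀ᶠ s : ℝ in 𝓝 0, φ (x + s • w) = φ x ∧ b (x + s • w) = b x := by
  have hQ0 : ∀ z ∈ U, ∀ v, h z v = 0 → Q z v = 0 := by
    intro z hz v hv
    ext u
    rw [hQ z hz v u, hv]
    simp
  obtain ⟨q, c, v, hq, hct, hcφ, hv, hcv⟩ := leaf U hU φ h hh hc T Q hT hQ0 hx hne hrank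
  obtain ⟨r, hr, hrU⟩ := Metric.isOpen_iff.1 hU x hx
  -- the leaf is flat
  have hflat : ∀ y ∈ ball x r, φ y = φ x → h x (y - x) = 0 := by
    intro y hy hφy
    set d := y - x with hd
    have hyU : y ∈ U := hrU hy
    have hseg : ∀ t ∈ Icc (0 : ℝ) 1, φ (x + t • d) = φ x := by
      intro t ht
      have hmem : x + t • d ∈ ball x r := by
        rw [mem_ball, dist_eq_norm, add_sub_cancel_left, norm_smul, Real.norm_of_nonneg ht.1]
        rw [mem_ball, dist_eq_norm] at hy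
        calc t * ‖d‖ ≤ 1 * ‖d‖ := by gcongr; exact ht.2
          _ < r := by rw [one_mul]; exact hy
      refine grad_unique (hφ _ (hrU hmem)) (grad_le (hφ x hx)) ?_
      refine le_antisymm (grad_le (hφ x hx) _) ?_
      have h1 : φ x x = ‖x‖ := grad_self (hφ x hx)
      have h2 : φ x y = ‖y‖ := by rw [← hφy]; exact grad_self (hφ y hyU)
      have h3 : x + t • d = (1 - t) • x + t • y := by
        rw [hd, smul_sub, sub_smul, one_smul]; abel
      rw [h3, map_add, map_smul, map_smul, h1, h2]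
      refine (norm_add_le _ _).trans ?_
      rw [norm_smul, norm_smul, Real.norm_of_nonneg ht.1,
        Real.norm_of_nonneg (sub_nonneg.2 ht.2)]
      rfl
    have h1 : HasDerivAt (fun t : ℝ => x + t • d) d 0 := by
      simpa using ((hasDerivAt_id (0 : ℝ)).smul_const d).const_add x
    have h2 : HasFDerivAt φ (h x) (x + (0 : ℝ) • d) := by simpa using hh x hx
    have h3 : HasDerivAt (fun t : ℝ => φ (x + t • d)) (h x d) 0 := h2.comp_hasDerivAt (0 : ℝ) h1
    have h4 : HasDerivWithinAt (fun t : ℝ => φ (x + t • d)) 0 (Icc 0 1) 0 := by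
      refine (hasDerivWithinAt_const (0 : ℝ) (Icc (0 : ℝ) 1) (φ x)).congr ?_ ?_
      · intro t ht
        exact hseg t ht
      · simp
    exact (uniqueDiffOn_Icc_zero_one 0 (by simp)).eq_deriv _ h3.hasDerivWithinAt h4
  have hcx : ∀ᶠ k in 𝓝 (0 : LinearMap.ker (h x : X →ₗ[ℝ] X →L[ℝ] ℝ)), c k = x + (k : X) := by
    filter_upwards [hcφ, hct.eventually (ball_mem_nhds x hr)] with k hk hkr
    have h1 := hflat (c k) hkr hk.1
    have h2 := hq ⟨c k - x, h1⟩
    have h3 : q (c k - x) = ⟨c k - x, h1⟩ := h2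
    rw [hk.2] at h3
    have h4 : (k : X) = c k - x := congrArg Subtype.val h3
    rw [h4]
    abel
  -- along the line
  set κ : ℝ → LinearMap.ker (h x : X →ₗ[ℝ] X →L[ℝ] ℝ) := fun s => s • ⟨w, hw⟩ with hκ
  have hκt : Tendsto κ (𝓝 0) (𝓝 0) := by
    have : Continuous κ := by fun_prop
    have h1 := this.tendsto 0
    simpa [hκ] using h1
  have hcU : ∀ᶠ k in 𝓝 (0 : LinearMap.ker (h x : X →ₗ[ℝ] X →L[ℝ] ℝ)), c k ∈ U :=
    hct.eventually (hU.mem_nhds hx)
  filter_upwards [hκt.eventually hcx, hκt.eventually hcφ, hκt.eventually hcv,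
    hκt.eventually hcU] with s h1 h2 h3 h4
  have h5 : c (κ s) = x + s • w := h1
  rw [h5] at h2 h3 h4
  refine ⟨h2.1, ?_⟩
  obtain ⟨v', hv1, hv2⟩ := h3
  obtain ⟨u, hu⟩ : ∃ u, h x v u ≠ 0 := by
    by_contra hcon
    push Not at hcon
    exact hv (ContinuousLinearMap.ext hcon)
  have e1 : Q (x + s • w) v' u = h x v u • b (x + s • w) := by
    rw [hQ _ h4, hv1]
  have e2 : Q x v u = h x v u • b x := hQ x hx v u
  rw [hv2, e2] at e1
  exact (smul_right_injective Y hu e1).symm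

end Vale.Agent.P084
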