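import Vale.Agent.P084.Rg
import Vale.Agent.P084.Baire
import Vale.Agent.P084.Alexandrov

open Metric Set Filter Topology MeasureTheory Module Asymptotics

namespace Vale.Agent.P084

variable {X Y : Type*} [NormedAddCommGroup X] [NormedSpace ℝ X]
    [NormedAddCommGroup Y] [NormedSpace ℝ Y]

theorem isOpen_dense_compl_span [FiniteDimensional ℝ X] (hdim : 2 ≤ finrank ℝ X) (a : X) :
    IsOpen ((Submodule.span ℝ {a} : Set X)ᶜ) ∧ Dense ((Submodule.span ℝ {a} : Set X)ᶜ) := by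
  constructor
  · exact (Submodule.closed_of_finiteDimensional _).isOpen_compl
  · rw [← interior_eq_empty_iff_dense_compl]
    by_contra h
    have hne : (interior (Submodule.span ℝ {a} : Set X)).Nonempty := nonempty_iff_ne_empty.mpr h
    have htop := Submodule.eq_top_of_nonempty_interior' _ hne
    have h1 := finrank_span_le_card (R := ℝ) ({a} : Set X)
    rw [htop, finrank_top] at h1
    simp at h1
    omega

theorem not_sameRay_of_notMem {a z : X} (ha : a ≠ 0) (h : z ∉ Submodule.span ℝ {a}) :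
    ¬ SameRay ℝ z (-a) := by
  rintro (h1 | h1 | ⟨r, s, hr, hs, h1⟩)
  · exact h (by rw [h1]; exact zero_mem _)
  · exact ha (neg_eq_zero.mp h1)
  · apply h
    rw [Submodule.mem_span_singleton]
    refine ⟨-(r⁻¹ * s), ?_⟩
    have : r⁻¹ • r • z = r⁻¹ • s • (-a) := by rw [h1]
    rw [smul_smul, inv_mul_cancel₀ hr.ne', one_smul, smul_smul, smul_neg] at this
    rw [this, neg_smul]

theorem SphMap.dense_of_null [FiniteDimensional ℝ X] [FiniteDimensional ℝ Y]
    [StrictConvexSpace ℝ X] [StrictConvexSpace ℝ Y] [MeasurableSpace X] [BorelSpace X]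
    [MeasurableSpace Y] [BorelSpace Y]
    (S : SphMap X Y) (hdim : 2 ≤ finrank ℝ X) {x₀ : X} (hx₀ : ‖x₀‖ = 1)
    {A : Set X} {A' : Set Y} (hA : μH[(finrank ℝ X : ℝ)] A = 0)
    (hA' : μH[(finrank ℝ Y : ℝ)] A' = 0) :
    Dense {z | ¬ SameRay ℝ z (-x₀) ∧ P x₀ z ∉ A ∧ P (S.F x₀) (S.F z) ∉ A'} := by
  have hx0 : x₀ ≠ 0 := by intro h; rw [h, norm_zero] at hx₀; exact zero_ne_one hx₀
  obtain ⟨hWo, hWd⟩ := isOpen_dense_compl_span hdim x₀
  have hB1 := P_preimage_null hx₀ hA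
  have hB2 := P_preimage_null (a := S.F x₀) (by rw [S.norm_map, hx₀]) hA'
  have hB2' : μH[(finrank ℝ X : ℝ)]
      (S.G '' {z | ¬ SameRay ℝ z (-S.F x₀) ∧ P (S.F x₀) z ∈ A'}) = 0 := by
    have h1 := S.symm.lipschitz.hausdorffMeasure_image_le (d := (finrank ℝ Y : ℝ)) (by positivity)
      {z | ¬ SameRay ℝ z (-S.F x₀) ∧ P (S.F x₀) z ∈ A'}
    rw [hB2, mul_zero] at h1
    rw [S.finrank_eq]
    exact le_antisymm h1 zero_le
  have hae : ∀ᵐ z ∂(μH[(finrank ℝ X : ℝ)] : Measure X),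
      z ∉ {z | ¬ SameRay ℝ z (-x₀) ∧ P x₀ z ∈ A} ∪
        (S.G '' {z | ¬ SameRay ℝ z (-S.F x₀) ∧ P (S.F x₀) z ∈ A'}) :=
    measure_eq_zero_iff_ae_notMem.mp (measure_union_null hB1 hB2')
  have hd := Measure.dense_of_ae hae
  refine (hWd.inter_of_isOpen_left hd hWo).mono ?_
  rintro z ⟨hz1, hz2⟩
  have hray := not_sameRay_of_notMem hx0 hz1
  simp only [mem_ofPred_eq, mem_union, not_or] at hz2
  refine ⟨hray, fun h => hz2.1 ⟨hray, h⟩, fun h => hz2.2 ?_⟩
  refine ⟨S.F z, ⟨fun h' => hray ?_, h⟩, S.left_inv z⟩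
  apply S.sameRay
  rwa [S.map_neg]

theorem residual_preimage {Z : Type*} [TopologicalSpace Z] {X : Type*} [TopologicalSpace X]
    {g : X → Z} (hg : Continuous g) {W : Set X} (hWd : Dense W)
    (hn : ∀ z ∈ W, 𝓝 (g z) ≤ map g (𝓝 z)) {R : Set Z} (hR : R ∈ residual Z) :
    g ⁻¹' R ∈ residual X := by
  obtain ⟨T, hTo, hTd, hTc, hTR⟩ := mem_residual_iff.mp hR
  have h1 : ∀ O ∈ T, g ⁻¹' O ∈ residual X := by
    intro O hO
    have hopen : IsOpen (g ⁻¹' O) := (hTo O hO).preimage hg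
    have hdense : Dense (g ⁻¹' O) := by
      rw [dense_iff_inter_open]
      intro V hV hVne
      obtain ⟨z₀, hz₀V, hz₀W⟩ := hWd.inter_open_nonempty V hV hVne
      have h2 : g '' V ∈ 𝓝 (g z₀) := hn z₀ hz₀W (image_mem_map (hV.mem_nhds hz₀V))
      obtain ⟨y, hyO, hyV⟩ := (hTd O hO).inter_nhds_nonempty h2
      obtain ⟨z, hz, rfl⟩ := hyV
      exact ⟨z, hz, hyO⟩
    exact residual_of_dense_open hopen hdense
  have h2 : ⋂ O ∈ T, g ⁻¹' O ∈ residual X := by
    rw [countable_bInter_mem hTc]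
    exact h1
  refine mem_of_superset h2 ?_
  intro z hz
  apply hTR
  intro O hO
  exact mem_iInter₂.mp hz O hO

theorem SphMap.dense_of_residual [FiniteDimensional ℝ X] [FiniteDimensional ℝ Y]
    [StrictConvexSpace ℝ X] [StrictConvexSpace ℝ Y]
    (S : SphMap X Y) (hdim : 2 ≤ finrank ℝ X) {x₀ : X} (hx₀ : ‖x₀‖ = 1)
    {R : Set X} {R' : Set Y} (hR : R ∈ residual X) (hR' : R' ∈ residual Y) :
    Dense {z | ¬ SameRay ℝ z (-x₀) ∧ P x₀ z ∈ R ∧ P (S.F x₀) (S.F z) ∈ R'} := by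
  have hx0 : x₀ ≠ 0 := by intro h; rw [h, norm_zero] at hx₀; exact zero_ne_one hx₀
  have : CompleteSpace X := FiniteDimensional.complete ℝ X
  obtain ⟨hWo, hWd⟩ := isOpen_dense_compl_span hdim x₀
  have h1 : (P x₀) ⁻¹' R ∈ residual X := by
    refine residual_preimage (continuous_P x₀) hWd ?_ hR
    intro z hz
    exact P_nhds_le hx₀ (not_sameRay_of_notMem hx0 hz)
  have h2 : (fun z => P (S.F x₀) (S.F z)) ⁻¹' R' ∈ residual X := by
    refine residual_preimage ((continuous_P _).comp S.continuous) hWd ?_ hR'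
    intro z hz
    have h3 : ¬ SameRay ℝ (S.F z) (-S.F x₀) := by
      intro h
      apply not_sameRay_of_notMem hx0 hz
      apply S.sameRay
      rwa [S.map_neg]
    have h4 := P_nhds_le (a := S.F x₀) (by rw [S.norm_map, hx₀]) h3
    have h5 : map S.F (𝓝 z) = 𝓝 (S.F z) := S.homeo.map_nhds_eq z
    rw [← h5, map_map] at h4
    exact h4
  have h3 : ((Submodule.span ℝ {x₀} : Set X)ᶜ) ∈ residual X := residual_of_dense_open hWo hWd
  refine (dense_of_mem_residual (inter_mem h3 (inter_mem h1 h2))).mono ?_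
  rintro z ⟨hz1, hz2, hz3⟩
  exact ⟨not_sameRay_of_notMem hx0 hz1, hz2, hz3⟩

end Vale.Agent.P084
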