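import Vale.Agent.P084.Cone
import Vale.Agent.P084.Affine
import Vale.Agent.P084.Calc

open Metric Set Filter Topology MeasureTheory Module Asymptotics

namespace Vale.Agent.P084

variable {X Y : Type*} [NormedAddCommGroup X] [NormedSpace ℝ X]
    [NormedAddCommGroup Y] [NormedSpace ℝ Y]

theorem ne_zero_of_unit {x : X} (hx : ‖x‖ = 1) : x ≠ 0 := by
  intro h; rw [h, norm_zero] at hx; exact zero_ne_one hx

/-- transfer of strict little-o along the sphere to strict little-o in the whole space -/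
theorem strict_of_sphere {F : X → Y} {x₀ : X} (hx₀ : ‖x₀‖ = 1) {T : X →L[ℝ] Y}
    (hF : ∀ (t : ℝ) (x : X), F (t • x) = t • F x) (hc : Continuous F)
    (h : (fun p : X × X => F p.1 - F p.2 - T (p.1 - p.2))
      =o[𝓝[sphere (0 : X) 1 ×ˢ sphere (0 : X) 1] (x₀, x₀)] (fun p : X × X => p.1 - p.2))
    (hTx : T x₀ = F x₀) : HasStrictFDerivAt F T x₀ := by
  have hx0 : x₀ ≠ 0 := ne_zero_of_unit hx₀
  rw [hasStrictFDerivAt_iff_isLittleO]
  -- the normalisation
  let n : X → X := fun z => ‖z‖⁻¹ • z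
  have hn0 : ∀ z : X, z ≠ 0 → ‖n z‖ = 1 := fun z hz => unit_of_ne hz
  have hnc : ContinuousAt n x₀ :=
    (continuous_norm.continuousAt.inv₀ (by rw [hx₀]; exact one_ne_zero)).smul continuousAt_id
  have hnx : n x₀ = x₀ := by show ‖x₀‖⁻¹ • x₀ = x₀; rw [hx₀, inv_one, one_smul]
  have hnt : Tendsto n (𝓝 x₀) (𝓝 x₀) := by
    have := hnc.tendsto; rwa [hnx] at this
  have hev : ∀ᶠ z in 𝓝 x₀, (1 : ℝ) / 2 < ‖z‖ ∧ ‖z‖ < 2 := by
    have h1 : ∀ᶠ z in 𝓝 x₀, (1 : ℝ) / 2 < ‖z‖ := by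
      apply (isOpen_lt continuous_const continuous_norm).mem_nhds
      show (1 : ℝ) / 2 < ‖x₀‖
      rw [hx₀]; norm_num
    have h2 : ∀ᶠ z in 𝓝 x₀, ‖z‖ < (2 : ℝ) := by
      apply (isOpen_lt continuous_norm continuous_const).mem_nhds
      show ‖x₀‖ < 2
      rw [hx₀]; norm_num
    exact h1.and h2
  have hev2 : ∀ᶠ p : X × X in 𝓝 (x₀, x₀), ((1 : ℝ) / 2 < ‖p.1‖ ∧ ‖p.1‖ < 2) ∧
      ((1 : ℝ) / 2 < ‖p.2‖ ∧ ‖p.2‖ < 2) := by
    rw [nhds_prod_eq]; exact hev.prod_mk hev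
  have htend : Tendsto (fun p : X × X => (n p.1, n p.2)) (𝓝 (x₀, x₀))
      (𝓝[sphere (0 : X) 1 ×ˢ sphere (0 : X) 1] (x₀, x₀)) := by
    rw [tendsto_nhdsWithin_iff]
    constructor
    · rw [nhds_prod_eq]; exact hnt.prodMap hnt
    · filter_upwards [hev2] with p hp
      refine ⟨?_, ?_⟩
      · rw [mem_sphere_zero_iff_norm]; apply hn0; rw [← norm_pos_iff]; linarith [hp.1.1]
      · rw [mem_sphere_zero_iff_norm]; apply hn0; rw [← norm_pos_iff]; linarith [hp.2.1]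
  have h1 := h.comp_tendsto htend
  have hbig : (fun p : X × X => n p.1 - n p.2) =O[𝓝 (x₀, x₀)] (fun p : X × X => p.1 - p.2) := by
    apply IsBigO.of_bound 4
    filter_upwards [hev2] with p hp
    have hz : 0 < ‖p.1‖ := by linarith [hp.1.1]
    have hw : 0 < ‖p.2‖ := by linarith [hp.2.1]
    have e1 : n p.1 - n p.2 = ‖p.1‖⁻¹ • ((p.1 - p.2) + (‖p.2‖ - ‖p.1‖) • n p.2) := by
      show ‖p.1‖⁻¹ • p.1 - ‖p.2‖⁻¹ • p.2 = ‖p.1‖⁻¹ • ((p.1 - p.2) + (‖p.2‖ - ‖p.1‖) • (‖p.2‖⁻¹ • p.2))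
      have e2 : (‖p.2‖ - ‖p.1‖) • (‖p.2‖⁻¹ • p.2) = p.2 - (‖p.1‖ * ‖p.2‖⁻¹) • p.2 := by
        rw [smul_smul, sub_mul, mul_inv_cancel₀ hw.ne', sub_smul, one_smul]
      rw [e2, sub_add_sub_cancel, smul_sub, smul_smul, ← mul_assoc, inv_mul_cancel₀ hz.ne', one_mul]
    rw [e1, norm_smul, norm_inv, norm_norm]
    have e2 : ‖(p.1 - p.2) + (‖p.2‖ - ‖p.1‖) • n p.2‖ ≤ 2 * ‖p.1 - p.2‖ := by
      calc ‖(p.1 - p.2) + (‖p.2‖ - ‖p.1‖) • n p.2‖ ≤ ‖p.1 - p.2‖ + ‖(‖p.2‖ - ‖p.1‖) • n p.2‖ :=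
            norm_add_le _ _
        _ = ‖p.1 - p.2‖ + |‖p.2‖ - ‖p.1‖| := by
            rw [norm_smul, hn0 _ (norm_pos_iff.mp hw), mul_one, Real.norm_eq_abs]
        _ ≤ ‖p.1 - p.2‖ + ‖p.2 - p.1‖ := by gcongr; exact abs_norm_sub_norm_le _ _
        _ = 2 * ‖p.1 - p.2‖ := by rw [norm_sub_rev p.2 p.1]; ring
    have e3 : ‖p.1‖⁻¹ ≤ 2 := by
      rw [inv_le_comm₀ hz (by norm_num)]; linarith [hp.1.1]
    calc ‖p.1‖⁻¹ * ‖(p.1 - p.2) + (‖p.2‖ - ‖p.1‖) • n p.2‖ ≤ 2 * (2 * ‖p.1 - p.2‖) := by gcongr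
      _ = 4 * ‖p.1 - p.2‖ := by ring
  have h2 : (fun p : X × X => F (n p.1) - F (n p.2) - T (n p.1 - n p.2)) =o[𝓝 (x₀, x₀)]
      (fun p : X × X => p.1 - p.2) := h1.trans_isBigO hbig
  -- first term
  have h3 : (fun p : X × X => ‖p.1‖ • (F (n p.1) - F (n p.2) - T (n p.1 - n p.2))) =o[𝓝 (x₀, x₀)]
      (fun p : X × X => p.1 - p.2) := by
    have hb : (fun p : X × X => ‖p.1‖) =O[𝓝 (x₀, x₀)] (fun _ : X × X => (1 : ℝ)) := by
      have : ContinuousAt (fun p : X × X => ‖p.1‖) (x₀, x₀) := by fun_prop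
      exact this.isBigO_one ℝ
    have := hb.smul_isLittleO h2.norm_right
    have h5 : (fun p : X × X => ‖p.1‖ • (F (n p.1) - F (n p.2) - T (n p.1 - n p.2)))
        =o[𝓝 (x₀, x₀)] (fun p : X × X => ‖p.1 - p.2‖) := by
      simpa using this
    exact h5.of_norm_right
  -- second term
  have h4 : (fun p : X × X => (‖p.1‖ - ‖p.2‖) • (F (n p.2) - T (n p.2))) =o[𝓝 (x₀, x₀)]
      (fun p : X × X => p.1 - p.2) := by
    have hb : (fun p : X × X => ‖p.1‖ - ‖p.2‖) =O[𝓝 (x₀, x₀)] (fun p : X × X => ‖p.1 - p.2‖) := by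
      apply IsBigO.of_bound 1
      filter_upwards with p
      rw [one_mul, norm_norm]
      exact abs_norm_sub_norm_le _ _
    have hs : (fun p : X × X => F (n p.2) - T (n p.2)) =o[𝓝 (x₀, x₀)] (fun _ => (1 : ℝ)) := by
      rw [isLittleO_one_iff]
      have hsnd : Tendsto (fun p : X × X => p.2) (𝓝 (x₀, x₀)) (𝓝 x₀) :=
        (continuous_snd.tendsto _)
      have h6 : Tendsto (fun z : X => F z - T z) (𝓝 x₀) (𝓝 (F x₀ - T x₀)) :=
        (hc.sub T.continuous).tendsto x₀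
      rw [hTx, sub_self] at h6
      exact h6.comp (hnt.comp hsnd)
    have := hb.smul_isLittleO hs
    have h5 : (fun p : X × X => (‖p.1‖ - ‖p.2‖) • (F (n p.2) - T (n p.2)))
        =o[𝓝 (x₀, x₀)] (fun p : X × X => ‖p.1 - p.2‖) := by
      simpa using this
    exact h5.of_norm_right
  refine (h3.add h4).congr' ?_ EventuallyEq.rfl
  filter_upwards [hev2] with p hp
  have hz : ‖p.1‖ ≠ 0 := by linarith [hp.1.1]
  have hw : ‖p.2‖ ≠ 0 := by linarith [hp.2.1]
  have e1 : ‖p.1‖ • F (n p.1) = F p.1 := by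
    rw [← hF]; congr 1; show ‖p.1‖ • (‖p.1‖⁻¹ • p.1) = p.1
    rw [smul_smul, mul_inv_cancel₀ hz, one_smul]
  have e2 : ‖p.2‖ • F (n p.2) = F p.2 := by
    rw [← hF]; congr 1; show ‖p.2‖ • (‖p.2‖⁻¹ • p.2) = p.2
    rw [smul_smul, mul_inv_cancel₀ hw, one_smul]
  have e3 : ‖p.1‖ • T (n p.1) = T p.1 := by
    rw [← _root_.map_smul]; congr 1; show ‖p.1‖ • (‖p.1‖⁻¹ • p.1) = p.1
    rw [smul_smul, mul_inv_cancel₀ hz, one_smul]
  have e4 : ‖p.2‖ • T (n p.2) = T p.2 := by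
    rw [← _root_.map_smul]; congr 1; show ‖p.2‖ • (‖p.2‖⁻¹ • p.2) = p.2
    rw [smul_smul, mul_inv_cancel₀ hw, one_smul]
  rw [_root_.map_sub, smul_sub, smul_sub, smul_sub, smul_sub, e1, e3, sub_smul, sub_smul, e2, e4,
    _root_.map_sub]
  abel

/-- the set of good test points -/
def SphMap.good (S : SphMap X Y) (a : X) : Set X :=
  {z | z ∈ Wset a ∧ DifferentiableAt ℝ (fun v : X => ‖v‖) (P a z) ∧
      DifferentiableAt ℝ (fun v : Y => ‖v‖) (P (S.F a) (S.F z))}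

theorem SphMap.good_sub (S : SphMap X Y) (a : X) : S.good a ⊆ Wset a := fun _ hz => hz.1

theorem SphMap.good_dense [FiniteDimensional ℝ X] (S : SphMap X Y) {a : X} (ha : ‖a‖ = 1) :
    Wset a ⊆ closure (S.good a) := by
  have : FiniteDimensional ℝ Y := S.finiteDimensional
  exact Vale.Agent.P084.good_dense S.toPos S.toPos ha (fun z => S.mem_Wset_iff ha)

theorem SphMap.affine [FiniteDimensional ℝ X] (S : SphMap X Y) : ∀ x y : X, ‖x‖ = 1 → ‖y‖ = 1 →
    ‖x + y‖ = 2 → ∀ t ∈ Icc (0 : ℝ) 1, S.F (x + t • (y - x)) = S.F x + t • (S.F y - S.F x) :=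
  fun _ _ hx hy h => S.toPos.affine hx hy h

theorem SphMap.exists_strict [FiniteDimensional ℝ X] (S : SphMap X Y) {x : X} (hx : ‖x‖ = 1) :
    ∃ T : X →L[ℝ] Y, HasStrictFDerivAt S.F T x ∧
      (¬ DifferentiableAt ℝ (fun v : X => ‖v‖) x → FRT S x T (S.good x)) := by
  have : FiniteDimensional ℝ Y := S.finiteDimensional
  obtain ⟨T, hT, hFR⟩ := pair_deriv S.toPos S.toPos S.norm_add hx (fun z => S.mem_Wset_iff hx)
    (S.good x) (S.good_sub x) (S.good_dense hx) (fun z hz => hz.2)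
  by_cases hd : DifferentiableAt ℝ (fun v : X => ‖v‖) x
  · refine ⟨T + (N1 x).smulRight (S.F x - T x), ?_, fun h => absurd hd h⟩
    apply strict_of_sphere hx S.map_smul S.continuous
    · have h1 := hasStrictFDerivAt_norm' hd
      rw [hasStrictFDerivAt_iff_isLittleO] at h1
      have h2 : (fun p : X × X => N1 x (p.1 - p.2)) =o[𝓝[sphere (0 : X) 1 ×ˢ sphere (0 : X) 1]
          (x, x)] (fun p : X × X => p.1 - p.2) := by
        have h3 := (h1.mono (nhdsWithin_le_nhds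
          (s := sphere (0 : X) 1 ×ˢ sphere (0 : X) 1))).neg_left
        refine h3.congr' ?_ EventuallyEq.rfl
        filter_upwards [self_mem_nhdsWithin] with p hp
        have e1 : ‖p.1‖ = 1 := mem_sphere_zero_iff_norm.mp hp.1
        have e2 : ‖p.2‖ = 1 := mem_sphere_zero_iff_norm.mp hp.2
        rw [e1, e2]; simp
      have h3 : (fun p : X × X => N1 x (p.1 - p.2) • (S.F x - T x))
          =o[𝓝[sphere (0 : X) 1 ×ˢ sphere (0 : X) 1] (x, x)] (fun p : X × X => p.1 - p.2) := by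
        have h4 := h2.norm_right.smul_isBigO
          (isBigO_refl (fun _ : X × X => S.F x - T x) (𝓝[sphere (0 : X) 1 ×ˢ sphere (0 : X) 1] (x, x)))
        have h5 : (fun p : X × X => ‖p.1 - p.2‖ • (S.F x - T x))
            =O[𝓝[sphere (0 : X) 1 ×ˢ sphere (0 : X) 1] (x, x)] (fun p : X × X => p.1 - p.2) := by
          apply IsBigO.of_bound ‖S.F x - T x‖
          filter_upwards with p
          rw [norm_smul, norm_norm, mul_comm]
        exact h4.trans_isBigO h5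
      have hT' : (fun p : X × X => S.F p.1 - S.F p.2 - T (p.1 - p.2))
        =o[𝓝[sphere (0 : X) 1 ×ˢ sphere (0 : X) 1] (x, x)] (fun p : X × X => p.1 - p.2) := hT
      refine (hT'.sub h3).congr' ?_ EventuallyEq.rfl
      filter_upwards with p
      simp only [add_apply, ContinuousLinearMap.smulRight_apply]
      abel
    · have e1 : N1 x x = 1 := by rw [N1_self hd, hx]
      simp only [add_apply, ContinuousLinearMap.smulRight_apply, e1, one_smul]
      abel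
  · have hFR' : FRT S x T (S.good x) :=
      ⟨S.good_sub x, S.good_dense hx, fun z hz => ⟨hz.2.1, hz.2.2, hFR hd z hz⟩⟩
    refine ⟨T, ?_, fun _ => hFR'⟩
    apply strict_of_sphere hx S.map_smul S.continuous hT
    exact hFR'.map_self hx (withinDeriv_of_pair hx hT) S.affine

/-- The homogeneous extension of the isometry is strictly differentiable off the origin. -/
theorem SphMap.strict [FiniteDimensional ℝ X] (S : SphMap X Y) {x : X} (hx : x ≠ 0) :
    HasStrictFDerivAt S.F (S.T1 x) x := by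
  obtain ⟨T, hT, -⟩ := S.exists_strict (unit_of_ne hx)
  have hx' : ‖x‖ ≠ 0 := norm_ne_zero_iff.mpr hx
  have h1 : HasStrictFDerivAt S.F T x := by
    have e : S.F = fun z => ‖x‖ • S.F (‖x‖⁻¹ • z) := by
      ext z
      rw [← S.map_smul, smul_smul, mul_inv_cancel₀ hx', one_smul]
    have h3 : HasStrictFDerivAt (fun z : X => ‖x‖⁻¹ • z) (‖x‖⁻¹ • ContinuousLinearMap.id ℝ X) x :=
      (hasStrictFDerivAt_id x).const_smul ‖x‖⁻¹
    have h4 := (hT.comp x h3).const_smul ‖x‖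
    have h5 : HasStrictFDerivAt (fun z => ‖x‖ • S.F (‖x‖⁻¹ • z)) T x := by
      refine h4.congr_fderiv ?_
      ext v
      simp [smul_smul, mul_inv_cancel₀ hx']
    rw [← e] at h5
    exact h5
  have h2 : S.T1 x = T := h1.hasFDerivAt.fderiv
  rw [h2]; exact h1

theorem SphMap.diff [FiniteDimensional ℝ X] (S : SphMap X Y) {x : X} (hx : x ≠ 0) :
    DifferentiableAt ℝ S.F x := (S.strict hx).hasFDerivAt.differentiableAt

theorem SphMap.T1_self' [FiniteDimensional ℝ X] (S : SphMap X Y) {x : X} (hx : x ≠ 0) :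
    S.T1 x x = S.F x := S.T1_self (S.diff hx)

theorem SphMap.T1_continuousAt [FiniteDimensional ℝ X] (S : SphMap X Y) {x : X} (hx : x ≠ 0) :
    ContinuousAt S.T1 x := by
  refine continuousAt_fderiv_of_strict (S.strict hx) ?_
  filter_upwards [isOpen_ne.mem_nhds hx] with z hz
  exact S.diff hz

theorem SphMap.frt [FiniteDimensional ℝ X] (S : SphMap X Y) {x : X} (hx : ‖x‖ = 1)
    (hd : ¬ DifferentiableAt ℝ (fun v : X => ‖v‖) x) : FRT S x (S.T1 x) (S.good x) := by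
  obtain ⟨T, hT, h⟩ := S.exists_strict hx
  have h2 : S.T1 x = T := hT.hasFDerivAt.fderiv
  rw [h2]; exact h hd

/-- the chain rule relation -/
theorem SphMap.chain' [FiniteDimensional ℝ X] (S : SphMap X Y) {x z : X} (hx : ‖x‖ = 1)
    (hz : z ∈ S.good x) {u : X}
    (hu : DifferentiableAt ℝ (fun v : X => ‖v‖) x → N1 x u = 0) :
    N1 (P (S.F x) (S.F z)) (S.T1 x u) = N1 (P x z) u := by
  by_cases hd : DifferentiableAt ℝ (fun v : X => ‖v‖) x
  · exact S.chain hx (Wset_ne_zero hz.1) hd (S.diff (ne_zero_of_unit hx)) hz.2.1 hz.2.2 (hu hd)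
  · exact ((S.frt hx hd).2.2 z hz).2.2 u

/-- composition -/
def SphMap.comp {Z : Type*} [NormedAddCommGroup Z] [NormedSpace ℝ Z] (S' : SphMap Y Z)
    (S : SphMap X Y) : SphMap X Z where
  F := fun x => S'.F (S.F x)
  G := fun z => S.G (S'.G z)
  left_inv := by intro x; rw [S'.left_inv, S.left_inv]
  right_inv := by intro x; rw [S.right_inv, S'.right_inv]
  map_smul := by intro t x; rw [S.map_smul, S'.map_smul]
  norm_sub := by
    intro x y h
    rw [S'.norm_sub _ _ (by rw [S.norm_map, S.norm_map, h]), S.norm_sub _ _ h]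

theorem SphMap.T1_comp [FiniteDimensional ℝ X] [FiniteDimensional ℝ Y] {Z : Type*}
    [NormedAddCommGroup Z] [NormedSpace ℝ Z] (S' : SphMap Y Z) (S : SphMap X Y) {x : X}
    (hx : x ≠ 0) : (S'.comp S).T1 x = (S'.T1 (S.F x)).comp (S.T1 x) := by
  have h1 := (S'.diff (S.F_ne hx)).hasFDerivAt.comp x (S.diff hx).hasFDerivAt
  exact h1.fderiv

theorem SphMap.T1_symm_comp [FiniteDimensional ℝ X] [FiniteDimensional ℝ Y] (S : SphMap X Y)
    {x : X} (hx : x ≠ 0) : (S.symm.T1 (S.F x)).comp (S.T1 x) = ContinuousLinearMap.id ℝ X := by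
  have h1 := (S.symm.diff (S.F_ne hx)).hasFDerivAt.comp x (S.diff hx).hasFDerivAt
  have h2 : (S.symm.F ∘ S.F) = id := funext fun x => S.left_inv x
  rw [h2] at h1
  exact h1.unique (hasFDerivAt_id x)

theorem SphMap.T1_comp_symm [FiniteDimensional ℝ X] [FiniteDimensional ℝ Y] (S : SphMap X Y)
    {x : X} (hx : x ≠ 0) : (S.T1 x).comp (S.symm.T1 (S.F x)) = ContinuousLinearMap.id ℝ Y := by
  have h := S.symm.T1_symm_comp (S.F_ne hx)
  have e1 : S.symm.F (S.F x) = x := S.left_inv x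
  rw [e1] at h
  exact h

/-- smooth points correspond to smooth points -/
theorem SphMap.smooth_iff [FiniteDimensional ℝ X] [FiniteDimensional ℝ Y] (S : SphMap X Y) {x : X}
    (hx : x ≠ 0) : DifferentiableAt ℝ (fun v : Y => ‖v‖) (S.F x) ↔
      DifferentiableAt ℝ (fun v : X => ‖v‖) x := by
  constructor
  · intro h
    have h1 := DifferentiableAt.comp x h (S.diff hx)
    refine h1.congr_of_eventuallyEq ?_
    filter_upwards with z
    exact (S.norm_map z).symm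
  · intro h
    have e1 : S.symm.F (S.F x) = x := S.left_inv x
    have h1 := DifferentiableAt.comp (S.F x) (f := S.symm.F) (g := fun v : X => ‖v‖)
      (by rw [e1]; exact h) (S.symm.diff (S.F_ne hx))
    refine h1.congr_of_eventuallyEq ?_
    filter_upwards with z
    exact (S.symm.norm_map z).symm

theorem SphMap.N1_T1 [FiniteDimensional ℝ X] [FiniteDimensional ℝ Y] (S : SphMap X Y) {x : X}
    (hx : x ≠ 0) (hd : DifferentiableAt ℝ (fun v : X => ‖v‖) x) (v : X) :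
    N1 (S.F x) (S.T1 x v) = N1 x v := by
  have hd' := (S.smooth_iff hx).mpr hd
  have h0 : HasFDerivAt (fun v : Y => ‖v‖) (N1 (S.F x)) (S.F x) := hd'.hasFDerivAt
  have h1 : HasFDerivAt (fun w => ‖S.F w‖) ((N1 (S.F x)).comp (S.T1 x)) x :=
    h0.comp x (S.diff hx).hasFDerivAt
  have h2 : (fun w => ‖S.F w‖) = fun w => ‖w‖ := funext S.norm_map
  rw [h2] at h1
  have h3 : HasFDerivAt (fun w : X => ‖w‖) (N1 x) x := hd.hasFDerivAt
  have := h1.unique h3
  rw [← this]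
  rfl

end Vale.Agent.P084
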