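import Mathlib

open Metric Set Filter Topology MeasureTheory Module
open scoped RealInnerProductSpace

namespace Vale.Agent.P084

theorem strict_supp {X : Type*} [NormedAddCommGroup X] [NormedSpace ℝ X] [StrictConvexSpace ℝ X]
    {z₀ : X} (hd : DifferentiableAt ℝ (fun v : X => ‖v‖) z₀) {z : X}
    (hz : z ≠ z₀) :
    0 < ‖z‖ ^ 2 + ‖z₀‖ ^ 2 - 2 * ‖z₀‖ * fderiv ℝ (fun v : X => ‖v‖) z₀ z := by
  set φ := fderiv ℝ (fun v : X => ‖v‖) z₀ with hφ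
  have h1 : φ z₀ = ‖z₀‖ := hd.fderiv_norm_self
  have hle : ∀ w, φ w ≤ ‖w‖ := by
    intro w
    have h2 : ‖φ‖ ≤ 1 := by
      have := norm_fderiv_le_of_lipschitz ℝ (lipschitzWith_one_norm (E := X)) (x₀ := z₀)
      simpa using this
    calc φ w ≤ ‖φ w‖ := le_abs_self _
      _ ≤ ‖φ‖ * ‖w‖ := φ.le_opNorm w
      _ ≤ 1 * ‖w‖ := by gcongr
      _ = ‖w‖ := one_mul _
  have hz0 : 0 ≤ ‖z₀‖ := norm_nonneg _
  by_contra hcon
  push Not at hcon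
  have h3 := hle z
  have h4 : (‖z‖ - ‖z₀‖) ^ 2 ≤ 0 := by nlinarith
  have h5 : ‖z‖ = ‖z₀‖ := by
    have : ‖z‖ - ‖z₀‖ = 0 := by nlinarith [sq_nonneg (‖z‖ - ‖z₀‖)]
    linarith
  rcases eq_or_ne z₀ 0 with h0 | h0
  · rw [h0, norm_zero, norm_eq_zero] at h5
    exact hz (by rw [h5, h0])
  · have hpos : 0 < ‖z₀‖ := norm_pos_iff.mpr h0
    have h6 : ‖z₀‖ ≤ φ z := by
      rw [h5] at hcon
      nlinarith
    have h7 : ‖z‖ + ‖z₀‖ ≤ ‖z + z₀‖ := by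
      have := hle (z + z₀)
      rw [_root_.map_add, h1] at this
      linarith
    have h8 : SameRay ℝ z z₀ := sameRay_iff_norm_add.mpr (le_antisymm (norm_add_le _ _) h7)
    exact hz (h8.eq_of_norm_eq h5)

theorem exists_posDef {X : Type*} [NormedAddCommGroup X] [NormedSpace ℝ X] [FiniteDimensional ℝ X]
    [StrictConvexSpace ℝ X]
    (hd : ∀ z : X, z ≠ 0 → DifferentiableAt ℝ (fun v : X => ‖v‖) z)
    (hd2 : ∀ z : X, z ≠ 0 → DifferentiableAt ℝ (fderiv ℝ (fun v : X => ‖v‖)) z)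
    (U : Set X) (hU : IsOpen U) (hne : (U ∩ {0}ᶜ).Nonempty) :
    ∃ z ∈ U, z ≠ 0 ∧ ∀ u, fderiv ℝ (fun v : X => ‖v‖) z u = 0 → u ≠ 0 →
      0 < fderiv ℝ (fderiv ℝ (fun v : X => ‖v‖)) z u u := by
  obtain ⟨z₀, hz₀U, hz₀⟩ := hne
  have hz₀0 : z₀ ≠ 0 := hz₀
  set N : X → X →L[ℝ] ℝ := fderiv ℝ (fun v : X => ‖v‖) with hN
  let e : X ≃L[ℝ] EuclideanSpace ℝ (Fin (finrank ℝ X)) := toEuclidean
  set p₀ := e z₀ with hp₀
  have hopen : IsOpen (U ∩ {0}ᶜ) := hU.inter isOpen_compl_singleton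
  have hnb : e.symm ⁻¹' (U ∩ {0}ᶜ) ∈ 𝓝 p₀ := by
    apply e.symm.continuous.continuousAt.preimage_mem_nhds
    rw [hp₀, e.symm_apply_apply]
    exact hopen.mem_nhds ⟨hz₀U, hz₀⟩
  obtain ⟨r, hr, hrs⟩ := Metric.nhds_basis_closedBall.mem_iff.mp hnb
  let q : EuclideanSpace ℝ (Fin (finrank ℝ X)) → ℝ := fun p =>
    ‖e.symm p‖ ^ 2 + ‖z₀‖ ^ 2 - 2 * ‖z₀‖ * N z₀ (e.symm p)
  have hqc : Continuous q := by
    have := e.symm.continuous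
    fun_prop
  have hq0 : q p₀ = 0 := by
    show ‖e.symm p₀‖ ^ 2 + ‖z₀‖ ^ 2 - 2 * ‖z₀‖ * N z₀ (e.symm p₀) = 0
    rw [hp₀, e.symm_apply_apply]
    have : N z₀ z₀ = ‖z₀‖ := (hd z₀ hz₀0).fderiv_norm_self
    rw [this]; ring
  have hqpos : ∀ p, p ≠ p₀ → 0 < q p := by
    intro p hp
    apply strict_supp (hd z₀ hz₀0)
    intro h
    apply hp
    rw [hp₀, ← h, e.apply_symm_apply]
  obtain ⟨m, hm, hmq⟩ := (isCompact_sphere p₀ r).exists_forall_le' hqc.continuousOn (a := 0)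
    (fun p hp => hqpos p (by
      rintro rfl
      rw [mem_sphere, dist_self] at hp
      exact hr.ne hp))
  obtain ⟨ε, hε, hεm⟩ : ∃ ε : ℝ, 0 < ε ∧ ε * r ^ 2 < m :=
    ⟨m / 2 / r ^ 2, by positivity, by
      rw [div_mul_cancel₀ _ (by positivity)]; linarith⟩
  let Ψ : EuclideanSpace ℝ (Fin (finrank ℝ X)) → ℝ := fun p => q p - ε * ‖p - p₀‖ ^ 2
  have hΨc : Continuous Ψ := by fun_prop
  obtain ⟨p₁, hp₁, hmin⟩ := (isCompact_closedBall p₀ r).exists_isMinOn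
    ⟨p₀, mem_closedBall_self hr.le⟩ hΨc.continuousOn
  have hp₁' : p₁ ∈ ball p₀ r := by
    rw [mem_closedBall] at hp₁
    rw [mem_ball]
    refine lt_of_le_of_ne hp₁ ?_
    intro h
    have h1 := hmq p₁ h
    have h2 : Ψ p₁ ≤ Ψ p₀ := hmin (mem_closedBall_self hr.le)
    have h3 : Ψ p₀ = 0 := by
      show q p₀ - ε * ‖p₀ - p₀‖ ^ 2 = 0
      rw [hq0, sub_self, norm_zero]; ring
    have h4 : Ψ p₁ = q p₁ - ε * r ^ 2 := by
      show q p₁ - ε * ‖p₁ - p₀‖ ^ 2 = _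
      rw [← dist_eq_norm, h]
    linarith
  have hloc : ∀ᶠ p in 𝓝 p₁, Ψ p₁ ≤ Ψ p := by
    filter_upwards [isOpen_ball.mem_nhds hp₁'] with p hp
    exact hmin (ball_subset_closedBall hp)
  obtain ⟨hz₁U, hz₁0⟩ : e.symm p₁ ∈ U ∩ {0}ᶜ := hrs (ball_subset_closedBall hp₁')
  set z₁ := e.symm p₁ with hz₁
  have hz₁0' : z₁ ≠ 0 := hz₁0
  refine ⟨z₁, hz₁U, hz₁0', ?_⟩
  intro v hv hv0
  by_contra hcon
  push Not at hcon
  set w := e v with hw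
  have hw0 : 0 < ‖w‖ := by
    rw [norm_pos_iff]
    intro h
    apply hv0
    rw [← e.symm_apply_apply v, ← hw, h, _root_.map_zero]
  let φ : ℝ → ℝ := fun t => Ψ (p₁ + t • w)
  have hφ : φ = fun t => (‖z₁ + t • v‖ ^ 2 + ‖z₀‖ ^ 2 - 2 * ‖z₀‖ * (N z₀ z₁ + t * N z₀ v)) -
      ε * (‖p₁ - p₀‖ ^ 2 + 2 * (t * ⟪p₁ - p₀, w⟫) + t ^ 2 * ‖w‖ ^ 2) := by
    ext t
    show (‖e.symm (p₁ + t • w)‖ ^ 2 + ‖z₀‖ ^ 2 - 2 * ‖z₀‖ * N z₀ (e.symm (p₁ + t • w))) -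
      ε * ‖p₁ + t • w - p₀‖ ^ 2 = _
    have e1 : e.symm (p₁ + t • w) = z₁ + t • v := by
      rw [_root_.map_add, _root_.map_smul, hw, e.symm_apply_apply]
    have e2 : p₁ + t • w - p₀ = (p₁ - p₀) + t • w := by abel
    rw [e1, e2, norm_add_sq_real (p₁ - p₀) (t • w), real_inner_smul_right, norm_smul, mul_pow, Real.norm_eq_abs,
      sq_abs, _root_.map_add, _root_.map_smul, smul_eq_mul]
  have hline : ∀ t : ℝ, HasDerivAt (fun t : ℝ => z₁ + t • v) v t := by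
    intro t
    simpa using ((hasDerivAt_id t).smul_const v).const_add z₁
  have hev : ∀ᶠ t : ℝ in 𝓝 0, z₁ + t • v ≠ 0 := by
    apply (hline 0).continuousAt.eventually_ne
    rwa [zero_smul, add_zero]
  have hφ' : ∀ᶠ t : ℝ in 𝓝 0, HasDerivAt φ ((2 * ‖z₁ + t • v‖ * N (z₁ + t • v) v
      - 2 * ‖z₀‖ * N z₀ v) - ε * (2 * ⟪p₁ - p₀, w⟫ + 2 * t * ‖w‖ ^ 2)) t := by
    filter_upwards [hev] with t ht
    rw [hφ]
    have h1 : HasDerivAt (fun t : ℝ => ‖z₁ + t • v‖) (N (z₁ + t • v) v) t :=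
      (hd _ ht).hasFDerivAt.comp_hasDerivAt t (hline t)
    have h2 := h1.fun_pow 2
    have h3 : HasDerivAt (fun t : ℝ => 2 * ‖z₀‖ * (N z₀ z₁ + t * N z₀ v))
        (2 * ‖z₀‖ * N z₀ v) t := by
      have := (((hasDerivAt_id t).mul_const (N z₀ v)).const_add (N z₀ z₁)).const_mul (2 * ‖z₀‖)
      simpa using this
    have h4 : HasDerivAt (fun t : ℝ => ε * (‖p₁ - p₀‖ ^ 2 + 2 * (t * ⟪p₁ - p₀, w⟫) +
        t ^ 2 * ‖w‖ ^ 2)) (ε * (2 * ⟪p₁ - p₀, w⟫ + 2 * t * ‖w‖ ^ 2)) t := by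
      have a1 : HasDerivAt (fun t : ℝ => 2 * (t * ⟪p₁ - p₀, w⟫)) (2 * ⟪p₁ - p₀, w⟫) t := by
        have := ((hasDerivAt_id t).mul_const ⟪p₁ - p₀, w⟫).const_mul 2
        simpa using this
      have a2 : HasDerivAt (fun t : ℝ => t ^ 2 * ‖w‖ ^ 2) (2 * t * ‖w‖ ^ 2) t := by
        have := (hasDerivAt_pow 2 t).mul_const (‖w‖ ^ 2)
        simpa using this
      exact ((a1.const_add (‖p₁ - p₀‖ ^ 2)).add a2).const_mul ε
    refine (((h2.add_const (‖z₀‖ ^ 2)).sub h3).sub h4).congr_deriv ?_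
    simp
  have hderiv : deriv φ =ᶠ[𝓝 0] fun t => ((2 * ‖z₁ + t • v‖ * N (z₁ + t • v) v
      - 2 * ‖z₀‖ * N z₀ v) - ε * (2 * ⟪p₁ - p₀, w⟫ + 2 * t * ‖w‖ ^ 2)) :=
    hφ'.mono fun t ht => ht.deriv
  have hφ2 : HasDerivAt (deriv φ) (2 * ‖z₁‖ * fderiv ℝ N z₁ v v - ε * (2 * ‖w‖ ^ 2)) 0 := by
    refine HasDerivAt.congr_of_eventuallyEq ?_ hderiv
    have h0 : z₁ + (0 : ℝ) • v = z₁ := by rw [zero_smul, add_zero]
    have h1 : HasDerivAt (fun t : ℝ => ‖z₁ + t • v‖) (N z₁ v) 0 := by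
      have h : HasFDerivAt (fun v : X => ‖v‖) (N z₁) (z₁ + (0 : ℝ) • v) := by
        rw [h0]; exact (hd _ hz₁0').hasFDerivAt
      exact h.comp_hasDerivAt 0 (hline 0)
    have h2 : HasDerivAt (fun t : ℝ => N (z₁ + t • v)) (fderiv ℝ N z₁ v) 0 := by
      have h : HasFDerivAt N (fderiv ℝ N z₁) (z₁ + (0 : ℝ) • v) := by
        rw [h0]; exact (hd2 _ hz₁0').hasFDerivAt
      exact h.comp_hasDerivAt 0 (hline 0)
    have h3 : HasDerivAt (fun t : ℝ => N (z₁ + t • v) v) (fderiv ℝ N z₁ v v) 0 := by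
      simpa using h2.clm_apply (hasDerivAt_const (0 : ℝ) v)
    have h4 := (h1.const_mul 2).mul h3
    have h5 : HasDerivAt (fun t : ℝ => ε * (2 * ⟪p₁ - p₀, w⟫ + 2 * t * ‖w‖ ^ 2))
        (ε * (2 * ‖w‖ ^ 2)) 0 := by
      have := ((((hasDerivAt_id (0 : ℝ)).const_mul 2).mul_const (‖w‖ ^ 2)).const_add
        (2 * ⟪p₁ - p₀, w⟫)).const_mul ε
      simpa using this
    refine ((h4.sub_const (2 * ‖z₀‖ * N z₀ v)).sub h5).congr_deriv ?_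
    have hv' : N z₁ v = 0 := hv
    simp [hv']
  have hneg : deriv (deriv φ) 0 < 0 := by
    rw [hφ2.deriv]
    have h1 : 0 < ‖z₁‖ := norm_pos_iff.mpr hz₁0'
    have h2 : ‖z₁‖ * fderiv ℝ N z₁ v v ≤ 0 := mul_nonpos_of_nonneg_of_nonpos h1.le hcon
    have h3 : 0 < ε * ‖w‖ ^ 2 := by positivity
    nlinarith
  have hφmin : IsLocalMin φ 0 := by
    have hc : ContinuousAt (fun t : ℝ => p₁ + t • w) 0 := by fun_prop
    have hc' : Tendsto (fun t : ℝ => p₁ + t • w) (𝓝 0) (𝓝 p₁) := by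
      have := hc.tendsto
      rwa [zero_smul, add_zero] at this
    have h1 : ∀ᶠ t : ℝ in 𝓝 0, Ψ p₁ ≤ Ψ (p₁ + t • w) := hc'.eventually hloc
    filter_upwards [h1] with t ht
    show Ψ (p₁ + (0 : ℝ) • w) ≤ Ψ (p₁ + t • w)
    rwa [zero_smul, add_zero]
  have hd0 : deriv φ 0 = 0 := hφmin.deriv_eq_zero
  have hcont : ContinuousAt φ 0 := hφ'.self_of_nhds.continuousAt
  have hφmax := isLocalMax_of_deriv_deriv_neg hneg hd0 hcont
  have hconst : φ =ᶠ[𝓝 0] fun _ => φ 0 := by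
    filter_upwards [hφmin, hφmax] with t h1 h2
    exact le_antisymm h2 h1
  have h1 : deriv φ =ᶠ[𝓝 0] fun _ => 0 := by
    have := hconst.deriv
    simpa using this
  have h2 : deriv (deriv φ) 0 = 0 := by
    rw [h1.deriv_eq]; simp
  linarith

end Vale.Agent.P084
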