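import Vale.Agent.P084.Calc
import Vale.Agent.P084.Alg
import Vale.Agent.P084.PosDef
import Vale.Agent.P084.Sym

open Metric Set Filter Topology MeasureTheory Module Asymptotics

namespace Vale.Agent.P084

variable {X Y : Type*} [NormedAddCommGroup X] [NormedSpace ℝ X]
    [NormedAddCommGroup Y] [NormedSpace ℝ Y]
    [FiniteDimensional ℝ X] [FiniteDimensional ℝ Y]

theorem SphMap.Reg.Q_zero {S : SphMap X Y} (R : S.Reg) (hdim : 3 ≤ finrank ℝ X) {x : X}
    (hx : ‖x‖ = 1) (hpos : ∀ u, N1 x u = 0 → u ≠ 0 → 0 < N2 x u u) : S.Q x = 0 := by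
  have hx0 : x ≠ 0 := by intro h; rw [h, norm_zero] at hx; exact zero_ne_one hx
  have hFx0 : S.F x ≠ 0 := S.F_ne hx0
  -- total symmetry
  obtain ⟨hQs, hQt⟩ := total_symm S.F S.T1 S.Q (N1 : Y → Y →L[ℝ] ℝ) (N2 (S.F x)) (x := x)
    (by filter_upwards [isOpen_ne.mem_nhds hx0] with z hz using (R.hF z hz).hasFDerivAt)
    (by filter_upwards [isOpen_ne.mem_nhds hx0] with z hz using R.hQ z hz)
    (R.Q_cont x hx0) (R.hN' _ hFx0)
    (by filter_upwards [isOpen_ne.mem_nhds hx0] with z hz using R.c_zero' hz)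
  -- the derivative is an isomorphism
  have hinj : Function.Injective (S.T1 x : X →ₗ[ℝ] Y) := by
    rw [← LinearMap.ker_eq_bot, LinearMap.ker_eq_bot']
    intro u hu
    have hu' : S.T1 x u = 0 := hu
    have h1 := R.a hx0 u
    rw [hu', _root_.map_zero] at h1
    have h2 := R.bstar hx u
    rw [hu', ← h1, zero_smul, zero_smul, sub_zero, sub_zero, norm_zero] at h2
    exact norm_eq_zero.mp h2.symm
  let e : X ≃ₗ[ℝ] Y := LinearEquiv.ofInjectiveOfFinrankEq (S.T1 x : X →ₗ[ℝ] Y) hinj S.finrank_eq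
  have he : ∀ u, e u = S.T1 x u := fun u => rfl
  have he' : ∀ w, S.T1 x (e.symm w) = w := fun w => by rw [← he, e.apply_symm_apply]
  -- the tangent space
  let V : Submodule ℝ X := LinearMap.ker (N1 x : X →ₗ[ℝ] ℝ)
  have hV : ∀ u : X, u ∈ V ↔ N1 x u = 0 := fun u => LinearMap.mem_ker
  have hVdim : 2 ≤ finrank ℝ V := by
    have h1 := LinearMap.finrank_range_add_finrank_ker (N1 x : X →ₗ[ℝ] ℝ)
    have h2 : finrank ℝ (LinearMap.range (N1 x : X →ₗ[ℝ] ℝ)) ≤ 1 := by
      have := Submodule.finrank_le (LinearMap.range (N1 x : X →ₗ[ℝ] ℝ))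
      rwa [finrank_self] at this
    show 2 ≤ finrank ℝ (LinearMap.ker (N1 x : X →ₗ[ℝ] ℝ))
    omega
  have hBmem : ∀ u v : X, e.symm (S.Q x u v) ∈ V := by
    intro u v
    rw [hV, ← R.a hx0, he']
    exact R.c_zero hx u v
  let B : V →ₗ[ℝ] V →ₗ[ℝ] V := LinearMap.mk₂ ℝ
    (fun u v => ⟨e.symm (S.Q x u v), hBmem u v⟩)
    (by intro u u' v; apply Subtype.ext; simp)
    (by intro c u v; apply Subtype.ext; simp)
    (by intro u v v'; apply Subtype.ext; simp)
    (by intro c u v; apply Subtype.ext; simp)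
  have hBc : ∀ u v : V, ((B u v : V) : X) = e.symm (S.Q x u v) := fun u v => rfl
  let h : V →ₗ[ℝ] V →ₗ[ℝ] ℝ := LinearMap.mk₂ ℝ (fun u v => N2 x (u : X) (v : X))
    (by intro u u' v; simp) (by intro c u v; simp) (by intro u v v'; simp)
    (by intro c u v; simp)
  have hh : ∀ u v : V, h u v = N2 x (u : X) (v : X) := fun u v => rfl
  let φ : V → V →L[ℝ] ℝ := fun u => (N1 (u : X)).comp V.subtypeL
  have hne : ∀ u : V, u ≠ 0 → (u : X) ≠ 0 := fun u hu h => hu (Subtype.ext h)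
  have key := alg_lemma (V := V) hVdim φ ?_ ?_ h ?_ ?_ B ?_ ?_
    (fun u => N1 (S.T1 x (u : X)) (S.F x) - N1 (u : X) x) ?_
  · -- conclusion
    have hker : ∀ u v : X, N1 x u = 0 → N1 x v = 0 → S.Q x u v = 0 := by
      intro u v hu hv
      have h1 := key ⟨u, (hV u).mpr hu⟩ ⟨v, (hV v).mpr hv⟩
      have h2 := hBc ⟨u, (hV u).mpr hu⟩ ⟨v, (hV v).mpr hv⟩
      rw [h1] at h2
      have h3 : e.symm (S.Q x u v) = 0 := h2.symm
      exact (LinearEquiv.map_eq_zero_iff e.symm).mp h3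
    have hQx : ∀ v, S.Q x x v = 0 := fun v => by rw [R.Q_left hx0]; rfl
    have hQx' : ∀ v, S.Q x v x = 0 := fun v => by rw [hQs, hQx]
    have hNx : N1 x x = 1 := by rw [R.N1_self' hx0, hx]
    ext u v
    have e1 : u = (u - N1 x u • x) + N1 x u • x := by abel
    have e2 : v = (v - N1 x v • x) + N1 x v • x := by abel
    have k1 : N1 x (u - N1 x u • x) = 0 := by
      rw [_root_.map_sub, _root_.map_smul, hNx]; simp
    have k2 : N1 x (v - N1 x v • x) = 0 := by
      rw [_root_.map_sub, _root_.map_smul, hNx]; simp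
    rw [e1, e2, _root_.map_add, _root_.map_add, _root_.map_smul, _root_.map_smul, add_apply,
      add_apply, smul_apply, smul_apply, hker _ _ k1 k2, hQx, hQx, hQx']
    simp
  · -- derivative of the norm on `V`
    intro u hu
    have h1 : HasFDerivAt (fun v : X => ‖v‖) (N1 (u : X)) (V.subtypeL u) :=
      (R.hX _ (hne u hu)).hasFDerivAt
    exact h1.comp u V.subtypeL.hasFDerivAt
  · intro u hu
    have h1 : ContinuousAt (N1 : X → X →L[ℝ] ℝ) (u : X) := (R.hN _ (hne u hu)).continuousAt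
    have h2 : ContinuousAt (fun u : V => N1 (u : X)) u :=
      ContinuousAt.comp (f := fun u : V => (u : X)) (g := N1) h1 continuous_subtype_val.continuousAt
    exact h2.clm_comp continuousAt_const
  · intro u v
    rw [hh, hh]
    exact R.N2_symm hx0 _ _
  · intro u hu
    rw [hh]
    exact hpos _ ((hV _).mp u.2) (hne u hu)
  · intro u v
    apply Subtype.ext
    rw [hBc, hBc, hQs]
  · intro u v w
    rw [hh, hh, hBc, hBc, ← R.c_iso hx, ← R.c_iso hx, he', he']
    calc N2 (S.F x) (S.Q x u v) (S.T1 x w) = N2 (S.F x) (S.T1 x w) (S.Q x v u) := by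
          rw [R.N2_symm' hFx0, hQs]
      _ = N2 (S.F x) (S.T1 x v) (S.Q x w u) := hQt _ _ _
      _ = N2 (S.F x) (S.Q x u w) (S.T1 x v) := by rw [R.N2_symm' hFx0, hQs (u : X)]
  · intro u hu v
    show N1 (u : X) ((B u v : V) : X) = _
    rw [hBc, ← R.b' hx ((hV _).mp u.2) (hne u hu) ((hV _).mp (hBmem _ _)), he', hQs,
      R.d hx ((hV _).mp u.2) (hne u hu), hh, R.N2_symm hx0 v u]
    ring

theorem SphMap.Reg.lin {S : SphMap X Y} [StrictConvexSpace ℝ X] (R : S.Reg)
    (hdim : 3 ≤ finrank ℝ X) : S.Lin := by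
  have hnt : Nontrivial X := Module.nontrivial_of_finrank_pos (R := ℝ) (by omega)
  -- zero of Q on a dense set
  have hQ0 : ∀ z : X, z ≠ 0 → (∀ u, N1 z u = 0 → u ≠ 0 → 0 < N2 z u u) → S.Q z = 0 := by
    intro z hz hpos
    have hz' : 0 < ‖z‖ := norm_pos_iff.mpr hz
    have h1 : S.Q (‖z‖⁻¹ • z) = 0 := by
      apply R.Q_zero hdim (unit_of_ne hz)
      intro u hu hu0
      rw [N1_normalize hz] at hu
      rw [R.N2_smul hz (inv_pos.mpr hz'), inv_inv]
      exact mul_pos hz' (hpos u hu hu0)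
    rw [R.Q_smul hz (inv_pos.mpr hz'), inv_inv] at h1
    exact (smul_eq_zero.mp h1).resolve_left hz'.ne'
  have hQ : ∀ z : X, z ≠ 0 → S.Q z = 0 := by
    intro z hz
    by_contra hne
    have h1 : ∀ᶠ w in 𝓝 z, S.Q w ≠ 0 := (R.Q_cont z hz).eventually_ne hne
    obtain ⟨U, hU, hUo, hzU⟩ := _root_.mem_nhds_iff.mp h1
    obtain ⟨w, hwU, hw0, hw⟩ := exists_posDef R.hX (fun z hz => (R.hN z hz).differentiableAt) U hUo
      ⟨z, hzU, hz⟩
    exact hU hwU (hQ0 w hw0 hw)
  have hconn : IsPreconnected ({0}ᶜ : Set X) := by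
    apply IsConnected.isPreconnected
    apply isConnected_compl_singleton_of_one_lt_rank
    rw [← Module.finrank_eq_rank]
    exact_mod_cast (by omega : 1 < finrank ℝ X)
  obtain ⟨x₀, hx₀⟩ := exists_ne (0 : X)
  have hconst : ∀ z : X, z ≠ 0 → S.T1 z = S.T1 x₀ := by
    intro z hz
    refine isOpen_compl_singleton.is_const_of_fderiv_eq_zero (𝕜 := ℝ) hconn ?_ ?_ hz hx₀
    · intro w hw
      exact (R.hQ w hw).differentiableAt.differentiableWithinAt
    · intro w hw
      exact hQ w hw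
  refine ⟨S.T1 x₀, fun x => ?_⟩
  by_cases hx : x = 0
  · rw [hx, S.map_zero, _root_.map_zero]
  · rw [← hconst x hx, S.T1_self (R.hF x hx)]

theorem SphMap.lin {S : SphMap X Y} [StrictConvexSpace ℝ X] (hdim : 3 ≤ finrank ℝ X) : S.Lin := by
  have : StrictConvexSpace ℝ Y := S.strictConvex
  rcases S.lin_or_reg (by omega) with h | h
  · exact h
  · exact h.lin hdim

end Vale.Agent.P084
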