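import Vale.Agent.P084.CalcLocal
import Vale.Agent.P084.ConstRank

open Metric Set Filter Topology MeasureTheory Module Asymptotics

namespace Vale.Agent.P084

namespace LeafAux

theorem tendsto_app {α E F : Type*} [NormedAddCommGroup E] [NormedSpace ℝ E]
    [NormedAddCommGroup F] [NormedSpace ℝ F] {l : Filter α} {f : α → E →L[ℝ] F} {f₀ : E →L[ℝ] F}
    (hf : Tendsto f l (𝓝 f₀)) (u : E) : Tendsto (fun a => f a u) l (𝓝 (f₀ u)) :=
  ((ContinuousLinearMap.apply ℝ F u).continuous.tendsto f₀).comp hf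

/-- second order expansion in one variable -/
theorem taylor2 {h h' : ℝ → ℝ} {a : ℝ} (hd : ∀ᶠ t in 𝓝 (0 : ℝ), HasDerivAt h (h' t) t)
    (h0 : h 0 = 0) (h'0 : h' 0 = 0) (ha : HasDerivAt h' a 0) {η : ℝ} (hη : 0 < η) :
    ∀ᶠ t in 𝓝 (0 : ℝ), |h t - a / 2 * t ^ 2| ≤ η * t ^ 2 := by
  have h1 : ∀ᶠ t in 𝓝 (0 : ℝ), |h' t - a * t| ≤ η * |t| := by
    have h2 := (hasDerivAt_iff_isLittleO.1 ha).def hη
    filter_upwards [h2] with t ht
    rw [h'0, sub_zero, sub_zero, smul_eq_mul, Real.norm_eq_abs, Real.norm_eq_abs] at ht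
    rwa [mul_comm a t]
  obtain ⟨δ, hδ, hball⟩ := Metric.eventually_nhds_iff_ball.1 (hd.and h1)
  filter_upwards [ball_mem_nhds (0 : ℝ) hδ] with t ht
  have hk : ∀ s ∈ uIcc (0 : ℝ) t, HasDerivWithinAt (fun s => h s - a / 2 * s ^ 2)
      (h' s - a * s) (uIcc (0 : ℝ) t) s := by
    intro s hs
    have hs' : s ∈ ball (0 : ℝ) δ := by
      have h3 := abs_sub_left_of_mem_uIcc hs
      rw [mem_ball, dist_zero_right, Real.norm_eq_abs] at ht ⊢
      rw [sub_zero, sub_zero] at h3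
      exact lt_of_le_of_lt h3 ht
    have h4 := (hball s hs').1
    have h5 : HasDerivAt (fun s : ℝ => a / 2 * s ^ 2) (a * s) s := by
      have := (hasDerivAt_pow 2 s).const_mul (a / 2)
      convert! this using 1
      norm_num
      ring
    exact (h4.sub h5).hasDerivWithinAt
  have hb : ∀ s ∈ uIcc (0 : ℝ) t, ‖h' s - a * s‖ ≤ η * |t| := by
    intro s hs
    have h3 := abs_sub_left_of_mem_uIcc hs
    rw [sub_zero, sub_zero] at h3
    have hs' : s ∈ ball (0 : ℝ) δ := by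
      rw [mem_ball, dist_zero_right, Real.norm_eq_abs] at ht ⊢
      exact lt_of_le_of_lt h3 ht
    rw [Real.norm_eq_abs]
    exact (hball s hs').2.trans (mul_le_mul_of_nonneg_left h3 hη.le)
  have := (convex_uIcc (0 : ℝ) t).norm_image_sub_le_of_norm_hasDerivWithin_le hk hb
    left_mem_uIcc right_mem_uIcc
  simp only [h0] at this
  rw [Real.norm_eq_abs, Real.norm_eq_abs] at this
  calc |h t - a / 2 * t ^ 2| = |h t - a / 2 * t ^ 2 - (0 - a / 2 * 0 ^ 2)| := by ring_nf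
    _ ≤ η * |t| * |t - 0| := this
    _ = η * t ^ 2 := by rw [sub_zero, mul_assoc, ← sq, sq_abs]

variable {X Y : Type*} [NormedAddCommGroup X] [NormedSpace ℝ X]
    [NormedAddCommGroup Y] [NormedSpace ℝ Y] [FiniteDimensional ℝ X] [FiniteDimensional ℝ Y]

theorem line_expand {S : SphMap X Y} (R : S.LReg) {z : X} (hz : z ∈ Sm X) (u : X) {η : ℝ}
    (hη : 0 < η) : ∀ᶠ t in 𝓝 (0 : ℝ),
      |(‖z + t • u‖ - ‖z‖ - t * N1 z u) - N2 z u u / 2 * t ^ 2| ≤ η * t ^ 2 := by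
  have hline : ∀ t : ℝ, HasDerivAt (fun s : ℝ => z + s • u) u t := fun t => by
    simpa using ((hasDerivAt_id t).smul_const u).const_add z
  have hcont : Tendsto (fun s : ℝ => z + s • u) (𝓝 0) (𝓝 z) := by
    have : Continuous fun s : ℝ => z + s • u := by fun_prop
    have h1 := this.tendsto 0
    simpa using h1
  refine taylor2 (h' := fun t => N1 (z + t • u) u - N1 z u) ?_ ?_ ?_ ?_ hη
  · filter_upwards [hcont.eventually (R.hO.mem_nhds hz)] with t ht
    have h1 : HasFDerivAt (fun v : X => ‖v‖) (N1 (z + t • u)) (z + t • u) :=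
      DifferentiableAt.hasFDerivAt ht
    have h2 : HasDerivAt (fun s : ℝ => ‖z + s • u‖) (N1 (z + t • u) u) t :=
      h1.comp_hasDerivAt t (hline t)
    have h3 : HasDerivAt (fun s : ℝ => s * N1 z u) (N1 z u) t := by
      simpa using (hasDerivAt_id t).mul_const (N1 z u)
    exact (h2.sub_const _).sub h3
  · simp
  · simp
  · have h1 := comp_line (R.hN hz) u
    have h2 : HasDerivAt (fun t : ℝ => N1 (z + t • u) u) (N2 z u u) 0 := by
      have := h1.clm_apply (hasDerivAt_const (0 : ℝ) u)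
      simpa using this
    exact h2.sub_const _

/-- Comparison of the second derivatives of the norm along a face. -/
theorem ker_segment {S : SphMap X Y} (R : S.LReg) [Nontrivial X] {y ybar z : X} {s : ℝ}
    (hs0 : 0 < s) (hs1 : s ≤ 1) (hz : z = (1 - s) • y + s • ybar) (hzS : z ∈ Sm X)
    (hyS : ybar ∈ Sm X) (h1 : N1 z = N1 ybar) (h2 : N1 ybar y = ‖y‖) {u : X}
    (hu : N2 ybar u u = 0) : N2 z u u = 0 := by
  by_contra hne
  have hpos : 0 < N2 z u u := lt_of_le_of_ne (R.N2_nonneg hzS u) (Ne.symm hne)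
  set c := N2 z u u with hc
  set η : ℝ := c / (8 * (1 + s⁻¹)) with hη
  have hs : 0 < s⁻¹ := inv_pos.2 hs0
  have hη0 : 0 < η := by positivity
  have e1 := line_expand R hzS u hη0
  have e2 := line_expand R hyS u hη0
  have e3 : Tendsto (fun t : ℝ => s⁻¹ * t) (𝓝[>] 0) (𝓝 0) := by
    have : Continuous fun t : ℝ => s⁻¹ * t := by fun_prop
    have h3 := (this.tendsto 0).mono_left (nhdsWithin_le_nhds (s := Ioi (0 : ℝ)))
    simpa using h3
  have e4 := e3.eventually e2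
  have e5 : ∀ᶠ t in 𝓝[>] (0 : ℝ), t ∈ Ioi (0 : ℝ) := self_mem_nhdsWithin
  obtain ⟨t, ht1, ht2, ht0⟩ := ((e1.filter_mono nhdsWithin_le_nhds).and (e4.and e5)).exists
  have ht0' : (0 : ℝ) < t := ht0
  -- convexity
  have hzn : ‖z‖ = (1 - s) * ‖y‖ + s * ‖ybar‖ := by
    have h3 : N1 z z = ‖z‖ := N1_self hzS
    have h4 : N1 ybar ybar = ‖ybar‖ := N1_self hyS
    rw [← h3, h1, hz, _root_.map_add, _root_.map_smul, _root_.map_smul, h2, h4]
    rfl
  have hconv : ‖z + t • u‖ ≤ (1 - s) * ‖y‖ + s * ‖ybar + (s⁻¹ * t) • u‖ := by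
    have h3 : z + t • u = (1 - s) • y + s • (ybar + (s⁻¹ * t) • u) := by
      rw [hz, smul_add, smul_smul, ← mul_assoc, mul_inv_cancel₀ hs0.ne', one_mul, add_assoc]
    rw [h3]
    refine (norm_add_le _ _).trans ?_
    rw [norm_smul, norm_smul, Real.norm_of_nonneg (by linarith), Real.norm_of_nonneg hs0.le]
  have hN : s * ((s⁻¹ * t) * N1 ybar u) = t * N1 z u := by
    rw [h1]
    field_simp
  rw [hu] at ht2
  have k1 := (abs_le.1 ht1).1
  have k2 := (abs_le.1 ht2).2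
  have k3 : s * (‖ybar + (s⁻¹ * t) • u‖ - ‖ybar‖ - s⁻¹ * t * N1 ybar u) ≤
      s * (η * (s⁻¹ * t) ^ 2) := by
    refine mul_le_mul_of_nonneg_left ?_ hs0.le
    linarith
  have k4 : s * (η * (s⁻¹ * t) ^ 2) = η * s⁻¹ * t ^ 2 := by
    field_simp
  have k5 : c / 2 * t ^ 2 - η * t ^ 2 ≤ η * s⁻¹ * t ^ 2 := by
    rw [← k4]
    nlinarith
  have k6 : c / 2 * t ^ 2 ≤ (η * (1 + s⁻¹)) * t ^ 2 := by nlinarith
  have k7 : η * (1 + s⁻¹) = c / 8 := by
    rw [hη]
    field_simp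
  rw [k7] at k6
  have ht2' : 0 < t ^ 2 := by positivity
  nlinarith

theorem psd_ker {S : SphMap X Y} (R : S.LReg) [Nontrivial X] {z : X} (hz : z ∈ Sm X) {u : X}
    (hu : N2 z u u = 0) : N2 z u = 0 := by
  ext v
  rw [zero_apply]
  by_contra hb
  set b := N2 z u v with hbdef
  set A := N2 z v v with hA
  have hA0 : 0 ≤ A := R.N2_nonneg hz v
  have h1 := R.N2_nonneg hz (u + (-(b / (A + 1))) • v)
  have h2 : N2 z (u + (-(b / (A + 1))) • v) (u + (-(b / (A + 1))) • v) =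
      2 * (-(b / (A + 1))) * b + (b / (A + 1)) ^ 2 * A := by
    have h3 : ∀ t : ℝ, N2 z (u + t • v) (u + t • v) =
        N2 z u u + t * N2 z u v + t * (N2 z v u + t * N2 z v v) := by
      intro t
      simp only [_root_.map_add, _root_.map_smul, add_apply, smul_apply, smul_eq_mul]
      ring
    rw [h3, hu, R.N2_symm hz v u, ← hbdef, ← hA]
    ring
  rw [h2] at h1
  have hb2 : 0 < b ^ 2 := by positivity
  have hA1 : 0 < A + 1 := by linarith
  have h3 : 2 * (-(b / (A + 1))) * b + (b / (A + 1)) ^ 2 * A =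
      -(b ^ 2 * (A + 2) / (A + 1) ^ 2) := by
    field_simp
    ring
  rw [h3] at h1
  have h4 : 0 < b ^ 2 * (A + 2) / (A + 1) ^ 2 := by positivity
  linarith

/-- Following a leaf of the constant rank foliation until a nonsmooth point. -/
theorem exit {S : SphMap X Y} (R : S.LReg) [Nontrivial X] (b : X → Y)
    (hb : ∀ z ∈ Sm X, ∀ u v, S.Q z u v = N2 z u v • b z) (m : ℕ)
    (hmin : ∀ z ∈ Sm X, S.Q z ≠ 0 →
      m ≤ finrank ℝ (LinearMap.ker (N2 z : X →ₗ[ℝ] X →L[ℝ] ℝ)))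
    (hUo : IsOpen {z : X | z ∈ Sm X ∧ S.Q z ≠ 0 ∧
      finrank ℝ (LinearMap.ker (N2 z : X →ₗ[ℝ] X →L[ℝ] ℝ)) = m})
    {y : X} (hy : y ∈ Sm X) (hQy : S.Q y ≠ 0)
    (hym : finrank ℝ (LinearMap.ker (N2 y : X →ₗ[ℝ] X →L[ℝ] ℝ)) = m)
    {w : X} (hw0 : w ≠ 0) (hw : N2 y w = 0) (hw1 : N1 y w = 0) :
    ∃ t : ℝ, 0 < t ∧ y + t • w ∉ Sm X ∧ ‖y + t • w‖ = ‖y‖ ∧ S.T1 (y + t • w) = S.T1 y := by
  set U : Set X := {z : X | z ∈ Sm X ∧ S.Q z ≠ 0 ∧
      finrank ℝ (LinearMap.ker (N2 z : X →ₗ[ℝ] X →L[ℝ] ℝ)) = m} with hU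
  have hyU : y ∈ U := ⟨hy, hQy, hym⟩
  have hby : b y ≠ 0 := by
    intro h0
    apply hQy
    ext u v
    rw [hb y hy, h0, smul_zero]
    rfl
  have hN2y : N2 y ≠ 0 := by
    intro h0
    apply hQy
    ext u v
    rw [hb y hy, h0]
    simp
  have hy0 : y ≠ 0 := R.ne_zero hy
  set γ : ℝ → X := fun t => y + t • w with hγ
  have hγc : Continuous γ := by fun_prop
  have hγd : ∀ t : ℝ, HasDerivAt γ w t := fun t => by
    show HasDerivAt (fun t : ℝ => y + t • w) w t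
    simpa using ((hasDerivAt_id t).smul_const w).const_add y
  have hγ0 : γ 0 = y := by simp [hγ]
  let Good : ℝ → Prop := fun t =>
    γ t ∈ U ∧ N1 (γ t) = N1 y ∧ b (γ t) = b y ∧ N2 (γ t) w = 0
  have hG0 : Good 0 := by
    show γ 0 ∈ U ∧ N1 (γ 0) = N1 y ∧ b (γ 0) = b y ∧ N2 (γ 0) w = 0
    rw [hγ0]
    exact ⟨hyU, rfl, rfl, hw⟩
  set A : Set ℝ := {t | 0 ≤ t ∧ ∀ s ∈ Icc (0 : ℝ) t, Good s} with hA
  have hA0 : (0 : ℝ) ∈ A := by
    refine ⟨le_rfl, fun s hs => ?_⟩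
    have : s = 0 := le_antisymm hs.2 hs.1
    rw [this]
    exact hG0
  have hAG : ∀ t ∈ A, Good t := fun t ht => ht.2 t ⟨ht.1, le_rfl⟩
  have hnorm : ∀ t, Good t → ‖γ t‖ = ‖y‖ := by
    intro t ht
    have h1 : N1 (γ t) (γ t) = ‖γ t‖ := N1_self ht.1.1
    have h2 : N1 y y = ‖y‖ := N1_self hy
    rw [← h1, ht.2.1]
    show N1 y (y + t • w) = ‖y‖
    rw [_root_.map_add, _root_.map_smul, hw1, h2, smul_zero, add_zero]
  have hwn : 0 < ‖w‖ := norm_pos_iff.2 hw0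
  have hAb : BddAbove A := by
    refine ⟨2 * ‖y‖ / ‖w‖, fun t ht => ?_⟩
    rw [le_div_iff₀ hwn]
    have h1 := hnorm t (hAG t ht)
    have h2 : ‖t • w‖ ≤ ‖γ t‖ + ‖y‖ := by
      have : t • w = γ t - y := by simp [hγ]
      rw [this]
      exact norm_sub_le _ _
    rw [norm_smul, Real.norm_of_nonneg ht.1, h1] at h2
    linarith
  set τ := sSup A with hτ
  have hτ0 : 0 ≤ τ := le_csSup hAb hA0
  have hlt : ∀ s, 0 ≤ s → s < τ → Good s := by
    intro s hs0 hsτ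
    obtain ⟨t, ht, hst⟩ := exists_lt_of_lt_csSup ⟨0, hA0⟩ hsτ
    exact ht.2 s ⟨hs0, hst.le⟩
  have hclos : τ ∈ closure A := csSup_mem_closure ⟨0, hA0⟩ hAb
  have hne : (𝓝[A] τ).NeBot := mem_closure_iff_nhdsWithin_neBot.1 hclos
  have hAev : ∀ᶠ t in 𝓝[A] τ, t ∈ A := self_mem_nhdsWithin
  have hγt : Tendsto γ (𝓝[A] τ) (𝓝 (γ τ)) := (hγc.tendsto τ).mono_left nhdsWithin_le_nhds
  have hnτ : ‖γ τ‖ = ‖y‖ := by
    have h1 : Tendsto (fun t => ‖γ t‖) (𝓝[A] τ) (𝓝 ‖γ τ‖) := hγt.norm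
    have h2 : Tendsto (fun t => ‖γ t‖) (𝓝[A] τ) (𝓝 ‖y‖) := by
      refine tendsto_const_nhds.congr' ?_
      filter_upwards [hAev] with t ht
      exact (hnorm t (hAG t ht)).symm
    exact tendsto_nhds_unique h1 h2
  have hγτ0 : γ τ ≠ 0 := by
    rw [← norm_ne_zero_iff, hnτ]
    exact norm_ne_zero_iff.2 hy0
  -- `T1` is constant along the leaf
  have hT1 : ∀ t ∈ A, S.T1 (γ t) = S.T1 y := by
    intro t ht
    have hd : ∀ s ∈ Icc (0 : ℝ) t, HasDerivAt (fun s => S.T1 (γ s)) 0 s := by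
      intro s hs
      have hG := ht.2 s hs
      have h1 : HasDerivAt (fun s => S.T1 (γ s)) (S.Q (γ s) w) s :=
        (R.hQ hG.1.1).comp_hasDerivAt s (hγd s)
      have h2 : S.Q (γ s) w = 0 := by
        ext v
        rw [hb _ hG.1.1, hG.2.2.2]
        simp
      rwa [h2] at h1
    have h3 := constant_of_has_deriv_right_zero (f := fun s => S.T1 (γ s)) (a := 0) (b := t)
      (fun s hs => (hd s hs).continuousAt.continuousWithinAt)
      (fun s hs => (hd s ⟨hs.1, hs.2.le⟩).hasDerivWithinAt) t ⟨ht.1, le_rfl⟩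
    simp only [hγ0] at h3
    exact h3
  have hT1τ : S.T1 (γ τ) = S.T1 y := by
    have h1 : Tendsto (fun t => S.T1 (γ t)) (𝓝[A] τ) (𝓝 (S.T1 (γ τ))) :=
      (S.T1_continuousAt hγτ0).tendsto.comp hγt
    have h2 : Tendsto (fun t => S.T1 (γ t)) (𝓝[A] τ) (𝓝 (S.T1 y)) := by
      refine tendsto_const_nhds.congr' ?_
      filter_upwards [hAev] with t ht
      exact (hT1 t ht).symm
    exact tendsto_nhds_unique h1 h2
  have hout : γ τ ∉ Sm X := by
    intro hS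
    have hN1τ : N1 (γ τ) = N1 y := by
      have h1 : Tendsto (fun t => N1 (γ t)) (𝓝[A] τ) (𝓝 (N1 (γ τ))) :=
        ((R.hN hS).continuousAt).tendsto.comp hγt
      have h2 : Tendsto (fun t => N1 (γ t)) (𝓝[A] τ) (𝓝 (N1 y)) := by
        refine tendsto_const_nhds.congr' ?_
        filter_upwards [hAev] with t ht
        exact (hAG t ht).2.1.symm
      exact tendsto_nhds_unique h1 h2
    have hN2t : Tendsto (fun t => N2 (γ t)) (𝓝[A] τ) (𝓝 (N2 (γ τ))) :=
      (R.N2_cont hS).tendsto.comp hγt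
    have hN2app : ∀ u : X, Tendsto (fun t => N2 (γ t) u) (𝓝[A] τ) (𝓝 (N2 (γ τ) u)) := fun u =>
      tendsto_app hN2t u
    have hN2w : N2 (γ τ) w = 0 := by
      refine tendsto_nhds_unique (hN2app w) (tendsto_const_nhds.congr' ?_)
      filter_upwards [hAev] with t ht
      exact (hAG t ht).2.2.2.symm
    have hQτ : ∀ u v, S.Q (γ τ) u v = N2 (γ τ) u v • b y := by
      intro u v
      have h1 : Tendsto (fun t => S.Q (γ t) u v) (𝓝[A] τ) (𝓝 (S.Q (γ τ) u v)) :=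
        tendsto_app (tendsto_app ((R.Q_cont hS).tendsto.comp hγt) u) v
      have h2 : Tendsto (fun t => N2 (γ t) u v • b y) (𝓝[A] τ) (𝓝 (N2 (γ τ) u v • b y)) :=
        (tendsto_app (hN2app u) v).smul_const _
      refine tendsto_nhds_unique h1 (h2.congr' ?_)
      filter_upwards [hAev] with t ht
      rw [hb _ (hAG t ht).1.1, (hAG t ht).2.2.1]
    have hkd : finrank ℝ (LinearMap.ker (N2 (γ τ) : X →ₗ[ℝ] X →L[ℝ] ℝ)) ≤ m := by
      rcases hτ0.eq_or_lt with h0 | hpos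
      · rw [← h0, hγ0, hym]
      · have hG := hlt (τ / 2) (by linarith) (by linarith)
        rw [← hG.1.2.2]
        refine Submodule.finrank_mono ?_
        intro u hu
        rw [LinearMap.mem_ker] at hu ⊢
        have hu' : N2 (γ τ) u = 0 := hu
        have h1 : N2 (γ (τ / 2)) u u = 0 := by
          refine ker_segment R (y := y) (ybar := γ τ) (s := 1 / 2) (by norm_num) (by norm_num)
            ?_ hG.1.1 hS (hG.2.1.trans hN1τ.symm) ?_ (by rw [hu']; rfl)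
          · simp only [hγ]
            module
          · rw [hN1τ]
            exact N1_self hy
        exact psd_ker R hG.1.1 h1
    have hN2ne : N2 (γ τ) ≠ 0 := by
      intro h0
      have h1 : LinearMap.ker (N2 (γ τ) : X →ₗ[ℝ] X →L[ℝ] ℝ) = ⊤ := by
        rw [h0]
        exact LinearMap.ker_zero
      rw [h1, finrank_top, ← hym] at hkd
      have h2 : LinearMap.ker (N2 y : X →ₗ[ℝ] X →L[ℝ] ℝ) = ⊤ :=
        Submodule.eq_top_of_finrank_eq (le_antisymm (Submodule.finrank_le _) hkd)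
      apply hN2y
      ext u v
      have h3 : u ∈ LinearMap.ker (N2 y : X →ₗ[ℝ] X →L[ℝ] ℝ) := by rw [h2]; trivial
      have h4 : N2 y u = 0 := h3
      rw [h4]
      rfl
    obtain ⟨u₀, v₀, huv⟩ : ∃ u v, N2 (γ τ) u v ≠ 0 := by
      by_contra hcon
      push Not at hcon
      apply hN2ne
      ext u v
      exact hcon u v
    have hQne : S.Q (γ τ) ≠ 0 := by
      intro h0
      have h1 := hQτ u₀ v₀
      rw [h0] at h1
      have h2 : (0 : Y) = N2 (γ τ) u₀ v₀ • b y := h1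
      exact smul_ne_zero huv hby h2.symm
    have hτU : γ τ ∈ U := ⟨hS, hQne, le_antisymm hkd (hmin _ hS hQne)⟩
    have hbτ : b (γ τ) = b y := by
      have h1 := hb _ hS u₀ v₀
      rw [hQτ u₀ v₀] at h1
      exact (smul_right_injective Y huv h1).symm
    -- extend beyond `τ`
    have hcr := const_rank U hUo N1 N2 (fun z hz => DifferentiableAt.hasFDerivAt hz.1)
      (fun z hz => R.hN hz.1) (fun z hz => (R.N2_cont hz.1).continuousWithinAt) S.T1 S.Q b
      (fun z hz => R.hQ hz.1) (fun z hz => hb z hz.1) hτU hN2ne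
      (fun z hz => hz.2.2.trans hτU.2.2.symm) w hN2w
    have hshift : ∀ s : ℝ, γ (τ + s) = γ τ + s • w := by
      intro s
      simp only [hγ]
      module
    have hev : ∀ᶠ s in 𝓝 (0 : ℝ), Good (τ + s) := by
      have hc0 : Tendsto (fun s : ℝ => γ (τ + s)) (𝓝 0) (𝓝 (γ τ)) := by
        have : Continuous fun s : ℝ => γ (τ + s) := by fun_prop
        have h1 := this.tendsto 0
        simpa using h1
      filter_upwards [hc0.eventually (hUo.mem_nhds hτU), hcr, hcr.eventually_nhds]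
        with s hs1 hs2 hs3
      rw [← hshift] at hs2
      refine ⟨hs1, hs2.1.trans hN1τ, hs2.2.trans hbτ, ?_⟩
      have h1 : HasDerivAt (fun s : ℝ => γ τ + s • w) w s := by
        simpa using ((hasDerivAt_id s).smul_const w).const_add (γ τ)
      have h2 : HasFDerivAt (N1 : X → X →L[ℝ] ℝ) (N2 (γ τ + s • w)) (γ τ + s • w) := by
        rw [← hshift]
        exact R.hN hs1.1
      have h3 : HasDerivAt (fun s : ℝ => N1 (γ τ + s • w)) (N2 (γ τ + s • w) w) s :=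
        h2.comp_hasDerivAt s h1
      have h4 : HasDerivAt (fun s : ℝ => N1 (γ τ + s • w)) 0 s := by
        refine (hasDerivAt_const s (N1 (γ τ))).congr_of_eventuallyEq ?_
        filter_upwards [hs3] with s' hs'
        exact hs'.1
      rw [hshift]
      exact h3.unique h4
    obtain ⟨δ, hδ, hball⟩ := Metric.eventually_nhds_iff_ball.1 hev
    have hmem : τ + δ / 2 ∈ A := by
      refine ⟨by linarith, fun s hs => ?_⟩
      rcases lt_or_ge s τ with h1 | h1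
      · exact hlt s hs.1 h1
      · have h2 := hball (s - τ) (by
          rw [mem_ball, dist_zero_right, Real.norm_of_nonneg (by linarith)]
          linarith [hs.2])
        rwa [add_sub_cancel] at h2
    have := le_csSup hAb hmem
    rw [← hτ] at this
    linarith
  have hτpos : 0 < τ := by
    rcases hτ0.eq_or_lt with h0 | hpos
    · exfalso
      apply hout
      rw [← h0, hγ0]
      exact hy
    · exact hpos
  exact ⟨τ, hτpos, hout, hnτ, hT1τ⟩

/-- Density of the good test points off a hyperplane. -/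
theorem dense_off (S : SphMap X Y) {a : X} (ha : ‖a‖ = 1) {g : X →L[ℝ] ℝ} (hg : g ≠ 0) :
    Wset a ⊆ closure {z | z ∈ S.good a ∧ g (P a z) ≠ 0} := by
  intro z₀ hz₀
  rw [_root_.mem_closure_iff]
  intro V hV hzV
  -- an open neighbourhood inside `Wset a`
  have hV' : V ∩ Wset a ∈ 𝓝 z₀ := (hV.inter (isOpen_Wset a)).mem_nhds ⟨hzV, hz₀⟩
  obtain ⟨z₁, hz₁, hg₁⟩ : ∃ z ∈ V ∩ Wset a, g (P a z) ≠ 0 := by
    by_contra hcon
    push Not at hcon
    have h1 : P a '' (V ∩ Wset a) ∈ 𝓝 (P a z₀) := P_nhds_le' ha hz₀ (image_mem_map hV')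
    have h2 : ∀ᶠ q in 𝓝 (P a z₀), g q = 0 := by
      filter_upwards [h1] with q hq
      obtain ⟨z, hz, rfl⟩ := hq
      exact hcon z hz
    apply hg
    ext u
    have hc : Tendsto (fun t : ℝ => P a z₀ + t • u) (𝓝[≠] 0) (𝓝 (P a z₀)) := by
      have : Continuous fun t : ℝ => P a z₀ + t • u := by fun_prop
      have h3 := (this.tendsto 0).mono_left (nhdsWithin_le_nhds (s := {(0 : ℝ)}ᶜ))
      simpa using h3
    obtain ⟨t, ht1, ht2⟩ := ((hc.eventually h2).and self_mem_nhdsWithin).exists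
    have h4 : g (P a z₀) = 0 := h2.self_of_nhds
    rw [_root_.map_add, h4, zero_add, _root_.map_smul, smul_eq_mul] at ht1
    exact (mul_eq_zero.1 ht1).resolve_left ht2
  have ho : IsOpen {z | z ∈ V ∧ g (P a z) ≠ 0} :=
    hV.inter (isOpen_ne.preimage (g.continuous.comp (continuous_P a)))
  obtain ⟨z, hz1, hz2⟩ := _root_.mem_closure_iff.1 (S.good_dense ha hz₁.2) _ ho ⟨hz₁.1, hg₁⟩
  exact ⟨z, hz1.1, hz2, hz1.2⟩

/-- The set of maximal rank is open. -/
theorem isOpen_maxrank {S : SphMap X Y} (R : S.LReg) (m : ℕ)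
    (hmin : ∀ z ∈ Sm X, S.Q z ≠ 0 →
      m ≤ finrank ℝ (LinearMap.ker (N2 z : X →ₗ[ℝ] X →L[ℝ] ℝ))) :
    IsOpen {z : X | z ∈ Sm X ∧ S.Q z ≠ 0 ∧
      finrank ℝ (LinearMap.ker (N2 z : X →ₗ[ℝ] X →L[ℝ] ℝ)) = m} := by
  rw [isOpen_iff_mem_nhds]
  rintro z ⟨hz, hQ, hm⟩
  set r := finrank ℝ (LinearMap.range (N2 z : X →ₗ[ℝ] X →L[ℝ] ℝ)) with hr
  have h1 : ∀ᶠ z' in 𝓝 z, z' ∈ Sm X := R.hO.mem_nhds hz
  have h2 : ∀ᶠ z' in 𝓝 z, S.Q z' ≠ 0 := (R.Q_cont hz).eventually_ne hQ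
  have h3 : ∀ᶠ z' in 𝓝 z, (r : Cardinal) ≤ (N2 z' : X →ₗ[ℝ] X →L[ℝ] ℝ).rank := by
    have ho : IsOpen {f : X →L[ℝ] X →L[ℝ] ℝ | (r : Cardinal) ≤ (f : X →ₗ[ℝ] X →L[ℝ] ℝ).rank} :=
      isOpen_setOfPred_nat_le_rank r
    refine (R.N2_cont hz).eventually (ho.mem_nhds ?_)
    show (r : Cardinal) ≤ (N2 z : X →ₗ[ℝ] X →L[ℝ] ℝ).rank
    rw [hr, LinearMap.rank, finrank_eq_rank]
  filter_upwards [h1, h2, h3] with z' h1 h2 h3
  refine ⟨h1, h2, le_antisymm ?_ (hmin z' h1 h2)⟩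
  rw [LinearMap.rank, ← finrank_eq_rank] at h3
  have h4 : r ≤ finrank ℝ (LinearMap.range (N2 z' : X →ₗ[ℝ] X →L[ℝ] ℝ)) := by exact_mod_cast h3
  have e1 := LinearMap.finrank_range_add_finrank_ker (N2 z' : X →ₗ[ℝ] X →L[ℝ] ℝ)
  have e2 := LinearMap.finrank_range_add_finrank_ker (N2 z : X →ₗ[ℝ] X →L[ℝ] ℝ)
  omega

/-- The final contradiction at the limit of the exit points. -/
theorem limit {S : SphMap X Y} (R : S.LReg) {x a v β : X} (hx : x ∈ Sm X)
    (ha : ‖a‖ = 1) (haS : a ∉ Sm X) (hTa : S.T1 a = S.T1 x)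
    (hβ : ∀ u, S.Q x v u = N2 x v u • S.T1 x β) (hg : N2 x v ≠ 0)
    (l : Filter ℝ) [l.NeBot] (hl : l ≤ 𝓝[≠] 0) (p : ℝ → X) (hp : Tendsto p l (𝓝 a))
    (hpev : ∀ᶠ t in l, p t ∉ Sm X ∧ ‖p t‖ = 1 ∧ S.T1 (p t) = S.T1 (x + t • v)) : β = 0 := by
  have ha0 : a ≠ 0 := ne_zero_of_unit ha
  have hFa : ∀ q ∈ Ccone a, ‖S.T1 x q‖ = ‖q‖ := by
    intro q hq
    rw [← hTa]
    exact (S.frt ha haS).norm_eq ha hq
  have hFt : ∀ q ∈ Ccone a, ∀ᶠ t in l, ‖S.T1 (x + t • v) q‖ = ‖q‖ := by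
    rintro q ⟨s, hs, hq⟩
    have h1 : ∀ᶠ b in 𝓝 a, ‖s • b - q‖ < s * ‖b‖ := by
      refine IsOpen.mem_nhds (isOpen_lt ?_ ?_) hq
      · fun_prop
      · fun_prop
    filter_upwards [hp.eventually h1, hpev] with t ht1 ht2
    rw [← ht2.2.2]
    exact (S.frt ht2.2.1 ht2.1).norm_eq ht2.2.1 ⟨s, hs, ht1⟩
  set T := S.T1 x with hT
  set L := S.symm.T1 (S.F a) with hL
  have hTL : ∀ y, T (L y) = y := by
    intro y
    have h1 := S.T1_comp_symm ha0
    rw [hTa] at h1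
    exact congrArg (fun M : Y →L[ℝ] Y => M y) h1
  have hLT : ∀ y, L (T y) = y := by
    intro y
    have h1 := S.T1_symm_comp ha0
    rw [hTa] at h1
    exact congrArg (fun M : X →L[ℝ] X => M y) h1
  have key : ∀ q ∈ Ccone a, q ∈ Sm X → N2 x v q ≠ 0 → N1 q β = 0 := by
    intro q hq hqS hgq
    -- derivative of the norm of `Y` at `T q`
    have hloc : (fun y : Y => ‖y‖) =ᶠ[𝓝 (T q)] fun y => ‖L y‖ := by
      have h1 : Tendsto L (𝓝 (T q)) (𝓝 q) := by
        have := L.continuous.tendsto (T q)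
        rwa [hLT] at this
      filter_upwards [h1.eventually ((isOpen_Ccone a).mem_nhds hq)] with y hy
      have := hFa _ hy
      rwa [hTL] at this
    have hq1 : HasFDerivAt (fun v : X => ‖v‖) (N1 q) (L (T q)) := by
      rw [hLT]
      exact DifferentiableAt.hasFDerivAt hqS
    have hq2 : HasFDerivAt (fun y : Y => ‖y‖) ((N1 q).comp L) (T q) :=
      (hq1.comp (T q) L.hasFDerivAt).congr_of_eventuallyEq hloc
    have hc1 : HasDerivAt (fun t : ℝ => S.T1 (x + t • v)) (S.Q x v) 0 := comp_line (R.hQ hx) v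
    have hc2 : HasDerivAt (fun t : ℝ => S.T1 (x + t • v) q) (S.Q x v q) 0 := by
      have := hc1.clm_apply (hasDerivAt_const (0 : ℝ) q)
      simpa using this
    have hq3 : HasFDerivAt (fun y : Y => ‖y‖) ((N1 q).comp L) (S.T1 (x + (0 : ℝ) • v) q) := by
      rw [zero_smul, add_zero]
      exact hq2
    have hc3 : HasDerivAt (fun t : ℝ => ‖S.T1 (x + t • v) q‖) (((N1 q).comp L) (S.Q x v q)) 0 :=
      hq3.comp_hasDerivAt (0 : ℝ) hc2
    have hslope := hc3.tendsto_slope.mono_left hl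
    have h0 : Tendsto (slope (fun t : ℝ => ‖S.T1 (x + t • v) q‖) 0) l (𝓝 0) := by
      refine tendsto_const_nhds.congr' ?_
      filter_upwards [hFt q hq] with t ht
      rw [slope_def_field, ht, zero_smul, add_zero, hFa q hq, sub_self, zero_div]
    have h1 := tendsto_nhds_unique hslope h0
    have h2 : ((N1 q).comp L) (S.Q x v q) = N2 x v q * N1 q β := by
      show N1 q (L (S.Q x v q)) = _
      rw [hβ, _root_.map_smul, hLT, _root_.map_smul, smul_eq_mul]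
    rw [h2] at h1
    exact (mul_eq_zero.1 h1).resolve_left hgq
  refine separating' ha {z | z ∈ S.good a ∧ N2 x v (P a z) ≠ 0} (dense_off S ha hg)
    (fun z hz => hz.1.2.1) ?_
  rintro z ⟨hz1, hz2⟩
  exact key _ (P_mem_Ccone ha hz1.1) hz1.2.1 hz2

end LeafAux

open LeafAux in
/-- (M) The second derivative of the isometry vanishes on the set of smooth points. -/
theorem SphMap.LReg.Q_zero {X Y : Type*} [NormedAddCommGroup X] [NormedSpace ℝ X]
    [NormedAddCommGroup Y] [NormedSpace ℝ Y] [FiniteDimensional ℝ X] [FiniteDimensional ℝ Y]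
    {S : SphMap X Y} (R : S.LReg) (hdim : 3 ≤ finrank ℝ X) {z : X} (hz : z ∈ Sm X) :
    S.Q z = 0 := by
  have : Nontrivial X := Module.nontrivial_of_finrank_pos (R := ℝ) (by omega)
  by_contra hQz
  have hstr : ∀ z : X, ∃ β : X, z ∈ Sm X → N1 z β = 0 ∧
      (∀ u v, S.Q z u v = N2 z u v • S.T1 z β) ∧
      (2 ≤ finrank ℝ (LinearMap.range (N2 z : X →ₗ[ℝ] X →L[ℝ] ℝ)) → ∀ w, N2 z β w = 0) := by
    intro z
    by_cases h : z ∈ Sm X
    · obtain ⟨β, hβ⟩ := R.Q_struct h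
      exact ⟨β, fun _ => hβ⟩
    · exact ⟨0, fun h' => absurd h' h⟩
  choose β hβ using hstr
  set kd : X → ℕ := fun z => finrank ℝ (LinearMap.ker (N2 z : X →ₗ[ℝ] X →L[ℝ] ℝ)) with hkd
  set O : Set X := {z | z ∈ Sm X ∧ S.Q z ≠ 0} with hO
  have hOne : O.Nonempty := ⟨z, hz, hQz⟩
  obtain ⟨x, hxO, hxmin⟩ : ∃ x ∈ O, ∀ z ∈ O, kd x ≤ kd z := by
    obtain ⟨x, hx, hmin⟩ := WellFounded.has_min (measure kd).wf O hOne
    exact ⟨x, hx, fun z hz => not_lt.1 (hmin z hz)⟩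
  set m := kd x with hm
  have hmin : ∀ z ∈ Sm X, S.Q z ≠ 0 →
      m ≤ finrank ℝ (LinearMap.ker (N2 z : X →ₗ[ℝ] X →L[ℝ] ℝ)) :=
    fun z hz hQ => hxmin z ⟨hz, hQ⟩
  have hUo := isOpen_maxrank R m hmin
  set b : X → Y := fun z => S.T1 z (β z) with hb
  have hbQ : ∀ z ∈ Sm X, ∀ u v, S.Q z u v = N2 z u v • b z := fun z hz => (hβ z hz).2.1
  -- the kernels have dimension at least two
  have hkd2 : ∀ z ∈ O, 2 ≤ kd z := by
    rintro z ⟨hz, hQ⟩
    have hz0 : z ≠ 0 := R.ne_zero hz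
    have hzker : z ∈ LinearMap.ker (N2 z : X →ₗ[ℝ] X →L[ℝ] ℝ) := R.N2_left hz
    by_contra hlt
    push Not at hlt
    have hrank := LinearMap.finrank_range_add_finrank_ker (N2 z : X →ₗ[ℝ] X →L[ℝ] ℝ)
    have hlt' : finrank ℝ (LinearMap.ker (N2 z : X →ₗ[ℝ] X →L[ℝ] ℝ)) < 2 := hlt
    have hr2 : 2 ≤ finrank ℝ (LinearMap.range (N2 z : X →ₗ[ℝ] X →L[ℝ] ℝ)) := by omega
    have hβker : β z ∈ LinearMap.ker (N2 z : X →ₗ[ℝ] X →L[ℝ] ℝ) := by
      have : N2 z (β z) = 0 := by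
        ext w
        exact (hβ z hz).2.2 hr2 w
      exact this
    -- `β z` is a multiple of `z`
    have hle : finrank ℝ (LinearMap.ker (N2 z : X →ₗ[ℝ] X →L[ℝ] ℝ)) ≤ 1 := by omega
    obtain ⟨c, hc⟩ : ∃ c : ℝ, c • z = β z := by
      have h1 : Submodule.span ℝ {z} ≤ LinearMap.ker (N2 z : X →ₗ[ℝ] X →L[ℝ] ℝ) := by
        rw [Submodule.span_singleton_le_iff_mem]
        exact hzker
      have h2 : finrank ℝ (Submodule.span ℝ {z}) = 1 := finrank_span_singleton hz0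
      have h3 : Submodule.span ℝ {z} = LinearMap.ker (N2 z : X →ₗ[ℝ] X →L[ℝ] ℝ) :=
        Submodule.eq_of_le_of_finrank_le h1 (by rw [h2]; exact hle)
      rw [← h3] at hβker
      exact Submodule.mem_span_singleton.1 hβker
    have h4 := (hβ z hz).1
    rw [← hc, _root_.map_smul, N1_self hz, smul_eq_mul] at h4
    have hc0 : c = 0 := (mul_eq_zero.1 h4).resolve_right (norm_ne_zero_iff.2 hz0)
    rw [hc0, zero_smul] at hc
    apply hQ
    ext u v
    rw [(hβ z hz).2.1, ← hc, _root_.map_zero, smul_zero]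
    rfl
  have hxS : x ∈ Sm X := hxO.1
  have hN2x : N2 x ≠ 0 := by
    intro h0
    apply hxO.2
    ext u v
    rw [hbQ x hxS, h0]
    simp
  obtain ⟨v, hv⟩ : ∃ v, N2 x v ≠ 0 := by
    by_contra hcon
    push Not at hcon
    exact hN2x (ContinuousLinearMap.ext hcon)
  -- exit points
  have hex : ∀ᶠ t in 𝓝 (0 : ℝ), ∃ p : X, p ∉ Sm X ∧ ‖p‖ = 1 ∧ S.T1 p = S.T1 (x + t • v) := by
    have hc : Tendsto (fun t : ℝ => x + t • v) (𝓝 0) (𝓝 x) := by
      have : Continuous fun t : ℝ => x + t • v := by fun_prop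
      have h3 := this.tendsto 0
      simpa using h3
    filter_upwards [hc.eventually (hUo.mem_nhds ⟨hxO.1, hxO.2, rfl⟩)] with t ht
    set y := x + t • v with hy
    have hyS : y ∈ Sm X := ht.1
    -- a kernel direction tangent to the sphere
    obtain ⟨w, hw0, hw1, hw2⟩ : ∃ w : X, w ≠ 0 ∧ N2 y w = 0 ∧ N1 y w = 0 := by
      have h2 : 2 ≤ finrank ℝ (LinearMap.ker (N2 y : X →ₗ[ℝ] X →L[ℝ] ℝ)) :=
        hkd2 y ⟨ht.1, ht.2.1⟩
      set f : LinearMap.ker (N2 y : X →ₗ[ℝ] X →L[ℝ] ℝ) →ₗ[ℝ] ℝ :=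
        (N1 y : X →ₗ[ℝ] ℝ).domRestrict _ with hf
      have h3 : LinearMap.ker f ≠ ⊥ := by
        apply LinearMap.ker_ne_bot_of_finrank_lt
        rw [finrank_self]
        omega
      obtain ⟨w, hw, hw0⟩ := Submodule.exists_mem_ne_zero_of_ne_bot h3
      refine ⟨(w : X), fun h => hw0 (Subtype.ext h), w.2, ?_⟩
      exact hw
    obtain ⟨τ, _, hτS, hτn, hτT⟩ := exit R b hbQ m hmin hUo hyS ht.2.1 ht.2.2 hw0 hw1 hw2
    have hy0 : y ≠ 0 := R.ne_zero hyS
    have hyn : 0 < ‖y‖ := norm_pos_iff.2 hy0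
    refine ⟨‖y‖⁻¹ • (y + τ • w), ?_, ?_, ?_⟩
    · intro hS
      apply hτS
      have h1 : DifferentiableAt ℝ (fun v : X => ‖v‖) (‖y‖⁻¹ • (y + τ • w)) := hS
      have h2 : DifferentiableAt ℝ (fun v : X => ‖v‖) (‖y‖ • (‖y‖⁻¹ • (y + τ • w))) := by
        have := (differentiableAt_norm_smul hyn.ne').1 h1
        exact this
      rw [smul_smul, mul_inv_cancel₀ hyn.ne', one_smul] at h2
      exact h2
    · rw [norm_smul, norm_inv, norm_norm, hτn, inv_mul_cancel₀ hyn.ne']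
    · rw [S.T1_smul (inv_ne_zero hyn.ne'), hτT]
  obtain ⟨p, hp⟩ := hex.choice
  -- a limit point
  let l : Ultrafilter ℝ := Ultrafilter.of (𝓝[≠] (0 : ℝ))
  have hl : (l : Filter ℝ) ≤ 𝓝[≠] 0 := Ultrafilter.of_le _
  have hpl : ∀ᶠ t in (l : Filter ℝ), p t ∉ Sm X ∧ ‖p t‖ = 1 ∧ S.T1 (p t) = S.T1 (x + t • v) :=
    hp.filter_mono (hl.trans nhdsWithin_le_nhds)
  obtain ⟨a, ha, hpa⟩ : ∃ a ∈ sphere (0 : X) 1, Tendsto p l (𝓝 a) := by
    have hcomp : IsCompact (sphere (0 : X) 1) := isCompact_sphere _ _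
    have h1 : ((l.map p : Ultrafilter X) : Filter X) ≤ 𝓟 (sphere (0 : X) 1) := by
      rw [le_principal_iff]
      show ∀ᶠ t in (l : Filter ℝ), p t ∈ sphere (0 : X) 1
      filter_upwards [hpl] with t ht
      rw [mem_sphere_zero_iff_norm]
      exact ht.2.1
    obtain ⟨a, ha, h2⟩ := hcomp.ultrafilter_le_nhds _ h1
    exact ⟨a, ha, h2⟩
  have ha1 : ‖a‖ = 1 := mem_sphere_zero_iff_norm.1 ha
  have haS : a ∉ Sm X := by
    have hcl : IsClosed (Sm X)ᶜ := R.hO.isClosed_compl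
    exact hcl.mem_of_tendsto hpa (hpl.mono fun t ht => ht.1)
  have hTa : S.T1 a = S.T1 x := by
    have h1 : Tendsto (fun t => S.T1 (p t)) l (𝓝 (S.T1 a)) :=
      (S.T1_continuousAt (ne_zero_of_unit ha1)).tendsto.comp hpa
    have h2 : Tendsto (fun t : ℝ => S.T1 (x + t • v)) (𝓝 0) (𝓝 (S.T1 x)) := by
      have hc : Tendsto (fun t : ℝ => x + t • v) (𝓝 0) (𝓝 x) := by
        have : Continuous fun t : ℝ => x + t • v := by fun_prop
        have h3 := this.tendsto 0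
        simpa using h3
      exact (S.T1_continuousAt (R.ne_zero hxS)).tendsto.comp hc
    have h3 : Tendsto (fun t => S.T1 (p t)) l (𝓝 (S.T1 x)) := by
      refine (h2.mono_left (hl.trans nhdsWithin_le_nhds)).congr' ?_
      filter_upwards [hpl] with t ht
      exact ht.2.2.symm
    exact tendsto_nhds_unique h1 h3
  have hβ0 : β x = 0 := limit R hxS ha1 haS hTa (fun u => (hβ x hxS).2.1 v u) hv l hl p hpa hpl
  apply hxO.2
  ext u w
  rw [(hβ x hxS).2.1, hβ0, _root_.map_zero, smul_zero]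
  rfl

end Vale.Agent.P084
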