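import Vale.Agent.P084.Pos
import Vale.Agent.P084.Chart

open Metric Set Filter Topology MeasureTheory Module Asymptotics

namespace Vale.Agent.P084

variable {X Y : Type*} [NormedAddCommGroup X] [NormedSpace ℝ X]
    [NormedAddCommGroup Y] [NormedSpace ℝ Y]

/-- first order behaviour of an isometry along the sphere, tested against derivatives of norms.
Here `S'` is a second map with `‖F x + F' y‖ = ‖x + y‖`. -/
theorem pair_test [FiniteDimensional ℝ X] [FiniteDimensional ℝ Y]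
    (S S' : PosMap X Y) (hadd : ∀ x y, ‖x‖ = ‖y‖ → ‖S.F x + S'.F y‖ = ‖x + y‖)
    {x₀ z : X} (hz : z ≠ 0)
    (hd : DifferentiableAt ℝ (fun v : X => ‖v‖) (P x₀ z))
    (hd' : DifferentiableAt ℝ (fun v : Y => ‖v‖) (P (S.F x₀) (S'.F z))) :
    (fun p : X × X => N1 (P (S.F x₀) (S'.F z)) (S.F p.1 - S.F p.2) - N1 (P x₀ z) (p.1 - p.2))
      =o[𝓝[sphere (0 : X) 1 ×ˢ sphere (0 : X) 1] (x₀, x₀)] (fun p : X × X => p.1 - p.2) := by
  have hzn : ‖z‖ ≠ 0 := norm_ne_zero_iff.mpr hz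
  have h1 : HasStrictFDerivAt (fun x : X => ‖‖z‖ • x + z‖) (‖z‖ • N1 (P x₀ z)) x₀ := by
    have e : HasStrictFDerivAt (fun x : X => ‖z‖ • x + z) (‖z‖ • ContinuousLinearMap.id ℝ X) x₀ :=
      ((hasStrictFDerivAt_id x₀).const_smul ‖z‖).add_const z
    have h : HasStrictFDerivAt (fun v : X => ‖v‖) (N1 (P x₀ z)) (‖z‖ • x₀ + z) :=
      hasStrictFDerivAt_norm' hd
    have := h.comp x₀ e
    refine this.congr_fderiv ?_
    ext v
    simp
  have h2 : HasStrictFDerivAt (fun w : Y => ‖‖z‖ • w + S'.F z‖)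
      (‖z‖ • N1 (P (S.F x₀) (S'.F z))) (S.F x₀) := by
    have e : HasStrictFDerivAt (fun w : Y => ‖z‖ • w + S'.F z) (‖z‖ • ContinuousLinearMap.id ℝ Y)
        (S.F x₀) := ((hasStrictFDerivAt_id (S.F x₀)).const_smul ‖z‖).add_const (S'.F z)
    have h : HasStrictFDerivAt (fun v : Y => ‖v‖) (N1 (P (S.F x₀) (S'.F z)))
        (‖z‖ • S.F x₀ + S'.F z) := by
      have := hasStrictFDerivAt_norm' hd'
      have e2 : P (S.F x₀) (S'.F z) = ‖z‖ • S.F x₀ + S'.F z := by unfold P; rw [S'.norm_map]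
      rw [← e2]; exact this
    have := h.comp (S.F x₀) e
    refine this.congr_fderiv ?_
    ext v
    simp
  set l := 𝓝[sphere (0 : X) 1 ×ˢ sphere (0 : X) 1] (x₀, x₀) with hl
  have hle : l ≤ 𝓝 (x₀, x₀) := nhdsWithin_le_nhds
  have h1' := (hasStrictFDerivAt_iff_isLittleO.mp h1).mono hle
  have htend : Tendsto (fun p : X × X => (S.F p.1, S.F p.2)) l (𝓝 (S.F x₀, S.F x₀)) := by
    have : Continuous (fun p : X × X => (S.F p.1, S.F p.2)) :=
      (S.continuous.comp continuous_fst).prodMk (S.continuous.comp continuous_snd)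
    exact (this.tendsto (x₀, x₀)).mono_left hle
  have h2' := (hasStrictFDerivAt_iff_isLittleO.mp h2).comp_tendsto htend
  have hbig : (fun p : X × X => S.F p.1 - S.F p.2) =O[l] (fun p : X × X => p.1 - p.2) := by
    apply IsBigO.of_bound 3
    filter_upwards with p
    have := S.lipschitz.dist_le_mul p.1 p.2
    rw [dist_eq_norm, dist_eq_norm] at this
    exact_mod_cast this
  have h2'' := h2'.trans_isBigO hbig
  have h3 := h1'.sub h2''
  have h4 := h3.const_mul_left (‖z‖⁻¹)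
  refine h4.congr' ?_ EventuallyEq.rfl
  filter_upwards [self_mem_nhdsWithin] with p hp
  have hp1 : ‖p.1‖ = 1 := mem_sphere_zero_iff_norm.mp hp.1
  have hp2 : ‖p.2‖ = 1 := mem_sphere_zero_iff_norm.mp hp.2
  have e1 : ∀ y : X, ‖y‖ = 1 → ‖‖z‖ • S.F y + S'.F z‖ = ‖‖z‖ • y + z‖ := by
    intro y hy
    rw [← S.map_smul _ _ (norm_nonneg z)]
    apply hadd
    rw [norm_smul, hy, mul_one, norm_norm]
  simp only [Function.comp_apply, smul_apply, smul_eq_mul]
  rw [e1 p.1 hp1, e1 p.2 hp2]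
  field_simp
  ring

/-- image of dense sets -/
theorem pair_image (S S' : PosMap X Y) {x₀ : X}
    (hW : ∀ z, S'.F z ∈ Wset (S.F x₀) ↔ z ∈ Wset x₀) {D : Set X}
    (hD : Wset x₀ ⊆ closure D) : Wset (S.F x₀) ⊆ closure (S'.F '' D) := by
  intro w hw
  have h1 : S'.G w ∈ Wset x₀ := by
    rw [← hW, S'.right_inv]; exact hw
  have h2 : S'.F (S'.G w) ∈ closure (S'.F '' D) :=
    image_closure_subset_closure_image S'.continuous ⟨_, hD h1, rfl⟩
  rwa [S'.right_inv] at h2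

/-- a chart made of derivatives of norms at `P (F x₀) (F' z)`, `z` in a dense set -/
theorem pair_chart [FiniteDimensional ℝ Y]
    (S S' : PosMap X Y) {x₀ : X} (hx₀ : ‖x₀‖ = 1)
    (hW : ∀ z, S'.F z ∈ Wset (S.F x₀) ↔ z ∈ Wset x₀) (D : Set X) (hD : Wset x₀ ⊆ closure D)
    (hT : ∀ z ∈ D, DifferentiableAt ℝ (fun v : Y => ‖v‖) (P (S.F x₀) (S'.F z))) :
    ∃ (n : ℕ) (z : Fin n → X), (∀ i, z i ∈ D) ∧
      ∃ M : Y ≃L[ℝ] (Fin n → ℝ), ∀ w i, M w i = N1 (P (S.F x₀) (S'.F (z i))) w := by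
  obtain ⟨n, p, hp, M, hM⟩ := exists_chart
    {φ : Y →L[ℝ] ℝ | ∃ z ∈ D, φ = N1 (P (S.F x₀) (S'.F z))} (by
      intro w hw
      have ha : ‖S.F x₀‖ = 1 := by rw [S.norm_map, hx₀]
      refine separating' ha (S'.F '' D) (pair_image S S' hW hD) ?_ ?_
      · rintro _ ⟨z, hz, rfl⟩
        exact hT z hz
      · rintro _ ⟨z, hz, rfl⟩
        exact hw _ ⟨z, hz, rfl⟩)
  choose z hzD hz using hp
  exact ⟨n, z, hzD, M, fun w i => by rw [hM, hz]⟩

/-- the isometry is strictly differentiable along the sphere -/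
theorem pair_deriv [FiniteDimensional ℝ Y] [FiniteDimensional ℝ X]
    (S S' : PosMap X Y) (hadd : ∀ x y, ‖x‖ = ‖y‖ → ‖S.F x + S'.F y‖ = ‖x + y‖)
    {x₀ : X} (hx₀ : ‖x₀‖ = 1) (hW : ∀ z, S'.F z ∈ Wset (S.F x₀) ↔ z ∈ Wset x₀)
    (D : Set X) (hDW : D ⊆ Wset x₀) (hD : Wset x₀ ⊆ closure D)
    (hT : ∀ z ∈ D, DifferentiableAt ℝ (fun v : X => ‖v‖) (P x₀ z) ∧
      DifferentiableAt ℝ (fun v : Y => ‖v‖) (P (S.F x₀) (S'.F z))) :
    ∃ T : X →L[ℝ] Y, (fun p : X × X => S.F p.1 - S.F p.2 - T (p.1 - p.2))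
      =o[𝓝[sphere (0 : X) 1 ×ˢ sphere (0 : X) 1] (x₀, x₀)] (fun p : X × X => p.1 - p.2) ∧
      ((¬ DifferentiableAt ℝ (fun v : X => ‖v‖) x₀) → ∀ z ∈ D, ∀ v,
        N1 (P (S.F x₀) (S'.F z)) (T v) = N1 (P x₀ z) v) := by
  obtain ⟨n, z, hz, M, hM⟩ := pair_chart S S' hx₀ hW D hD (fun z hz => (hT z hz).2)
  let L : X →L[ℝ] (Fin n → ℝ) := ContinuousLinearMap.pi fun i => N1 (P x₀ (z i))
  set l := 𝓝[sphere (0 : X) 1 ×ˢ sphere (0 : X) 1] (x₀, x₀) with hl
  have key : (fun p : X × X => S.F p.1 - S.F p.2 - ((M.symm : (Fin n → ℝ) →L[ℝ] Y).comp L)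
      (p.1 - p.2)) =o[l] (fun p : X × X => p.1 - p.2) := by
    have h1 : (fun p : X × X => M (S.F p.1 - S.F p.2 -
        ((M.symm : (Fin n → ℝ) →L[ℝ] Y).comp L) (p.1 - p.2))) =o[l]
        (fun p : X × X => p.1 - p.2) := by
      rw [isLittleO_pi]
      intro i
      have h := pair_test S S' hadd (x₀ := x₀) (Wset_ne_zero (hDW (hz i))) (hT _ (hz i)).1
        (hT _ (hz i)).2
      refine h.congr' ?_ EventuallyEq.rfl
      filter_upwards with p
      rw [_root_.map_sub M]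
      simp [hM, L]
    have h2 : (fun p : X × X => S.F p.1 - S.F p.2 - ((M.symm : (Fin n → ℝ) →L[ℝ] Y).comp L)
        (p.1 - p.2)) =O[l] (fun p : X × X => M (S.F p.1 - S.F p.2 -
        ((M.symm : (Fin n → ℝ) →L[ℝ] Y).comp L) (p.1 - p.2))) := by
      have := (M.symm : (Fin n → ℝ) →L[ℝ] Y).isBigO_comp
        (fun p : X × X => M (S.F p.1 - S.F p.2 -
        ((M.symm : (Fin n → ℝ) →L[ℝ] Y).comp L) (p.1 - p.2))) l
      simpa using this
    exact h2.trans_isLittleO h1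
  refine ⟨(M.symm : (Fin n → ℝ) →L[ℝ] Y).comp L, key, ?_⟩
  intro hns z hz v
  by_contra hv
  apply hns
  set T := (M.symm : (Fin n → ℝ) →L[ℝ] Y).comp L with hTdef
  set g : X →L[ℝ] ℝ := (N1 (P (S.F x₀) (S'.F z))).comp T - N1 (P x₀ z) with hg
  refine differentiableAt_of_isLittleO hx₀ g ?_ ?_
  · intro h
    apply hv
    have := congrArg (fun φ : X →L[ℝ] ℝ => φ v) h
    simp only [hg] at this
    simpa [sub_eq_zero] using this
  · have h := pair_test S S' hadd (x₀ := x₀) (Wset_ne_zero (hDW hz)) (hT _ hz).1 (hT _ hz).2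
    have h2 : (fun p : X × X => N1 (P (S.F x₀) (S'.F z)) (S.F p.1 - S.F p.2 - T (p.1 - p.2)))
        =o[l] (fun p : X × X => p.1 - p.2) :=
      ((N1 (P (S.F x₀) (S'.F z))).isBigO_comp _ _).trans_isLittleO key
    have h3 := h.sub h2
    have htend : Tendsto (fun x : X => (x, x₀)) (𝓝[sphere (0 : X) 1] x₀) l := by
      rw [hl, tendsto_nhdsWithin_iff]
      constructor
      · have : Continuous (fun x : X => (x, x₀)) := by fun_prop
        exact (this.tendsto x₀).mono_left nhdsWithin_le_nhds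
      · filter_upwards [self_mem_nhdsWithin] with x hx
        exact ⟨hx, by rw [mem_sphere_zero_iff_norm]; exact hx₀⟩
    have h4 := h3.comp_tendsto htend
    refine h4.congr' ?_ EventuallyEq.rfl
    filter_upwards with x
    simp only [Function.comp_apply, hg, _root_.map_sub, sub_apply,
      ContinuousLinearMap.comp_apply]
    ring

/-- specialisation of the filter in `pair_deriv` to the second point being `x₀` -/
theorem withinDeriv_of_pair {T : X →L[ℝ] Y} {F : X → Y} {x₀ : X} (hx₀ : ‖x₀‖ = 1)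
    (h : (fun p : X × X => F p.1 - F p.2 - T (p.1 - p.2))
      =o[𝓝[sphere (0 : X) 1 ×ˢ sphere (0 : X) 1] (x₀, x₀)] (fun p : X × X => p.1 - p.2)) :
    (fun x => F x - F x₀ - T (x - x₀)) =o[𝓝[sphere (0 : X) 1] x₀] (fun x => x - x₀) := by
  have htend : Tendsto (fun x : X => (x, x₀)) (𝓝[sphere (0 : X) 1] x₀)
      (𝓝[sphere (0 : X) 1 ×ˢ sphere (0 : X) 1] (x₀, x₀)) := by
    rw [tendsto_nhdsWithin_iff]
    constructor
    · have : Continuous (fun x : X => (x, x₀)) := by fun_prop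
      exact (this.tendsto x₀).mono_left nhdsWithin_le_nhds
    · filter_upwards [self_mem_nhdsWithin] with x hx
      exact ⟨hx, by rw [mem_sphere_zero_iff_norm]; exact hx₀⟩
  exact h.comp_tendsto htend

/-- the map `x ↦ -F(-x)` -/
def PosMap.neg (S : PosMap X Y) : PosMap X Y where
  F := fun x => -S.F (-x)
  G := fun y => -S.G (-y)
  left_inv := by intro x; rw [neg_neg, S.left_inv, neg_neg]
  right_inv := by intro y; rw [neg_neg, S.right_inv, neg_neg]
  map_smul := by intro t x ht; rw [← smul_neg, S.map_smul _ _ ht, smul_neg]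
  norm_map := by intro x; rw [norm_neg, S.norm_map, norm_neg]
  norm_sub := by
    intro x y h
    have e : -S.F (-x) - -S.F (-y) = -(S.F (-x) - S.F (-y)) := by abel
    rw [e, norm_neg, S.norm_sub _ _ (by rw [norm_neg, norm_neg, h])]
    have e : -x - -y = -(x - y) := by abel
    rw [e, norm_neg]

theorem PosMap.neg_add (S : PosMap X Y) (x y : X) (h : ‖x‖ = ‖y‖) :
    ‖S.F x + S.neg.F y‖ = ‖x + y‖ := by
  have h1 : S.F x + S.neg.F y = S.F x - S.F (-y) := by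
    show S.F x + -S.F (-y) = _
    abel
  rw [h1, S.norm_sub _ _ (by rw [norm_neg, h]), sub_neg_eq_add]

/-- the domain of good test points has null complement -/
theorem good_dense [FiniteDimensional ℝ X] [FiniteDimensional ℝ Y] (S S' : PosMap X Y)
    {x₀ : X} (hx₀ : ‖x₀‖ = 1) (hW : ∀ z, S'.F z ∈ Wset (S.F x₀) ↔ z ∈ Wset x₀) :
    Wset x₀ ⊆ closure {z | z ∈ Wset x₀ ∧ DifferentiableAt ℝ (fun v : X => ‖v‖) (P x₀ z) ∧
      DifferentiableAt ℝ (fun v : Y => ‖v‖) (P (S.F x₀) (S'.F z))} := by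
  let _ : MeasurableSpace X := borel X
  have : BorelSpace X := ⟨rfl⟩
  let _ : MeasurableSpace Y := borel Y
  have : BorelSpace Y := ⟨rfl⟩
  have h1 := P_preimage_null' hx₀ (nonsmooth_null (X := X))
  have h2 := P_preimage_null' (a := S.F x₀) (by rw [S.norm_map, hx₀]) (nonsmooth_null (X := Y))
  have h3 : μH[(finrank ℝ X : ℝ)] (S'.F ⁻¹' {z : Y | z ∈ Wset (S.F x₀) ∧
      P (S.F x₀) z ∈ {z : Y | ¬ DifferentiableAt ℝ (fun v : Y => ‖v‖) z}}) = 0 := by
    have h4 := S'.symm.lipschitz.hausdorffMeasure_image_le (d := (finrank ℝ Y : ℝ)) (by positivity)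
      {z : Y | z ∈ Wset (S.F x₀) ∧
      P (S.F x₀) z ∈ {z : Y | ¬ DifferentiableAt ℝ (fun v : Y => ‖v‖) z}}
    rw [h2, mul_zero] at h4
    rw [S'.finrank_eq]
    refine measure_mono_null ?_ (le_antisymm h4 zero_le)
    intro z hz
    exact ⟨S'.F z, hz, S'.left_inv z⟩
  have h5 := open_subset_closure_diff (isOpen_Wset x₀) (measure_union_null h1 h3)
  refine h5.trans (closure_mono ?_)
  rintro z ⟨hz1, hz2⟩
  simp only [mem_union, not_or] at hz2
  refine ⟨hz1, ?_, ?_⟩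
  · by_contra h
    exact hz2.1 ⟨hz1, h⟩
  · by_contra h
    exact hz2.2 ⟨(hW z).mpr hz1, h⟩

/-- An isometry of spheres is differentiable along the sphere at each point. -/
theorem PosMap.exists_withinDeriv_aux [FiniteDimensional ℝ X] (S : PosMap X Y)
    (h2 : ∀ x y : X, ‖x‖ = 1 → ‖y‖ = 1 → ‖x + y‖ = 2 → ‖S.F x + S.F y‖ = 2)
    (h2' : ∀ x y : Y, ‖x‖ = 1 → ‖y‖ = 1 → ‖x + y‖ = 2 → ‖S.G x + S.G y‖ = 2) {x₀ : X}
    (hx₀ : ‖x₀‖ = 1) :
    ∃ T : X →L[ℝ] Y, (fun x => S.F x - S.F x₀ - T (x - x₀))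
      =o[𝓝[sphere (0 : X) 1] x₀] (fun x => x - x₀) := by
  have : FiniteDimensional ℝ Y := S.finiteDimensional
  have key : ∀ z : X, ‖z‖ = 1 → (‖-z + x₀‖ = 2 ↔ ‖S.F (-z) + S.F x₀‖ = 2) := by
    intro z hz
    constructor
    · exact h2 _ _ (by rwa [norm_neg]) hx₀
    · intro h
      have := h2' (S.F (-z)) (S.F x₀) (by rw [S.norm_map, norm_neg, hz]) (by rw [S.norm_map, hx₀]) h
      rwa [S.left_inv, S.left_inv] at this
  have hunit : ∀ z : X, ‖z‖ = 1 → (S.neg.F z ∈ Wset (S.F x₀) ↔ z ∈ Wset x₀) := by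
    intro z hz
    rw [mem_Wset_iff', mem_Wset_iff', S.neg.norm_map, S.norm_map, hx₀, hz]
    have e1 : ‖S.neg.F z - S.F x₀‖ = ‖S.F (-z) + S.F x₀‖ := by
      have : S.neg.F z - S.F x₀ = -(S.F (-z) + S.F x₀) := by
        show -S.F (-z) - S.F x₀ = _
        abel
      rw [this, norm_neg]
    have e2 : ‖z - x₀‖ = ‖-z + x₀‖ := by
      have : z - x₀ = -(-z + x₀) := by abel
      rw [this, norm_neg]
    have h3 := key z hz
    rw [e1, e2]
    norm_num
    rw [not_iff_not]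
    exact h3.symm
  have hW : ∀ z : X, (S.neg.F z ∈ Wset (S.F x₀) ↔ z ∈ Wset x₀) := by
    intro z
    by_cases hz0 : z = 0
    · subst hz0
      rw [S.neg.map_zero]
      exact ⟨fun h => absurd rfl (Wset_ne_zero h), fun h => absurd rfl (Wset_ne_zero h)⟩
    have hz : 0 < ‖z‖ := norm_pos_iff.mpr hz0
    have h2 : ‖‖z‖⁻¹ • z‖ = 1 := by rw [norm_smul, norm_inv, norm_norm, inv_mul_cancel₀ hz.ne']
    have h3 := hunit _ h2
    have e : ‖z‖ • ‖z‖⁻¹ • z = z := by rw [smul_smul, mul_inv_cancel₀ hz.ne', one_smul]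
    constructor
    · intro h
      have h4 := Wset_smul (inv_pos.mpr hz) h
      rw [← S.neg.map_smul _ _ (inv_pos.mpr hz).le] at h4
      have h5 := Wset_smul hz (h3.mp h4)
      rwa [e] at h5
    · intro h
      have h4 := Wset_smul (inv_pos.mpr hz) h
      have h5 := Wset_smul hz (h3.mpr h4)
      rwa [← S.neg.map_smul _ _ hz.le, e] at h5
  obtain ⟨T, hT, -⟩ := pair_deriv S S.neg S.neg_add hx₀ hW _ (fun z hz => hz.1)
    (good_dense S S.neg hx₀ hW) (fun z hz => hz.2)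
  exact ⟨T, withinDeriv_of_pair hx₀ hT⟩

end Vale.Agent.P084
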