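import Vale.Agent.P084.OddCore
import Vale.Agent.P084.Affine
import Vale.Agent.P084.Pair

open Metric Set Filter Topology MeasureTheory Module Asymptotics

namespace Vale.Agent.P084

variable {X Y : Type*} [NormedAddCommGroup X] [NormedSpace ℝ X]
    [NormedAddCommGroup Y] [NormedSpace ℝ Y]

theorem PosMap.exists_withinDeriv [FiniteDimensional ℝ X] (S : PosMap X Y) {x₀ : X}
    (hx₀ : ‖x₀‖ = 1) :
    ∃ T : X →L[ℝ] Y, (fun x => S.F x - S.F x₀ - T (x - x₀))
      =o[𝓝[sphere (0 : X) 1] x₀] (fun x => x - x₀) := by
  have : FiniteDimensional ℝ Y := S.finiteDimensional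
  exact S.exists_withinDeriv_aux (fun x y hx hy h => S.norm_add_two hx hy h)
    (fun x y hx hy h => S.symm.norm_add_two hx hy h) hx₀

/-- the positively homogeneous extension of an isometry of spheres is odd -/
theorem PosMap.odd [FiniteDimensional ℝ X] (S : PosMap X Y) (x : X) : S.F (-x) = -S.F x := by
  have : FiniteDimensional ℝ Y := S.finiteDimensional
  exact S.odd_of (fun y hy => S.exists_invariant_face hy) (fun x hx => S.exists_withinDeriv hx)
    (fun x hx => S.symm.exists_withinDeriv hx) x

/-- A surjective isometry of unit spheres of finite-dimensional spaces comes from a `SphMap`. -/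
theorem exists_sphMap_of_finiteDimensional [FiniteDimensional ℝ X]
    (f : sphere (0 : X) 1 → sphere (0 : Y) 1) (hf : Isometry f) (hs : Function.Surjective f) :
    ∃ S : SphMap X Y, ∀ x : sphere (0 : X) 1, S.F x = f x := by
  obtain ⟨S, hS⟩ := exists_posMap f hf hs
  exact ⟨S.toSphMap (fun x => S.odd x), hS⟩

end Vale.Agent.P084
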