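import Vale.Agent.P084.RegLocal
import Vale.Agent.P084.CalcLocal
import Vale.Agent.P084.Leaf
import Vale.Agent.P084.ConstAE
import Vale.Agent.P084.Odd

open Metric Set Filter Topology MeasureTheory Module Asymptotics

namespace Vale.Agent.P084

variable {X Y : Type*} [NormedAddCommGroup X] [NormedSpace ℝ X]
    [NormedAddCommGroup Y] [NormedSpace ℝ Y] [FiniteDimensional ℝ X] [FiniteDimensional ℝ Y]

/-- pointwise Lipschitz property of the derivative at a nonsmooth unit vector, along the sphere -/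
theorem SphMap.LReg.lip_unit {S : SphMap X Y} (R : S.LReg) {x₀ : X} (hx₀ : ‖x₀‖ = 1)
    (hns : x₀ ∉ Sm X) :
    ∃ C : ℝ, 0 ≤ C ∧ ∀ᶠ x in 𝓝 x₀, ‖x‖ = 1 → ‖S.T1 x - S.T1 x₀‖ ≤ C * ‖x - x₀‖ := by
  have hx0 : x₀ ≠ 0 := ne_zero_of_unit hx₀
  obtain ⟨A, hA, hAT⟩ := S.exists_A' R.hO R.hO' (s := 1) hx₀ (S.good x₀) (S.good_sub x₀)
    (S.good_dense hx₀) (fun z hz => hz.2.1) (fun z hz => hz.2.2)
    (fun z hz => by
      obtain ⟨f', hf⟩ := R.hNX _ hz.2.1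
      exact Rg.of_strict hf)
    (fun z hz => by
      obtain ⟨f', hf⟩ := R.hNY _ hz.2.2
      exact Rg.of_strict hf)
  have hA : DifferentiableAt ℝ A x₀ := hA
  have hA0 : A x₀ = S.T1 x₀ := by
    ext u
    exact hAT.self_of_nhds hx₀ u (fun h => absurd h hns)
  obtain ⟨C₁, hC₁⟩ := hA.hasFDerivAt.isBigO_sub.bound
  have hM : ∀ᶠ x in 𝓝 x₀, ‖A x‖ < ‖A x₀‖ + 1 :=
    hA.continuousAt.norm.eventually (gt_mem_nhds (by linarith))
  refine ⟨|C₁| + (3 + |C₁| + (‖A x₀‖ + 1)), by positivity, ?_⟩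
  filter_upwards [hC₁, hM, hAT] with x h1 h2 h3 hx
  have hd : 0 ≤ ‖x - x₀‖ := norm_nonneg _
  have h1' : ‖A x - A x₀‖ ≤ |C₁| * ‖x - x₀‖ :=
    h1.trans (mul_le_mul_of_nonneg_right (le_abs_self _) hd)
  have h4 : ‖S.T1 x - A x‖ ≤ (3 + |C₁| + (‖A x₀‖ + 1)) * ‖x - x₀‖ := by
    by_cases hxs : x ∈ Sm X
    · refine ContinuousLinearMap.opNorm_le_bound _ (by positivity) fun u => ?_
      have hNx : N1 x x = 1 := by rw [N1_self hxs, hx]
      have hx00 : x ≠ 0 := ne_zero_of_unit hx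
      have e1 : (S.T1 x - A x) u = N1 x u • (S.F x - A x x) := by
        have e2 : N1 x (u - N1 x u • x) = 0 := by
          rw [_root_.map_sub, _root_.map_smul, hNx]; simp
        have e3 := h3 hx (u - N1 x u • x) (fun _ => e2)
        rw [_root_.map_sub, _root_.map_sub, _root_.map_smul, _root_.map_smul,
          S.T1_self' hx00] at e3
        rw [sub_apply, smul_sub]
        have e4 : A x u = S.T1 x u - N1 x u • S.F x + N1 x u • A x x := by
          rw [← e3]; abel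
        rw [e4]; abel
      rw [e1, norm_smul, Real.norm_eq_abs]
      have e5 : |N1 x u| ≤ ‖u‖ := by
        have a1 := N1_apply_le x u
        have a2 := N1_apply_le x (-u)
        rw [_root_.map_neg, norm_neg] at a2
        exact abs_le.mpr ⟨by linarith, a1⟩
      have e6 : ‖S.F x - A x x‖ ≤ (3 + |C₁| + (‖A x₀‖ + 1)) * ‖x - x₀‖ := by
        have e7 : S.F x - A x x = (S.F x - S.F x₀) - (A x - A x₀) x₀ - A x (x - x₀) := by
          rw [sub_apply, _root_.map_sub, hA0, S.T1_self' hx0]; abel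
        have e8 : ‖S.F x - S.F x₀‖ ≤ 3 * ‖x - x₀‖ := S.lipschitz.norm_sub_le x x₀
        have e9 : ‖(A x - A x₀) x₀‖ ≤ |C₁| * ‖x - x₀‖ := by
          refine ((A x - A x₀).le_opNorm x₀).trans ?_
          rw [hx₀, mul_one]; exact h1'
        have e10 : ‖A x (x - x₀)‖ ≤ (‖A x₀‖ + 1) * ‖x - x₀‖ :=
          ((A x).le_opNorm _).trans (mul_le_mul_of_nonneg_right h2.le hd)
        rw [e7]
        refine (norm_sub_le _ _).trans ?_
        have e11 := norm_sub_le (S.F x - S.F x₀) ((A x - A x₀) x₀)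
        linarith
      calc |N1 x u| * ‖S.F x - A x x‖ ≤ ‖u‖ * ((3 + |C₁| + (‖A x₀‖ + 1)) * ‖x - x₀‖) := by
            gcongr
        _ = _ := by ring
    · have : S.T1 x = A x := by
        ext u
        exact (h3 hx u (fun h => absurd h hxs)).symm
      rw [this, sub_self, norm_zero]
      positivity
  have e : S.T1 x - S.T1 x₀ = (S.T1 x - A x) + (A x - A x₀) := by rw [hA0]; abel
  rw [e]
  refine (norm_add_le _ _).trans ?_
  linarith

theorem norm_normalize_sub {x y : X} (hx : x ≠ 0) (hy : y ≠ 0) :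
    ‖‖y‖⁻¹ • y - ‖x‖⁻¹ • x‖ ≤ 2 * ‖x‖⁻¹ * ‖y - x‖ := by
  have hx' : 0 < ‖x‖ := norm_pos_iff.mpr hx
  have hy' : 0 < ‖y‖ := norm_pos_iff.mpr hy
  have e1 : ‖y‖⁻¹ • y - ‖x‖⁻¹ • x = ‖x‖⁻¹ • ((y - x) + (‖x‖ - ‖y‖) • (‖y‖⁻¹ • y)) := by
    have e2 : (‖x‖ - ‖y‖) • (‖y‖⁻¹ • y) = (‖x‖ * ‖y‖⁻¹) • y - y := by
      rw [smul_smul, sub_mul, mul_inv_cancel₀ hy'.ne', sub_smul, one_smul]
    rw [e2]
    have e3 : y - x + ((‖x‖ * ‖y‖⁻¹) • y - y) = (‖x‖ * ‖y‖⁻¹) • y - x := by abel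
    rw [e3, smul_sub, smul_smul, ← mul_assoc, inv_mul_cancel₀ hx'.ne', one_mul]
  rw [e1, norm_smul, norm_inv, norm_norm]
  have e2 : ‖(y - x) + (‖x‖ - ‖y‖) • (‖y‖⁻¹ • y)‖ ≤ 2 * ‖y - x‖ := by
    refine (norm_add_le _ _).trans ?_
    rw [norm_smul, unit_of_ne hy, mul_one, Real.norm_eq_abs]
    have := abs_norm_sub_norm_le x y
    rw [norm_sub_rev x y] at this
    linarith
  calc ‖x‖⁻¹ * ‖(y - x) + (‖x‖ - ‖y‖) • (‖y‖⁻¹ • y)‖ ≤ ‖x‖⁻¹ * (2 * ‖y - x‖) := by gcongr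
    _ = _ := by ring

theorem SphMap.LReg.lip {S : SphMap X Y} (R : S.LReg) {x : X} (hx : x ≠ 0) :
    ∃ C : ℝ, ∀ᶠ y in 𝓝 x, ‖S.T1 y - S.T1 x‖ ≤ C * ‖y - x‖ := by
  by_cases hxs : x ∈ Sm X
  · obtain ⟨f', hf⟩ := R.hT x hxs
    exact hf.hasFDerivAt.isBigO_sub.bound
  · have hx' : 0 < ‖x‖ := norm_pos_iff.mpr hx
    have hns : ‖x‖⁻¹ • x ∉ Sm X := fun h =>
      hxs ((differentiableAt_norm_smul (inv_ne_zero hx'.ne')).mpr h)
    obtain ⟨C, hC0, hC⟩ := R.lip_unit (unit_of_ne hx) hns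
    have hc : ContinuousAt (fun z : X => ‖z‖⁻¹ • z) x :=
      (continuous_norm.continuousAt.inv₀ hx'.ne').smul continuousAt_id
    refine ⟨C * (2 * ‖x‖⁻¹), ?_⟩
    filter_upwards [hc.tendsto.eventually hC, isOpen_ne.mem_nhds hx] with y hy hy0
    have h1 := hy (unit_of_ne hy0)
    rw [S.T1_smul (inv_ne_zero (norm_ne_zero_iff.mpr hy0)), S.T1_smul (inv_ne_zero hx'.ne')] at h1
    refine h1.trans ?_
    rw [mul_assoc]
    exact mul_le_mul_of_nonneg_left (norm_normalize_sub hx hy0) hC0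

theorem SphMap.LReg.lin {S : SphMap X Y} (R : S.LReg) (hdim : 2 ≤ finrank ℝ X)
    (hQ : ∀ z ∈ Sm X, S.Q z = 0) : S.Lin := by
  have hnt : Nontrivial X := Module.nontrivial_of_finrank_pos (R := ℝ) (by omega)
  let _ : MeasurableSpace X := borel X
  have : BorelSpace X := ⟨rfl⟩
  have hae : ∀ᵐ x ∂(μH[(finrank ℝ X : ℝ)] : Measure X),
      HasFDerivAt S.T1 (0 : X →L[ℝ] (X →L[ℝ] Y)) x := by
    filter_upwards [ae_differentiableAt_norm (E := X) (μ := μH[(finrank ℝ X : ℝ)])] with x hx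
    have h1 := R.hQ (z := x) hx
    rwa [hQ x hx] at h1
  have hconst := const_of_ae (μH[(finrank ℝ X : ℝ)] : Measure X) hdim S.T1
    (fun x hx => R.lip hx) hae
  obtain ⟨x₀, hx₀⟩ := exists_ne (0 : X)
  refine ⟨S.T1 x₀, fun x => ?_⟩
  by_cases hx : x = 0
  · rw [hx, S.map_zero, _root_.map_zero]
  · rw [← hconst x x₀ hx hx₀, S.T1_self' hx]

/-- Every surjective isometry of unit spheres in finite dimension at least three is linear. -/
theorem SphMap.lin_of_three_le (S : SphMap X Y) (hdim : 3 ≤ finrank ℝ X) : S.Lin := by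
  rcases S.lin_or_lreg (by omega) with h | R
  · exact h
  · exact R.lin (by omega) (fun z hz => R.Q_zero hdim hz)

end Vale.Agent.P084
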