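import Vale.Agent.P084.TLemma
import Vale.Agent.P084.Baire

open Metric Set Filter Topology MeasureTheory Module

namespace Vale.Agent.P084

section basic

variable {Z : Type*} [NormedAddCommGroup Z] [NormedSpace ℝ Z]

/-- the points which are not aligned with `-a` -/
def Wset (a : Z) : Set Z := {z | ‖z - a‖ < ‖z‖ + ‖a‖}

/-- the open convex cone generated by the open ball of center `a` and radius `‖a‖` -/
def Ccone (a : Z) : Set Z := {w | ∃ s : ℝ, 0 < s ∧ ‖s • a - w‖ < s * ‖a‖}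

theorem isOpen_Wset (a : Z) : IsOpen (Wset a) := isOpen_lt (by fun_prop) (by fun_prop)

theorem isOpen_Ccone (a : Z) : IsOpen (Ccone a) := by
  have : Ccone a = ⋃ s : ℝ, ⋃ _ : 0 < s, {w | ‖s • a - w‖ < s * ‖a‖} := by
    ext w; simp [Ccone]
  rw [this]
  exact isOpen_iUnion fun s => isOpen_iUnion fun _ => isOpen_lt (by fun_prop) (by fun_prop)

theorem norm_add_smul_eq {x y : Z} (h : ‖x + y‖ = ‖x‖ + ‖y‖) {α β : ℝ} (hα : 0 ≤ α)
    (hβ : 0 ≤ β) : ‖α • x + β • y‖ = α * ‖x‖ + β * ‖y‖ := by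
  have key : ∀ (x y : Z), ‖x + y‖ = ‖x‖ + ‖y‖ → ∀ α β : ℝ, 0 ≤ β → β ≤ α →
      α * ‖x‖ + β * ‖y‖ ≤ ‖α • x + β • y‖ := by
    intro x y h α β hβ hαβ
    have h1 : α • (x + y) = (α • x + β • y) + (α - β) • y := by
      rw [smul_add, sub_smul]; abel
    have h2 : ‖α • (x + y)‖ = α * (‖x‖ + ‖y‖) := by
      rw [norm_smul, Real.norm_of_nonneg (hβ.trans hαβ), h]
    have h3 : ‖(α - β) • y‖ = (α - β) * ‖y‖ := by
      rw [norm_smul, Real.norm_of_nonneg (sub_nonneg.mpr hαβ)]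
    have h4 := norm_add_le (α • x + β • y) ((α - β) • y)
    rw [← h1, h2, h3] at h4
    nlinarith
  apply le_antisymm
  · refine (norm_add_le _ _).trans ?_
    rw [norm_smul, norm_smul, Real.norm_of_nonneg hα, Real.norm_of_nonneg hβ]
  · rcases le_total β α with h1 | h1
    · exact key x y h α β hβ h1
    · have := key y x (by rw [add_comm, h, add_comm]) β α hα h1
      rw [add_comm (α • x), add_comm (α * ‖x‖)]
      exact this

theorem mem_Wset_iff {a z : Z} : z ∈ Wset a ↔ ‖z - a‖ < ‖z‖ + ‖a‖ := Iff.rfl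

theorem mem_Wset_iff' {a z : Z} : z ∈ Wset a ↔ ‖z - a‖ ≠ ‖z‖ + ‖a‖ :=
  ⟨fun h => ne_of_lt h, fun h => lt_of_le_of_ne (norm_sub_le _ _) h⟩

theorem Wset_ne_zero {a z : Z} (h : z ∈ Wset a) : z ≠ 0 := by
  rintro rfl
  rw [mem_Wset_iff, zero_sub, norm_neg, norm_zero, zero_add] at h
  exact lt_irrefl _ h

theorem Wset_smul {a z : Z} {t : ℝ} (ht : 0 < t) (h : z ∈ Wset a) : t • z ∈ Wset a := by
  rw [mem_Wset_iff'] at h ⊢
  intro h1
  apply h
  have h2 : ‖t • z + -a‖ = ‖t • z‖ + ‖-a‖ := by rw [← sub_eq_add_neg, h1, norm_neg]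
  have h3 := norm_add_smul_eq h2 (inv_pos.mpr ht).le zero_le_one
  rw [smul_smul, inv_mul_cancel₀ ht.ne', one_smul, one_smul, norm_smul, Real.norm_of_nonneg ht.le,
    ← mul_assoc, inv_mul_cancel₀ ht.ne', one_mul, one_mul, norm_neg, ← sub_eq_add_neg] at h3
  exact h3

theorem self_mem_Wset {a : Z} (ha : ‖a‖ = 1) : a ∈ Wset a := by
  rw [mem_Wset_iff, sub_self, norm_zero, ha]; norm_num

theorem self_mem_Ccone {a : Z} (ha : ‖a‖ = 1) : a ∈ Ccone a :=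
  ⟨1, one_pos, by rw [one_smul, sub_self, norm_zero, ha]; norm_num⟩

theorem Ccone_mono {a w : Z} (ha : ‖a‖ = 1) {s t : ℝ} (hst : s ≤ t) {η : ℝ}
    (h : ‖s • a - w‖ ≤ s - η) : ‖t • a - w‖ ≤ t - η := by
  have h1 : t • a - w = (s • a - w) + (t - s) • a := by rw [sub_smul]; abel
  have h2 : ‖(t - s) • a‖ = t - s := by
    rw [norm_smul, ha, mul_one, Real.norm_of_nonneg (sub_nonneg.mpr hst)]
  rw [h1]
  refine (norm_add_le _ _).trans ?_
  rw [h2]; linarith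

theorem Ccone_smul {a w : Z} {t : ℝ} (ht : 0 < t) (h : w ∈ Ccone a) : t • w ∈ Ccone a := by
  obtain ⟨s, hs, h⟩ := h
  refine ⟨t * s, by positivity, ?_⟩
  rw [mul_smul, ← smul_sub, norm_smul, Real.norm_of_nonneg ht.le, mul_assoc]
  exact mul_lt_mul_of_pos_left h ht

theorem Ccone_add {a w w' : Z} (h : w ∈ Ccone a) (h' : w' ∈ Ccone a) : w + w' ∈ Ccone a := by
  obtain ⟨s, hs, h⟩ := h
  obtain ⟨t, ht, h'⟩ := h'
  refine ⟨s + t, by positivity, ?_⟩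
  have h1 : (s + t) • a - (w + w') = (s • a - w) + (t • a - w') := by rw [add_smul]; abel
  rw [h1]
  refine (norm_add_le _ _).trans_lt ?_
  rw [add_mul]; linarith

theorem P_mem_Ccone {a z : Z} (ha : ‖a‖ = 1) (h : z ∈ Wset a) : P a z ∈ Ccone a := by
  refine ⟨‖z‖ + 1, by positivity, ?_⟩
  have h1 : (‖z‖ + 1) • a - P a z = -(z - a) := by
    unfold P; rw [add_smul, one_smul]; abel
  rw [h1, norm_neg, ha, mul_one]
  rw [mem_Wset_iff, ha] at h
  exact h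

theorem zero_notMem_Ccone {a : Z} : (0 : Z) ∉ Ccone a := by
  rintro ⟨s, hs, h⟩
  rw [sub_zero, norm_smul, Real.norm_of_nonneg hs.le] at h
  exact lt_irrefl _ h

theorem exists_P_eq {a w : Z} (ha : ‖a‖ = 1) (h : w ∈ Ccone a) : ∃ z ∈ Wset a, P a z = w := by
  have hw0 : w ≠ 0 := fun h0 => zero_notMem_Ccone (h0 ▸ h)
  obtain ⟨s, hs, h⟩ := h
  rw [ha, mul_one] at h
  have hcont : ContinuousOn (fun τ : ℝ => ‖τ • a - w‖ - τ) (Icc 0 s) := by fun_prop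
  have hmem : (0 : ℝ) ∈ Icc ((fun τ : ℝ => ‖τ • a - w‖ - τ) s)
      ((fun τ : ℝ => ‖τ • a - w‖ - τ) 0) := by
    constructor
    · simp only; linarith
    · simp only [zero_smul, zero_sub, norm_neg, sub_zero]; exact norm_nonneg _
  obtain ⟨τ, hτ, hτ'⟩ := intermediate_value_Icc' hs.le hcont hmem
  simp only at hτ'
  have hτs : τ < s := by
    refine lt_of_le_of_ne hτ.2 ?_
    rintro rfl
    linarith
  have hnorm : ‖w - τ • a‖ = τ := by rw [norm_sub_rev]; linarith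
  refine ⟨w - τ • a, ?_, ?_⟩
  · rw [mem_Wset_iff, hnorm, ha]
    -- ‖(τ+1) a - w‖ < τ + 1
    have h1 : w - τ • a - a = -((τ + 1) • a - w) := by rw [add_smul, one_smul]; abel
    rw [h1, norm_neg]
    rcases le_total s (τ + 1) with h2 | h2
    · have := Ccone_mono ha h2 (η := s - ‖s • a - w‖) (by linarith)
      linarith
    · -- convexity
      have h3 : (s - τ) * ‖(τ + 1) • a - w‖ ≤ (s - τ - 1) * ‖τ • a - w‖ + ‖s • a - w‖ := by
        have e : (s - τ) • ((τ + 1) • a - w) = (s - τ - 1) • (τ • a - w) + (s • a - w) := by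
          module
        have h4 : ‖(s - τ) • ((τ + 1) • a - w)‖ = (s - τ) * ‖(τ + 1) • a - w‖ := by
          rw [norm_smul, Real.norm_of_nonneg (by linarith)]
        rw [← h4, e]
        refine (norm_add_le _ _).trans ?_
        rw [norm_smul, Real.norm_of_nonneg (by linarith)]
      have h5 : ‖τ • a - w‖ = τ := by linarith
      rw [h5] at h3
      have h6 : (s - τ) * ‖(τ + 1) • a - w‖ < (s - τ) * (τ + 1) := by nlinarith
      exact lt_of_mul_lt_mul_left h6 (by linarith)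
  · unfold P; rw [hnorm]; abel

theorem P_key' {a z₀ : Z} (ha : ‖a‖ = 1) (hz : z₀ ∈ Wset a) :
    ∃ c : ℝ, 0 < c ∧ ∃ U ∈ 𝓝 z₀, ∀ z ∈ U, ∀ τ : ℝ, 0 ≤ τ → ‖z‖ - (1 - c) * τ ≤ ‖z + τ • a‖ := by
  have h1 : ‖z₀ - a‖ < ‖z₀‖ + 1 := by
    rw [mem_Wset_iff, ha] at hz; exact hz
  refine ⟨(‖z₀‖ + 1 - ‖z₀ - a‖) / 2, by linarith, {z | ‖z - a‖ - ‖z‖ < 1 - (‖z₀‖ + 1 - ‖z₀ - a‖) / 2},
    ?_, ?_⟩
  · refine IsOpen.mem_nhds ?_ ?_
    · exact isOpen_lt (by fun_prop) continuous_const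
    · simp only [mem_ofPred_eq]; linarith
  · intro z hzU τ hτ
    simp only [mem_ofPred_eq] at hzU
    have h2 : (1 + τ) * ‖z‖ ≤ ‖z + τ • a‖ + τ * ‖z - a‖ := by
      have h3 : (1 + τ) • z = (z + τ • a) + τ • (z - a) := by
        rw [add_smul, one_smul, smul_sub]; abel
      have h4 : ‖(1 + τ) • z‖ = (1 + τ) * ‖z‖ := by
        rw [norm_smul, Real.norm_eq_abs, abs_of_nonneg (by linarith)]
      rw [← h4, h3]
      refine (norm_add_le _ _).trans ?_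
      rw [norm_smul τ, Real.norm_eq_abs, abs_of_nonneg hτ]
    nlinarith

theorem P_antilipschitz' {a z₀ : Z} (ha : ‖a‖ = 1) (hz : z₀ ∈ Wset a) :
    ∃ K : NNReal, ∃ U ∈ 𝓝 z₀, ∀ z ∈ U, ∀ w ∈ U, ‖z - w‖ ≤ K * ‖P a z - P a w‖ := by
  obtain ⟨c, hc, U, hU, hkey⟩ := P_key' ha hz
  have main : ∀ z ∈ U, ∀ w ∈ U, ‖w‖ ≤ ‖z‖ → ‖z - w‖ ≤ (1 + 1 / c) * ‖P a z - P a w‖ := by
    intro z hz w hw hwz
    set τ := ‖z‖ - ‖w‖ with hτ
    have hτ0 : 0 ≤ τ := sub_nonneg.2 hwz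
    set e := P a z - P a w with he
    have h1 : w = z + τ • a - e := by
      simp only [he, P, hτ, sub_smul]; abel
    have h2 := hkey z hz τ hτ0
    have h3 : ‖z + τ • a‖ ≤ ‖w‖ + ‖e‖ := by
      have : z + τ • a = w + e := by rw [h1]; abel
      rw [this]; exact norm_add_le _ _
    have h4 : c * τ ≤ ‖e‖ := by nlinarith
    have h5 : ‖z - w‖ ≤ ‖e‖ + τ := by
      have : z - w = e - τ • a := by rw [h1]; abel
      rw [this]
      refine (norm_sub_le _ _).trans ?_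
      rw [norm_smul, ha, mul_one, Real.norm_eq_abs, abs_of_nonneg hτ0]
    have h6 : τ ≤ ‖e‖ / c := by rw [le_div_iff₀ hc]; linarith
    calc ‖z - w‖ ≤ ‖e‖ + ‖e‖ / c := by linarith
      _ = (1 + 1 / c) * ‖e‖ := by ring
  refine ⟨⟨1 + 1 / c, by positivity⟩, U, hU, fun z hz w hw => ?_⟩
  rcases le_total ‖w‖ ‖z‖ with h | h
  · exact main z hz w hw h
  · rw [norm_sub_rev z w, norm_sub_rev (P a z)]
    exact main w hw z hz h

theorem P_nhds_le' {a z₀ : Z} (ha : ‖a‖ = 1) (hz : z₀ ∈ Wset a) :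
    𝓝 (P a z₀) ≤ map (P a) (𝓝 z₀) := by
  obtain ⟨c, hc, U, hU, hkey⟩ := P_key' ha hz
  intro V hV
  rw [mem_map, Metric.mem_nhds_iff] at hV
  obtain ⟨ε, hε, hεV⟩ := hV
  have hz0 : z₀ ≠ 0 := Wset_ne_zero hz
  have hn : 0 < ‖z₀‖ := norm_pos_iff.2 hz0
  obtain ⟨δ, hδ0, hδ1, hδ2⟩ : ∃ δ : ℝ, 0 < δ ∧ δ ≤ ε / 2 ∧ δ ≤ ‖z₀‖ / 2 :=
    ⟨min (ε / 2) (‖z₀‖ / 2), lt_min (by linarith) (by linarith), min_le_left _ _, min_le_right _ _⟩
  set τ₀ := ‖z₀‖ with hτ₀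
  have hP : P a z₀ = τ₀ • a + z₀ := rfl
  have hq1 : ‖P a z₀ - (τ₀ + δ) • a‖ - (τ₀ + δ) < 0 := by
    have h1 : P a z₀ - (τ₀ + δ) • a = z₀ + δ • (-a) := by
      rw [hP, add_smul, smul_neg]; abel
    have h3 : ‖z₀ + δ • (-a)‖ < ‖z₀‖ + δ := by
      have h4 := Wset_smul (inv_pos.mpr hδ0) hz
      rw [mem_Wset_iff, norm_smul, norm_inv, Real.norm_of_nonneg hδ0.le, ha] at h4
      have h5 : z₀ + δ • (-a) = δ • (δ⁻¹ • z₀ - a) := by
        rw [smul_sub, smul_smul, mul_inv_cancel₀ hδ0.ne', one_smul, smul_neg, sub_eq_add_neg]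
      rw [h5, norm_smul, Real.norm_of_nonneg hδ0.le]
      calc δ * ‖δ⁻¹ • z₀ - a‖ < δ * (δ⁻¹ * ‖z₀‖ + 1) := mul_lt_mul_of_pos_left h4 hδ0
        _ = ‖z₀‖ + δ := by field_simp
    rw [h1]; linarith
  have hq2 : 0 < ‖P a z₀ - (τ₀ - δ) • a‖ - (τ₀ - δ) := by
    have h1 : P a z₀ - (τ₀ - δ) • a = z₀ + δ • a := by
      rw [hP, sub_smul]; abel
    have h2 := hkey z₀ (mem_of_mem_nhds hU) δ hδ0.le
    rw [h1]
    have : 0 < c * δ := mul_pos hc hδ0
    linarith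
  have hev1 : ∀ᶠ w in 𝓝 (P a z₀), ‖w - (τ₀ + δ) • a‖ - (τ₀ + δ) < 0 := by
    have hc : Continuous fun w : Z => ‖w - (τ₀ + δ) • a‖ - (τ₀ + δ) := by fun_prop
    exact hc.continuousAt.eventually_lt continuousAt_const hq1
  have hev2 : ∀ᶠ w in 𝓝 (P a z₀), 0 < ‖w - (τ₀ - δ) • a‖ - (τ₀ - δ) := by
    have hc : Continuous fun w : Z => ‖w - (τ₀ - δ) • a‖ - (τ₀ - δ) := by fun_prop
    exact continuousAt_const.eventually_lt hc.continuousAt hq2
  have hev3 : ∀ᶠ w in 𝓝 (P a z₀), dist w (P a z₀) < ε / 2 := by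
    exact Metric.ball_mem_nhds _ (by linarith)
  filter_upwards [hev1, hev2, hev3] with w hw1 hw2 hw3
  have hcont : ContinuousOn (fun τ : ℝ => ‖w - τ • a‖ - τ) (Icc (τ₀ - δ) (τ₀ + δ)) := by
    fun_prop
  have hmem : (0 : ℝ) ∈ Icc ((fun τ : ℝ => ‖w - τ • a‖ - τ) (τ₀ + δ))
      ((fun τ : ℝ => ‖w - τ • a‖ - τ) (τ₀ - δ)) := ⟨hw1.le, hw2.le⟩
  obtain ⟨τ, hτ, hτ'⟩ := intermediate_value_Icc' (by linarith) hcont hmem
  simp only at hτ'
  have hnorm : ‖w - τ • a‖ = τ := by linarith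
  have hPz : P a (w - τ • a) = w := by
    simp only [P, hnorm]; abel
  rw [← hPz]
  refine hεV ?_
  rw [mem_ball, dist_eq_norm]
  have h1 : w - τ • a - z₀ = (w - P a z₀) + (τ₀ - τ) • a := by
    rw [hP, sub_smul]; abel
  rw [h1]
  refine lt_of_le_of_lt (norm_add_le _ _) ?_
  rw [norm_smul, ha, mul_one, Real.norm_eq_abs]
  have h2 : |τ₀ - τ| ≤ δ := by
    rw [abs_le]; constructor <;> linarith [hτ.1, hτ.2]
  rw [dist_eq_norm] at hw3
  linarith

theorem P_preimage_null' [FiniteDimensional ℝ Z] [MeasurableSpace Z] [BorelSpace Z]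
    {a : Z} (ha : ‖a‖ = 1) {A : Set Z} (hA : μH[(finrank ℝ Z : ℝ)] A = 0) :
    μH[(finrank ℝ Z : ℝ)] {z | z ∈ Wset a ∧ P a z ∈ A} = 0 := by
  refine measure_null_of_locally_null _ fun z₀ hz₀ => ?_
  obtain ⟨K, U, hU, hK⟩ := P_antilipschitz' ha hz₀.1
  refine ⟨{z | z ∈ Wset a ∧ P a z ∈ A} ∩ U, inter_mem self_mem_nhdsWithin
    (mem_nhdsWithin_of_mem_nhds hU), ?_⟩
  have hanti : AntilipschitzWith K (fun z : U => P a (z : Z)) := by
    refine AntilipschitzWith.of_le_mul_dist fun z w => ?_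
    have := hK z z.2 w w.2
    rw [← dist_eq_norm, ← dist_eq_norm] at this
    exact this
  have h1 := hanti.hausdorffMeasure_preimage_le (d := (finrank ℝ Z : ℝ)) (by positivity) A
  rw [hA, mul_zero] at h1
  have h2 : μH[(finrank ℝ Z : ℝ)] ((fun z : U => (z : Z)) '' ((fun z : U => P a (z : Z)) ⁻¹' A)) = 0 := by
    rw [isometry_subtype_coe.hausdorffMeasure_image (Or.inl (by positivity))]
    exact le_antisymm h1 zero_le
  refine measure_mono_null ?_ h2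
  rintro z ⟨⟨_, hz⟩, hzU⟩
  exact ⟨⟨z, hzU⟩, hz, rfl⟩

/-- **Separation lemma.** -/
theorem separating' {a : Z} (ha : ‖a‖ = 1) (D : Set Z) (hD : Wset a ⊆ closure D)
    (hT : ∀ z ∈ D, DifferentiableAt ℝ (fun v : Z => ‖v‖) (P a z))
    {v : Z} (hv : ∀ z ∈ D, N1 (P a z) v = 0) : v = 0 := by
  have h1 : ∀ (t : ℝ), ∀ w ∈ Ccone a, ‖w‖ ≤ ‖w + t • v‖ := by
    intro t w hw
    obtain ⟨z, hz, rfl⟩ := exists_P_eq ha hw
    have hcl : IsClosed {ζ : Z | ‖P a ζ‖ ≤ ‖P a ζ + t • v‖} :=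
      isClosed_le (continuous_P a).norm ((continuous_P a).add continuous_const).norm
    have hsub : D ⊆ {ζ : Z | ‖P a ζ‖ ≤ ‖P a ζ + t • v‖} := by
      intro ζ hζ
      have h2 : ‖P a ζ‖ = N1 (P a ζ) (P a ζ + t • v) := by
        rw [_root_.map_add, _root_.map_smul, hv ζ hζ, smul_zero, add_zero, N1_self (hT ζ hζ)]
      show ‖P a ζ‖ ≤ _
      rw [h2]; exact N1_apply_le _ _
    exact (closure_minimal hsub hcl) (hD hz)
  have h2 : ∀ w ∈ Ccone a, ∀ t : ℝ, w + t • v ∈ Ccone a → ‖w + t • v‖ = ‖w‖ := by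
    intro w hw t hwt
    apply le_antisymm
    · have := h1 (-t) _ hwt
      have e : w + t • v + (-t) • v = w := by rw [neg_smul]; abel
      rwa [e] at this
    · exact h1 t w hw
  obtain ⟨δ, hδ, hδC⟩ : ∃ δ : ℝ, 0 < δ ∧ ∀ t : ℝ, |t| < δ → a + t • v ∈ Ccone a := by
    have hc : ContinuousAt (fun t : ℝ => a + t • v) 0 := by fun_prop
    have hmem : ∀ᶠ t : ℝ in 𝓝 0, a + t • v ∈ Ccone a := by
      apply hc.eventually_mem
      rw [zero_smul, add_zero]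
      exact (isOpen_Ccone a).mem_nhds (self_mem_Ccone ha)
    obtain ⟨δ, hδ, h⟩ := Metric.eventually_nhds_iff.mp hmem
    exact ⟨δ, hδ, fun t ht => h (by rwa [Real.dist_eq, sub_zero])⟩
  have h3 : ∀ t : ℝ, |t| < δ → ‖a + t • v‖ = 1 := by
    intro t ht
    rw [h2 a (self_mem_Ccone ha) t (hδC t ht), ha]
  have h4 : ∀ t : ℝ, a + t • v ∈ Ccone a := by
    intro t
    set r := |t| / δ + 1 with hr
    have hr0 : 0 < r := by positivity
    refine ⟨r + 1, by positivity, ?_⟩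
    have e : (r + 1) • a - (a + t • v) = r • (a + (-(t / r)) • v) := by
      rw [smul_add, smul_smul, add_smul, one_smul, mul_neg, mul_div_cancel₀ _ hr0.ne', neg_smul]
      abel
    have h5 : |-(t / r)| < δ := by
      rw [abs_neg, abs_div, abs_of_pos hr0, div_lt_iff₀ hr0, hr]
      have : δ * (|t| / δ + 1) = |t| + δ := by field_simp
      rw [this]; linarith
    rw [e, norm_smul, Real.norm_of_nonneg hr0.le, h3 _ h5, ha]
    linarith
  have h5 : ∀ t : ℝ, |t| * ‖v‖ ≤ 2 := by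
    intro t
    have h6 : ‖a + t • v‖ = 1 := by rw [h2 a (self_mem_Ccone ha) t (h4 t), ha]
    have h7 : ‖t • v‖ ≤ ‖a + t • v‖ + ‖a‖ := by
      have : t • v = (a + t • v) - a := by abel
      rw [this]
      refine (norm_sub_le _ _).trans ?_
      simp
    rw [norm_smul, h6, ha, Real.norm_eq_abs] at h7
    linarith
  by_contra hne
  have hvpos : 0 < ‖v‖ := norm_pos_iff.mpr hne
  have h6 := h5 (3 / ‖v‖)
  rw [abs_of_pos (by positivity), div_mul_cancel₀ _ hvpos.ne'] at h6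
  linarith

end basic

section convexity

variable {X : Type*} [NormedAddCommGroup X] [NormedSpace ℝ X]

/-- support functionals at nearby points are close to the derivative -/
theorem support_near [FiniteDimensional ℝ X] {z : X}
    (hz : DifferentiableAt ℝ (fun v : X => ‖v‖) z) {ε : ℝ} (hε : 0 < ε) :
    ∀ᶠ w in 𝓝 z, ∀ ψ : X →L[ℝ] ℝ, ‖ψ‖ ≤ 1 → ψ w = ‖w‖ → ‖ψ - N1 z‖ < ε := by
  classical
  have hder : ∀ v : X, HasDerivAt (fun t : ℝ => ‖z + t • v‖) (N1 z v) 0 := by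
    intro v
    have h1 : HasDerivAt (fun t : ℝ => z + t • v) v 0 := by
      simpa using ((hasDerivAt_id (0 : ℝ)).smul_const v).const_add z
    have h2 : HasFDerivAt (fun v : X => ‖v‖) (N1 z) (z + (0 : ℝ) • v) := by
      rw [zero_smul, add_zero]; exact hz.hasFDerivAt
    exact h2.comp_hasDerivAt 0 h1
  have upper : ∀ v : X, ∀ ε > 0, ∀ᶠ w in 𝓝 z, ∀ ψ : X →L[ℝ] ℝ, ‖ψ‖ ≤ 1 → ψ w = ‖w‖ →
      ψ v < N1 z v + ε := by
    intro v ε hε
    have h1 := (hder v).tendsto_slope_zero_right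
    have h2 : ∀ᶠ t : ℝ in 𝓝[>] 0, t⁻¹ • (‖z + (0 + t) • v‖ - ‖z + (0 : ℝ) • v‖) < N1 z v + ε :=
      h1.eventually (gt_mem_nhds (by linarith))
    obtain ⟨t, ht, ht0⟩ := (h2.and self_mem_nhdsWithin).exists
    have ht0 : 0 < t := ht0
    rw [zero_add, zero_smul, add_zero] at ht
    have hc : ContinuousAt (fun w : X => t⁻¹ • (‖w + t • v‖ - ‖w‖)) z := by fun_prop
    have h3 : ∀ᶠ w in 𝓝 z, t⁻¹ • (‖w + t • v‖ - ‖w‖) < N1 z v + ε :=
      hc.tendsto.eventually (gt_mem_nhds ht)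
    filter_upwards [h3] with w hw ψ hψ hψw
    refine lt_of_le_of_lt ?_ hw
    have h4 : ‖w‖ + t * ψ v ≤ ‖w + t • v‖ := by
      have : ψ (w + t • v) ≤ ‖w + t • v‖ := by
        calc ψ (w + t • v) ≤ ‖ψ (w + t • v)‖ := le_abs_self _
          _ ≤ ‖ψ‖ * ‖w + t • v‖ := ψ.le_opNorm _
          _ ≤ 1 * ‖w + t • v‖ := by gcongr
          _ = _ := one_mul _
      rwa [_root_.map_add, _root_.map_smul, hψw, smul_eq_mul] at this
    rw [smul_eq_mul, inv_mul_eq_div, le_div_iff₀ ht0]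
    linarith
  -- a selection of support functionals, chosen far from `N1 z` whenever possible
  have hex : ∀ w : X, ∃ ψ : X →L[ℝ] ℝ, ‖ψ‖ ≤ 1 ∧ ψ w = ‖w‖ ∧
      ((∃ ψ' : X →L[ℝ] ℝ, ‖ψ'‖ ≤ 1 ∧ ψ' w = ‖w‖ ∧ ε ≤ ‖ψ' - N1 z‖) → ε ≤ ‖ψ - N1 z‖) := by
    intro w
    by_cases h : ∃ ψ' : X →L[ℝ] ℝ, ‖ψ'‖ ≤ 1 ∧ ψ' w = ‖w‖ ∧ ε ≤ ‖ψ' - N1 z‖
    · obtain ⟨ψ, h1, h2, h3⟩ := h
      exact ⟨ψ, h1, h2, fun _ => h3⟩
    · obtain ⟨g, hg1, hg2⟩ := exists_dual_vector'' ℝ w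
      exact ⟨g, hg1, by simpa using hg2, fun h' => absurd h' h⟩
  choose ψ hψ1 hψ2 hψ3 using hex
  have hψz : ψ z = N1 z := by
    ext v
    apply le_antisymm
    · refine le_of_forall_pos_le_add fun ε hε => ?_
      exact ((upper v ε hε).self_of_nhds (ψ z) (hψ1 z) (hψ2 z)).le
    · refine le_of_forall_pos_le_add fun ε hε => ?_
      have := ((upper (-v) ε hε).self_of_nhds (ψ z) (hψ1 z) (hψ2 z)).le
      rw [_root_.map_neg, _root_.map_neg] at this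
      linarith
  have hcont : ContinuousAt ψ z := by
    rw [continuousAt_clm_apply]
    intro v
    rw [ContinuousAt, hψz, Metric.tendsto_nhds]
    intro ε hε
    filter_upwards [upper v ε hε, upper (-v) ε hε] with w h1 h2
    have h1 := h1 (ψ w) (hψ1 w) (hψ2 w)
    have h2 := h2 (ψ w) (hψ1 w) (hψ2 w)
    rw [_root_.map_neg, _root_.map_neg] at h2
    rw [Real.dist_eq, abs_lt]
    constructor <;> linarith
  rw [ContinuousAt, hψz, Metric.tendsto_nhds] at hcont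
  filter_upwards [hcont ε hε] with w hw ψ' h1 h2
  by_contra hcon
  push Not at hcon
  have := hψ3 w ⟨ψ', h1, h2, hcon⟩
  rw [dist_eq_norm] at hw
  linarith

theorem tendsto_N1 [FiniteDimensional ℝ X] {z : X}
    (hz : DifferentiableAt ℝ (fun v : X => ‖v‖) z) {ι : Type*} {l : Filter ι} {w : ι → X}
    (hw : Tendsto w l (𝓝 z)) (hd : ∀ᶠ i in l, DifferentiableAt ℝ (fun v : X => ‖v‖) (w i)) :
    Tendsto (fun i => N1 (w i)) l (𝓝 (N1 z)) := by
  rw [Metric.tendsto_nhds]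
  intro ε hε
  filter_upwards [hw.eventually (support_near hz hε), hd] with i h1 h2
  rw [dist_eq_norm]
  exact h1 _ (norm_N1_le _) (N1_self h2)

/-- a norm which is differentiable at a point is strictly differentiable there -/
theorem hasStrictFDerivAt_norm' [FiniteDimensional ℝ X] {z : X}
    (hz : DifferentiableAt ℝ (fun v : X => ‖v‖) z) :
    HasStrictFDerivAt (fun v : X => ‖v‖) (N1 z) z := by
  rw [hasStrictFDerivAt_iff_isLittleO, Asymptotics.isLittleO_iff]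
  intro ε hε
  have h1 := support_near hz hε
  have h2 : ∀ᶠ p : X × X in 𝓝 (z, z), (∀ ψ : X →L[ℝ] ℝ, ‖ψ‖ ≤ 1 → ψ p.1 = ‖p.1‖ →
      ‖ψ - N1 z‖ < ε) ∧ (∀ ψ : X →L[ℝ] ℝ, ‖ψ‖ ≤ 1 → ψ p.2 = ‖p.2‖ → ‖ψ - N1 z‖ < ε) := by
    rw [nhds_prod_eq]
    exact h1.prod_mk h1
  filter_upwards [h2] with p hp
  have key : ∀ w w' : X, (∀ ψ : X →L[ℝ] ℝ, ‖ψ‖ ≤ 1 → ψ w = ‖w‖ → ‖ψ - N1 z‖ < ε) →
      ‖w‖ - ‖w'‖ - N1 z (w - w') ≤ ε * ‖w - w'‖ := by
    intro w w' hw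
    obtain ⟨g, hg1, hg2⟩ := exists_dual_vector'' ℝ w
    have hg2 : g w = ‖w‖ := by simpa using hg2
    have h3 := hw g hg1 hg2
    have h4 : g w' ≤ ‖w'‖ := by
      calc g w' ≤ ‖g w'‖ := le_abs_self _
        _ ≤ ‖g‖ * ‖w'‖ := g.le_opNorm _
        _ ≤ 1 * ‖w'‖ := by gcongr
        _ = _ := one_mul _
    have h5 : (g - N1 z) (w - w') ≤ ε * ‖w - w'‖ := by
      calc (g - N1 z) (w - w') ≤ ‖(g - N1 z) (w - w')‖ := le_abs_self _
        _ ≤ ‖g - N1 z‖ * ‖w - w'‖ := (g - N1 z).le_opNorm _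
        _ ≤ ε * ‖w - w'‖ := by gcongr
    rw [sub_apply, _root_.map_sub g, hg2] at h5
    linarith
  rw [Real.norm_eq_abs, abs_le]
  constructor
  · have := key p.2 p.1 hp.2
    rw [norm_sub_rev p.2 p.1] at this
    have e : N1 z (p.2 - p.1) = -N1 z (p.1 - p.2) := by rw [← _root_.map_neg]; congr 1; abel
    rw [e] at this
    linarith
  · exact key p.1 p.2 hp.1

/-- open sets are in the closure of their conull parts -/
theorem open_subset_closure_diff [FiniteDimensional ℝ X] [MeasurableSpace X] [BorelSpace X]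
    {O : Set X} (hO : IsOpen O) {A : Set X} (hA : μH[(finrank ℝ X : ℝ)] A = 0) :
    O ⊆ closure (O \ A) := by
  have h1 : ∀ᵐ z ∂(μH[(finrank ℝ X : ℝ)] : Measure X), z ∉ A := measure_eq_zero_iff_ae_notMem.mp hA
  have h2 : Dense {z | z ∉ A} := Measure.dense_of_ae h1
  have h3 := h2.open_subset_closure_inter hO
  refine h3.trans (closure_mono ?_)
  rintro z ⟨h4, h5⟩
  exact ⟨h4, h5⟩

end convexity

section sph

variable {X Y : Type*} [NormedAddCommGroup X] [NormedSpace ℝ X]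
    [NormedAddCommGroup Y] [NormedSpace ℝ Y]

theorem SphMap.mem_Wset (S : SphMap X Y) {a z : X} (ha : ‖a‖ = 1) (h : z ∈ Wset a) :
    S.F z ∈ Wset (S.F a) := by
  have hz0 := Wset_ne_zero h
  have hz : 0 < ‖z‖ := norm_pos_iff.mpr hz0
  have h1 : ‖z‖⁻¹ • z ∈ Wset a := Wset_smul (inv_pos.mpr hz) h
  have h2 : ‖‖z‖⁻¹ • z‖ = 1 := by rw [norm_smul, norm_inv, norm_norm, inv_mul_cancel₀ hz.ne']
  have h3 : S.F (‖z‖⁻¹ • z) ∈ Wset (S.F a) := by
    rw [mem_Wset_iff, S.norm_sub _ _ (by rw [h2, ha]), S.norm_map, S.norm_map]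
    exact h1
  have h4 := Wset_smul hz h3
  rwa [← S.map_smul, smul_smul, mul_inv_cancel₀ hz.ne', one_smul] at h4

theorem SphMap.mem_Wset_iff (S : SphMap X Y) {a z : X} (ha : ‖a‖ = 1) :
    S.F z ∈ Wset (S.F a) ↔ z ∈ Wset a := by
  refine ⟨fun h => ?_, S.mem_Wset ha⟩
  have h1 := S.symm.mem_Wset (a := S.F a) (z := S.F z) (by rw [S.norm_map, ha]) h
  have e1 : S.symm.F (S.F z) = z := S.left_inv z
  have e2 : S.symm.F (S.F a) = a := S.left_inv a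
  rwa [e1, e2] at h1

theorem SphMap.image_Wset (S : SphMap X Y) {a : X} (ha : ‖a‖ = 1) {D : Set X}
    (hD : Wset a ⊆ closure D) : Wset (S.F a) ⊆ closure (S.F '' D) := by
  intro w hw
  have h1 : S.G w ∈ Wset a := by
    rw [← S.mem_Wset_iff ha, S.right_inv]; exact hw
  have h2 : S.F (S.G w) ∈ closure (S.F '' D) :=
    image_closure_subset_closure_image S.continuous ⟨_, hD h1, rfl⟩
  rwa [S.right_inv] at h2

/-- null sets in the target pull back to null sets -/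
theorem SphMap.null_preimage [FiniteDimensional ℝ X] [MeasurableSpace X] [BorelSpace X]
    [MeasurableSpace Y] [BorelSpace Y] (S : SphMap X Y) {A : Set Y}
    (hA : μH[(finrank ℝ Y : ℝ)] A = 0) : μH[(finrank ℝ X : ℝ)] (S.F ⁻¹' A) = 0 := by
  have h1 := S.symm.lipschitz.hausdorffMeasure_image_le (d := (finrank ℝ Y : ℝ)) (by positivity) A
  rw [hA, mul_zero] at h1
  rw [S.finrank_eq]
  refine measure_mono_null ?_ (le_antisymm h1 zero_le)
  intro z hz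
  exact ⟨S.F z, hz, S.left_inv z⟩

theorem SphMap.null_P [FiniteDimensional ℝ X] [FiniteDimensional ℝ Y] [MeasurableSpace X]
    [BorelSpace X] [MeasurableSpace Y] [BorelSpace Y] (S : SphMap X Y) {a : Y} (ha : ‖a‖ = 1)
    {A : Set Y} (hA : μH[(finrank ℝ Y : ℝ)] A = 0) :
    μH[(finrank ℝ X : ℝ)] {z : X | S.F z ∈ Wset a ∧ P a (S.F z) ∈ A} = 0 :=
  S.null_preimage (P_preimage_null' ha hA)

theorem nonsmooth_null [FiniteDimensional ℝ X] [MeasurableSpace X] [BorelSpace X] :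
    μH[(finrank ℝ X : ℝ)] {z : X | ¬ DifferentiableAt ℝ (fun v : X => ‖v‖) z} = 0 :=
  ae_iff.mp (ae_differentiableAt_norm (E := X) (μ := μH[(finrank ℝ X : ℝ)]))

end sph

end Vale.Agent.P084
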