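import Vale.Agent.P084.Deriv3

open Metric Set Filter Topology MeasureTheory Module Asymptotics

namespace Vale.Agent.P084

/-- the set of smooth points of the norm -/
def Sm (X : Type*) [NormedAddCommGroup X] [NormedSpace ℝ X] : Set X :=
  {x | DifferentiableAt ℝ (fun v : X => ‖v‖) x}

variable {X Y : Type*} [NormedAddCommGroup X] [NormedSpace ℝ X]
    [NormedAddCommGroup Y] [NormedSpace ℝ Y]

/-- twice continuously differentiable situation on the set of smooth points -/
structure SphMap.LReg (S : SphMap X Y) : Prop where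
  hO : IsOpen (Sm X)
  hO' : IsOpen (Sm Y)
  hNX : ∀ z ∈ Sm X, Rg 2 (N1 : X → X →L[ℝ] ℝ) z
  hNY : ∀ z ∈ Sm Y, Rg 2 (N1 : Y → Y →L[ℝ] ℝ) z
  hT : ∀ z ∈ Sm X, Rg 2 S.T1 z

end Vale.Agent.P084
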