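import Vale.Agent.P084.Pos

open Metric Set Filter Topology MeasureTheory Module Asymptotics

namespace Vale.Agent.P084

namespace OddAux

variable {X : Type*} [NormedAddCommGroup X] [NormedSpace ℝ X]

/-- arithmetic means of a sequence -/
noncomputable def mean (z : ℕ → X) : ℕ → X
  | 0 => z 0
  | n + 1 => mean z n + (1 / ((n : ℝ) + 2)) • (z (n + 1) - mean z n)

theorem wt_mem (n : ℕ) : (1 / ((n : ℝ) + 2)) ∈ Icc (0 : ℝ) 1 := by
  constructor
  · positivity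
  · rw [div_le_one (by positivity)]
    have : (0 : ℝ) ≤ n := Nat.cast_nonneg n
    linarith

theorem mean_mem {K : Set X} (hK : Convex ℝ K) {z : ℕ → X} (hz : ∀ k, z k ∈ K) (n : ℕ) :
    mean z n ∈ K := by
  induction n with
  | zero => exact hz 0
  | succ n ih => exact hK.add_smul_sub_mem ih (hz (n + 1)) (wt_mem n)

theorem mean_map {K : Set X} (hK : Convex ℝ K) {z : ℕ → X} (hz : ∀ k, z k ∈ K) (u : X → X)
    (hu : ∀ y ∈ K, ∀ z ∈ K, ∀ t ∈ Icc (0 : ℝ) 1, u (y + t • (z - y)) = u y + t • (u z - u y))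
    (n : ℕ) : u (mean z n) = mean (fun k => u (z k)) n := by
  induction n with
  | zero => rfl
  | succ n ih =>
    show u (mean z n + (1 / ((n : ℝ) + 2)) • (z (n + 1) - mean z n)) =
      mean (fun k => u (z k)) n + (1 / ((n : ℝ) + 2)) • (u (z (n + 1)) - mean (fun k => u (z k)) n)
    rw [hu _ (mean_mem hK hz n) _ (hz (n + 1)) _ (wt_mem n), ih]

theorem mean_sum (z : ℕ → X) (n : ℕ) :
    ((n : ℝ) + 1) • mean z n = ∑ k ∈ Finset.range (n + 1), z k := by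
  induction n with
  | zero => simp [mean]
  | succ n ih =>
    rw [Finset.sum_range_succ, ← ih]
    show (((n + 1 : ℕ) : ℝ) + 1) • (mean z n + (1 / ((n : ℝ) + 2)) • (z (n + 1) - mean z n)) = _
    have h2 : ((n : ℝ) + 2) ≠ 0 := by positivity
    have h3 : (((n + 1 : ℕ) : ℝ) + 1) = (n : ℝ) + 2 := by push_cast; ring
    rw [h3, smul_add, smul_smul, mul_one_div_cancel h2, one_smul]
    module

theorem mean_dist {z z' : ℕ → X} {r : ℝ} (h : ∀ k, ‖z k - z' k‖ ≤ r) (n : ℕ) :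
    ‖mean z n - mean z' n‖ ≤ r := by
  induction n with
  | zero => exact h 0
  | succ n ih =>
    have hs := wt_mem n
    set s : ℝ := 1 / ((n : ℝ) + 2) with hsdef
    have h1 : mean z (n + 1) - mean z' (n + 1) =
        (1 - s) • (mean z n - mean z' n) + s • (z (n + 1) - z' (n + 1)) := by
      show (mean z n + (1 / ((n : ℝ) + 2)) • (z (n + 1) - mean z n)) -
        (mean z' n + (1 / ((n : ℝ) + 2)) • (z' (n + 1) - mean z' n)) = _
      rw [← hsdef]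
      module
    rw [h1]
    refine (norm_add_le _ _).trans ?_
    rw [norm_smul, norm_smul, Real.norm_of_nonneg hs.1,
      Real.norm_of_nonneg (sub_nonneg.mpr hs.2)]
    nlinarith [h (n + 1), hs.1, hs.2]

theorem mean_apply {z : ℕ → X} (χ : X →L[ℝ] ℝ) (h : ∀ k, χ (z k) = 1) (n : ℕ) :
    χ (mean z n) = 1 := by
  induction n with
  | zero => exact h 0
  | succ n ih =>
    show χ (mean z n + (1 / ((n : ℝ) + 2)) • (z (n + 1) - mean z n)) = 1
    rw [map_add, map_smul, map_sub, ih, h]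
    simp

end OddAux

open OddAux

namespace PosMap

variable {X Y : Type*} [NormedAddCommGroup X] [NormedSpace ℝ X]
    [NormedAddCommGroup Y] [NormedSpace ℝ Y] (S : PosMap X Y)

theorem u_smul' {t : ℝ} (ht : 0 ≤ t) (x : X) : S.u (t • x) = t • S.u x := by
  unfold PosMap.u
  have h1 : S.F (-(t • x)) = t • S.F (-x) := by rw [← smul_neg, S.map_smul _ _ ht]
  rw [h1, ← smul_neg]
  exact S.symm.map_smul t _ ht

theorem continuous_u' : Continuous S.u :=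
  S.symm.continuous.comp ((S.continuous.comp continuous_neg).neg)

/-- the conclusion of the invariant face theorem -/
def FaceAt (x : X) : Prop :=
  ∃ K : Set X, Convex ℝ K ∧ IsCompact K ∧ x ∈ K ∧ (∀ y ∈ K, ‖y‖ = 1) ∧ (∀ y ∈ K, S.u y ∈ K) ∧
      (∃ ψ : X →L[ℝ] ℝ, ‖ψ‖ ≤ 1 ∧ ∀ y ∈ K, ψ y = 1) ∧
      ∀ y ∈ K, ∀ z ∈ K, ∀ t ∈ Icc (0 : ℝ) 1, S.u (y + t • (z - y)) = S.u y + t • (S.u z - S.u y)

theorem iterate_mem {K : Set X} (hu : ∀ y ∈ K, S.u y ∈ K) {x : X} (hx : x ∈ K) (k : ℕ) :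
    S.u^[k] x ∈ K := by
  induction k with
  | zero => exact hx
  | succ k ih => rw [Function.iterate_succ_apply']; exact hu _ ih

theorem iterate_norm (x : X) (k : ℕ) : ‖S.u^[k] x‖ = ‖x‖ := by
  induction k with
  | zero => rfl
  | succ k ih => rw [Function.iterate_succ_apply', S.norm_u, ih]

theorem iterate_dist {x y : X} (h : ‖x‖ = ‖y‖) (k : ℕ) :
    ‖S.u^[k] x - S.u^[k] y‖ = ‖x - y‖ := by
  induction k with
  | zero => rfl
  | succ k ih =>
    rw [Function.iterate_succ_apply', Function.iterate_succ_apply', S.norm_u_sub, ih]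
    rw [S.iterate_norm, S.iterate_norm, h]

theorem exists_fixed {K : Set X} (hK : Convex ℝ K) (hKc : IsCompact K) {x : X} (hx : x ∈ K)
    (hn : ∀ y ∈ K, ‖y‖ = 1) (hu : ∀ y ∈ K, S.u y ∈ K)
    (haff : ∀ y ∈ K, ∀ z ∈ K, ∀ t ∈ Icc (0 : ℝ) 1,
      S.u (y + t • (z - y)) = S.u y + t • (S.u z - S.u y)) :
    ∃ c ∈ K, S.u c = c ∧ ∃ φ : ℕ → ℕ, StrictMono φ ∧
      Tendsto (fun n => mean (fun k => S.u^[k] x) (φ n)) atTop (𝓝 c) := by
  have hz : ∀ k, S.u^[k] x ∈ K := fun k => S.iterate_mem hu hx k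
  obtain ⟨c, hc, φ, hφ, hlim⟩ := hKc.tendsto_subseq (fun n => mean_mem hK hz n)
  refine ⟨c, hc, ?_, φ, hφ, hlim⟩
  have h1 : Tendsto (fun n => S.u (mean (fun k => S.u^[k] x) (φ n))) atTop (𝓝 (S.u c)) :=
    (S.continuous_u'.tendsto c).comp hlim
  have h2 : ∀ n, ‖S.u (mean (fun k => S.u^[k] x) n) - mean (fun k => S.u^[k] x) n‖
      ≤ 2 * (1 / ((n : ℝ) + 1)) := by
    intro n
    have hn0 : (0 : ℝ) < (n : ℝ) + 1 := by positivity
    have e1 : ((n : ℝ) + 1) • (S.u (mean (fun k => S.u^[k] x) n) - mean (fun k => S.u^[k] x) n)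
        = S.u^[n + 1] x - x := by
      rw [mean_map hK hz S.u haff, smul_sub, mean_sum, mean_sum]
      have e2 : (∑ k ∈ Finset.range (n + 1), S.u (S.u^[k] x)) =
          ∑ k ∈ Finset.range (n + 1), S.u^[k + 1] x :=
        Finset.sum_congr rfl fun k _ => (Function.iterate_succ_apply' _ _ _).symm
      rw [e2, ← Finset.sum_sub_distrib, Finset.sum_range_sub (fun k => S.u^[k] x)]
      rfl
    have e3 : ((n : ℝ) + 1) * ‖S.u (mean (fun k => S.u^[k] x) n) - mean (fun k => S.u^[k] x) n‖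
        ≤ 2 := by
      rw [← Real.norm_of_nonneg hn0.le, ← norm_smul, e1]
      refine (norm_sub_le _ _).trans ?_
      rw [S.iterate_norm, hn x hx]
      norm_num
    rw [mul_one_div, le_div_iff₀ hn0, mul_comm]
    exact e3
  have h3 : Tendsto (fun n => S.u (mean (fun k => S.u^[k] x) (φ n)) -
      mean (fun k => S.u^[k] x) (φ n)) atTop (𝓝 0) := by
    have h4 : Tendsto (fun n : ℕ => 2 * (1 / ((n : ℝ) + 1))) atTop (𝓝 0) := by
      have := tendsto_one_div_add_atTop_nhds_zero_nat (𝕜 := ℝ)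
      simpa using this.const_mul 2
    exact squeeze_zero_norm (fun n => h2 (φ n)) (h4.comp hφ.tendsto_atTop)
  have h5 := tendsto_nhds_unique (h1.sub hlim) h3
  exact sub_eq_zero.mp h5

theorem psi_bound {x c : X} (hx : ‖x‖ = 1) {φ : ℕ → ℕ}
    (hlim : Tendsto (fun n => mean (fun k => S.u^[k] x) (φ n)) atTop (𝓝 c))
    {y : X} (hy : ‖y‖ = 1) (hface : S.FaceAt y) :
    ∃ χ : X →L[ℝ] ℝ, ‖χ‖ ≤ 1 ∧ χ y = 1 ∧ 1 - ‖y - x‖ ≤ χ c := by
  obtain ⟨K, -, -, hyK, -, hu, ⟨χ, hχ, hχ1⟩, -⟩ := hface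
  refine ⟨χ, hχ, hχ1 y hyK, ?_⟩
  have h1 : ∀ n, 1 - ‖y - x‖ ≤ χ (mean (fun k => S.u^[k] x) (φ n)) := by
    intro n
    have e1 : χ (mean (fun k => S.u^[k] y) (φ n)) = 1 :=
      mean_apply χ (fun k => hχ1 _ (S.iterate_mem hu hyK k)) _
    have e2 : ‖mean (fun k => S.u^[k] y) (φ n) - mean (fun k => S.u^[k] x) (φ n)‖ ≤ ‖y - x‖ :=
      mean_dist (fun k => (S.iterate_dist (hy.trans hx.symm) k).le) _
    have e3 := χ.le_opNorm (mean (fun k => S.u^[k] y) (φ n) - mean (fun k => S.u^[k] x) (φ n))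
    rw [map_sub, e1, Real.norm_eq_abs] at e3
    have e4 := le_abs_self (1 - χ (mean (fun k => S.u^[k] x) (φ n)))
    have e5 : ‖χ‖ * ‖mean (fun k => S.u^[k] y) (φ n) - mean (fun k => S.u^[k] x) (φ n)‖
        ≤ ‖y - x‖ := by
      calc _ ≤ 1 * ‖mean (fun k => S.u^[k] y) (φ n) - mean (fun k => S.u^[k] x) (φ n)‖ := by
            gcongr
        _ ≤ _ := by rw [one_mul]; exact e2
    linarith
  have h2 : Tendsto (fun n => χ (mean (fun k => S.u^[k] x) (φ n))) atTop (𝓝 (χ c)) :=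
    (χ.continuous.tendsto c).comp hlim
  exact ge_of_tendsto' h2 h1

theorem norm_bound {x c : X} (hx : ‖x‖ = 1) {φ : ℕ → ℕ}
    (hlim : Tendsto (fun n => mean (fun k => S.u^[k] x) (φ n)) atTop (𝓝 c))
    (hface : ∀ y : X, ‖y‖ = 1 → S.FaceAt y) (ψ : X →L[ℝ] ℝ) (hψ : ‖ψ‖ ≤ 1) (hψx : ψ x = 1)
    (hψc : ψ c = 1) {t : ℝ} (ht : 0 ≤ t) :
    1 ≤ ‖x + t • (x - c)‖ ∧ ‖x + t • (x - c)‖ ≤ 1 + 3 * ‖x - c‖ * t ^ 2 := by
  set v := x - c with hv
  set y := x + t • v with hy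
  have h1 : 1 ≤ ‖y‖ := by
    have e1 : ψ y = 1 := by
      rw [hy, map_add, _root_.map_smul, hv, map_sub, hψx, hψc]; simp
    have e2 := ψ.le_opNorm y
    rw [e1, Real.norm_eq_abs, abs_one] at e2
    calc (1 : ℝ) ≤ ‖ψ‖ * ‖y‖ := e2
      _ ≤ 1 * ‖y‖ := by gcongr
      _ = ‖y‖ := one_mul _
  refine ⟨h1, ?_⟩
  have hy0 : ‖y‖ ≠ 0 := by intro h; rw [h] at h1; linarith
  set r := ‖y‖ with hr
  have hyh : ‖r⁻¹ • y‖ = 1 := by
    rw [norm_smul, norm_inv, Real.norm_of_nonneg (norm_nonneg y), ← hr, inv_mul_cancel₀ hy0]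
  obtain ⟨χ, hχ, hχ1, hχc⟩ := S.psi_bound hx hlim hyh (hface _ hyh)
  have h2 : χ y = r := by
    have : r⁻¹ * χ y = 1 := by rw [← hχ1, _root_.map_smul]; rfl
    field_simp at this
    exact this
  have h3 : ‖r⁻¹ • y - x‖ ≤ (r - 1) + t * ‖v‖ := by
    have e1 : r⁻¹ • y - x = (r⁻¹ • y - y) + t • v := by rw [hy]; abel
    rw [e1]
    refine (norm_add_le _ _).trans ?_
    have e2 : r⁻¹ • y - y = (r⁻¹ - 1) • y := by rw [sub_smul, one_smul]
    have e3 : ‖r⁻¹ • y - y‖ = r - 1 := by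
      rw [e2, norm_smul, Real.norm_eq_abs, ← hr, abs_of_nonpos (by
        have : r⁻¹ ≤ 1 := inv_le_one_of_one_le₀ h1
        linarith)]
      field_simp
      ring
    rw [e3, norm_smul, Real.norm_of_nonneg ht]
  have h4 : r ≤ 1 + t * ‖v‖ := by
    rw [hr, hy]
    refine (norm_add_le _ _).trans ?_
    rw [hx, norm_smul, Real.norm_of_nonneg ht]
  have hxle : χ x ≤ 1 := by
    have e2 := χ.le_opNorm x
    rw [hx, mul_one, Real.norm_eq_abs] at e2
    exact (le_abs_self _).trans (e2.trans hχ)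
  have h5 : r = χ x + t * χ v := by
    rw [← h2, hy, map_add, _root_.map_smul, smul_eq_mul]
  have h6 : (1 + t) * χ v = r - χ c := by
    have e1 : χ v = χ x - χ c := by rw [hv, map_sub]
    rw [h5, e1]; ring
  have h7 : (1 + t) * χ v ≤ 3 * (t * ‖v‖) := by
    rw [h6]; linarith
  have hvn : 0 ≤ ‖v‖ := norm_nonneg v
  have h8 : χ v ≤ 3 * (t * ‖v‖) := by
    by_contra hcon
    push Not at hcon
    have e0 : 0 ≤ 3 * (t * ‖v‖) := by positivity
    have : χ v ≤ (1 + t) * χ v := by nlinarith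
    linarith
  rw [h5]
  nlinarith [mul_le_mul_of_nonneg_left h8 ht]

theorem u_hasFDerivWithinAt {x : X}
    (hF : ∃ T : X →L[ℝ] Y, (fun z => S.F z - S.F (-x) - T (z - -x))
      =o[𝓝[sphere (0 : X) 1] (-x)] (fun z => z - -x))
    (hG : ∃ T : Y →L[ℝ] X, (fun z => S.G z - S.G (-S.F (-x)) - T (z - (-S.F (-x))))
      =o[𝓝[sphere (0 : Y) 1] (-S.F (-x))] (fun z => z - (-S.F (-x)))) :
    ∃ D : X →L[ℝ] X, HasFDerivWithinAt S.u D (sphere (0 : X) 1) x := by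
  obtain ⟨T, hT⟩ := hF
  obtain ⟨T', hT'⟩ := hG
  have h1 : HasFDerivWithinAt S.F T (sphere (0 : X) 1) (-x) := HasFDerivWithinAt.of_isLittleO hT
  have h2 : HasFDerivWithinAt S.G T' (sphere (0 : Y) 1) (-S.F (-x)) :=
    HasFDerivWithinAt.of_isLittleO hT'
  have h3 : HasFDerivWithinAt (fun z : X => -z) (-(ContinuousLinearMap.id ℝ X))
      (sphere (0 : X) 1) x := (hasFDerivAt_id x).neg.hasFDerivWithinAt
  have h4 : MapsTo (fun z : X => -z) (sphere (0 : X) 1) (sphere (0 : X) 1) := by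
    intro z hz
    simpa using hz
  have h5 := (h1.comp x h3 h4).neg
  have h6 : MapsTo (fun z : X => -S.F (-z)) (sphere (0 : X) 1) (sphere (0 : Y) 1) := by
    intro z hz
    rw [mem_sphere_zero_iff_norm] at hz ⊢
    rw [norm_neg, S.norm_map, norm_neg, hz]
  exact ⟨_, h2.comp x h5 h6⟩

theorem u_eq_of_faces [FiniteDimensional ℝ X]
    (hface : ∀ y : X, ‖y‖ = 1 → S.FaceAt y)
    (hder : ∀ x : X, ‖x‖ = 1 → ∃ D : X →L[ℝ] X, HasFDerivWithinAt S.u D (sphere (0 : X) 1) x)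
    {x : X} (hx : ‖x‖ = 1) : S.u x = x := by
  by_contra hne
  -- a point of maximal displacement
  have hcomp : IsCompact (sphere (0 : X) 1) := isCompact_sphere 0 1
  have hne' : (sphere (0 : X) 1).Nonempty := ⟨x, by simpa using hx⟩
  have hcont : ContinuousOn (fun z => ‖S.u z - z‖) (sphere (0 : X) 1) :=
    ((S.continuous_u'.sub continuous_id).norm).continuousOn
  obtain ⟨x₁, hx₁, hmax⟩ := hcomp.exists_isMaxOn hne' hcont
  have hx₁n : ‖x₁‖ = 1 := by simpa using hx₁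
  have hpos : 0 < ‖S.u x₁ - x₁‖ := by
    have h1 : ‖S.u x - x‖ ≤ ‖S.u x₁ - x₁‖ := hmax (by simpa using hx : x ∈ sphere (0 : X) 1)
    exact lt_of_lt_of_le (norm_pos_iff.mpr (sub_ne_zero.mpr hne)) h1
  obtain ⟨K, hK, hKc, hxK, hKn, hKu, ⟨ψ, hψ, hψK⟩, haff⟩ := hface x₁ hx₁n
  obtain ⟨c, hcK, hc, φ, hφ, hlim⟩ := S.exists_fixed hK hKc hxK hKn hKu haff
  have hnb := fun (t : ℝ) (ht : 0 ≤ t) => S.norm_bound hx₁n hlim hface ψ hψ (hψK _ hxK) (hψK _ hcK) ht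
  obtain ⟨D, hD⟩ := hder x₁ hx₁n
  set v := x₁ - c with hv
  -- the derivative of `u` in direction `c - x₁`
  have hDc : D (c - x₁) = c - S.u x₁ := by
    have h1 : HasDerivWithinAt (fun s : ℝ => x₁ + s • (c - x₁)) (c - x₁) (Icc (0 : ℝ) 1) 0 := by
      have := (((hasDerivAt_id (0 : ℝ)).smul_const (c - x₁)).const_add x₁).hasDerivWithinAt
        (s := Icc (0 : ℝ) 1)
      simpa using this
    have h2 : MapsTo (fun s : ℝ => x₁ + s • (c - x₁)) (Icc (0 : ℝ) 1) (sphere (0 : X) 1) := by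
      intro s hs
      rw [mem_sphere_zero_iff_norm]
      exact hKn _ (hK.add_smul_sub_mem hxK hcK hs)
    have h3 : HasDerivWithinAt (S.u ∘ (fun s : ℝ => x₁ + s • (c - x₁))) (D (c - x₁))
        (Icc (0 : ℝ) 1) 0 := by
      have hD' : HasFDerivWithinAt S.u D (sphere (0 : X) 1) (x₁ + (0 : ℝ) • (c - x₁)) := by
        simpa using hD
      exact hD'.comp_hasDerivWithinAt 0 h1 h2
    have h4 : HasDerivWithinAt (S.u ∘ (fun s : ℝ => x₁ + s • (c - x₁))) (c - S.u x₁)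
        (Icc (0 : ℝ) 1) 0 := by
      have h5 : HasDerivWithinAt (fun s : ℝ => S.u x₁ + s • (c - S.u x₁)) (c - S.u x₁)
          (Icc (0 : ℝ) 1) 0 := by
        have := (((hasDerivAt_id (0 : ℝ)).smul_const (c - S.u x₁)).const_add
          (S.u x₁)).hasDerivWithinAt (s := Icc (0 : ℝ) 1)
        simpa using this
      refine h5.congr (fun s hs => ?_) ?_
      · show S.u (x₁ + s • (c - x₁)) = _
        rw [haff _ hxK _ hcK s hs, hc]
      · show S.u (x₁ + (0 : ℝ) • (c - x₁)) = _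
        simp
    exact (uniqueDiffOn_Icc_zero_one 0 (by simp)).eq_deriv _ h3 h4
  have hDv : D v = S.u x₁ - c := by
    have : v = -(c - x₁) := by rw [hv]; abel
    rw [this, map_neg, hDc]; abel
  -- the curve on the sphere
  have hN : HasDerivWithinAt (fun t : ℝ => ‖x₁ + t • v‖) 0 (Ici (0 : ℝ)) 0 := by
    rw [hasDerivWithinAt_iff_isLittleO]
    have h1 : (fun t : ℝ => ‖x₁ + t • v‖ - ‖x₁ + (0 : ℝ) • v‖ - (t - 0) • (0 : ℝ))
        =O[𝓝[Ici (0 : ℝ)] 0] (fun t : ℝ => t ^ 2) := by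
      apply IsBigO.of_bound (3 * ‖v‖)
      filter_upwards [self_mem_nhdsWithin] with t ht
      obtain ⟨h2, h3⟩ := hnb t ht
      rw [zero_smul, add_zero, hx₁n, smul_zero, sub_zero, Real.norm_of_nonneg (by linarith),
        Real.norm_of_nonneg (by positivity)]
      linarith
    refine h1.trans_isLittleO ?_
    have h2 : (fun t : ℝ => t ^ 2) =o[𝓝 (0 : ℝ)] (fun t : ℝ => t) := by
      have := isLittleO_pow_pow (𝕜 := ℝ) (show 1 < 2 by norm_num)
      simpa using this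
    have h3 := h2.mono (nhdsWithin_le_nhds (a := (0 : ℝ)) (s := Ici (0 : ℝ)))
    simpa using h3
  have hNpos : ∀ t : ℝ, 0 ≤ t → ‖x₁ + t • v‖ ≠ 0 := fun t ht => by
    have := (hnb t ht).1
    intro h; rw [h] at this; linarith
  have hy : HasDerivWithinAt (fun t : ℝ => ‖x₁ + t • v‖⁻¹ • (x₁ + t • v)) v (Ici (0 : ℝ)) 0 := by
    have h1 : HasDerivWithinAt (fun t : ℝ => x₁ + t • v) v (Ici (0 : ℝ)) 0 := by
      have := (((hasDerivAt_id (0 : ℝ)).smul_const v).const_add x₁).hasDerivWithinAt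
        (s := Ici (0 : ℝ))
      simpa using this
    have h2 := (hN.inv (hNpos 0 le_rfl)).smul h1
    have e3 : ((fun t : ℝ => ‖x₁ + t • v‖)⁻¹ 0) • v = v := by
      show (‖x₁ + (0 : ℝ) • v‖)⁻¹ • v = v
      rw [zero_smul, add_zero, hx₁n, inv_one, one_smul]
    have e4 : (-(0 : ℝ) / ‖x₁ + (0 : ℝ) • v‖ ^ 2) • (x₁ + (0 : ℝ) • v) = 0 := by
      rw [neg_zero, zero_div, zero_smul]
    rw [e4, e3, add_zero] at h2
    exact h2
  have hmaps : MapsTo (fun t : ℝ => ‖x₁ + t • v‖⁻¹ • (x₁ + t • v)) (Ici (0 : ℝ))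
      (sphere (0 : X) 1) := by
    intro t ht
    rw [mem_sphere_zero_iff_norm, norm_smul, norm_inv, norm_norm,
      inv_mul_cancel₀ (hNpos t ht)]
  have hy0 : ‖x₁ + (0 : ℝ) • v‖⁻¹ • (x₁ + (0 : ℝ) • v) = x₁ := by simp [hx₁n]
  have hw : HasDerivWithinAt (fun t : ℝ => S.u (‖x₁ + t • v‖⁻¹ • (x₁ + t • v)) -
      ‖x₁ + t • v‖⁻¹ • (x₁ + t • v)) (S.u x₁ - x₁) (Ici (0 : ℝ)) 0 := by
    have hD' : HasFDerivWithinAt S.u D (sphere (0 : X) 1)
        (‖x₁ + (0 : ℝ) • v‖⁻¹ • (x₁ + (0 : ℝ) • v)) := by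
      rw [hy0]; exact hD
    have h1 := (hD'.comp_hasDerivWithinAt 0 hy hmaps).sub hy
    have h2 : D v - v = S.u x₁ - x₁ := by rw [hDv, hv]; abel
    rw [h2] at h1
    exact h1
  rw [hasDerivWithinAt_iff_isLittleO] at hw
  have hev := hw.def (c := ‖S.u x₁ - x₁‖ / 2) (by positivity)
  have hev' : ∀ᶠ t : ℝ in 𝓝[Ioi (0 : ℝ)] 0,
      ‖(S.u (‖x₁ + t • v‖⁻¹ • (x₁ + t • v)) - ‖x₁ + t • v‖⁻¹ • (x₁ + t • v)) -
        (S.u (‖x₁ + (0 : ℝ) • v‖⁻¹ • (x₁ + (0 : ℝ) • v)) -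
          ‖x₁ + (0 : ℝ) • v‖⁻¹ • (x₁ + (0 : ℝ) • v)) - (t - 0) • (S.u x₁ - x₁)‖ ≤
        ‖S.u x₁ - x₁‖ / 2 * ‖t - 0‖ :=
    hev.filter_mono (nhdsWithin_mono _ Ioi_subset_Ici_self)
  obtain ⟨t, ht, ht0⟩ := (hev'.and self_mem_nhdsWithin).exists
  have ht0' : 0 < t := ht0
  rw [hy0, sub_zero, Real.norm_of_nonneg ht0'.le] at ht
  have hle : ‖S.u (‖x₁ + t • v‖⁻¹ • (x₁ + t • v)) - ‖x₁ + t • v‖⁻¹ • (x₁ + t • v)‖ ≤
      ‖S.u x₁ - x₁‖ := hmax (hmaps ht0'.le)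
  set w := S.u (‖x₁ + t • v‖⁻¹ • (x₁ + t • v)) - ‖x₁ + t • v‖⁻¹ • (x₁ + t • v) with hwdef
  set d := S.u x₁ - x₁ with hd
  have h9 : (1 + t) * ‖d‖ ≤ ‖w‖ + ‖w - d - t • d‖ := by
    have e1 : (1 + t) • d = w - (w - d - t • d) := by module
    have e2 : ‖(1 + t) • d‖ = (1 + t) * ‖d‖ := by
      rw [norm_smul, Real.norm_of_nonneg (by linarith)]
    rw [← e2, e1]
    exact norm_sub_le _ _
  nlinarith

/-- oddness of the positively homogeneous extension, from invariant faces and derivatives along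
the spheres -/
theorem odd_of [FiniteDimensional ℝ X]
    (hface : ∀ y : X, ‖y‖ = 1 → S.FaceAt y)
    (hF : ∀ x : X, ‖x‖ = 1 → ∃ T : X →L[ℝ] Y, (fun z => S.F z - S.F x - T (z - x))
      =o[𝓝[sphere (0 : X) 1] x] (fun z => z - x))
    (hG : ∀ x : Y, ‖x‖ = 1 → ∃ T : Y →L[ℝ] X, (fun z => S.G z - S.G x - T (z - x))
      =o[𝓝[sphere (0 : Y) 1] x] (fun z => z - x)) (x : X) : S.F (-x) = -S.F x := by
  have hder : ∀ x : X, ‖x‖ = 1 →
      ∃ D : X →L[ℝ] X, HasFDerivWithinAt S.u D (sphere (0 : X) 1) x := by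
    intro x hx
    exact S.u_hasFDerivWithinAt (hF (-x) (by rw [norm_neg, hx]))
      (hG (-S.F (-x)) (by rw [norm_neg, S.norm_map, norm_neg, hx]))
  have h1 : ∀ x : X, S.u x = x := by
    intro x
    by_cases hx : x = 0
    · rw [hx]
      have : S.u 0 = 0 := by rw [← norm_eq_zero, S.norm_u, norm_zero]
      exact this
    · have hx0 : ‖x‖ ≠ 0 := norm_ne_zero_iff.mpr hx
      have e1 : ‖(‖x‖⁻¹ • x)‖ = 1 := by
        rw [norm_smul, norm_inv, norm_norm, inv_mul_cancel₀ hx0]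
      have e2 := S.u_eq_of_faces hface hder e1
      have e3 : x = ‖x‖ • (‖x‖⁻¹ • x) := by rw [smul_smul, mul_inv_cancel₀ hx0, one_smul]
      rw [e3, S.u_smul' (norm_nonneg x), e2]
  have h2 := S.F_u x
  rw [h1 x] at h2
  rw [h2, neg_neg]

end PosMap

end Vale.Agent.P084
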