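import Mathlib

open Set Filter Topology MeasureTheory intervalIntegral

namespace Vale.Agent.P084

/-- A planar curve `s ↦ (m (H s))⁻¹ • (1, H s)`, where `m τ` is the norm of `(1, τ)`. -/
structure Crv where
  m : ℝ → ℝ
  m₁ : ℝ → ℝ
  m₂ : ℝ → ℝ
  H : ℝ → ℝ
  H₁ : ℝ → ℝ
  H₂ : ℝ → ℝ
  hm : ∀ s, HasDerivAt m (m₁ s) s
  hm₁ : ∀ s, HasDerivAt m₁ (m₂ s) s
  hm₂ : Continuous m₂
  hm0 : ∀ s, 0 < m s
  hm20 : ∀ s, 0 ≤ m₂ s
  hH : ∀ s, HasDerivAt H (H₁ s) s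
  hH₁ : ∀ s, HasDerivAt H₁ (H₂ s) s
  hH₂ : Continuous H₂
  hH0 : ∀ s, 0 < H₁ s

/-- pairs of distinct points near the diagonal -/
def dl (a : ℝ) : Filter (ℝ × ℝ) := 𝓝[{p : ℝ × ℝ | p.1 ≠ p.2}] (a, a)

theorem slope_lim {f : ℝ → ℝ} {f' a : ℝ} (hf : HasStrictDerivAt f f' a) :
    Tendsto (fun p : ℝ × ℝ => (f p.2 - f p.1) / (p.2 - p.1)) (dl a) (𝓝 f') := by
  have h1 := hf.isLittleO.tendsto_div_nhds_zero
  have h2 : Tendsto (fun p : ℝ × ℝ => (f p.1 - f p.2 - (p.1 - p.2) • f') / (p.1 - p.2) + f')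
      (dl a) (𝓝 (0 + f')) := by
    refine Tendsto.add_const _ ?_
    refine Tendsto.mono_left ?_ (nhdsWithin_le_nhds (s := {p : ℝ × ℝ | p.1 ≠ p.2}))
    simpa using h1
  rw [zero_add] at h2
  refine h2.congr' ?_
  unfold dl
  filter_upwards [self_mem_nhdsWithin] with p hp
  have hp1 : p.1 - p.2 ≠ 0 := sub_ne_zero.mpr hp
  have hp2 : p.2 - p.1 ≠ 0 := sub_ne_zero.mpr (Ne.symm hp)
  rw [smul_eq_mul]
  field_simp
  ring

theorem cont_lim {f : ℝ × ℝ → ℝ} (hf : Continuous f) (a : ℝ) :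
    Tendsto f (dl a) (𝓝 (f (a, a))) :=
  (hf.tendsto _).mono_left nhdsWithin_le_nhds

theorem contDeriv {f f' : ℝ → ℝ} (h : ∀ x, HasDerivAt f (f' x) x) : Continuous f :=
  continuous_iff_continuousAt.mpr fun x => (h x).continuousAt

namespace Crv
variable (C : Crv)

noncomputable def P (s : ℝ) : ℝ := (C.m (C.H s))⁻¹
noncomputable def P₁ (s : ℝ) : ℝ := -(C.m₁ (C.H s) * C.H₁ s) * (C.P s) ^ 2
noncomputable def V (s t : ℝ) : ℝ := (C.H s * C.P s + C.H t * C.P t) / (C.P s + C.P t)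
noncomputable def W (s t : ℝ) : ℝ :=
  (C.P t * C.H₁ t + (C.H t - C.V s t) * C.P₁ t) / (C.P s + C.P t)
noncomputable def c (s : ℝ) : ℝ := 2 * (C.P₁ s / C.P s) + C.H₂ s / C.H₁ s
noncomputable def q (τ : ℝ) : ℝ := C.m₂ τ / C.m τ
noncomputable def A (τ : ℝ) : ℝ := ∫ x in (0 : ℝ)..τ, √(C.q x)

theorem P_pos (s : ℝ) : 0 < C.P s := inv_pos.mpr (C.hm0 _)
theorem PP_pos (s t : ℝ) : 0 < C.P s + C.P t := add_pos (C.P_pos s) (C.P_pos t)

theorem hasDerivAt_P (s : ℝ) : HasDerivAt C.P (C.P₁ s) s := by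
  have h1 : HasDerivAt (fun x => C.m (C.H x)) (C.m₁ (C.H s) * C.H₁ s) s :=
    (C.hm (C.H s)).comp s (C.hH s)
  have h2 := h1.inv (C.hm0 (C.H s)).ne'
  refine h2.congr_deriv ?_
  unfold P₁ P
  rw [div_eq_mul_inv, inv_pow]

theorem H_cont : Continuous C.H := contDeriv C.hH
theorem H₁_cont : Continuous C.H₁ := contDeriv C.hH₁
theorem m_cont : Continuous C.m := contDeriv C.hm
theorem m₁_cont : Continuous C.m₁ := contDeriv C.hm₁
theorem P_cont : Continuous C.P := contDeriv C.hasDerivAt_P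
theorem P₁_cont : Continuous C.P₁ := by
  unfold P₁
  exact ((C.m₁_cont.comp C.H_cont).mul C.H₁_cont).neg.mul (C.P_cont.pow 2)
theorem q_cont : Continuous C.q := C.hm₂.div C.m_cont (fun x => (C.hm0 x).ne')
theorem q_nonneg (x : ℝ) : 0 ≤ C.q x := div_nonneg (C.hm20 x) (C.hm0 x).le
theorem V_cont : Continuous (fun p : ℝ × ℝ => C.V p.1 p.2) := by
  unfold V
  have h1 := C.H_cont
  have h2 := C.P_cont
  exact (by fun_prop : Continuous fun p : ℝ × ℝ => C.H p.1 * C.P p.1 + C.H p.2 * C.P p.2).div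
    (by fun_prop) (fun p => (C.PP_pos _ _).ne')
theorem V_cont' : Continuous (fun p : ℝ × ℝ => C.V p.2 p.1) :=
  C.V_cont.comp continuous_swap
theorem W_cont : Continuous (fun p : ℝ × ℝ => C.W p.1 p.2) := by
  unfold W
  have h1 := C.H_cont
  have h2 := C.P_cont
  have h3 := C.H₁_cont
  have h4 := C.P₁_cont
  have h5 := C.V_cont
  exact (by fun_prop : Continuous fun p : ℝ × ℝ =>
    C.P p.2 * C.H₁ p.2 + (C.H p.2 - C.V p.1 p.2) * C.P₁ p.2).div
    (by fun_prop) (fun p => (C.PP_pos _ _).ne')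
theorem W_cont' : Continuous (fun p : ℝ × ℝ => C.W p.2 p.1) :=
  C.W_cont.comp continuous_swap

theorem V_symm (s t : ℝ) : C.V s t = C.V t s := by
  unfold V; rw [add_comm, add_comm (C.P s)]

theorem V_diag (s : ℝ) : C.V s s = C.H s := by
  unfold V
  have := (C.P_pos s).ne'
  field_simp

theorem W_diag (s : ℝ) : C.W s s = C.H₁ s / 2 := by
  unfold W
  rw [V_diag, sub_self, zero_mul, add_zero]
  have := (C.P_pos s).ne'
  field_simp
  norm_num

theorem hasDerivAt_V {s t : ℝ → ℝ} {s' t' x : ℝ} (hs : HasDerivAt s s' x)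
    (ht : HasDerivAt t t' x) :
    HasDerivAt (fun y => C.V (s y) (t y)) (s' * C.W (t x) (s x) + t' * C.W (s x) (t x)) x := by
  have h1 : HasDerivAt (fun y => C.H (s y)) (C.H₁ (s x) * s') x := (C.hH (s x)).comp x hs
  have h2 : HasDerivAt (fun y => C.H (t y)) (C.H₁ (t x) * t') x := (C.hH (t x)).comp x ht
  have h3 : HasDerivAt (fun y => C.P (s y)) (C.P₁ (s x) * s') x :=
    (C.hasDerivAt_P (s x)).comp x hs
  have h4 : HasDerivAt (fun y => C.P (t y)) (C.P₁ (t x) * t') x :=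
    (C.hasDerivAt_P (t x)).comp x ht
  have h5 := ((h1.mul h3).add (h2.mul h4)).div (h3.add h4) (C.PP_pos _ _).ne'
  refine h5.congr_deriv ?_
  have h6 := (C.PP_pos (s x) (t x)).ne'
  have h7 := (C.PP_pos (t x) (s x)).ne'
  simp only [Pi.add_apply, Pi.mul_apply]
  unfold W
  rw [C.V_symm (t x) (s x), add_comm (C.P (t x)) (C.P (s x))]
  unfold V
  field_simp
  ring

theorem hasDerivAt_A (τ : ℝ) : HasDerivAt C.A (√(C.q τ)) τ :=
  integral_hasDerivAt_right ((C.q_cont.sqrt).intervalIntegrable _ _)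
    ((C.q_cont.sqrt).stronglyMeasurableAtFilter _ _) (C.q_cont.sqrt).continuousAt

theorem lim_V (a : ℝ) : Tendsto (fun p : ℝ × ℝ => C.V p.1 p.2) (dl a) (𝓝 (C.H a)) := by
  have := cont_lim C.V_cont a
  rwa [V_diag] at this
theorem lim_W (a : ℝ) : Tendsto (fun p : ℝ × ℝ => C.W p.1 p.2) (dl a) (𝓝 (C.H₁ a / 2)) := by
  have := cont_lim C.W_cont a
  rwa [W_diag] at this
theorem lim_W' (a : ℝ) : Tendsto (fun p : ℝ × ℝ => C.W p.2 p.1) (dl a) (𝓝 (C.H₁ a / 2)) := by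
  have := cont_lim C.W_cont' a
  rwa [W_diag] at this

theorem strict_H (a : ℝ) : HasStrictDerivAt C.H (C.H₁ a) a :=
  hasStrictDerivAt_of_hasDerivAt_of_continuousAt (Eventually.of_forall C.hH)
    C.H₁_cont.continuousAt
theorem strict_PH (a : ℝ) : HasStrictDerivAt (fun s => C.P s * C.H₁ s)
    (C.P₁ a * C.H₁ a + C.P a * C.H₂ a) a := by
  have h1 : HasStrictDerivAt C.H₁ (C.H₂ a) a :=
    hasStrictDerivAt_of_hasDerivAt_of_continuousAt (Eventually.of_forall C.hH₁)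
      C.hH₂.continuousAt
  have h2 : HasStrictDerivAt C.P (C.P₁ a) a :=
    hasStrictDerivAt_of_hasDerivAt_of_continuousAt (Eventually.of_forall C.hasDerivAt_P)
      C.P₁_cont.continuousAt
  exact h2.mul h1

/-- first order expansion of the difference of the two derivatives of `V` near the diagonal -/
theorem lim_diff (a : ℝ) :
    Tendsto (fun p : ℝ × ℝ => (C.W p.1 p.2 - C.W p.2 p.1) / (p.2 - p.1)) (dl a)
      (𝓝 (C.H₁ a * C.c a / 2)) := by
  have hP := C.P_cont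
  have hP₁ := C.P₁_cont
  have hPa := (C.P_pos a).ne'
  have hHa := (C.hH0 a).ne'
  have h1 := slope_lim (C.strict_H a)
  have h2 := slope_lim (C.strict_PH a)
  have k1 : Tendsto (fun p : ℝ × ℝ => C.P p.1 + C.P p.2) (dl a) (𝓝 (C.P a + C.P a)) :=
    cont_lim (f := fun p : ℝ × ℝ => C.P p.1 + C.P p.2) (by fun_prop) a
  have k2 : Tendsto (fun p : ℝ × ℝ => C.P p.1) (dl a) (𝓝 (C.P a)) :=
    cont_lim (f := fun p : ℝ × ℝ => C.P p.1) (by fun_prop) a
  have k3 : Tendsto (fun p : ℝ × ℝ => C.P p.2) (dl a) (𝓝 (C.P a)) :=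
    cont_lim (f := fun p : ℝ × ℝ => C.P p.2) (by fun_prop) a
  have k4 : Tendsto (fun p : ℝ × ℝ => C.P₁ p.1) (dl a) (𝓝 (C.P₁ a)) :=
    cont_lim (f := fun p : ℝ × ℝ => C.P₁ p.1) (by fun_prop) a
  have k5 : Tendsto (fun p : ℝ × ℝ => C.P₁ p.2) (dl a) (𝓝 (C.P₁ a)) :=
    cont_lim (f := fun p : ℝ × ℝ => C.P₁ p.2) (by fun_prop) a
  have h3 := (h2.add (((h1.mul (k2.div k1 (C.PP_pos a a).ne')).mul k5).add
    ((h1.mul (k3.div k1 (C.PP_pos a a).ne')).mul k4))).div k1 (C.PP_pos a a).ne'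
  have e : (C.P₁ a * C.H₁ a + C.P a * C.H₂ a + (C.H₁ a * (C.P a / (C.P a + C.P a)) * C.P₁ a +
      C.H₁ a * (C.P a / (C.P a + C.P a)) * C.P₁ a)) / (C.P a + C.P a) = C.H₁ a * C.c a / 2 := by
    unfold c
    field_simp
    ring
  rw [e] at h3
  refine h3.congr' ?_
  unfold dl
  filter_upwards [self_mem_nhdsWithin] with p hp
  have hp2 : p.2 - p.1 ≠ 0 := sub_ne_zero.mpr (Ne.symm hp)
  have h6 := (C.PP_pos p.1 p.2).ne'
  have h7 := (C.PP_pos p.2 p.1).ne'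
  simp only [Pi.div_apply, Pi.mul_apply, Pi.add_apply]
  unfold W
  rw [C.V_symm p.2 p.1, add_comm (C.P p.2) (C.P p.1)]
  unfold V
  field_simp
  ring

/-- mixed derivative -/
theorem mixed (s t : ℝ) :
    HasDerivAt (fun s => C.P₁ t * C.m (C.V s t) +
      (C.P t * C.H₁ t + (C.H t - C.V s t) * C.P₁ t) * C.m₁ (C.V s t))
      ((C.P s + C.P t) * (C.m₂ (C.V s t) * C.W s t * C.W t s)) s := by
  have h1 : HasDerivAt (fun s => C.V s t) (C.W t s) s := by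
    have := C.hasDerivAt_V (s := fun y => y) (t := fun _ => t) (hasDerivAt_id s)
      (hasDerivAt_const s t)
    simpa using this
  have h2 : HasDerivAt (fun s => C.m (C.V s t)) (C.m₁ (C.V s t) * C.W t s) s :=
    (C.hm (C.V s t)).comp s h1
  have h3 : HasDerivAt (fun s => C.m₁ (C.V s t)) (C.m₂ (C.V s t) * C.W t s) s :=
    (C.hm₁ (C.V s t)).comp s h1
  have h4 := (h2.const_mul (C.P₁ t)).add
    ((((h1.const_sub (C.H t)).mul_const (C.P₁ t)).const_add (C.P t * C.H₁ t)).mul h3)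
  refine h4.congr_deriv ?_
  have h5 : (C.P s + C.P t) * C.W s t = C.P t * C.H₁ t + (C.H t - C.V s t) * C.P₁ t := by
    unfold W
    rw [mul_div_cancel₀ _ (C.PP_pos s t).ne']
  rw [← h5]
  ring

theorem first (s t : ℝ) :
    HasDerivAt (fun t => (C.P s + C.P t) * C.m (C.V s t))
      (C.P₁ t * C.m (C.V s t) +
        (C.P t * C.H₁ t + (C.H t - C.V s t) * C.P₁ t) * C.m₁ (C.V s t)) t := by
  have h1 : HasDerivAt (fun t => C.V s t) (C.W s t) t := by
    have := C.hasDerivAt_V (s := fun _ => s) (t := fun y => y) (hasDerivAt_const t s)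
      (hasDerivAt_id t)
    simpa using this
  have h2 : HasDerivAt (fun t => C.m (C.V s t)) (C.m₁ (C.V s t) * C.W s t) t :=
    (C.hm (C.V s t)).comp t h1
  have h3 := ((C.hasDerivAt_P t).const_add (C.P s)).mul h2
  refine h3.congr_deriv ?_
  have h5 : (C.P s + C.P t) * C.W s t = C.P t * C.H₁ t + (C.H t - C.V s t) * C.P₁ t := by
    unfold W
    rw [mul_div_cancel₀ _ (C.PP_pos s t).ne']
  rw [← h5]
  ring

end Crv

/-- the second order relation -/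
theorem pde (C C' : Crv) (hΦ : ∀ s t, (C.P s + C.P t) * C.m (C.V s t) =
    (C'.P s + C'.P t) * C'.m (C'.V s t)) (s t : ℝ) :
    C.q (C.V s t) * (C.W s t * C.W t s) = C'.q (C'.V s t) * (C'.W s t * C'.W t s) := by
  have h1 : ∀ s t, C.P₁ t * C.m (C.V s t) +
        (C.P t * C.H₁ t + (C.H t - C.V s t) * C.P₁ t) * C.m₁ (C.V s t) =
      C'.P₁ t * C'.m (C'.V s t) +
        (C'.P t * C'.H₁ t + (C'.H t - C'.V s t) * C'.P₁ t) * C'.m₁ (C'.V s t) := by
    intro s t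
    have h2 := C.first s t
    have h3 := C'.first s t
    have h4 : (fun t => (C.P s + C.P t) * C.m (C.V s t)) =
      fun t => (C'.P s + C'.P t) * C'.m (C'.V s t) := funext fun t => hΦ s t
    rw [h4] at h2
    exact h2.unique h3
  have h2 := C.mixed s t
  have h3 := C'.mixed s t
  have h4 : (fun s => C.P₁ t * C.m (C.V s t) +
        (C.P t * C.H₁ t + (C.H t - C.V s t) * C.P₁ t) * C.m₁ (C.V s t)) =
      (fun s => C'.P₁ t * C'.m (C'.V s t) +
        (C'.P t * C'.H₁ t + (C'.H t - C'.V s t) * C'.P₁ t) * C'.m₁ (C'.V s t)) :=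
    funext fun s => h1 s t
  rw [h4] at h2
  have h5 := h2.unique h3
  have h6 := hΦ s t
  have m0 := (C.hm0 (C.V s t)).ne'
  have m0' := (C'.hm0 (C'.V s t)).ne'
  have hne : (C.P s + C.P t) * C.m (C.V s t) ≠ 0 :=
    mul_ne_zero (C.PP_pos s t).ne' m0
  unfold Crv.q
  have e1 : C.m₂ (C.V s t) / C.m (C.V s t) * (C.W s t * C.W t s) =
      ((C.P s + C.P t) * (C.m₂ (C.V s t) * C.W s t * C.W t s)) /
        ((C.P s + C.P t) * C.m (C.V s t)) := by
    have := (C.PP_pos s t).ne'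
    field_simp
  have e2 : C'.m₂ (C'.V s t) / C'.m (C'.V s t) * (C'.W s t * C'.W t s) =
      ((C'.P s + C'.P t) * (C'.m₂ (C'.V s t) * C'.W s t * C'.W t s)) /
        ((C'.P s + C'.P t) * C'.m (C'.V s t)) := by
    have := (C'.PP_pos s t).ne'
    field_simp
  rw [e1, e2, h5, h6]

theorem kappa_id {α β : ℝ} (hα : 0 < α) (hβ : 0 < β) :
    (α + β) / √(α * β) - 2 = (β - α) ^ 2 / (√(α * β) * (√α + √β) ^ 2) := by
  have ha := Real.sqrt_pos.mpr hα
  have hb := Real.sqrt_pos.mpr hβ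
  have h1 : √(α * β) = √α * √β := Real.sqrt_mul hα.le β
  have h2 : α = √α ^ 2 := (Real.sq_sqrt hα.le).symm
  have h3 : β = √β ^ 2 := (Real.sq_sqrt hβ.le).symm
  rw [h1]
  generalize √α = x at *
  generalize √β = y at *
  subst h2 h3
  field_simp
  ring

theorem Crv.lim_kappa (C : Crv) (a : ℝ) :
    Tendsto (fun p : ℝ × ℝ => ((C.W p.2 p.1 + C.W p.1 p.2) / √(C.W p.2 p.1 * C.W p.1 p.2) - 2) /
      (p.2 - p.1) ^ 2) (dl a) (𝓝 (C.c a ^ 2 / 4)) := by
  have hH := C.hH0 a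
  have h1 := (C.lim_diff a).pow 2
  have k1 := C.lim_W' a
  have k2 := C.lim_W a
  have k3 : Tendsto (fun p : ℝ × ℝ => √(C.W p.2 p.1 * C.W p.1 p.2)) (dl a)
      (𝓝 √(C.H₁ a / 2 * (C.H₁ a / 2))) := (k1.mul k2).sqrt
  have k4 : Tendsto (fun p : ℝ × ℝ => (√(C.W p.2 p.1) + √(C.W p.1 p.2)) ^ 2) (dl a)
      (𝓝 ((√(C.H₁ a / 2) + √(C.H₁ a / 2)) ^ 2)) := (k1.sqrt.add k2.sqrt).pow 2
  have e1 : √(C.H₁ a / 2 * (C.H₁ a / 2)) = C.H₁ a / 2 := Real.sqrt_mul_self (by positivity)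
  have e2 : (√(C.H₁ a / 2) + √(C.H₁ a / 2)) ^ 2 = 2 * C.H₁ a := by
    have : (√(C.H₁ a / 2) + √(C.H₁ a / 2)) ^ 2 = 4 * (√(C.H₁ a / 2)) ^ 2 := by ring
    rw [this, Real.sq_sqrt (by positivity)]; ring
  rw [e1] at k3
  rw [e2] at k4
  have h2 := h1.div (k3.mul k4) (by positivity)
  have e3 : (C.H₁ a * C.c a / 2) ^ 2 / (C.H₁ a / 2 * (2 * C.H₁ a)) = C.c a ^ 2 / 4 := by
    field_simp
    ring
  rw [e3] at h2
  refine h2.congr' ?_
  have p1 := k1.eventually (lt_mem_nhds (show 0 < C.H₁ a / 2 by positivity))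
  have p2 := k2.eventually (lt_mem_nhds (show 0 < C.H₁ a / 2 by positivity))
  filter_upwards [p1, p2] with p q1 q2
  simp only [Pi.div_apply]
  rw [kappa_id q1 q2, div_pow, div_div, div_div, mul_comm ((p.2 - p.1) ^ 2)]

section main
variable (C C' : Crv)

/-- the invariant root of the centro-affine metric -/
noncomputable def rt (C : Crv) (a : ℝ) : ℝ := √(C.q (C.H a)) * C.H₁ a

noncomputable def Dd (C C' : Crv) (x η : ℝ) : ℝ :=
  C'.A (C'.V (x - η) (x + η)) - C.A (C.V (x - η) (x + η)) - (C'.A (C'.H 0) - C.A (C.H 0))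

noncomputable def D₁ (C C' : Crv) (p : ℝ × ℝ) : ℝ :=
  √(C'.q (C'.V p.1 p.2)) * (C'.W p.2 p.1 + C'.W p.1 p.2) -
    √(C.q (C.V p.1 p.2)) * (C.W p.2 p.1 + C.W p.1 p.2)

noncomputable def D₂ (C C' : Crv) (p : ℝ × ℝ) : ℝ :=
  √(C'.q (C'.V p.1 p.2)) * (C'.W p.1 p.2 - C'.W p.2 p.1) -
    √(C.q (C.V p.1 p.2)) * (C.W p.1 p.2 - C.W p.2 p.1)

theorem hasDerivAt_Dd₁ (x η : ℝ) :
    HasDerivAt (fun x => Dd C C' x η) (D₁ C C' (x - η, x + η)) x := by
  have hs : HasDerivAt (fun y : ℝ => y - η) 1 x := (hasDerivAt_id x).sub_const η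
  have ht : HasDerivAt (fun y : ℝ => y + η) 1 x := (hasDerivAt_id x).add_const η
  have key : ∀ B : Crv, HasDerivAt (fun x => B.A (B.V (x - η) (x + η)))
      (√(B.q (B.V (x - η) (x + η))) * (B.W (x + η) (x - η) + B.W (x - η) (x + η))) x := by
    intro B
    have h1 := B.hasDerivAt_V hs ht
    rw [one_mul, one_mul] at h1
    exact (B.hasDerivAt_A (B.V (x - η) (x + η))).comp x h1
  exact ((key C').sub (key C)).sub_const _

theorem hasDerivAt_Dd₂ (x η : ℝ) :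
    HasDerivAt (fun η => Dd C C' x η) (D₂ C C' (x - η, x + η)) η := by
  have hs : HasDerivAt (fun y : ℝ => x - y) (-1) η := by
    simpa using (hasDerivAt_id η).const_sub x
  have ht : HasDerivAt (fun y : ℝ => x + y) 1 η := by
    simpa using (hasDerivAt_id η).const_add x
  have key : ∀ B : Crv, HasDerivAt (fun η => B.A (B.V (x - η) (x + η)))
      (√(B.q (B.V (x - η) (x + η))) * (B.W (x - η) (x + η) - B.W (x + η) (x - η))) η := by
    intro B
    have h1 := B.hasDerivAt_V hs ht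
    have h2 := (B.hasDerivAt_A (B.V (x - η) (x + η))).comp η h1
    refine h2.congr_deriv ?_
    ring
  exact ((key C').sub (key C)).sub_const _

theorem rt_cont : Continuous (rt C) :=
  ((C.q_cont.comp C.H_cont).sqrt).mul C.H₁_cont

theorem c_cont : Continuous C.c := by
  unfold Crv.c
  exact ((C.P₁_cont.div C.P_cont (fun x => (C.P_pos x).ne')).const_mul 2).add
    (C.hH₂.div C.H₁_cont (fun x => (C.hH0 x).ne'))

variable (hΦ : ∀ s t, (C.P s + C.P t) * C.m (C.V s t) = (C'.P s + C'.P t) * C'.m (C'.V s t))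
include hΦ

theorem rt_eq (a : ℝ) : rt C a = rt C' a := by
  have h1 := pde C C' hΦ a a
  rw [C.V_diag, C'.V_diag, C.W_diag, C'.W_diag] at h1
  unfold rt
  have e : ∀ B : Crv, √(B.q (B.H a)) * B.H₁ a = √(4 * (B.q (B.H a) *
      (B.H₁ a / 2 * (B.H₁ a / 2)))) := by
    intro B
    have : 4 * (B.q (B.H a) * (B.H₁ a / 2 * (B.H₁ a / 2))) = B.q (B.H a) * (B.H₁ a) ^ 2 := by
      ring
    rw [this, Real.sqrt_mul (B.q_nonneg _), Real.sqrt_sq (B.hH0 a).le]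
  rw [e C, e C', h1]

theorem lim_D₂ (a : ℝ) : Tendsto (fun p => D₂ C C' p / (p.2 - p.1)) (dl a)
    (𝓝 (rt C a * (C'.c a - C.c a) / 2)) := by
  have key : ∀ B : Crv, Tendsto (fun p : ℝ × ℝ => √(B.q (B.V p.1 p.2)) *
      ((B.W p.1 p.2 - B.W p.2 p.1) / (p.2 - p.1))) (dl a)
      (𝓝 (√(B.q (B.H a)) * (B.H₁ a * B.c a / 2))) := by
    intro B
    have h1 : Tendsto (fun p : ℝ × ℝ => √(B.q (B.V p.1 p.2))) (dl a) (𝓝 √(B.q (B.H a))) :=
      (B.q_cont.sqrt.tendsto _).comp (B.lim_V a)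
    exact h1.mul (B.lim_diff a)
  have h1 := (key C').sub (key C)
  have e : √(C'.q (C'.H a)) * (C'.H₁ a * C'.c a / 2) - √(C.q (C.H a)) * (C.H₁ a * C.c a / 2) =
      rt C a * (C'.c a - C.c a) / 2 := by
    have e1 : rt C' a = rt C a := (rt_eq C C' hΦ a).symm
    have e2 : √(C'.q (C'.H a)) * (C'.H₁ a * C'.c a / 2) = rt C' a * C'.c a / 2 := by
      unfold rt; ring
    have e3 : √(C.q (C.H a)) * (C.H₁ a * C.c a / 2) = rt C a * C.c a / 2 := by
      unfold rt; ring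
    rw [e2, e3, e1]; ring
  rw [e] at h1
  refine h1.congr fun p => ?_
  unfold D₂
  ring

theorem lim_D₁ (a : ℝ) : Tendsto (fun p => D₁ C C' p / (p.2 - p.1) ^ 2) (dl a)
    (𝓝 (rt C a * (C'.c a ^ 2 - C.c a ^ 2) / 8)) := by
  have hH := C.hH0 a
  have hH' := C'.hH0 a
  have h1 : Tendsto (fun p : ℝ × ℝ => √(C.q (C.V p.1 p.2) * (C.W p.1 p.2 * C.W p.2 p.1)))
      (dl a) (𝓝 (rt C a / 2)) := by
    have h2 : Tendsto (fun p : ℝ × ℝ => C.q (C.V p.1 p.2) * (C.W p.1 p.2 * C.W p.2 p.1)) (dl a)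
        (𝓝 (C.q (C.H a) * (C.H₁ a / 2 * (C.H₁ a / 2)))) :=
      ((C.q_cont.tendsto _).comp (C.lim_V a)).mul ((C.lim_W a).mul (C.lim_W' a))
    have h3 := h2.sqrt
    have e : √(C.q (C.H a) * (C.H₁ a / 2 * (C.H₁ a / 2))) = rt C a / 2 := by
      rw [Real.sqrt_mul (C.q_nonneg _), Real.sqrt_mul_self (by positivity)]
      unfold rt; ring
    rwa [e] at h3
  have h2 := h1.mul ((C'.lim_kappa a).sub (C.lim_kappa a))
  have e : rt C a / 2 * (C'.c a ^ 2 / 4 - C.c a ^ 2 / 4) =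
      rt C a * (C'.c a ^ 2 - C.c a ^ 2) / 8 := by ring
  rw [e] at h2
  refine h2.congr' ?_
  have p1 := (C.lim_W' a).eventually (lt_mem_nhds (show 0 < C.H₁ a / 2 by positivity))
  have p2 := (C.lim_W a).eventually (lt_mem_nhds (show 0 < C.H₁ a / 2 by positivity))
  have p3 := (C'.lim_W' a).eventually (lt_mem_nhds (show 0 < C'.H₁ a / 2 by positivity))
  have p4 := (C'.lim_W a).eventually (lt_mem_nhds (show 0 < C'.H₁ a / 2 by positivity))
  filter_upwards [p1, p2, p3, p4] with p q1 q2 q3 q4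
  have key : ∀ B : Crv, 0 < B.W p.2 p.1 → 0 < B.W p.1 p.2 →
      √(B.q (B.V p.1 p.2)) * (B.W p.2 p.1 + B.W p.1 p.2) =
      √(B.q (B.V p.1 p.2) * (B.W p.1 p.2 * B.W p.2 p.1)) *
        ((B.W p.2 p.1 + B.W p.1 p.2) / √(B.W p.2 p.1 * B.W p.1 p.2)) := by
    intro B b1 b2
    have b3 : 0 < √(B.W p.2 p.1 * B.W p.1 p.2) := Real.sqrt_pos.mpr (mul_pos b1 b2)
    rw [Real.sqrt_mul (B.q_nonneg _), mul_comm (B.W p.1 p.2) (B.W p.2 p.1)]
    field_simp
  have h3 := pde C C' hΦ p.1 p.2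
  unfold D₁
  rw [key C' q3 q4, key C q1 q2, ← h3]
  ring

theorem Dd_zero (x : ℝ) : Dd C C' x 0 = 0 := by
  have h1 : ∀ x, HasDerivAt (fun x => C'.A (C'.H x) - C.A (C.H x)) 0 x := by
    intro x
    have h2 := ((C'.hasDerivAt_A (C'.H x)).comp x (C'.hH x)).sub
      ((C.hasDerivAt_A (C.H x)).comp x (C.hH x))
    have e : √(C'.q (C'.H x)) * C'.H₁ x - √(C.q (C.H x)) * C.H₁ x = 0 :=
      sub_eq_zero.mpr (rt_eq C C' hΦ x).symm
    rw [e] at h2
    exact h2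
  have h2 := is_const_of_deriv_eq_zero (fun x => (h1 x).differentiableAt)
    (fun x => (h1 x).deriv) x 0
  unfold Dd
  rw [sub_zero, add_zero, C.V_diag, C'.V_diag]
  rw [h2, sub_self]

theorem lim_point (x : ℝ) : Tendsto (fun η => 2 * Dd C C' x η / η ^ 2) (𝓝[>] 0)
    (𝓝 (rt C x * (C'.c x - C.c x))) := by
  have htend : Tendsto (fun η : ℝ => (x - η, x + η)) (𝓝[>] 0) (dl x) := by
    unfold dl
    rw [tendsto_nhdsWithin_iff]
    constructor
    · have hc : Continuous (fun η : ℝ => (x - η, x + η)) := by fun_prop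
      have := hc.tendsto 0
      rw [sub_zero, add_zero] at this
      exact this.mono_left nhdsWithin_le_nhds
    · filter_upwards [self_mem_nhdsWithin] with η hη
      have hη : 0 < η := hη
      show x - η ≠ x + η
      intro h
      linarith
  refine HasDerivAt.lhopital_zero_nhdsGT (f' := fun η => 2 * D₂ C C' (x - η, x + η))
    (g' := fun η => 2 * η) ?_ ?_ ?_ ?_ ?_ ?_
  · exact Eventually.of_forall fun η => (hasDerivAt_Dd₂ C C' x η).const_mul 2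
  · refine Eventually.of_forall fun η => ?_
    simpa using hasDerivAt_pow 2 η
  · filter_upwards [self_mem_nhdsWithin] with η hη
    have hη : 0 < η := hη
    positivity
  · have h1 := ((hasDerivAt_Dd₂ C C' x 0).const_mul 2).continuousAt.tendsto
    rw [Dd_zero C C' hΦ x, mul_zero] at h1
    exact h1.mono_left nhdsWithin_le_nhds
  · have hc : Continuous (fun η : ℝ => η ^ 2) := by fun_prop
    have := hc.tendsto 0
    simp only [ne_eq, OfNat.ofNat_ne_zero, not_false_eq_true, zero_pow] at this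
    exact this.mono_left nhdsWithin_le_nhds
  · have h1 := ((lim_D₂ C C' hΦ x).comp htend).const_mul 2
    have e : 2 * (rt C x * (C'.c x - C.c x) / 2) = rt C x * (C'.c x - C.c x) := by ring
    rw [e] at h1
    refine h1.congr' ?_
    filter_upwards [self_mem_nhdsWithin] with η hη
    have hη : 0 < η := hη
    simp only [Function.comp_apply]
    have e2 : x + η - (x - η) = 2 * η := by ring
    rw [e2]
    field_simp

theorem hasDerivAt_E (x : ℝ) : HasDerivAt (fun x => rt C x * (C'.c x - C.c x))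
    (rt C x * (C'.c x ^ 2 - C.c x ^ 2)) x := by
  refine hasDerivAt_of_tendstoLocallyUniformlyOn (l := 𝓝[>] (0 : ℝ)) (s := univ)
    (f := fun η x => 2 * Dd C C' x η / η ^ 2)
    (f' := fun η x => 2 * D₁ C C' (x - η, x + η) / η ^ 2)
    (g' := fun x => rt C x * (C'.c x ^ 2 - C.c x ^ 2)) isOpen_univ ?_ ?_ ?_ (mem_univ x)
  · rw [tendstoLocallyUniformlyOn_univ, tendstoLocallyUniformly_iff_forall_tendsto]
    intro a
    have htend : Tendsto (fun y : ℝ × ℝ => (y.2 - y.1, y.2 + y.1)) (𝓝[>] 0 ×ˢ 𝓝 a) (dl a) := by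
      unfold dl
      rw [tendsto_nhdsWithin_iff]
      constructor
      · have hc : Continuous (fun y : ℝ × ℝ => (y.2 - y.1, y.2 + y.1)) := by fun_prop
        have := hc.tendsto (0, a)
        simp only [sub_zero, add_zero] at this
        refine this.mono_left ?_
        rw [nhds_prod_eq]
        exact Filter.prod_mono nhdsWithin_le_nhds le_rfl
      · have h1 : ∀ᶠ y : ℝ × ℝ in 𝓝[>] 0 ×ˢ 𝓝 a, 0 < y.1 :=
          Filter.tendsto_fst.eventually (self_mem_nhdsWithin (s := Ioi (0 : ℝ)) (a := (0 : ℝ)))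
        filter_upwards [h1] with y hy
        show y.2 - y.1 ≠ y.2 + y.1
        intro h
        linarith
    have h1 : Tendsto (fun y : ℝ × ℝ => 2 * D₁ C C' (y.2 - y.1, y.2 + y.1) / y.1 ^ 2)
        (𝓝[>] 0 ×ˢ 𝓝 a) (𝓝 (rt C a * (C'.c a ^ 2 - C.c a ^ 2))) := by
      have h2 := ((lim_D₁ C C' hΦ a).comp htend).const_mul 8
      have e : 8 * (rt C a * (C'.c a ^ 2 - C.c a ^ 2) / 8) =
          rt C a * (C'.c a ^ 2 - C.c a ^ 2) := by ring
      rw [e] at h2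
      refine h2.congr' ?_
      have h1 : ∀ᶠ y : ℝ × ℝ in 𝓝[>] 0 ×ˢ 𝓝 a, 0 < y.1 :=
        Filter.tendsto_fst.eventually (self_mem_nhdsWithin (s := Ioi (0 : ℝ)) (a := (0 : ℝ)))
      filter_upwards [h1] with y hy
      simp only [Function.comp_apply]
      have e2 : y.2 + y.1 - (y.2 - y.1) = 2 * y.1 := by ring
      rw [e2]
      field_simp
      ring
    have h2 : Tendsto (fun y : ℝ × ℝ => rt C y.2 * (C'.c y.2 ^ 2 - C.c y.2 ^ 2))
        (𝓝[>] 0 ×ˢ 𝓝 a) (𝓝 (rt C a * (C'.c a ^ 2 - C.c a ^ 2))) := by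
      have hc : Continuous (fun x => rt C x * (C'.c x ^ 2 - C.c x ^ 2)) :=
        (rt_cont C).mul (((c_cont C').pow 2).sub ((c_cont C).pow 2))
      exact (hc.tendsto a).comp Filter.tendsto_snd
    have h3 := h2.prodMk_nhds h1
    exact h3.mono_right (nhds_le_uniformity _)
  · refine Eventually.of_forall fun η x _ => ?_
    exact ((hasDerivAt_Dd₁ C C' x η).const_mul 2).div_const _
  · intro y _
    exact lim_point C C' hΦ y

theorem E_const (s₀ : ℝ) (h0 : C'.c s₀ - C.c s₀ = 0) (x : ℝ) :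
    rt C x * (C'.c x - C.c x) = 0 := by
  have hw : ∀ B : Crv, ∀ x, HasDerivAt (fun x => B.P x ^ 2 * B.H₁ x)
      (B.c x * (B.P x ^ 2 * B.H₁ x)) x := by
    intro B x
    have h1 := ((B.hasDerivAt_P x).pow 2).mul (B.hH₁ x)
    refine h1.congr_deriv ?_
    have p1 := (B.P_pos x).ne'
    have p2 := (B.hH0 x).ne'
    unfold Crv.c
    simp only [Pi.pow_apply]
    field_simp
    push_cast
    ring
  have hwpos : ∀ B : Crv, ∀ x, 0 < B.P x ^ 2 * B.H₁ x := fun B x => by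
    have p1 := B.P_pos x
    have p2 := B.hH0 x
    positivity
  have hK : ∀ x, HasDerivAt (fun x => rt C x * (C'.c x - C.c x) /
      ((C.P x ^ 2 * C.H₁ x) * (C'.P x ^ 2 * C'.H₁ x))) 0 x := by
    intro x
    have h1 := (hasDerivAt_E C C' hΦ x).div ((hw C x).mul (hw C' x))
      (mul_pos (hwpos C x) (hwpos C' x)).ne'
    refine h1.congr_deriv ?_
    rw [div_eq_zero_iff]
    left
    simp only [Pi.mul_apply]
    ring
  have h1 := is_const_of_deriv_eq_zero (fun x => (hK x).differentiableAt)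
    (fun x => (hK x).deriv) x s₀
  rw [h0, mul_zero, zero_div, div_eq_zero_iff] at h1
  rcases h1 with h | h
  · exact h
  · exact absurd h (mul_pos (hwpos C x) (hwpos C' x)).ne'

theorem q_zero (s₀ : ℝ) (h0 : C'.c s₀ - C.c s₀ = 0) (x : ℝ) :
    C.m₂ (C.H x) * (C'.c x - C.c x) = 0 := by
  have h1 := E_const C C' hΦ s₀ h0 x
  rcases mul_eq_zero.mp h1 with h | h
  · unfold rt at h
    rcases mul_eq_zero.mp h with h2 | h2
    · rw [Real.sqrt_eq_zero (C.q_nonneg _)] at h2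
      unfold Crv.q at h2
      rw [div_eq_zero_iff] at h2
      rcases h2 with h3 | h3
      · rw [h3, zero_mul]
      · exact absurd h3 (C.hm0 _).ne'
    · exact absurd h2 (C.hH0 _).ne'
  · rw [h, mul_zero]

end main

theorem one_dim (n n₁ n₂ m m₁ m₂ H H₁ H₂ : ℝ → ℝ)
    (hn : ∀ s, HasDerivAt n (n₁ s) s) (hn₁ : ∀ s, HasDerivAt n₁ (n₂ s) s)
    (hn₂ : Continuous n₂) (hn0 : ∀ s, 0 < n s) (hn20 : ∀ s, 0 ≤ n₂ s)
    (hm : ∀ s, HasDerivAt m (m₁ s) s) (hm₁ : ∀ s, HasDerivAt m₁ (m₂ s) s)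
    (hm₂ : Continuous m₂) (hm0 : ∀ s, 0 < m s) (hm20 : ∀ s, 0 ≤ m₂ s)
    (hH : ∀ s, HasDerivAt H (H₁ s) s) (hH₁ : ∀ s, HasDerivAt H₁ (H₂ s) s)
    (hH₂ : Continuous H₂) (hH0 : ∀ s, 0 < H₁ s)
    (hiso : ∀ s t, ((n s)⁻¹ + (n t)⁻¹) *
        n ((s * (n s)⁻¹ + t * (n t)⁻¹) / ((n s)⁻¹ + (n t)⁻¹)) =
      ((m (H s))⁻¹ + (m (H t))⁻¹) *
        m ((H s * (m (H s))⁻¹ + H t * (m (H t))⁻¹) / ((m (H s))⁻¹ + (m (H t))⁻¹)))
    (s₀ : ℝ) (h0 : H₂ s₀ / H₁ s₀ - 2 * (m₁ (H s₀) * H₁ s₀ / m (H s₀)) + 2 * (n₁ s₀ / n s₀) = 0) :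
    ∀ s, n₂ s * (H₂ s / H₁ s - 2 * (m₁ (H s) * H₁ s / m (H s)) + 2 * (n₁ s / n s)) = 0 := by
  intro s
  let C : Crv := ⟨n, n₁, n₂, fun x => x, fun _ => 1, fun _ => 0, hn, hn₁, hn₂, hn0, hn20,
    fun x => hasDerivAt_id x, fun x => hasDerivAt_const x 1, continuous_const,
    fun _ => one_pos⟩
  let C' : Crv := ⟨m, m₁, m₂, H, H₁, H₂, hm, hm₁, hm₂, hm0, hm20, hH, hH₁, hH₂, hH0⟩
  have hc : ∀ x, C'.c x - C.c x =
      H₂ x / H₁ x - 2 * (m₁ (H x) * H₁ x / m (H x)) + 2 * (n₁ x / n x) := by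
    intro x
    show 2 * ((-(m₁ (H x) * H₁ x) * ((m (H x))⁻¹) ^ 2) / (m (H x))⁻¹) + H₂ x / H₁ x -
      (2 * ((-(n₁ x * 1) * ((n x)⁻¹) ^ 2) / (n x)⁻¹) + 0 / 1) = _
    have h1 := (hm0 (H x)).ne'
    have h2 := (hn0 x).ne'
    have h3 := (hH0 x).ne'
    field_simp
    ring
  have h1 := q_zero C C' (fun s t => hiso s t) s₀ (by rw [hc]; exact h0) s
  rw [hc] at h1
  exact h1

end Vale.Agent.P084
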