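import Mathlib

open Metric Set Filter Topology MeasureTheory Module

namespace Vale.Agent.P084

/-- The map `P_a(z) = ‖z‖ a + z`. -/
def P {Z : Type*} [NormedAddCommGroup Z] [NormedSpace ℝ Z] (a z : Z) : Z := ‖z‖ • a + z

theorem P_key {Z : Type*} [NormedAddCommGroup Z] [NormedSpace ℝ Z] [StrictConvexSpace ℝ Z]
    {a z₀ : Z} (ha : ‖a‖ = 1) (hz : ¬ SameRay ℝ z₀ (-a)) :
    ∃ c : ℝ, 0 < c ∧ ∃ U ∈ 𝓝 z₀, ∀ z ∈ U, ∀ τ : ℝ, 0 ≤ τ → ‖z‖ - (1 - c) * τ ≤ ‖z + τ • a‖ := by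
  have h1 : ‖z₀ - a‖ < ‖z₀‖ + 1 := by
    have := (not_sameRay_iff_norm_add_lt).1 hz
    rwa [norm_neg, ha, ← sub_eq_add_neg] at this
  refine ⟨(‖z₀‖ + 1 - ‖z₀ - a‖) / 2, by linarith, {z | ‖z - a‖ - ‖z‖ < 1 - (‖z₀‖ + 1 - ‖z₀ - a‖) / 2},
    ?_, ?_⟩
  · refine IsOpen.mem_nhds ?_ ?_
    · exact isOpen_lt (by fun_prop) continuous_const
    · simp only [mem_ofPred_eq]; linarith
  · intro z hzU τ hτ
    simp only [mem_ofPred_eq] at hzU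
    have h2 : (1 + τ) * ‖z‖ ≤ ‖z + τ • a‖ + τ * ‖z - a‖ := by
      have h3 : (1 + τ) • z = (z + τ • a) + τ • (z - a) := by
        rw [add_smul, one_smul, smul_sub]; abel
      have h4 : ‖(1 + τ) • z‖ = (1 + τ) * ‖z‖ := by
        rw [norm_smul, Real.norm_eq_abs, abs_of_nonneg (by linarith)]
      rw [← h4, h3]
      refine (norm_add_le _ _).trans ?_
      rw [norm_smul τ, Real.norm_eq_abs, abs_of_nonneg hτ]
    nlinarith

theorem P_antilipschitz {Z : Type*} [NormedAddCommGroup Z] [NormedSpace ℝ Z] [StrictConvexSpace ℝ Z]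
    {a z₀ : Z} (ha : ‖a‖ = 1) (hz : ¬ SameRay ℝ z₀ (-a)) :
    ∃ K : NNReal, ∃ U ∈ 𝓝 z₀, ∀ z ∈ U, ∀ w ∈ U, ‖z - w‖ ≤ K * ‖P a z - P a w‖ := by
  obtain ⟨c, hc, U, hU, hkey⟩ := P_key ha hz
  have main : ∀ z ∈ U, ∀ w ∈ U, ‖w‖ ≤ ‖z‖ → ‖z - w‖ ≤ (1 + 1 / c) * ‖P a z - P a w‖ := by
    intro z hz w hw hwz
    set τ := ‖z‖ - ‖w‖ with hτ
    have hτ0 : 0 ≤ τ := sub_nonneg.2 hwz
    set e := P a z - P a w with he
    have h1 : w = z + τ • a - e := by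
      simp only [he, P, hτ, sub_smul]; abel
    have h2 := hkey z hz τ hτ0
    have h3 : ‖z + τ • a‖ ≤ ‖w‖ + ‖e‖ := by
      have : z + τ • a = w + e := by rw [h1]; abel
      rw [this]; exact norm_add_le _ _
    have h4 : c * τ ≤ ‖e‖ := by nlinarith
    have h5 : ‖z - w‖ ≤ ‖e‖ + τ := by
      have : z - w = e - τ • a := by rw [h1]; abel
      rw [this]
      refine (norm_sub_le _ _).trans ?_
      rw [norm_smul, ha, mul_one, Real.norm_eq_abs, abs_of_nonneg hτ0]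
    have h6 : τ ≤ ‖e‖ / c := by rw [le_div_iff₀ hc]; linarith
    calc ‖z - w‖ ≤ ‖e‖ + ‖e‖ / c := by linarith
      _ = (1 + 1 / c) * ‖e‖ := by ring
  refine ⟨⟨1 + 1 / c, by positivity⟩, U, hU, fun z hz w hw => ?_⟩
  rcases le_total ‖w‖ ‖z‖ with h | h
  · exact main z hz w hw h
  · rw [norm_sub_rev z w, norm_sub_rev (P a z)]
    exact main w hw z hz h

theorem P_nhds_le {Z : Type*} [NormedAddCommGroup Z] [NormedSpace ℝ Z] [StrictConvexSpace ℝ Z]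
    {a z₀ : Z} (ha : ‖a‖ = 1) (hz : ¬ SameRay ℝ z₀ (-a)) :
    𝓝 (P a z₀) ≤ map (P a) (𝓝 z₀) := by
  obtain ⟨c, hc, U, hU, hkey⟩ := P_key ha hz
  intro V hV
  rw [mem_map, Metric.mem_nhds_iff] at hV
  obtain ⟨ε, hε, hεV⟩ := hV
  have hz0 : z₀ ≠ 0 := by
    rintro rfl
    exact hz (SameRay.zero_left _)
  have hn : 0 < ‖z₀‖ := norm_pos_iff.2 hz0
  obtain ⟨δ, hδ0, hδ1, hδ2⟩ : ∃ δ : ℝ, 0 < δ ∧ δ ≤ ε / 2 ∧ δ ≤ ‖z₀‖ / 2 :=
    ⟨min (ε / 2) (‖z₀‖ / 2), lt_min (by linarith) (by linarith), min_le_left _ _, min_le_right _ _⟩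
  set τ₀ := ‖z₀‖ with hτ₀
  have hP : P a z₀ = τ₀ • a + z₀ := rfl
  have hq1 : ‖P a z₀ - (τ₀ + δ) • a‖ - (τ₀ + δ) < 0 := by
    have h1 : P a z₀ - (τ₀ + δ) • a = z₀ + δ • (-a) := by
      rw [hP, add_smul, smul_neg]; abel
    have h2 : ¬ SameRay ℝ z₀ (δ • (-a)) := by
      intro h
      have h3 := h.nonneg_smul_right (inv_nonneg.2 hδ0.le)
      rw [smul_smul, inv_mul_cancel₀ hδ0.ne', one_smul] at h3
      exact hz h3
    have h3 := (not_sameRay_iff_norm_add_lt).1 h2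
    rw [norm_smul, norm_neg, ha, mul_one, Real.norm_eq_abs, abs_of_pos hδ0] at h3
    rw [h1]; linarith
  have hq2 : 0 < ‖P a z₀ - (τ₀ - δ) • a‖ - (τ₀ - δ) := by
    have h1 : P a z₀ - (τ₀ - δ) • a = z₀ + δ • a := by
      rw [hP, sub_smul]; abel
    have h2 := hkey z₀ (mem_of_mem_nhds hU) δ hδ0.le
    rw [h1]
    have : 0 < c * δ := mul_pos hc hδ0
    linarith
  have hev1 : ∀ᶠ w in 𝓝 (P a z₀), ‖w - (τ₀ + δ) • a‖ - (τ₀ + δ) < 0 := by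
    have hc : Continuous fun w : Z => ‖w - (τ₀ + δ) • a‖ - (τ₀ + δ) := by fun_prop
    exact hc.continuousAt.eventually_lt continuousAt_const hq1
  have hev2 : ∀ᶠ w in 𝓝 (P a z₀), 0 < ‖w - (τ₀ - δ) • a‖ - (τ₀ - δ) := by
    have hc : Continuous fun w : Z => ‖w - (τ₀ - δ) • a‖ - (τ₀ - δ) := by fun_prop
    exact continuousAt_const.eventually_lt hc.continuousAt hq2
  have hev3 : ∀ᶠ w in 𝓝 (P a z₀), dist w (P a z₀) < ε / 2 := by
    exact Metric.ball_mem_nhds _ (by linarith)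
  filter_upwards [hev1, hev2, hev3] with w hw1 hw2 hw3
  have hcont : ContinuousOn (fun τ : ℝ => ‖w - τ • a‖ - τ) (Icc (τ₀ - δ) (τ₀ + δ)) := by
    fun_prop
  have hmem : (0 : ℝ) ∈ Icc ((fun τ : ℝ => ‖w - τ • a‖ - τ) (τ₀ + δ))
      ((fun τ : ℝ => ‖w - τ • a‖ - τ) (τ₀ - δ)) := ⟨hw1.le, hw2.le⟩
  obtain ⟨τ, hτ, hτ'⟩ := intermediate_value_Icc' (by linarith) hcont hmem
  simp only at hτ'
  have hnorm : ‖w - τ • a‖ = τ := by linarith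
  have hPz : P a (w - τ • a) = w := by
    simp only [P, hnorm]; abel
  rw [← hPz]
  refine hεV ?_
  rw [mem_ball, dist_eq_norm]
  have h1 : w - τ • a - z₀ = (w - P a z₀) + (τ₀ - τ) • a := by
    rw [hP, sub_smul]; abel
  rw [h1]
  refine lt_of_le_of_lt (norm_add_le _ _) ?_
  rw [norm_smul, ha, mul_one, Real.norm_eq_abs]
  have h2 : |τ₀ - τ| ≤ δ := by
    rw [abs_le]; constructor <;> linarith [hτ.1, hτ.2]
  rw [dist_eq_norm] at hw3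
  linarith

theorem P_preimage_null {Z : Type*} [NormedAddCommGroup Z] [NormedSpace ℝ Z]
    [FiniteDimensional ℝ Z] [StrictConvexSpace ℝ Z] [MeasurableSpace Z] [BorelSpace Z]
    {a : Z} (ha : ‖a‖ = 1) {A : Set Z} (hA : μH[(finrank ℝ Z : ℝ)] A = 0) :
    μH[(finrank ℝ Z : ℝ)] {z | ¬ SameRay ℝ z (-a) ∧ P a z ∈ A} = 0 := by
  refine measure_null_of_locally_null _ fun z₀ hz₀ => ?_
  obtain ⟨K, U, hU, hK⟩ := P_antilipschitz ha hz₀.1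
  refine ⟨{z | ¬ SameRay ℝ z (-a) ∧ P a z ∈ A} ∩ U, inter_mem self_mem_nhdsWithin
    (mem_nhdsWithin_of_mem_nhds hU), ?_⟩
  have hanti : AntilipschitzWith K (fun z : U => P a (z : Z)) := by
    refine AntilipschitzWith.of_le_mul_dist fun z w => ?_
    have := hK z z.2 w w.2
    rw [← dist_eq_norm, ← dist_eq_norm] at this
    exact this
  have h1 := hanti.hausdorffMeasure_preimage_le (d := (finrank ℝ Z : ℝ)) (by positivity) A
  rw [hA, mul_zero] at h1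
  have h2 : μH[(finrank ℝ Z : ℝ)] ((fun z : U => (z : Z)) '' ((fun z : U => P a (z : Z)) ⁻¹' A)) = 0 := by
    rw [isometry_subtype_coe.hausdorffMeasure_image (Or.inl (by positivity))]
    exact le_antisymm h1 zero_le
  refine measure_mono_null ?_ h2
  rintro z ⟨⟨_, hz⟩, hzU⟩
  exact ⟨⟨z, hzU⟩, hz, rfl⟩

end Vale.Agent.P084
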