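import Vale.Agent.P084.Final3

open Metric Set Filter Topology MeasureTheory Module Asymptotics

namespace Vale.Agent.P084

variable {X Y : Type*} [NormedAddCommGroup X] [NormedSpace ℝ X]
    [NormedAddCommGroup Y] [NormedSpace ℝ Y] [FiniteDimensional ℝ X] [FiniteDimensional ℝ Y]

/-- coordinates in the plane -/
theorem exists_coords (hdim : finrank ℝ X = 2) {a z : X}
    (h : ∀ s t : ℝ, s • a + t • z = 0 → s = 0 ∧ t = 0) :
    ∃ α β : X →L[ℝ] ℝ, (∀ x, x = α x • a + β x • z) ∧ α a = 1 ∧ β a = 0 ∧ α z = 0 ∧ β z = 1 := by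
  have hli : LinearIndependent ℝ ![a, z] := LinearIndependent.pair_iff.mpr h
  let b := basisOfLinearIndependentOfCardEqFinrank hli (by simp [hdim])
  have hb0 : b 0 = a := by simp [b]
  have hb1 : b 1 = z := by simp [b]
  refine ⟨(b.coord 0).toContinuousLinearMap, (b.coord 1).toContinuousLinearMap, ?_, ?_, ?_, ?_, ?_⟩
  · intro x
    have h1 := b.sum_repr x
    rw [Fin.sum_univ_two, hb0, hb1] at h1
    exact h1.symm
  · show b.coord 0 a = 1
    rw [← hb0]; simp
  · show b.coord 1 a = 0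
    rw [← hb0]; simp
  · show b.coord 0 z = 0
    rw [← hb1]; simp
  · show b.coord 1 z = 1
    rw [← hb1]; simp

/-- In the plane, a unit vector `a` with `‖‖z‖a + z‖ + ‖‖z‖a - z‖ ≤ 2‖z‖` for some transversal `z`
is a smooth point. -/
theorem smooth_of_sum (hdim : finrank ℝ X = 2) {a z : X} (ha : ‖a‖ = 1)
    (h : ∀ s t : ℝ, s • a + t • z = 0 → s = 0 ∧ t = 0)
    (hs : ‖‖z‖ • a + z‖ + ‖‖z‖ • a - z‖ ≤ 2 * ‖z‖) : a ∈ Sm X := by
  have ha0 : a ≠ 0 := ne_zero_of_unit ha
  have hz0 : z ≠ 0 := by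
    rintro rfl
    have := (h 0 1 (by simp)).2
    exact one_ne_zero this
  have hz : 0 < ‖z‖ := norm_pos_iff.mpr hz0
  obtain ⟨α, β, hab, hαa, hβa, -, -⟩ := exists_coords hdim h
  obtain ⟨ψ, hψ1, hψa⟩ := exists_dual_vector ℝ a (norm_ne_zero_iff.mpr ha0)
  have hψa : ψ a = 1 := by rw [hψa]; simp [ha]
  have hψle : ∀ x, ψ x ≤ ‖x‖ := by
    intro x
    have h1 := ψ.le_opNorm x
    rw [hψ1, one_mul] at h1
    exact (le_abs_self _).trans h1
  have h1 := hψle (‖z‖ • a + z)
  have h2 := hψle (‖z‖ • a - z)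
  have e1 : ψ (‖z‖ • a + z) = ‖z‖ + ψ z := by
    rw [_root_.map_add, _root_.map_smul, hψa, smul_eq_mul, mul_one]
  have e2 : ψ (‖z‖ • a - z) = ‖z‖ - ψ z := by
    rw [_root_.map_sub, _root_.map_smul, hψa, smul_eq_mul, mul_one]
  have h3 : ψ (‖z‖ • a + z) = ‖‖z‖ • a + z‖ := by linarith
  have h4 : ψ (‖z‖ • a - z) = ‖‖z‖ • a - z‖ := by linarith
  -- near `a` the norm is `ψ`
  have hnear : ∀ᶠ x in 𝓝 a, ‖x‖ = ψ x := by
    have c1 : ∀ᶠ x in 𝓝 a, 0 < α x / ‖z‖ + β x := by
      have hc : Continuous (fun x : X => α x / ‖z‖ + β x) := by fun_prop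
      refine (hc.tendsto a).eventually (lt_mem_nhds ?_)
      rw [hαa, hβa]; positivity
    have c2 : ∀ᶠ x in 𝓝 a, 0 < α x / ‖z‖ - β x := by
      have hc : Continuous (fun x : X => α x / ‖z‖ - β x) := by fun_prop
      refine (hc.tendsto a).eventually (lt_mem_nhds ?_)
      rw [hαa, hβa, sub_zero]; positivity
    filter_upwards [c1, c2] with x d1 d2
    set p := (α x / ‖z‖ + β x) / 2 with hp
    set q := (α x / ‖z‖ - β x) / 2 with hq
    have hp0 : 0 < p := by positivity
    have hq0 : 0 < q := by positivity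
    have ex : x = p • (‖z‖ • a + z) + q • (‖z‖ • a - z) := by
      have e3 : p • (‖z‖ • a + z) + q • (‖z‖ • a - z) = ((p + q) * ‖z‖) • a + (p - q) • z := by
        rw [smul_add, smul_sub, smul_smul, smul_smul, add_mul, add_smul, sub_smul]; abel
      have e4 : (p + q) * ‖z‖ = α x := by rw [hp, hq]; field_simp; ring
      have e5 : p - q = β x := by rw [hp, hq]; ring
      rw [e3, e4, e5]
      exact hab x
    apply le_antisymm _ (hψle x)
    have e6 : ψ x = p * ‖‖z‖ • a + z‖ + q * ‖‖z‖ • a - z‖ := by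
      conv_lhs => rw [ex]
      rw [_root_.map_add, _root_.map_smul, _root_.map_smul, h3, h4, smul_eq_mul, smul_eq_mul]
    rw [e6]
    conv_lhs => rw [ex]
    refine (norm_add_le _ _).trans ?_
    rw [norm_smul, norm_smul, Real.norm_of_nonneg hp0.le, Real.norm_of_nonneg hq0.le]
  exact (ψ.differentiableAt (x := a)).congr_of_eventuallyEq hnear

theorem SphMap.face_eq (S : SphMap X Y) {a y : X} (ha : ‖a‖ = 1) (hy : ‖y‖ = 1)
    (h : ‖a + y‖ = 2) : S.F y = S.T1 a y := by
  have ha0 : a ≠ 0 := ne_zero_of_unit ha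
  have h1 : HasDerivWithinAt (fun t : ℝ => S.F (a + t • (y - a))) (S.T1 a (y - a)) (Ici 0) 0 :=
    (comp_line (S.diff ha0).hasFDerivAt (y - a)).hasDerivWithinAt
  have h2 : HasDerivWithinAt (fun t : ℝ => S.F (a + t • (y - a))) (S.F y - S.F a) (Ici 0) 0 := by
    have h3 : HasDerivWithinAt (fun t : ℝ => S.F a + t • (S.F y - S.F a)) (S.F y - S.F a)
        (Ici 0) 0 := (hasDerivAt_line (S.F a) (S.F y - S.F a)).hasDerivWithinAt
    refine h3.congr_of_eventuallyEq ?_ ?_
    · filter_upwards [Icc_mem_nhdsGE (show (0 : ℝ) < 1 from one_pos)] with t ht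
      exact S.affine a y ha hy h t ht
    · simp
  have h3 := (uniqueDiffWithinAt_Ici (0 : ℝ)).eq_deriv _ h1 h2
  rw [_root_.map_sub, S.T1_self' ha0] at h3
  exact (sub_left_inj.mp h3).symm

/-- **The plane, nonsmooth case.** -/
theorem SphMap.lin_of_nonsmooth_two (S : SphMap X Y) (hdim : finrank ℝ X = 2) {a : X}
    (ha : ‖a‖ = 1) (hns : a ∉ Sm X) : S.Lin := by
  have ha0 : a ≠ 0 := ne_zero_of_unit ha
  have hFR := S.frt ha hns
  set T := S.T1 a with hT
  have hTa : T a = S.F a := S.T1_self' ha0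
  obtain ⟨e, he, -⟩ := hFR.exists_equiv ha
  -- the two-sided good points
  have key : ∀ z : X, z ∈ S.good a → -z ∈ S.good a → S.F z = T z := by
    intro z hz hz'
    by_contra hne
    have hz0 : z ≠ 0 := Wset_ne_zero hz.1
    have hzn : 0 < ‖z‖ := norm_pos_iff.mpr hz0
    obtain ⟨d1, d1', r1⟩ := hFR.2.2 z hz
    obtain ⟨d2, d2', r2⟩ := hFR.2.2 (-z) hz'
    set φ₁ := N1 (P a z) with hφ₁
    set φ₂ := N1 (P a (-z)) with hφ₂
    set z' := e.symm (S.F z) with hz'def
    have hTz' : T z' = S.F z := by rw [← he, hz'def, e.apply_symm_apply]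
    have hP1 : P a z = ‖z‖ • a + z := rfl
    have hP2 : P a (-z) = ‖z‖ • a - z := by unfold P; rw [norm_neg, sub_eq_add_neg]
    have k1 : φ₁ (z' - z) = 0 := by
      have s1 : P (S.F a) (S.F z) = T (‖z‖ • a + z') := by
        unfold P
        rw [_root_.map_add, _root_.map_smul, hTa, hTz', S.norm_map]
      have s2 := N1_self d1'
      rw [S.norm_P ha] at s2
      nth_rewrite 2 [s1] at s2
      rw [r1] at s2
      have s3 := N1_self d1
      rw [← hφ₁, hP1] at s3
      rw [hP1, _root_.map_add] at s2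
      rw [_root_.map_add] at s3
      rw [_root_.map_sub]
      linarith
    have k2 : φ₂ (z' - z) = 0 := by
      have s1 : P (S.F a) (S.F (-z)) = T (‖z‖ • a - z') := by
        unfold P
        rw [_root_.map_sub, _root_.map_smul, hTa, hTz', S.norm_map, S.map_neg, norm_neg,
          sub_eq_add_neg]
      have s2 := N1_self d2'
      rw [S.norm_P ha] at s2
      nth_rewrite 2 [s1] at s2
      rw [r2] at s2
      have s3 := N1_self d2
      rw [← hφ₂, hP2] at s3
      rw [hP2, _root_.map_sub] at s2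
      rw [_root_.map_sub] at s3
      rw [_root_.map_sub]
      linarith
    have hd : z' - z ≠ 0 := by
      intro h0
      apply hne
      rw [← hTz', sub_eq_zero.mp h0]
    have hw1 : φ₁ (‖z‖ • a + z) = ‖‖z‖ • a + z‖ := by
      have := N1_self d1; rwa [← hφ₁, hP1] at this
    have hw2 : φ₂ (‖z‖ • a - z) = ‖‖z‖ • a - z‖ := by
      have := N1_self d2; rwa [← hφ₂, hP2] at this
    have hP0 : ∀ y : X, y ∈ Wset a → 0 < ‖P a y‖ := by
      intro y hy
      rw [norm_pos_iff]
      intro h0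
      exact zero_notMem_Ccone (h0 ▸ P_mem_Ccone ha hy)
    have hw1pos : 0 < ‖‖z‖ • a + z‖ := by rw [← hP1]; exact hP0 z hz.1
    have hw2pos : 0 < ‖‖z‖ • a - z‖ := by rw [← hP2]; exact hP0 (-z) hz'.1
    have hind : ∀ s t : ℝ, s • (z' - z) + t • (‖z‖ • a + z) = 0 → s = 0 ∧ t = 0 := by
      intro s t hst
      have h1 := congrArg φ₁ hst
      rw [_root_.map_add, _root_.map_smul, _root_.map_smul, k1, hw1, smul_zero, zero_add,
        _root_.map_zero, smul_eq_mul] at h1
      have ht : t = 0 := (mul_eq_zero.mp h1).resolve_right hw1pos.ne'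
      rw [ht, zero_smul, add_zero] at hst
      exact ⟨(smul_eq_zero.mp hst).resolve_right hd, ht⟩
    obtain ⟨α, β, hab, -, -, -, -⟩ := exists_coords hdim hind
    set c := φ₂ (‖z‖ • a + z) / ‖‖z‖ • a + z‖ with hc
    have hprop : ∀ x, φ₂ x = c * φ₁ x := by
      intro x
      have h1 : φ₁ x = β x * ‖‖z‖ • a + z‖ := by
        conv_lhs => rw [hab x]
        rw [_root_.map_add, _root_.map_smul, _root_.map_smul, k1, hw1, smul_zero, zero_add,
          smul_eq_mul]
      have h2 : φ₂ x = β x * φ₂ (‖z‖ • a + z) := by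
        conv_lhs => rw [hab x]
        rw [_root_.map_add, _root_.map_smul, _root_.map_smul, k2, smul_zero, zero_add,
          smul_eq_mul]
      rw [h1, h2, hc]
      field_simp
    have hle1 : ∀ x, φ₁ x ≤ ‖x‖ := N1_apply_le _
    have hle2 : ∀ x, φ₂ x ≤ ‖x‖ := N1_apply_le _
    have hle1' : ∀ x, -φ₁ x ≤ ‖x‖ := fun x => by
      have := hle1 (-x); rwa [_root_.map_neg, norm_neg] at this
    have hle2' : ∀ x, -φ₂ x ≤ ‖x‖ := fun x => by
      have := hle2 (-x); rwa [_root_.map_neg, norm_neg] at this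
    have hc1 : c ≤ 1 := by
      rw [hc, div_le_one hw1pos]; exact hle2 _
    have hc2 : -1 ≤ c := by
      rw [hc, le_div_iff₀ hw1pos]; linarith [hle2' (‖z‖ • a + z)]
    have hc3 : c = 1 ∨ c = -1 := by
      have h1 := hprop (‖z‖ • a - z)
      rw [hw2] at h1
      have h2 := hle1 (‖z‖ • a - z)
      have h3 := hle1' (‖z‖ • a - z)
      rcases le_total 0 c with h0 | h0
      · left
        by_contra hlt
        have hlt : c < 1 := lt_of_le_of_ne hc1 hlt
        nlinarith
      · right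
        by_contra hlt
        have hlt : -1 < c := lt_of_le_of_ne hc2 (Ne.symm hlt)
        nlinarith
    have hsum : ‖‖z‖ • a + z‖ + ‖‖z‖ • a - z‖ ≤ 2 * ‖z‖ := by
      have h1 := hprop (‖z‖ • a - z)
      rw [hw2] at h1
      have e1 : φ₁ (‖z‖ • a + z) + φ₁ (‖z‖ • a - z) = 2 * ‖z‖ * φ₁ a := by
        rw [_root_.map_add, _root_.map_sub, _root_.map_smul, smul_eq_mul]; ring
      have e2 : φ₁ (‖z‖ • a + z) - φ₁ (‖z‖ • a - z) = 2 * φ₁ z := by
        rw [_root_.map_add, _root_.map_sub, _root_.map_smul, smul_eq_mul]; ring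
      rcases hc3 with h | h
      · rw [h, one_mul] at h1
        rw [← hw1, h1, e1]
        have := hle1 a
        rw [ha] at this
        nlinarith
      · have h2 : ‖‖z‖ • a - z‖ = -φ₁ (‖z‖ • a - z) := by rw [h1, h]; ring
        rw [← hw1, h2, ← sub_eq_add_neg, e2]
        linarith [hle1 z]
    apply hns
    refine smooth_of_sum hdim ha ?_ hsum
    intro s t hst
    have ht : t = 0 := by
      by_contra ht
      -- then `z` is a multiple of `a`, on which `F = T`
      have hz1 : z = (-(t⁻¹ * s)) • a := by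
        have h1 : t⁻¹ • (s • a + t • z) = 0 := by rw [hst, smul_zero]
        rw [smul_add, smul_smul, smul_smul, inv_mul_cancel₀ ht, one_smul] at h1
        rw [neg_smul]
        exact eq_neg_of_add_eq_zero_right h1
      apply hne
      rw [hz1, S.map_smul, _root_.map_smul, hTa]
    rw [ht, zero_smul, add_zero] at hst
    exact ⟨(smul_eq_zero.mp hst).resolve_right ha0, ht⟩
  -- density
  have hna : ‖-a‖ = 1 := by rw [norm_neg, ha]
  have hFa : ‖S.F a‖ = 1 := by rw [S.norm_map, ha]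
  have hFna : ‖-S.F a‖ = 1 := by rw [norm_neg, hFa]
  have hdense : Wset a ∩ Wset (-a) ⊆ closure {z | S.F z = T z} := by
    let _ : MeasurableSpace X := borel X
    have : BorelSpace X := ⟨rfl⟩
    let _ : MeasurableSpace Y := borel Y
    have : BorelSpace Y := ⟨rfl⟩
    have a1 := P_preimage_null' ha (nonsmooth_null (X := X))
    have a2 := S.null_P hFa (nonsmooth_null (X := Y))
    have a3 := P_preimage_null' hna (nonsmooth_null (X := X))
    have a4 := S.null_P hFna (nonsmooth_null (X := Y))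
    refine (open_subset_closure_diff ((isOpen_Wset a).inter (isOpen_Wset (-a)))
      (measure_union_null (measure_union_null a1 a2) (measure_union_null a3 a4))).trans
      (closure_mono ?_)
    rintro z ⟨⟨hz1, hz2⟩, hz3⟩
    simp only [mem_union, not_or] at hz3
    obtain ⟨⟨b1, b2⟩, b3, b4⟩ := hz3
    have hFz2 : S.F z ∈ Wset (-S.F a) := by
      have := S.mem_Wset hna hz2
      rwa [S.map_neg] at this
    have w1 : -z ∈ Wset a := by
      have h1 : ‖z - -a‖ < ‖z‖ + ‖-a‖ := hz2
      show ‖-z - a‖ < ‖-z‖ + ‖a‖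
      have e1 : -z - a = -(z - -a) := by abel
      rw [e1, norm_neg, norm_neg]
      rwa [norm_neg] at h1
    have eP : P a (-z) = -P (-a) z := by
      unfold P; rw [norm_neg, smul_neg]; abel
    have eP' : P (S.F a) (S.F (-z)) = -P (-S.F a) (S.F z) := by
      unfold P; rw [S.map_neg, norm_neg, smul_neg]; abel
    have hneg : ∀ {Z : Type _} [NormedAddCommGroup Z] [NormedSpace ℝ Z] {w : Z},
        DifferentiableAt ℝ (fun v : Z => ‖v‖) w → DifferentiableAt ℝ (fun v : Z => ‖v‖) (-w) := by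
      intro Z _ _ w hw
      have h1 : DifferentiableAt ℝ (fun v : Z => ‖v‖) ((-1 : ℝ) • w) :=
        (differentiableAt_norm_smul (by norm_num)).mp hw
      rwa [neg_one_smul] at h1
    show S.F z = T z
    apply key z
    · exact ⟨hz1, by by_contra h; exact b1 ⟨hz1, h⟩,
        by by_contra h; exact b2 ⟨S.mem_Wset ha hz1, h⟩⟩
    · refine ⟨w1, ?_, ?_⟩
      · rw [eP]; apply hneg; by_contra h; exact b3 ⟨hz2, h⟩
      · rw [eP']
        have h1 : DifferentiableAt ℝ (fun v : Y => ‖v‖) (P (-S.F a) (S.F z)) := by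
          by_contra h; exact b4 ⟨hFz2, h⟩
        have h2 : DifferentiableAt ℝ (fun v : Y => ‖v‖) ((-1 : ℝ) • P (-S.F a) (S.F z)) :=
          (differentiableAt_norm_smul (by norm_num)).mp h1
        rwa [neg_one_smul] at h2
  have hclosed : IsClosed {z | S.F z = T z} := isClosed_eq S.continuous T.continuous
  have hface : ∀ z : X, z ≠ 0 → ‖z + a‖ = ‖z‖ + 1 → S.F z = T z := by
    intro z hz h
    have hz' : 0 < ‖z‖ := norm_pos_iff.mpr hz
    have h1 := norm_add_smul_eq (x := z) (y := a) (by rw [h, ha]) (inv_pos.mpr hz').le zero_le_one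
    rw [one_smul, inv_mul_cancel₀ hz'.ne', ha] at h1
    have h2 := S.face_eq ha (unit_of_ne hz) (by rw [add_comm, h1]; norm_num)
    rw [S.map_smul, _root_.map_smul] at h2
    have h3 := congrArg (fun y => ‖z‖ • y) h2
    simpa [smul_smul, mul_inv_cancel₀ hz'.ne'] using h3
  refine ⟨T, fun z => ?_⟩
  by_cases hz : z = 0
  · rw [hz, S.map_zero, _root_.map_zero]
  by_cases h1 : z ∈ Wset a
  · by_cases h2 : z ∈ Wset (-a)
    · have h3 := hdense ⟨h1, h2⟩
      rwa [hclosed.closure_eq] at h3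
    · have h3 : ‖z - -a‖ = ‖z‖ + ‖-a‖ := by
        by_contra h; exact h2 (mem_Wset_iff'.mpr h)
      rw [sub_neg_eq_add, norm_neg, ha] at h3
      exact hface z hz h3
  · have h3 : ‖z - a‖ = ‖z‖ + ‖a‖ := by
      by_contra h; exact h1 (mem_Wset_iff'.mpr h)
    have h4 := hface (-z) (neg_ne_zero.mpr hz) (by
      have e1 : -z + a = -(z - a) := by abel
      rw [e1, norm_neg, norm_neg, h3, ha])
    rw [S.map_neg, _root_.map_neg, neg_inj] at h4
    exact h4

end Vale.Agent.P084
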