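import Vale.Agent.P084.Plane1
import Vale.Agent.P084.OneDim

open Metric Set Filter Topology MeasureTheory Module Asymptotics

namespace Vale.Agent.P084

variable {X Y : Type*} [NormedAddCommGroup X] [NormedSpace ℝ X]
    [NormedAddCommGroup Y] [NormedSpace ℝ Y] [FiniteDimensional ℝ X] [FiniteDimensional ℝ Y]

/-- the identity of `Y` inherits the regularity -/
theorem SphMap.LReg.id_right {S : SphMap X Y} (R : S.LReg) : (SphMap.idMap Y).LReg where
  hO := R.hO'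
  hO' := R.hO'
  hNX := R.hNY
  hNY := R.hNY
  hT := by
    intro z _
    have h : (SphMap.idMap Y).T1 = fun _ => ContinuousLinearMap.id ℝ Y := by
      ext1 w; exact (hasFDerivAt_id w).fderiv
    rw [h]
    exact Rg.const _

omit [FiniteDimensional ℝ X] in
theorem hasDerivAt_line' (a b : X) (s : ℝ) : HasDerivAt (fun s : ℝ => a + s • b) b s := by
  simpa using ((hasDerivAt_id s).smul_const b).const_add a

/-- the norm along a line avoiding the origin -/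
theorem SphMap.LReg.line_data [Nontrivial X] {S : SphMap X Y} (R : S.LReg)
    (hsm : ∀ z : X, z ≠ 0 → z ∈ Sm X) {a b : X} (hab : ∀ s : ℝ, a + s • b ≠ 0) :
    (∀ s : ℝ, HasDerivAt (fun s : ℝ => ‖a + s • b‖) (N1 (a + s • b) b) s) ∧
    (∀ s : ℝ, HasDerivAt (fun s : ℝ => N1 (a + s • b) b) (N2 (a + s • b) b b) s) ∧
    Continuous (fun s : ℝ => N2 (a + s • b) b b) ∧ (∀ s : ℝ, 0 < ‖a + s • b‖) ∧
    (∀ s : ℝ, 0 ≤ N2 (a + s • b) b b) := by
  refine ⟨fun s => ?_, fun s => ?_, ?_, fun s => norm_pos_iff.mpr (hab s),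
    fun s => R.N2_nonneg (hsm _ (hab s)) b⟩
  · have h1 : HasFDerivAt (fun v : X => ‖v‖) (N1 (a + s • b)) (a + s • b) :=
      DifferentiableAt.hasFDerivAt (hsm _ (hab s))
    exact h1.comp_hasDerivAt s (hasDerivAt_line' a b s)
  · have h1 := (R.hN (hsm _ (hab s))).comp_hasDerivAt s (hasDerivAt_line' a b s)
    simpa using h1.clm_apply (hasDerivAt_const s b)
  · rw [continuous_iff_continuousAt]
    intro s
    have h1 : ContinuousAt (fun s : ℝ => N2 (a + s • b)) s :=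
      ContinuousAt.comp (f := fun s : ℝ => a + s • b) (R.N2_cont (hsm _ (hab s)))
        (hasDerivAt_line' a b s).continuousAt
    exact (h1.clm_apply continuousAt_const).clm_apply continuousAt_const

theorem SphMap.LReg.plane_aux [Nontrivial X] {S : SphMap X Y} (R : S.LReg)
    (hsm : ∀ z : X, z ≠ 0 → z ∈ Sm X)
    {x₀ v v' : X} (hγ : ∀ s : ℝ, x₀ + s • v ≠ 0)
    (ψ₁ ψ₂ : Y →L[ℝ] ℝ) (hψ : ∀ y, y = ψ₁ y • S.F x₀ + ψ₂ y • S.F v')
    (hne : ∀ τ : ℝ, S.F x₀ + τ • S.F v' ≠ 0)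
    (hu : ∀ s : ℝ, 0 < ψ₁ (S.F (x₀ + s • v)))
    (hJ : ∀ s : ℝ, 0 < ψ₁ (S.F (x₀ + s • v)) * ψ₂ (S.T1 (x₀ + s • v) v) -
      ψ₂ (S.F (x₀ + s • v)) * ψ₁ (S.T1 (x₀ + s • v) v))
    (hJ0 : ψ₁ (S.F x₀) * ψ₂ (S.Q x₀ v v) - ψ₂ (S.F x₀) * ψ₁ (S.Q x₀ v v) = 0) :
    ∀ s : ℝ, S.Q (x₀ + s • v) v v = 0 := by
  have hntY : Nontrivial Y := ⟨⟨S.F x₀ + (0 : ℝ) • S.F v', 0, hne 0⟩⟩
  have hsmY : ∀ y : Y, y ≠ 0 → y ∈ Sm Y := by
    intro y hy
    have hx : S.G y ≠ 0 := fun h => hy (by rw [← S.right_inv y, h, S.map_zero])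
    have h1 := (S.smooth_iff hx).mpr (hsm _ hx)
    rwa [S.right_inv] at h1
  obtain ⟨hn, hn₁, hn₂, hn0, hn20⟩ := R.line_data hsm hγ
  obtain ⟨hm, hm₁, hm₂, hm0, hm20⟩ := R.id_right.line_data hsmY hne
  -- the curve
  have hΓ : ∀ s : ℝ, HasDerivAt (fun s : ℝ => S.F (x₀ + s • v)) (S.T1 (x₀ + s • v) v) s :=
    fun s => (S.diff (hγ s)).hasFDerivAt.comp_hasDerivAt s (hasDerivAt_line' x₀ v s)
  have hΓ₁ : ∀ s : ℝ, HasDerivAt (fun s : ℝ => S.T1 (x₀ + s • v) v) (S.Q (x₀ + s • v) v v) s := by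
    intro s
    have h1 := (R.hQ (hsm _ (hγ s))).comp_hasDerivAt s (hasDerivAt_line' x₀ v s)
    simpa using h1.clm_apply (hasDerivAt_const s v)
  have hΓ₂ : Continuous (fun s : ℝ => S.Q (x₀ + s • v) v v) := by
    rw [continuous_iff_continuousAt]
    intro s
    have h1 : ContinuousAt (fun s : ℝ => S.Q (x₀ + s • v)) s :=
      ContinuousAt.comp (f := fun s : ℝ => x₀ + s • v) (R.Q_cont (hsm _ (hγ s)))
        (hasDerivAt_line' x₀ v s).continuousAt
    exact (h1.clm_apply continuousAt_const).clm_apply continuousAt_const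
  have hcoord : ∀ ψ : Y →L[ℝ] ℝ, (∀ s : ℝ, HasDerivAt (fun s : ℝ => ψ (S.F (x₀ + s • v)))
      (ψ (S.T1 (x₀ + s • v) v)) s) ∧ (∀ s : ℝ, HasDerivAt (fun s : ℝ => ψ (S.T1 (x₀ + s • v) v))
      (ψ (S.Q (x₀ + s • v) v v)) s) ∧ Continuous (fun s : ℝ => ψ (S.Q (x₀ + s • v) v v)) :=
    fun ψ => ⟨fun s => ψ.hasFDerivAt.comp_hasDerivAt s (hΓ s),
      fun s => ψ.hasFDerivAt.comp_hasDerivAt s (hΓ₁ s), ψ.continuous.comp hΓ₂⟩
  obtain ⟨hu1, hu2, hu3⟩ := hcoord ψ₁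
  obtain ⟨hw1, hw2, hw3⟩ := hcoord ψ₂
  set u : ℝ → ℝ := fun s => ψ₁ (S.F (x₀ + s • v)) with hudef
  set u₁ : ℝ → ℝ := fun s => ψ₁ (S.T1 (x₀ + s • v) v) with hu1def
  set u₂ : ℝ → ℝ := fun s => ψ₁ (S.Q (x₀ + s • v) v v) with hu2def
  set w : ℝ → ℝ := fun s => ψ₂ (S.F (x₀ + s • v)) with hwdef
  set w₁ : ℝ → ℝ := fun s => ψ₂ (S.T1 (x₀ + s • v) v) with hw1def
  set w₂ : ℝ → ℝ := fun s => ψ₂ (S.Q (x₀ + s • v) v v) with hw2def
  have hu : ∀ s, 0 < u s := hu
  have hJ : ∀ s, 0 < u s * w₁ s - w s * u₁ s := hJ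
  have hu1c : Continuous u := contDeriv hu1
  have hu1c' : Continuous u₁ := contDeriv hu2
  have hw1c : Continuous w := contDeriv hw1
  have hw1c' : Continuous w₁ := contDeriv hw2
  let H : ℝ → ℝ := fun s => w s / u s
  let H₁ : ℝ → ℝ := fun s => (u s * w₁ s - w s * u₁ s) / (u s) ^ 2
  let H₂ : ℝ → ℝ := fun s => ((u s * w₂ s - w s * u₂ s) * (u s) ^ 2 -
    (u s * w₁ s - w s * u₁ s) * (2 * u s * u₁ s)) / ((u s) ^ 2) ^ 2
  have hH : ∀ s, HasDerivAt H (H₁ s) s := by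
    intro s
    refine ((hw1 s).div (hu1 s) (hu s).ne').congr_deriv ?_
    show (w₁ s * u s - w s * u₁ s) / u s ^ 2 = (u s * w₁ s - w s * u₁ s) / (u s) ^ 2
    ring
  have hH₁ : ∀ s, HasDerivAt H₁ (H₂ s) s := by
    intro s
    have h1 := (((hu1 s).mul (hw2 s)).sub ((hw1 s).mul (hu2 s))).div ((hu1 s).pow 2)
      (pow_ne_zero 2 (hu s).ne')
    refine h1.congr_deriv ?_
    have h2 := (hu s).ne'
    simp only [Pi.sub_apply, Pi.mul_apply, Pi.pow_apply, H₂]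
    push_cast
    field_simp
    ring
  have hH₂ : Continuous H₂ := by
    have : Continuous (fun s => (u s * w₂ s - w s * u₂ s) * (u s) ^ 2 -
      (u s * w₁ s - w s * u₁ s) * (2 * u s * u₁ s)) := by fun_prop
    exact this.div (by fun_prop) (fun s => pow_ne_zero 2 (pow_ne_zero 2 (hu s).ne'))
  have hH0 : ∀ s, 0 < H₁ s := fun s => div_pos (hJ s) (pow_pos (hu s) 2)
  -- decomposition
  have hdec : ∀ s : ℝ, S.F (x₀ + s • v) = u s • (S.F x₀ + H s • S.F v') := by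
    intro s
    conv_lhs => rw [hψ (S.F (x₀ + s • v))]
    show u s • S.F x₀ + w s • S.F v' = _
    rw [smul_add, smul_smul]
    congr 2
    show w s = u s * (w s / u s)
    rw [mul_div_cancel₀ _ (hu s).ne']
  have hnm : ∀ s : ℝ, ‖x₀ + s • v‖ = u s * ‖S.F x₀ + H s • S.F v'‖ := by
    intro s
    rw [← S.norm_map, hdec s, norm_smul, Real.norm_of_nonneg (hu s).le]
  have hPu : ∀ s : ℝ, (‖x₀ + s • v‖)⁻¹ * u s = (‖S.F x₀ + H s • S.F v'‖)⁻¹ := by
    intro s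
    have h1 := (hu s).ne'
    have h2 := (hm0 (H s)).ne'
    rw [hnm s]
    field_simp
  -- the isometry relation
  have hiso : ∀ s t : ℝ, ((‖x₀ + s • v‖)⁻¹ + (‖x₀ + t • v‖)⁻¹) *
      ‖x₀ + ((s * (‖x₀ + s • v‖)⁻¹ + t * (‖x₀ + t • v‖)⁻¹) /
        ((‖x₀ + s • v‖)⁻¹ + (‖x₀ + t • v‖)⁻¹)) • v‖ =
      ((‖S.F x₀ + H s • S.F v'‖)⁻¹ + (‖S.F x₀ + H t • S.F v'‖)⁻¹) *
      ‖S.F x₀ + ((H s * (‖S.F x₀ + H s • S.F v'‖)⁻¹ + H t * (‖S.F x₀ + H t • S.F v'‖)⁻¹) /
        ((‖S.F x₀ + H s • S.F v'‖)⁻¹ + (‖S.F x₀ + H t • S.F v'‖)⁻¹)) • S.F v'‖ := by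
    intro s t
    have key : ∀ {Z : Type _} [NormedAddCommGroup Z] [NormedSpace ℝ Z] (a b : Z) (p q σ τ : ℝ),
        0 < p → 0 < q → (p + q) * ‖a + ((σ * p + τ * q) / (p + q)) • b‖ =
          ‖p • (a + σ • b) + q • (a + τ • b)‖ := by
      intro Z _ _ a b p q σ τ hp hq
      have hpq : 0 < p + q := add_pos hp hq
      have e1 : p • (a + σ • b) + q • (a + τ • b) =
          (p + q) • (a + ((σ * p + τ * q) / (p + q)) • b) := by
        rw [smul_add, smul_add, smul_add, smul_smul, smul_smul, smul_smul,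
          mul_div_cancel₀ _ hpq.ne', add_smul, add_smul, mul_comm σ p, mul_comm τ q]
        abel
      rw [e1, norm_smul, Real.norm_of_nonneg hpq.le]
    have keyX : ((‖x₀ + s • v‖)⁻¹ + (‖x₀ + t • v‖)⁻¹) *
      ‖x₀ + ((s * (‖x₀ + s • v‖)⁻¹ + t * (‖x₀ + t • v‖)⁻¹) /
        ((‖x₀ + s • v‖)⁻¹ + (‖x₀ + t • v‖)⁻¹)) • v‖ =
        ‖(‖x₀ + s • v‖)⁻¹ • (x₀ + s • v) + (‖x₀ + t • v‖)⁻¹ • (x₀ + t • v)‖ := by
      have hpq : 0 < (‖x₀ + s • v‖)⁻¹ + (‖x₀ + t • v‖)⁻¹ :=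
        add_pos (inv_pos.mpr (hn0 s)) (inv_pos.mpr (hn0 t))
      have e1 : (‖x₀ + s • v‖)⁻¹ • (x₀ + s • v) + (‖x₀ + t • v‖)⁻¹ • (x₀ + t • v) =
          ((‖x₀ + s • v‖)⁻¹ + (‖x₀ + t • v‖)⁻¹) • (x₀ +
          ((s * (‖x₀ + s • v‖)⁻¹ + t * (‖x₀ + t • v‖)⁻¹) /
            ((‖x₀ + s • v‖)⁻¹ + (‖x₀ + t • v‖)⁻¹)) • v) := by
        rw [smul_add, smul_add, smul_add, smul_smul, smul_smul, smul_smul,
          mul_div_cancel₀ _ hpq.ne', add_smul, add_smul, mul_comm s, mul_comm t]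
        abel
      rw [e1, norm_smul, Real.norm_of_nonneg hpq.le]
    rw [keyX, key (S.F x₀) (S.F v') _ _ (H s) (H t) (inv_pos.mpr (hm0 (H s)))
      (inv_pos.mpr (hm0 (H t))), ← hPu s, ← hPu t, mul_smul, mul_smul, ← hdec s, ← hdec t,
      ← S.map_smul, ← S.map_smul]
    symm
    apply S.norm_add
    rw [norm_smul, norm_smul, norm_inv, norm_inv, norm_norm, norm_norm,
      inv_mul_cancel₀ (hn0 s).ne', inv_mul_cancel₀ (hn0 t).ne']
  -- the bracket
  have hbr : ∀ s, H₂ s / H₁ s - 2 * (N1 (S.F x₀ + H s • S.F v') (S.F v') * H₁ s /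
      ‖S.F x₀ + H s • S.F v'‖) + 2 * (N1 (x₀ + s • v) v / ‖x₀ + s • v‖) =
      (u s * w₂ s - w s * u₂ s) / (u s * w₁ s - w s * u₁ s) := by
    intro s
    have h1 : HasDerivAt (fun s => u s * ‖S.F x₀ + H s • S.F v'‖)
        (u₁ s * ‖S.F x₀ + H s • S.F v'‖ + u s * (N1 (S.F x₀ + H s • S.F v') (S.F v') * H₁ s)) s :=
      (hu1 s).mul ((hm (H s)).comp s (hH s))
    have h2 := hn s
    rw [funext hnm] at h2
    have h3 := h2.unique h1
    have h4 := (hu s).ne'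
    have h5 := (hm0 (H s)).ne'
    have h6 := (hJ s).ne'
    rw [h3, hnm s]
    show (((u s * w₂ s - w s * u₂ s) * (u s) ^ 2 -
      (u s * w₁ s - w s * u₁ s) * (2 * u s * u₁ s)) / ((u s) ^ 2) ^ 2) /
      ((u s * w₁ s - w s * u₁ s) / (u s) ^ 2) - 2 * (N1 (S.F x₀ + H s • S.F v') (S.F v') *
      ((u s * w₁ s - w s * u₁ s) / (u s) ^ 2) /
      ‖S.F x₀ + H s • S.F v'‖) + 2 * ((u₁ s * ‖S.F x₀ + H s • S.F v'‖ +
        u s * (N1 (S.F x₀ + H s • S.F v') (S.F v') * ((u s * w₁ s - w s * u₁ s) / (u s) ^ 2))) /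
        (u s * ‖S.F x₀ + H s • S.F v'‖)) = _
    generalize (u s * w₁ s - w s * u₁ s) = J at *
    generalize N1 (S.F x₀ + H s • S.F v') (S.F v') = ν at *
    generalize ‖S.F x₀ + H s • S.F v'‖ = μ at *
    field_simp
    ring
  have hzero : u 0 * w₂ 0 - w 0 * u₂ 0 = 0 := by
    show ψ₁ (S.F (x₀ + (0 : ℝ) • v)) * ψ₂ (S.Q (x₀ + (0 : ℝ) • v) v v) -
      ψ₂ (S.F (x₀ + (0 : ℝ) • v)) * ψ₁ (S.Q (x₀ + (0 : ℝ) • v) v v) = 0
    rw [zero_smul, add_zero]; exact hJ0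
  have hone := one_dim (fun s => ‖x₀ + s • v‖) (fun s => N1 (x₀ + s • v) v)
    (fun s => N2 (x₀ + s • v) v v) (fun τ => ‖S.F x₀ + τ • S.F v'‖)
    (fun τ => N1 (S.F x₀ + τ • S.F v') (S.F v')) (fun τ => N2 (S.F x₀ + τ • S.F v') (S.F v')
      (S.F v')) H H₁ H₂ hn hn₁ hn₂ hn0 hn20 hm hm₁ hm₂ hm0 hm20 hH hH₁ hH₂ hH0 hiso 0
    (by
      have := hbr 0
      rw [hzero, zero_div] at this
      exact this)
  intro s
  have h1 := hone s
  rw [hbr s] at h1
  rcases mul_eq_zero.mp h1 with h2 | h2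
  · obtain ⟨β, -, hβ, -⟩ := R.Q_struct (hsm _ (hγ s))
    rw [hβ, h2, zero_smul]
  · rw [div_eq_zero_iff] at h2
    have h3 : u s * w₂ s - w s * u₂ s = 0 := h2.resolve_right (hJ s).ne'
    have h4 : S.Q (x₀ + s • v) v v = (u₂ s / u s) • S.F (x₀ + s • v) := by
      conv_lhs => rw [hψ (S.Q (x₀ + s • v) v v)]
      conv_rhs => rw [hψ (S.F (x₀ + s • v))]
      show u₂ s • S.F x₀ + w₂ s • S.F v' = (u₂ s / u s) • (u s • S.F x₀ + w s • S.F v')
      rw [smul_add, smul_smul, smul_smul, div_mul_cancel₀ _ (hu s).ne']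
      congr 2
      have h5 := (hu s).ne'
      field_simp
      linarith
    have h5 := R.c_zero' (hsm _ (hγ s)) v v
    have hF0 : S.F (x₀ + s • v) ≠ 0 := S.F_ne (hγ s)
    rw [h4, _root_.map_smul, N1_self (hsmY _ hF0), smul_eq_mul] at h5
    have h6 : u₂ s / u s = 0 := (mul_eq_zero.mp h5).resolve_right (norm_ne_zero_iff.mpr hF0)
    rw [h4, h6, zero_smul]

/-- area form built from two functionals -/
def area {Z : Type*} [NormedAddCommGroup Z] [NormedSpace ℝ Z] (η₁ η₂ : Z →L[ℝ] ℝ) (y y' : Z) : ℝ :=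
  η₁ y * η₂ y' - η₂ y * η₁ y'

omit [FiniteDimensional ℝ X] [FiniteDimensional ℝ Y] in
theorem area_comp (ψ₁ ψ₂ : X →L[ℝ] ℝ) {a b : X} (hψ : ∀ y, y = ψ₁ y • a + ψ₂ y • b)
    (T : X →L[ℝ] Y) (η₁ η₂ : Y →L[ℝ] ℝ) (y y' : X) :
    area η₁ η₂ (T y) (T y') = area η₁ η₂ (T a) (T b) * area ψ₁ ψ₂ y y' := by
  have h1 : ∀ (η : Y →L[ℝ] ℝ) (x : X), η (T x) = ψ₁ x * η (T a) + ψ₂ x * η (T b) := by
    intro η x
    conv_lhs => rw [hψ x]
    rw [_root_.map_add, _root_.map_smul, _root_.map_smul, _root_.map_add, _root_.map_smul,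
      _root_.map_smul, smul_eq_mul, smul_eq_mul]
  unfold area
  rw [h1 η₁ y, h1 η₂ y, h1 η₁ y', h1 η₂ y']
  ring

theorem pos_of_ne_zero {f : ℝ → ℝ} (hf : Continuous f) (h : ∀ s, f s ≠ 0) (h0 : 0 < f 0) :
    ∀ s, 0 < f s := by
  intro s
  by_contra hs
  obtain ⟨t, ht⟩ := mem_range_of_exists_le_of_exists_ge hf ⟨s, not_lt.mp hs⟩ ⟨0, h0.le⟩
  exact h t ht

/-- at a point where the modulus of the determinant of the derivative is maximal -/
theorem SphMap.LReg.plane_max {S : SphMap X Y} (R : S.LReg) (hdim : finrank ℝ X = 2)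
    (hsm : ∀ z : X, z ≠ 0 → z ∈ Sm X) :
    ∃ x₀ : X, ‖x₀‖ = 1 ∧ ∀ v : X, (∀ s t : ℝ, s • x₀ + t • v = 0 → s = 0 ∧ t = 0) →
      ∀ s : ℝ, S.Q (x₀ + s • v) v v = 0 := by
  have hnt : Nontrivial X := Module.nontrivial_of_finrank_pos (R := ℝ) (by omega)
  have hdimY : finrank ℝ Y = 2 := by rw [← S.finrank_eq, hdim]
  -- fixed coordinates on both sides
  let b := finBasisOfFinrankEq ℝ X hdim
  let c := finBasisOfFinrankEq ℝ Y hdimY
  have hbli : ∀ s t : ℝ, s • b 0 + t • b 1 = 0 → s = 0 ∧ t = 0 := by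
    have h1 := b.linearIndependent
    have h2 : LinearIndependent ℝ ![b 0, b 1] := by
      have e : ![b 0, b 1] = b := by ext i; fin_cases i <;> rfl
      rw [e]; exact h1
    exact LinearIndependent.pair_iff.mp h2
  have hcli : ∀ s t : ℝ, s • c 0 + t • c 1 = 0 → s = 0 ∧ t = 0 := by
    have h1 := c.linearIndependent
    have h2 : LinearIndependent ℝ ![c 0, c 1] := by
      have e : ![c 0, c 1] = c := by ext i; fin_cases i <;> rfl
      rw [e]; exact h1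
    exact LinearIndependent.pair_iff.mp h2
  obtain ⟨α, β, hab, -, -, -, -⟩ := exists_coords hdim hbli
  obtain ⟨η₁, η₂, hη, hη10, hη20, hη11, hη21⟩ := exists_coords hdimY hcli
  set Δ : X → ℝ := fun x => area η₁ η₂ (S.T1 x (b 0)) (S.T1 x (b 1)) with hΔ
  have hΔc : ∀ x : X, x ≠ 0 → ContinuousAt Δ x := by
    intro x hx
    have h1 : ∀ (η : Y →L[ℝ] ℝ) (w : X), ContinuousAt (fun x => η (S.T1 x w)) x := by
      intro η w
      exact η.continuous.continuousAt.comp ((S.T1_continuousAt hx).clm_apply continuousAt_const)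
    exact ((h1 η₁ (b 0)).mul (h1 η₂ (b 1))).sub ((h1 η₂ (b 0)).mul (h1 η₁ (b 1)))
  have hΔs : ∀ x : X, x ≠ 0 → Δ (‖x‖⁻¹ • x) = Δ x := by
    intro x hx
    simp only [hΔ]
    rw [S.T1_smul (inv_ne_zero (norm_ne_zero_iff.mpr hx))]
  have hcont : ContinuousOn (fun x => Δ x ^ 2) (sphere (0 : X) 1) := by
    intro x hx
    have hx0 : x ≠ 0 := ne_zero_of_unit (mem_sphere_zero_iff_norm.mp hx)
    exact ((hΔc x hx0).pow 2).continuousWithinAt
  obtain ⟨x₀, hx₀, hmax⟩ := (isCompact_sphere (0 : X) 1).exists_isMaxOn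
    (NormedSpace.sphere_nonempty.mpr zero_le_one) hcont
  have hx₀ : ‖x₀‖ = 1 := mem_sphere_zero_iff_norm.mp hx₀
  have hx₀0 : x₀ ≠ 0 := ne_zero_of_unit hx₀
  have hmax' : ∀ x : X, x ≠ 0 → Δ x ^ 2 ≤ Δ x₀ ^ 2 := by
    intro x hx
    rw [← hΔs x hx]
    exact hmax (mem_sphere_zero_iff_norm.mpr (unit_of_ne hx))
  refine ⟨x₀, hx₀, fun v hind => ?_⟩
  have hγ : ∀ s : ℝ, x₀ + s • v ≠ 0 := by
    intro s h
    have := (hind 1 s (by rw [one_smul]; exact h)).1
    exact one_ne_zero this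
  have hindY : ∀ s t : ℝ, s • S.F x₀ + t • S.F v = 0 → s = 0 ∧ t = 0 := by
    intro s t h
    have h1 : S.F (s • x₀) = S.F ((-t) • v) := by
      rw [S.map_smul, S.map_smul, neg_smul]
      exact eq_neg_of_add_eq_zero_left h
    have h2 := S.injective h1
    apply hind
    rw [h2, neg_smul, neg_add_cancel]
  obtain ⟨ψ₁, ψ₂, hψ, hψ1a, hψ2a, hψ1b, hψ2b⟩ := exists_coords hdimY hindY
  have hne : ∀ τ : ℝ, S.F x₀ + τ • S.F v ≠ 0 := by
    intro τ h
    have := (hindY 1 τ (by rw [one_smul]; exact h)).1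
    exact one_ne_zero this
  -- positivity of the first coordinate
  have hΓc : Continuous (fun s : ℝ => S.F (x₀ + s • v)) := S.continuous.comp (by fun_prop)
  have hΓ₁c : Continuous (fun s : ℝ => S.T1 (x₀ + s • v) v) := by
    rw [continuous_iff_continuousAt]
    intro s
    have h1 : ContinuousAt (fun s : ℝ => S.T1 (x₀ + s • v)) s :=
      ContinuousAt.comp (f := fun s : ℝ => x₀ + s • v) (S.T1_continuousAt (hγ s))
        (hasDerivAt_line' x₀ v s).continuousAt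
    exact h1.clm_apply continuousAt_const
  have hune : ∀ s : ℝ, ψ₁ (S.F (x₀ + s • v)) ≠ 0 := by
    intro s h
    have h1 := hψ (S.F (x₀ + s • v))
    rw [h, zero_smul, zero_add, ← S.map_smul] at h1
    have h2 := S.injective h1
    have h3 : (1 : ℝ) • x₀ + (s - ψ₂ (S.F (x₀ + s • v))) • v = 0 := by
      rw [one_smul, sub_smul, ← add_sub_assoc, sub_eq_zero]
      exact h2
    exact one_ne_zero (hind _ _ h3).1
  have hu : ∀ s : ℝ, 0 < ψ₁ (S.F (x₀ + s • v)) := by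
    refine pos_of_ne_zero (ψ₁.continuous.comp hΓc) hune ?_
    show 0 < ψ₁ (S.F (x₀ + (0 : ℝ) • v))
    rw [zero_smul, add_zero, hψ1a]; exact one_pos
  -- the area along the curve
  set J : ℝ → ℝ := fun s => area ψ₁ ψ₂ (S.F (x₀ + s • v)) (S.T1 (x₀ + s • v) v) with hJdef
  have hJc : Continuous J := by
    have h1 := ψ₁.continuous.comp hΓc
    have h2 := ψ₂.continuous.comp hΓc
    have h3 := ψ₁.continuous.comp hΓ₁c
    have h4 := ψ₂.continuous.comp hΓ₁c
    exact (h1.mul h4).sub (h2.mul h3)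
  have hJne : ∀ s, J s ≠ 0 := by
    intro s h
    have hT1inj : ∀ w : X, S.T1 (x₀ + s • v) w = 0 → w = 0 := by
      intro w hw
      have h1 := congrArg (fun L : X →L[ℝ] X => L w) (S.T1_symm_comp (hγ s))
      simp only [ContinuousLinearMap.comp_apply, ContinuousLinearMap.id_apply] at h1
      rw [hw, _root_.map_zero] at h1
      exact h1.symm
    have h1 : ψ₁ (S.F (x₀ + s • v)) • S.T1 (x₀ + s • v) v -
        ψ₁ (S.T1 (x₀ + s • v) v) • S.F (x₀ + s • v) = 0 := by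
      rw [hψ (ψ₁ (S.F (x₀ + s • v)) • S.T1 (x₀ + s • v) v -
        ψ₁ (S.T1 (x₀ + s • v) v) • S.F (x₀ + s • v))]
      have e1 : ψ₁ (ψ₁ (S.F (x₀ + s • v)) • S.T1 (x₀ + s • v) v -
        ψ₁ (S.T1 (x₀ + s • v) v) • S.F (x₀ + s • v)) = 0 := by
        rw [_root_.map_sub, _root_.map_smul, _root_.map_smul, smul_eq_mul, smul_eq_mul]; ring
      have e2 : ψ₂ (ψ₁ (S.F (x₀ + s • v)) • S.T1 (x₀ + s • v) v -
        ψ₁ (S.T1 (x₀ + s • v) v) • S.F (x₀ + s • v)) = 0 := by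
        rw [_root_.map_sub, _root_.map_smul, _root_.map_smul, smul_eq_mul, smul_eq_mul]
        have : area ψ₁ ψ₂ (S.F (x₀ + s • v)) (S.T1 (x₀ + s • v) v) = 0 := h
        unfold area at this
        linarith
      rw [e1, e2, zero_smul, zero_smul, add_zero]
    rw [← S.T1_self' (hγ s), ← _root_.map_smul, ← _root_.map_smul, ← _root_.map_sub] at h1
    have h2 := hT1inj _ h1
    rw [S.T1_self' (hγ s)] at h2
    have h3 : (-(ψ₁ (S.T1 (x₀ + s • v) v))) • x₀ +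
        (ψ₁ (S.F (x₀ + s • v)) - ψ₁ (S.T1 (x₀ + s • v) v) * s) • v = 0 := by
      rw [← h2, sub_smul, smul_add, smul_smul, neg_smul]
      abel
    obtain ⟨k1, k2⟩ := hind _ _ h3
    rw [neg_eq_zero.mp k1, zero_mul, sub_zero] at k2
    exact hune s k2
  -- vanishing of the derivative at the maximum
  have hη0 : area η₁ η₂ (S.F x₀) (S.F v) ≠ 0 := by
    intro h0
    have h1 := area_comp ψ₁ ψ₂ hψ (ContinuousLinearMap.id ℝ Y) η₁ η₂ (c 0) (c 1)
    simp only [ContinuousLinearMap.id_apply] at h1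
    rw [h0, zero_mul] at h1
    unfold area at h1
    rw [hη10, hη20, hη11, hη21] at h1
    norm_num at h1
  have hJ0 : ψ₁ (S.F x₀) * ψ₂ (S.Q x₀ v v) - ψ₂ (S.F x₀) * ψ₁ (S.Q x₀ v v) = 0 := by
    set Wf : ℝ → ℝ := fun s => area η₁ η₂ (S.F (x₀ + s • v)) (S.T1 (x₀ + s • v) v) with hWf
    have hW1 : ∀ s, Wf s = Δ (x₀ + s • v) * area α β x₀ v := by
      intro s
      simp only [hWf, hΔ]
      rw [← S.T1_self' (hγ s), area_comp α β hab (S.T1 (x₀ + s • v)) η₁ η₂]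
      congr 1
      unfold area
      rw [_root_.map_add, _root_.map_add, _root_.map_smul, _root_.map_smul, smul_eq_mul,
        smul_eq_mul]
      ring
    have hWJ : Wf 0 = area η₁ η₂ (S.F x₀) (S.F v) * J 0 := by
      have := area_comp ψ₁ ψ₂ hψ (ContinuousLinearMap.id ℝ Y) η₁ η₂ (S.F (x₀ + (0 : ℝ) • v))
        (S.T1 (x₀ + (0 : ℝ) • v) v)
      simpa only [ContinuousLinearMap.id_apply] using this
    have hW0 : Wf 0 ≠ 0 := by rw [hWJ]; exact mul_ne_zero hη0 (hJne 0)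
    have hγ0 : x₀ + (0 : ℝ) • v = x₀ := by rw [zero_smul, add_zero]
    have hd : ∀ η : Y →L[ℝ] ℝ, HasDerivAt (fun s : ℝ => η (S.F (x₀ + s • v)))
        (η (S.T1 x₀ v)) 0 ∧ HasDerivAt (fun s : ℝ => η (S.T1 (x₀ + s • v) v))
        (η (S.Q x₀ v v)) 0 := by
      intro η
      constructor
      · exact η.hasFDerivAt.comp_hasDerivAt 0 (comp_line (S.diff hx₀0).hasFDerivAt v)
      · have h1 : HasDerivAt (fun s : ℝ => S.T1 (x₀ + s • v) v) (S.Q x₀ v v) 0 := by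
          simpa using (comp_line (R.hQ (hsm _ hx₀0)) v).clm_apply (hasDerivAt_const (0 : ℝ) v)
        exact η.hasFDerivAt.comp_hasDerivAt 0 h1
    have hWd : HasDerivAt Wf (area η₁ η₂ (S.F x₀) (S.Q x₀ v v)) 0 := by
      have h1 := ((hd η₁).1.mul (hd η₂).2).sub ((hd η₂).1.mul (hd η₁).2)
      refine h1.congr_deriv ?_
      rw [hγ0]
      unfold area
      ring
    have hW2 : HasDerivAt (fun s => Wf s ^ 2)
        (2 * Wf 0 * area η₁ η₂ (S.F x₀) (S.Q x₀ v v)) 0 := by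
      have := hWd.pow 2
      refine this.congr_deriv ?_
      push_cast
      ring
    have hloc : IsLocalMax (fun s => Wf s ^ 2) 0 := by
      refine Eventually.of_forall fun s => ?_
      show Wf s ^ 2 ≤ Wf 0 ^ 2
      rw [hW1 s, hW1 0, hγ0, mul_pow, mul_pow]
      exact mul_le_mul_of_nonneg_right (hmax' _ (hγ s)) (sq_nonneg _)
    have h1 := hloc.hasDerivAt_eq_zero hW2
    have h2 : area η₁ η₂ (S.F x₀) (S.Q x₀ v v) = 0 := by
      rcases mul_eq_zero.mp h1 with h | h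
      · exact absurd h (mul_ne_zero two_ne_zero hW0)
      · exact h
    have h3 := area_comp ψ₁ ψ₂ hψ (ContinuousLinearMap.id ℝ Y) η₁ η₂ (S.F x₀) (S.Q x₀ v v)
    simp only [ContinuousLinearMap.id_apply] at h3
    rw [h2] at h3
    exact (mul_eq_zero.mp h3.symm).resolve_left hη0
  -- choose the sign
  rcases lt_or_gt_of_ne (hJne 0) with h | h
  · have hJ : ∀ s, 0 < -J s := pos_of_ne_zero hJc.neg (fun s => neg_ne_zero.mpr (hJne s))
      (by show 0 < -J 0; linarith)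
    refine R.plane_aux hsm (v' := -v) hγ ψ₁ (-ψ₂) ?_ ?_ hu ?_ ?_
    · intro y
      rw [S.map_neg, neg_apply, neg_smul, smul_neg, neg_neg]
      exact hψ y
    · intro τ h0
      rw [S.map_neg, smul_neg, ← neg_smul] at h0
      exact hne (-τ) h0
    · intro s
      have h1 := hJ s
      simp only [hJdef, area] at h1
      rw [neg_apply, neg_apply]
      linarith
    · rw [neg_apply, neg_apply]
      linarith
  · have hJ : ∀ s, 0 < J s := pos_of_ne_zero hJc hJne h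
    exact R.plane_aux hsm (v' := v) hγ ψ₁ ψ₂ hψ hne hu hJ hJ0

/-- **The plane, smooth case.** -/
theorem SphMap.LReg.Q_zero_two {S : SphMap X Y} (R : S.LReg) (hdim : finrank ℝ X = 2)
    (hsm : ∀ z : X, z ≠ 0 → z ∈ Sm X) : ∀ z ∈ Sm X, S.Q z = 0 := by
  have hnt : Nontrivial X := Module.nontrivial_of_finrank_pos (R := ℝ) (by omega)
  obtain ⟨x₀, hx₀, hQ⟩ := R.plane_max hdim hsm
  have hx₀0 : x₀ ≠ 0 := ne_zero_of_unit hx₀
  have main : ∀ z : X, z ∉ Submodule.span ℝ {x₀} → S.Q z = 0 := by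
    intro z hz
    have hz0 : z ≠ 0 := fun h => hz (by rw [h]; exact zero_mem _)
    have hzs := hsm z hz0
    obtain ⟨v, hv⟩ : ∃ v, v = z - x₀ := ⟨_, rfl⟩
    have hind : ∀ s t : ℝ, s • x₀ + t • v = 0 → s = 0 ∧ t = 0 := by
      intro s t h
      have ht : t = 0 := by
        by_contra ht
        apply hz
        rw [Submodule.mem_span_singleton]
        refine ⟨1 - t⁻¹ * s, ?_⟩
        have h1 : t⁻¹ • (s • x₀ + t • v) = 0 := by rw [h, smul_zero]
        rw [smul_add, smul_smul, smul_smul, inv_mul_cancel₀ ht, one_smul, hv] at h1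
        rw [sub_smul, one_smul]
        have h2 : z = x₀ - (t⁻¹ * s) • x₀ + ((t⁻¹ * s) • x₀ + (z - x₀)) := by abel
        rw [h1, add_zero] at h2
        exact h2.symm
      rw [ht, zero_smul, add_zero] at h
      exact ⟨(smul_eq_zero.mp h).resolve_right hx₀0, ht⟩
    have hz1 : x₀ + (1 : ℝ) • v = z := by rw [one_smul, hv]; abel
    have h1 := hQ v hind 1
    rw [hz1] at h1
    obtain ⟨β, -, hβ, -⟩ := R.Q_struct hzs
    have hind2 : ∀ s t : ℝ, s • z + t • v = 0 → s = 0 ∧ t = 0 := by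
      intro s t h
      have h2 : s • x₀ + (s + t) • v = 0 := by
        rw [← h, ← hz1, smul_add, smul_smul, mul_one, add_smul]; abel
      obtain ⟨k1, k2⟩ := hind _ _ h2
      rw [k1, zero_add] at k2
      exact ⟨k1, k2⟩
    obtain ⟨p, q, hpq, -, -, -, -⟩ := exists_coords hdim hind2
    have hNz : ∀ w, N2 z z w = 0 := fun w => by rw [R.N2_left hzs]; rfl
    have hNz' : ∀ w, N2 z w z = 0 := fun w => by rw [R.N2_symm hzs, hNz]
    ext u w
    rw [hβ, zero_apply, zero_apply]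
    rw [hβ] at h1
    rcases smul_eq_zero.mp h1 with h2 | h2
    · have h3 : N2 z u w = 0 := by
        rw [hpq u, hpq w]
        simp only [_root_.map_add, _root_.map_smul, add_apply, smul_apply, smul_eq_mul, hNz, hNz',
          h2]
        ring
      rw [h3, zero_smul]
    · rw [h2, smul_zero]
  intro z hz
  obtain ⟨-, hd⟩ := isOpen_dense_compl_span (X := X) (by omega) x₀
  have h1 : z ∈ closure ((Submodule.span ℝ {x₀} : Set X)ᶜ) := hd z
  have h2 := (R.Q_cont hz).continuousWithinAt.mem_closure_image h1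
  have h3 : S.Q '' ((Submodule.span ℝ {x₀} : Set X)ᶜ) ⊆ {0} := by
    rintro _ ⟨w, hw, rfl⟩
    exact main w hw
  have h4 := closure_mono h3 h2
  rwa [closure_singleton] at h4

/-- Surjective isometries of unit spheres of finite-dimensional spaces are linear. -/
theorem SphMap.lin_finiteDimensional (S : SphMap X Y) : S.Lin := by
  rcases lt_or_ge 2 (finrank ℝ X) with h | h
  · exact S.lin_of_three_le h
  rcases h.lt_or_eq with h | h
  · -- dimension at most one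
    by_cases h0 : ∀ x : X, x = 0
    · exact ⟨0, fun x => by rw [h0 x, S.map_zero]; rfl⟩
    · push Not at h0
      obtain ⟨a, ha⟩ := h0
      have h1 : finrank ℝ X = 1 := by
        have : Nontrivial X := ⟨⟨a, 0, ha⟩⟩
        have := Module.finrank_pos (R := ℝ) (M := X)
        omega
      have h2 : ∀ x : X, ∃ t : ℝ, t • a = x := fun x =>
        (finrank_eq_one_iff_of_nonzero' a ha).mp h1 x
      choose t ht using h2
      have hadd : ∀ x y, t (x + y) = t x + t y := by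
        intro x y
        have h3 : t (x + y) • a = (t x + t y) • a := by rw [add_smul, ht, ht, ht]
        exact smul_left_injective ℝ ha h3
      have hsmul : ∀ (c : ℝ) x, t (c • x) = c * t x := by
        intro c x
        have h3 : t (c • x) • a = (c * t x) • a := by rw [mul_smul, ht, ht]
        exact smul_left_injective ℝ ha h3
      let T : X →ₗ[ℝ] Y :=
        { toFun := S.F
          map_add' := by
            intro x y
            rw [← ht (x + y), hadd, S.map_smul, add_smul, ← S.map_smul, ← S.map_smul, ht, ht]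
          map_smul' := fun c x => S.map_smul c x }
      exact ⟨⟨T, S.continuous⟩, fun x => rfl⟩
  · -- dimension two
    have hnt : Nontrivial X := Module.nontrivial_of_finrank_pos (R := ℝ) (by omega)
    by_cases hsm : ∀ z : X, z ≠ 0 → z ∈ Sm X
    · rcases S.lin_or_lreg (by omega) with h1 | R
      · exact h1
      · exact R.lin (by omega) (R.Q_zero_two h hsm)
    · push Not at hsm
      obtain ⟨z, hz, hzs⟩ := hsm
      have hz' : ‖z‖ ≠ 0 := norm_ne_zero_iff.mpr hz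
      refine S.lin_of_nonsmooth_two h (unit_of_ne hz) ?_
      intro h1
      exact hzs ((differentiableAt_norm_smul (inv_ne_zero hz')).mpr h1)

end Vale.Agent.P084
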