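import Vale.Agent.P084.GP

open Metric Set Filter Topology MeasureTheory Module Asymptotics

namespace Vale.Agent.P084

/-- A positively homogeneous, norm preserving bijection with inverse `G` which preserves the
distance of any two points of equal norm.  Surjective isometries between unit spheres are the same
thing as such maps. -/
structure PosMap (X Y : Type*) [NormedAddCommGroup X] [NormedSpace ℝ X]
    [NormedAddCommGroup Y] [NormedSpace ℝ Y] where
  F : X → Y
  G : Y → X
  left_inv : ∀ x, G (F x) = x
  right_inv : ∀ y, F (G y) = y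
  map_smul : ∀ (t : ℝ) (x : X), 0 ≤ t → F (t • x) = t • F x
  norm_map : ∀ x : X, ‖F x‖ = ‖x‖
  norm_sub : ∀ x y : X, ‖x‖ = ‖y‖ → ‖F x - F y‖ = ‖x - y‖

namespace PosMap

variable {X Y : Type*} [NormedAddCommGroup X] [NormedSpace ℝ X]
    [NormedAddCommGroup Y] [NormedSpace ℝ Y] (S : PosMap X Y)

theorem map_zero : S.F 0 = 0 := by
  rw [← norm_eq_zero, S.norm_map, norm_zero]

/-- the inverse map -/
def symm : PosMap Y X where
  F := S.G
  G := S.F
  left_inv := S.right_inv
  right_inv := S.left_inv
  map_smul := by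
    intro t y ht
    have : S.F (t • S.G y) = t • y := by rw [S.map_smul _ _ ht, S.right_inv]
    rw [← this, S.left_inv]
  norm_map := by
    intro y
    rw [← S.norm_map, S.right_inv]
  norm_sub := by
    intro a b hab
    have h1 : ‖S.G a‖ = ‖S.G b‖ := by
      rw [← S.norm_map (S.G a), ← S.norm_map (S.G b), S.right_inv, S.right_inv, hab]
    have := S.norm_sub (S.G a) (S.G b) h1
    rw [S.right_inv, S.right_inv] at this
    exact this.symm

theorem injective : Function.Injective S.F := fun x y h => by
  rw [← S.left_inv x, ← S.left_inv y, h]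

theorem surjective : Function.Surjective S.F := fun y => ⟨S.G y, S.right_inv y⟩

theorem lipschitz : LipschitzWith 3 S.F := by
  refine LipschitzWith.of_dist_le_mul fun u v => ?_
  rw [dist_eq_norm, dist_eq_norm]
  push_cast
  by_cases hv : v = 0
  · subst hv
    rw [S.map_zero, sub_zero, sub_zero, S.norm_map]
    nlinarith [norm_nonneg u]
  · have hv' : ‖v‖ ≠ 0 := norm_ne_zero_iff.mpr hv
    set r : ℝ := ‖u‖ / ‖v‖ with hr
    have hr0 : 0 ≤ r := by positivity
    have h1 : ‖u‖ = ‖r • v‖ := by
      rw [norm_smul, Real.norm_of_nonneg hr0, hr]; field_simp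
    have h2 : ‖r • v - v‖ = |‖u‖ - ‖v‖| := by
      have : r • v - v = (r - 1) • v := by rw [sub_smul, one_smul]
      rw [this, norm_smul, Real.norm_eq_abs, ← abs_of_nonneg (norm_nonneg v), ← abs_mul, sub_mul,
        one_mul, hr, abs_of_nonneg (norm_nonneg v)]
      congr 1
      field_simp
    have h3 : ‖S.F (r • v) - S.F v‖ = ‖r • v - v‖ := by
      rw [S.map_smul _ _ hr0]
      have e1 : r • S.F v - S.F v = (r - 1) • S.F v := by rw [sub_smul, one_smul]
      have e2 : r • v - v = (r - 1) • v := by rw [sub_smul, one_smul]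
      rw [e1, e2, norm_smul, norm_smul, S.norm_map]
    have h4 : |‖u‖ - ‖v‖| ≤ ‖u - v‖ := abs_norm_sub_norm_le u v
    have h5 : ‖u - r • v‖ ≤ ‖u - v‖ + ‖r • v - v‖ := by
      have : u - r • v = (u - v) - (r • v - v) := by abel
      rw [this]; exact norm_sub_le _ _
    have h6 : ‖S.F u - S.F v‖ ≤ ‖S.F u - S.F (r • v)‖ + ‖S.F (r • v) - S.F v‖ := by
      have : S.F u - S.F v = (S.F u - S.F (r • v)) + (S.F (r • v) - S.F v) := by abel
      rw [this]; exact norm_add_le _ _
    rw [S.norm_sub u (r • v) h1, h3] at h6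
    rw [h2] at h5 h6
    linarith

theorem continuous : Continuous S.F := S.lipschitz.continuous

/-- the homeomorphism -/
def homeo : X ≃ₜ Y where
  toFun := S.F
  invFun := S.G
  left_inv := S.left_inv
  right_inv := S.right_inv
  continuous_toFun := S.continuous
  continuous_invFun := S.symm.continuous

include S in
theorem finiteDimensional [FiniteDimensional ℝ X] : FiniteDimensional ℝ Y := by
  have h : IsCompact (closedBall (0 : Y) 1) := by
    have h1 : S.F '' closedBall (0 : X) 1 = closedBall (0 : Y) 1 := by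
      ext y
      simp only [mem_image, mem_closedBall, dist_zero_right]
      constructor
      · rintro ⟨x, hx, rfl⟩; rwa [S.norm_map]
      · intro hy; exact ⟨S.G y, by rw [← S.norm_map, S.right_inv]; exact hy, S.right_inv y⟩
    rw [← h1]
    exact (isCompact_closedBall (0 : X) 1).image S.continuous
  exact FiniteDimensional.of_isCompact_closedBall₀ ℝ one_pos h

include S in
theorem finrank_eq [FiniteDimensional ℝ X] : finrank ℝ X = finrank ℝ Y := by
  have := S.finiteDimensional
  have h1 : dimH (univ : Set Y) ≤ dimH (univ : Set X) := by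
    have := S.lipschitz.dimH_image_le univ
    rwa [image_univ, S.surjective.range_eq] at this
  have h2 : dimH (univ : Set X) ≤ dimH (univ : Set Y) := by
    have := S.symm.lipschitz.dimH_image_le univ
    rwa [image_univ, S.symm.surjective.range_eq] at this
  have h3 := le_antisymm h1 h2
  rw [Real.dimH_univ_eq_finrank, Real.dimH_univ_eq_finrank] at h3
  exact_mod_cast h3.symm

/-- the map `x ↦ F⁻¹(-F(-x))` -/
def u (x : X) : X := S.G (-S.F (-x))

theorem F_u (x : X) : S.F (S.u x) = -S.F (-x) := S.right_inv _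

theorem norm_u (x : X) : ‖S.u x‖ = ‖x‖ := by
  rw [← S.norm_map, S.F_u, norm_neg, S.norm_map, norm_neg]

theorem norm_u_sub {x y : X} (h : ‖x‖ = ‖y‖) : ‖S.u x - S.u y‖ = ‖x - y‖ := by
  rw [← S.norm_sub _ _ (by rw [S.norm_u, S.norm_u, h]), S.F_u, S.F_u]
  have : -S.F (-x) - -S.F (-y) = -(S.F (-x) - S.F (-y)) := by abel
  rw [this, norm_neg, S.norm_sub _ _ (by rw [norm_neg, norm_neg, h])]
  have : -x - -y = -(x - y) := by abel
  rw [this, norm_neg]

theorem norm_add_u {x : X} : ‖x + S.u x‖ = 2 * ‖x‖ := by
  have h1 : ‖S.u x - -x‖ = ‖S.F (S.u x) - S.F (-x)‖ :=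
    (S.norm_sub _ _ (by rw [S.norm_u, norm_neg])).symm
  rw [S.F_u] at h1
  have h2 : -S.F (-x) - S.F (-x) = (-2 : ℝ) • S.F (-x) := by
    rw [neg_smul, two_smul]; abel
  rw [h2, norm_smul, S.norm_map, norm_neg] at h1
  have h3 : x + S.u x = S.u x - -x := by abel
  rw [h3, h1]
  norm_num

end PosMap

/-- The statements which make up the elementary part of the theory of surjective isometries of
spheres of finite-dimensional spaces. -/
theorem exists_posMap {X Y : Type*} [NormedAddCommGroup X] [NormedSpace ℝ X]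
    [NormedAddCommGroup Y] [NormedSpace ℝ Y]
    (f : sphere (0 : X) 1 → sphere (0 : Y) 1) (hf : Isometry f) (hs : Function.Surjective f) :
    ∃ S : PosMap X Y, ∀ x : sphere (0 : X) 1, S.F x = f x := by
  have hinj : Function.Injective f := hf.injective
  let g : sphere (0 : Y) 1 → sphere (0 : X) 1 := fun y => (hs y).choose
  have hfg : ∀ y, f (g y) = y := fun y => (hs y).choose_spec
  have hgf : ∀ x, g (f x) = x := fun x => hinj (hfg (f x))
  have h0 : hext f 0 = 0 := by simp [hext]
  have h0' : hext g 0 = 0 := by simp [hext]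
  refine ⟨⟨hext f, hext g, ?_, ?_, ?_, ?_, ?_⟩, ?_⟩
  · intro x
    by_cases hx : x = 0
    · rw [hx, h0, h0']
    · obtain ⟨u, hu⟩ := exists_sphere_smul hx
      rw [hu, hext_smul f (norm_nonneg x), hext_smul g (norm_nonneg x), hgf]
  · intro y
    by_cases hy : y = 0
    · rw [hy, h0', h0]
    · obtain ⟨u, hu⟩ := exists_sphere_smul hy
      rw [hu, hext_smul g (norm_nonneg y), hext_smul f (norm_nonneg y), hfg]
  · intro t x ht
    by_cases hx : x = 0
    · rw [hx, smul_zero, h0, smul_zero]
    · obtain ⟨u, hu⟩ := exists_sphere_smul hx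
      rw [hu, smul_smul, hext_smul f (mul_nonneg ht (norm_nonneg x)),
        hext_smul f (norm_nonneg x), smul_smul]
  · intro x
    by_cases hx : x = 0
    · rw [hx, h0, norm_zero, norm_zero]
    · obtain ⟨u, hu⟩ := exists_sphere_smul hx
      have h1 : ‖(f u : Y)‖ = 1 := norm_eq_of_mem_sphere (f u)
      have h2 : ‖(u : X)‖ = 1 := norm_eq_of_mem_sphere u
      rw [hu, hext_smul f (norm_nonneg x), norm_smul, norm_smul, h1, h2]
  · intro x y hxy
    by_cases hx : x = 0
    · have hy : y = 0 := by rw [← norm_eq_zero, ← hxy, hx, norm_zero]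
      rw [hx, hy]; simp
    · have hy : y ≠ 0 := by
        intro h; apply hx; rw [← norm_eq_zero, hxy, h, norm_zero]
      obtain ⟨u, hu⟩ := exists_sphere_smul hx
      obtain ⟨v, hv⟩ := exists_sphere_smul hy
      have h1 : ‖(f u : Y) - f v‖ = ‖(u : X) - v‖ := by
        have h := hf.dist_eq u v
        rwa [Subtype.dist_eq, Subtype.dist_eq, dist_eq_norm, dist_eq_norm] at h
      rw [hu, hv, hxy, hext_smul f (norm_nonneg y), hext_smul f (norm_nonneg y), ← smul_sub,
        ← smul_sub, norm_smul, norm_smul, h1]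
  · intro x
    have := hext_smul f zero_le_one x
    rwa [one_smul, one_smul] at this

/-- a `PosMap` which is odd is a `SphMap` -/
def PosMap.toSphMap {X Y : Type*} [NormedAddCommGroup X] [NormedSpace ℝ X]
    [NormedAddCommGroup Y] [NormedSpace ℝ Y] (S : PosMap X Y) (h : ∀ x, S.F (-x) = -S.F x) :
    SphMap X Y where
  F := S.F
  G := S.G
  left_inv := S.left_inv
  right_inv := S.right_inv
  map_smul := by
    intro t x
    rcases le_total 0 t with ht | ht
    · exact S.map_smul t x ht
    · have h1 : t • x = -((-t) • x) := by rw [neg_smul, neg_neg]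
      rw [h1, h, S.map_smul _ _ (neg_nonneg.mpr ht), neg_smul, neg_neg]
  norm_sub := S.norm_sub

end Vale.Agent.P084
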