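import Vale.Agent.P084.LReg

open Metric Set Filter Topology MeasureTheory Module Asymptotics

namespace Vale.Agent.P084

variable {X Y : Type*} [NormedAddCommGroup X] [NormedSpace ℝ X]
    [NormedAddCommGroup Y] [NormedSpace ℝ Y]

/-- the identity -/
def SphMap.idMap (X : Type*) [NormedAddCommGroup X] [NormedSpace ℝ X] : SphMap X X where
  F := fun x => x
  G := fun x => x
  left_inv := fun _ => rfl
  right_inv := fun _ => rfl
  map_smul := fun _ _ => rfl
  norm_sub := fun _ _ _ => rfl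

/-- iterates -/
def SphMap.pow (U : SphMap X X) : ℕ → SphMap X X
  | 0 => SphMap.idMap X
  | k + 1 => (U.pow k).comp U

theorem SphMap.pow_succ_F (U : SphMap X X) (k : ℕ) (x : X) :
    (U.pow (k + 1)).F x = (U.pow k).F (U.F x) := rfl

theorem SphMap.pow_zero_F (U : SphMap X X) (x : X) : (U.pow 0).F x = x := rfl

theorem SphMap.pow_self (U : SphMap X X) {x : X} (h : U.F x = x) (k : ℕ) :
    (U.pow k).F x = x := by
  induction k with
  | zero => rfl
  | succ k ih => rw [U.pow_succ_F, h, ih]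

theorem SphMap.T1_pow [FiniteDimensional ℝ X] (U : SphMap X X) {x : X} (hx : x ≠ 0)
    (h : U.F x = x) (hT : U.T1 x = ContinuousLinearMap.id ℝ X) (k : ℕ) :
    (U.pow k).T1 x = ContinuousLinearMap.id ℝ X := by
  induction k with
  | zero => exact (hasFDerivAt_id x).fderiv
  | succ k ih =>
    show ((U.pow k).comp U).T1 x = _
    rw [SphMap.T1_comp _ _ hx, h, ih, hT, ContinuousLinearMap.id_comp]

theorem ultra_limit [FiniteDimensional ℝ X] (f : Ultrafilter ℕ) (u : ℕ → X) {C : ℝ}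
    (h : ∀ n, ‖u n‖ ≤ C) : ∃ y, Tendsto u f (𝓝 y) := by
  have hc : IsCompact (closedBall (0 : X) C) := isCompact_closedBall 0 C
  obtain ⟨y, -, hy⟩ := hc.ultrafilter_le_nhds (f.map u) (by
    rw [le_principal_iff]
    apply Filter.mem_of_superset (univ_mem' (s := u ⁻¹' closedBall (0 : X) C) ?_) (fun _ h => h)
    intro n
    exact mem_closedBall_zero_iff.mpr (h n))
  exact ⟨y, hy⟩

theorem exists_limit [FiniteDimensional ℝ X] (U : ℕ → SphMap X X) (f : Ultrafilter ℕ) :
    ∃ g : SphMap X X, ∀ z, Tendsto (fun n => (U n).F z) f (𝓝 (g.F z)) := by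
  have h1 : ∀ z : X, ∃ y, Tendsto (fun n => (U n).F z) f (𝓝 y) := fun z =>
    ultra_limit f _ (C := ‖z‖) (fun n => ((U n).norm_map z).le)
  have h2 : ∀ z : X, ∃ y, Tendsto (fun n => (U n).G z) f (𝓝 y) := fun z =>
    ultra_limit f _ (C := ‖z‖) (fun n => ((U n).symm.norm_map z).le)
  choose g hg using h1
  choose h hh using h2
  refine ⟨⟨g, h, ?_, ?_, ?_, ?_⟩, hg⟩
  · intro z
    have h3 : Tendsto (fun n => (U n).G (g z) - (U n).G ((U n).F z)) f (𝓝 0) := by
      rw [tendsto_zero_iff_norm_tendsto_zero]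
      have h4 : Tendsto (fun n => 3 * ‖g z - (U n).F z‖) f (𝓝 0) := by
        have := ((tendsto_const_nhds (x := g z)).sub (hg z)).norm.const_mul 3
        simpa using this
      refine squeeze_zero (fun n => norm_nonneg _) (fun n => ?_) h4
      exact (U n).symm.lipschitz.norm_sub_le (g z) ((U n).F z)
    have h4 : Tendsto (fun n => (U n).G (g z)) f (𝓝 z) := by
      have := h3.add_const z
      rw [zero_add] at this
      refine this.congr fun n => ?_
      rw [(U n).left_inv]; abel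
    exact tendsto_nhds_unique (hh (g z)) h4
  · intro z
    have h3 : Tendsto (fun n => (U n).F (h z) - (U n).F ((U n).G z)) f (𝓝 0) := by
      rw [tendsto_zero_iff_norm_tendsto_zero]
      have h4 : Tendsto (fun n => 3 * ‖h z - (U n).G z‖) f (𝓝 0) := by
        have := ((tendsto_const_nhds (x := h z)).sub (hh z)).norm.const_mul 3
        simpa using this
      refine squeeze_zero (fun n => norm_nonneg _) (fun n => ?_) h4
      exact (U n).lipschitz.norm_sub_le (h z) ((U n).G z)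
    have h4 : Tendsto (fun n => (U n).F (h z)) f (𝓝 z) := by
      have := h3.add_const z
      rw [zero_add] at this
      refine this.congr fun n => ?_
      rw [(U n).right_inv]; abel
    exact tendsto_nhds_unique (hg (h z)) h4
  · intro t x
    refine tendsto_nhds_unique (hg (t • x)) (((hg x).const_smul t).congr fun n => ?_)
    rw [(U n).map_smul]
  · intro x y hxy
    have h3 := ((hg x).sub (hg y)).norm
    refine tendsto_nhds_unique h3 (tendsto_const_nhds.congr fun n => ?_)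
    exact ((U n).norm_sub x y hxy).symm

theorem strict_limit [FiniteDimensional ℝ X] {f : Filter ℕ} {w : X}
    (hw : DifferentiableAt ℝ (fun v : X => ‖v‖) w) {a b : ℕ → X} (ha : Tendsto a f (𝓝 w))
    (hb : Tendsto b f (𝓝 w)) {ρ : ℕ → ℝ} (hρ : ∀ n, 0 < ρ n) {c : X}
    (hc : Tendsto (fun n => (ρ n)⁻¹ • (a n - b n)) f (𝓝 c)) :
    Tendsto (fun n => (ρ n)⁻¹ * (‖a n‖ - ‖b n‖)) f (𝓝 (N1 w c)) := by
  have h1 := hasStrictFDerivAt_norm' hw
  rw [hasStrictFDerivAt_iff_isLittleO] at h1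
  have h2 : Tendsto (fun n => (a n, b n)) f (𝓝 (w, w)) := by
    rw [nhds_prod_eq]; exact ha.prodMk hb
  have h3 : (fun n => ‖a n‖ - ‖b n‖ - N1 w (a n - b n)) =o[f] (fun n => a n - b n) :=
    h1.comp_tendsto h2
  have h4 := (isBigO_refl (fun n => (ρ n)⁻¹) f).smul_isLittleO h3
  have h5 : (fun n => (ρ n)⁻¹ • (a n - b n)) =O[f] (fun _ => (1 : ℝ)) := hc.isBigO_one ℝ
  have h6 := h4.trans_isBigO h5
  rw [isLittleO_one_iff] at h6
  have h7 : Tendsto (fun n => N1 w ((ρ n)⁻¹ • (a n - b n))) f (𝓝 (N1 w c)) :=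
    ((N1 w).continuous.tendsto c).comp hc
  have h8 := h6.add h7
  rw [zero_add] at h8
  refine h8.congr fun n => ?_
  rw [_root_.map_smul, smul_eq_mul, smul_eq_mul]
  ring

theorem uniform_strict [FiniteDimensional ℝ X] (U : SphMap X X) {x : X} (hx : ‖x‖ = 1)
    (hUx : U.F x = x) (hT : U.T1 x = ContinuousLinearMap.id ℝ X) {ε : ℝ} (hε : 0 < ε) :
    ∃ r > 0, ∀ k : ℕ, ∀ p q : X, ‖p‖ = 1 → ‖q‖ = 1 → ‖p - x‖ < r → ‖q - x‖ < r →
      ‖(U.pow k).F p - (U.pow k).F q - (p - q)‖ ≤ ε * ‖p - q‖ := by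
  have hx0 : x ≠ 0 := ne_zero_of_unit hx
  by_contra hcon
  push Not at hcon
  have h1 : ∀ n : ℕ, ∃ k : ℕ, ∃ p q : X, ‖p‖ = 1 ∧ ‖q‖ = 1 ∧ ‖p - x‖ < 1 / ((n : ℝ) + 1) ∧
      ‖q - x‖ < 1 / ((n : ℝ) + 1) ∧
      ε * ‖p - q‖ < ‖(U.pow k).F p - (U.pow k).F q - (p - q)‖ := by
    intro n
    obtain ⟨k, p, q, h⟩ := hcon (1 / ((n : ℝ) + 1)) (by positivity)
    exact ⟨k, p, q, h⟩
  choose k p q hp hq hpx hqx hne using h1
  set 𝒰 : Ultrafilter ℕ := hyperfilter ℕ with h𝒰def
  have h𝒰 : (𝒰 : Filter ℕ) ≤ atTop := Nat.hyperfilter_le_atTop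
  obtain ⟨g, hg⟩ := exists_limit (fun n => U.pow (k n)) 𝒰
  have hpt : Tendsto p 𝒰 (𝓝 x) := by
    rw [tendsto_iff_norm_sub_tendsto_zero]
    exact squeeze_zero (fun n => norm_nonneg _) (fun n => (hpx n).le)
      (tendsto_one_div_add_atTop_nhds_zero_nat.mono_left h𝒰)
  have hqt : Tendsto q 𝒰 (𝓝 x) := by
    rw [tendsto_iff_norm_sub_tendsto_zero]
    exact squeeze_zero (fun n => norm_nonneg _) (fun n => (hqx n).le)
      (tendsto_one_div_add_atTop_nhds_zero_nat.mono_left h𝒰)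
  have hpq : ∀ n, 0 < ‖p n - q n‖ := by
    intro n
    rw [norm_pos_iff, sub_ne_zero]
    intro h
    have := hne n
    rw [h, sub_self, sub_self, sub_zero, norm_zero, mul_zero] at this
    exact lt_irrefl _ this
  have hself : ∀ n, (U.pow (k n)).F x = x := fun n => U.pow_self hUx (k n)
  have hiso : ∀ n, ‖(U.pow (k n)).F (p n) - (U.pow (k n)).F (q n)‖ = ‖p n - q n‖ := fun n =>
    (U.pow (k n)).norm_sub _ _ (by rw [hp, hq])
  obtain ⟨d, hd⟩ := ultra_limit 𝒰 (fun n => ‖p n - q n‖⁻¹ • (p n - q n)) (C := 1) (by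
    intro n
    rw [norm_smul, norm_inv, norm_norm, inv_mul_cancel₀ (hpq n).ne'])
  obtain ⟨e, he⟩ := ultra_limit 𝒰 (fun n => ‖p n - q n‖⁻¹ •
      ((U.pow (k n)).F (p n) - (U.pow (k n)).F (q n))) (C := 1) (by
    intro n
    rw [norm_smul, norm_inv, norm_norm, hiso, inv_mul_cancel₀ (hpq n).ne'])
  have hde : ε ≤ ‖e - d‖ := by
    refine ge_of_tendsto (he.sub hd).norm (Eventually.of_forall fun n => ?_)
    rw [← smul_sub, norm_smul, norm_inv, norm_norm, inv_mul_eq_div, le_div_iff₀ (hpq n)]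
    exact (hne n).le
  have hgx : g.F x = x := by
    refine tendsto_nhds_unique (hg x) (tendsto_const_nhds.congr fun n => ?_)
    exact (hself n).symm
  -- the generic set
  set D : Set X := {z | z ∈ Wset x ∧ DifferentiableAt ℝ (fun v : X => ‖v‖) (P x z) ∧
    (∀ j, DifferentiableAt ℝ (fun v : X => ‖v‖) (P x ((U.pow j).F z))) ∧
    DifferentiableAt ℝ (fun v : X => ‖v‖) (P x (g.F z))} with hD
  have hDd : Wset x ⊆ closure D := by
    let _ : MeasurableSpace X := borel X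
    have : BorelSpace X := ⟨rfl⟩
    have a1 := P_preimage_null' hx (nonsmooth_null (X := X))
    have a2 : ∀ j, μH[(finrank ℝ X : ℝ)] {z : X | (U.pow j).F z ∈ Wset x ∧
        P x ((U.pow j).F z) ∈ {z : X | ¬ DifferentiableAt ℝ (fun v : X => ‖v‖) z}} = 0 :=
      fun j => (U.pow j).null_P hx nonsmooth_null
    have a3 : μH[(finrank ℝ X : ℝ)] {z : X | g.F z ∈ Wset x ∧
        P x (g.F z) ∈ {z : X | ¬ DifferentiableAt ℝ (fun v : X => ‖v‖) z}} = 0 :=
      g.null_P hx nonsmooth_null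
    have a4 := open_subset_closure_diff (isOpen_Wset x)
      (measure_union_null (measure_union_null a1 (measure_iUnion_null a2)) a3)
    refine a4.trans (closure_mono ?_)
    rintro z ⟨hz1, hz2⟩
    simp only [mem_union, not_or, mem_iUnion, not_exists] at hz2
    obtain ⟨⟨b1, b2⟩, b3⟩ := hz2
    refine ⟨hz1, ?_, fun j => ?_, ?_⟩
    · by_contra h; exact b1 ⟨hz1, h⟩
    · by_contra h
      refine b2 j ⟨?_, h⟩
      have := (U.pow j).mem_Wset hx hz1
      rwa [U.pow_self hUx j] at this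
    · by_contra h
      refine b3 ⟨?_, h⟩
      have := g.mem_Wset hx hz1
      rwa [hgx] at this
  -- the tangent direction
  have hdtan : DifferentiableAt ℝ (fun v : X => ‖v‖) x → N1 x d = 0 := by
    intro hsm
    have h2 := strict_limit hsm hpt hqt hpq hd
    refine tendsto_nhds_unique h2 (tendsto_const_nhds.congr fun n => ?_)
    rw [hp, hq, sub_self, mul_zero]
  have hclaimA : ∀ z ∈ D, N1 (P x (g.F z)) d = N1 (P x z) d := by
    intro z hz
    have h2 : ∀ j, N1 (P x ((U.pow j).F z)) d = N1 (P x z) d := by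
      intro j
      have h3 := (U.pow j).chain' hx (z := z) (u := d)
        ⟨hz.1, hz.2.1, by rw [U.pow_self hUx j]; exact hz.2.2.1 j⟩ hdtan
      rwa [U.pow_self hUx j, U.T1_pow hx0 hUx hT j, ContinuousLinearMap.id_apply] at h3
    have h3 : Tendsto (fun n => P x ((U.pow (k n)).F z)) 𝒰 (𝓝 (P x (g.F z))) :=
      ((continuous_P x).tendsto _).comp (hg z)
    have h4 := tendsto_N1 hz.2.2.2 h3 (Eventually.of_forall fun n => hz.2.2.1 (k n))
    have h5 : Tendsto (fun n => N1 (P x ((U.pow (k n)).F z)) d) 𝒰 (𝓝 (N1 (P x (g.F z)) d)) :=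
      ((ContinuousLinearMap.apply ℝ ℝ d).continuous.tendsto _).comp h4
    exact tendsto_nhds_unique h5 (tendsto_const_nhds.congr fun n => (h2 (k n)).symm)
  have hclaimB : ∀ z ∈ D, N1 (P x (g.F z)) e = N1 (P x z) d := by
    intro z hz
    have hz0 : ‖z‖ ≠ 0 := norm_ne_zero_iff.mpr (Wset_ne_zero hz.1)
    have c1 : Tendsto (fun n => (U.pow (k n)).F (p n)) 𝒰 (𝓝 x) := by
      rw [tendsto_iff_norm_sub_tendsto_zero] at hpt ⊢
      refine hpt.congr fun n => ?_
      have c0 := (U.pow (k n)).norm_sub (p n) x (by rw [hp, hx])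
      rw [hself] at c0
      exact c0.symm
    have c2 : Tendsto (fun n => (U.pow (k n)).F (q n)) 𝒰 (𝓝 x) := by
      rw [tendsto_iff_norm_sub_tendsto_zero] at hqt ⊢
      refine hqt.congr fun n => ?_
      have c0 := (U.pow (k n)).norm_sub (q n) x (by rw [hq, hx])
      rw [hself] at c0
      exact c0.symm
    have hPg : P x (g.F z) = ‖z‖ • x + g.F z := by unfold P; rw [g.norm_map]
    have c3 : Tendsto (fun n => ‖z‖ • (U.pow (k n)).F (p n) + (U.pow (k n)).F z) 𝒰
        (𝓝 (P x (g.F z))) := by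
      rw [hPg]; exact (c1.const_smul ‖z‖).add (hg z)
    have c4 : Tendsto (fun n => ‖z‖ • (U.pow (k n)).F (q n) + (U.pow (k n)).F z) 𝒰
        (𝓝 (P x (g.F z))) := by
      rw [hPg]; exact (c2.const_smul ‖z‖).add (hg z)
    have c5 : Tendsto (fun n => ‖p n - q n‖⁻¹ • ((‖z‖ • (U.pow (k n)).F (p n) +
        (U.pow (k n)).F z) - (‖z‖ • (U.pow (k n)).F (q n) + (U.pow (k n)).F z))) 𝒰
        (𝓝 (‖z‖ • e)) := by
      refine (he.const_smul ‖z‖).congr fun n => ?_
      rw [add_sub_add_right_eq_sub, ← smul_sub, smul_comm]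
    have c6 := strict_limit hz.2.2.2 c3 c4 hpq c5
    have c7 : Tendsto (fun n => ‖z‖ • p n + z) 𝒰 (𝓝 (P x z)) :=
      (hpt.const_smul ‖z‖).add_const z
    have c8 : Tendsto (fun n => ‖z‖ • q n + z) 𝒰 (𝓝 (P x z)) :=
      (hqt.const_smul ‖z‖).add_const z
    have c9 : Tendsto (fun n => ‖p n - q n‖⁻¹ • ((‖z‖ • p n + z) - (‖z‖ • q n + z))) 𝒰
        (𝓝 (‖z‖ • d)) := by
      refine (hd.const_smul ‖z‖).congr fun n => ?_
      rw [add_sub_add_right_eq_sub, ← smul_sub, smul_comm]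
    have c10 := strict_limit hz.2.1 c7 c8 hpq c9
    have hnorm : ∀ n (y : X), ‖y‖ = 1 →
        ‖‖z‖ • (U.pow (k n)).F y + (U.pow (k n)).F z‖ = ‖‖z‖ • y + z‖ := by
      intro n y hy
      rw [← (U.pow (k n)).map_smul]
      apply (U.pow (k n)).norm_add
      rw [norm_smul, hy, mul_one, norm_norm]
    have c11 := tendsto_nhds_unique c6 (c10.congr fun n => by
      rw [hnorm n _ (hp n), hnorm n _ (hq n)])
    rw [_root_.map_smul, _root_.map_smul, smul_eq_mul, smul_eq_mul] at c11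
    exact mul_left_cancel₀ hz0 c11
  have hsep : e - d = 0 := by
    refine separating' hx (g.F '' D) ?_ ?_ ?_
    · have := g.image_Wset hx hDd
      rwa [hgx] at this
    · rintro _ ⟨z, hz, rfl⟩; exact hz.2.2.2
    · rintro _ ⟨z, hz, rfl⟩
      rw [_root_.map_sub, hclaimA z hz, hclaimB z hz, sub_self]
  rw [hsep, norm_zero] at hde
  linarith

theorem fix_unit [FiniteDimensional ℝ X] (U : SphMap X X) {x : X} (hx : ‖x‖ = 1)
    (hUx : U.F x = x) (hT : U.T1 x = ContinuousLinearMap.id ℝ X) :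
    ∃ r > 0, ∀ p : X, ‖p‖ = 1 → ‖p - x‖ < r → U.F p = p := by
  obtain ⟨r, hr, h⟩ := uniform_strict U hx hUx hT (ε := 1 / 2) (by norm_num)
  refine ⟨r, hr, fun p hp hpx => ?_⟩
  have hUp : ‖U.F p‖ = 1 := by rw [U.norm_map, hp]
  have hUpx : ‖U.F p - x‖ < r := by
    have h1 := U.norm_sub p x (by rw [hp, hx])
    rw [hUx] at h1; rwa [h1]
  set w := U.F p - p with hw
  have key : ∀ n : ℕ, ‖(U.pow n).F p - p - (n : ℝ) • w‖ ≤ (n : ℝ) / 2 * ‖w‖ := by
    intro n
    induction n with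
    | zero => rw [U.pow_zero_F]; simp
    | succ n ih =>
      have h1 := h n (U.F p) p hUp hp hUpx hpx
      have e1 : (U.pow (n + 1)).F p - p - ((n + 1 : ℕ) : ℝ) • w =
          ((U.pow n).F (U.F p) - (U.pow n).F p - (U.F p - p)) +
            ((U.pow n).F p - p - (n : ℝ) • w) := by
        rw [U.pow_succ_F, ← hw]; push_cast; rw [add_smul, one_smul]; abel
      rw [e1]
      refine (norm_add_le _ _).trans ?_
      rw [← hw] at h1 ⊢
      push_cast
      linarith
  by_contra hne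
  have hw0 : 0 < ‖w‖ := by
    rw [norm_pos_iff, hw, sub_ne_zero]; exact hne
  obtain ⟨n, hn⟩ := exists_nat_gt (4 / ‖w‖)
  rw [div_lt_iff₀ hw0] at hn
  have h1 := key n
  have h2 : ‖(n : ℝ) • w‖ ≤ ‖(U.pow n).F p - p - (n : ℝ) • w‖ + ‖(U.pow n).F p - p‖ := by
    have e1 : (n : ℝ) • w = -((U.pow n).F p - p - (n : ℝ) • w) + ((U.pow n).F p - p) := by abel
    calc ‖(n : ℝ) • w‖ = ‖-((U.pow n).F p - p - (n : ℝ) • w) + ((U.pow n).F p - p)‖ := by
          rw [← e1]
      _ ≤ _ := by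
          refine (norm_add_le _ _).trans ?_
          rw [norm_neg]
  have h3 : ‖(U.pow n).F p - p‖ ≤ 2 := by
    refine (norm_sub_le _ _).trans ?_
    rw [(U.pow n).norm_map, hp]; norm_num
  rw [norm_smul, Real.norm_of_nonneg (Nat.cast_nonneg n)] at h2
  linarith

theorem fix_near [FiniteDimensional ℝ X] (U : SphMap X X) {x : X} (hx : x ≠ 0)
    (hUx : U.F x = x) (hT : U.T1 x = ContinuousLinearMap.id ℝ X) : ∀ᶠ p in 𝓝 x, U.F p = p := by
  have hx' : 0 < ‖x‖ := norm_pos_iff.mpr hx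
  obtain ⟨r, hr, h⟩ := fix_unit U (x := ‖x‖⁻¹ • x) (unit_of_ne hx) (by rw [U.map_smul, hUx])
    (by rw [U.T1_smul (inv_ne_zero hx'.ne'), hT])
  have hc : ContinuousAt (fun z : X => ‖z‖⁻¹ • z) x :=
    (continuous_norm.continuousAt.inv₀ hx'.ne').smul continuousAt_id
  have h1 : ∀ᶠ p in 𝓝 x, ‖‖p‖⁻¹ • p - ‖x‖⁻¹ • x‖ < r := by
    have := hc.tendsto.eventually (Metric.ball_mem_nhds (‖x‖⁻¹ • x) hr)
    filter_upwards [this] with p hp
    rw [← dist_eq_norm]; exact hp
  filter_upwards [h1, isOpen_ne.mem_nhds hx] with p hp hp0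
  have h2 := h _ (unit_of_ne hp0) hp
  rw [U.map_smul] at h2
  have h3 := congrArg (fun y => ‖p‖ • y) h2
  simp only [smul_smul, mul_inv_cancel₀ (norm_ne_zero_iff.mpr hp0), one_smul] at h3
  exact h3

/-- **Rigidity.** -/
theorem SphMap.rigid [FiniteDimensional ℝ X] [FiniteDimensional ℝ Y] (S : SphMap X Y)
    (hdim : 2 ≤ finrank ℝ X) {x : X} (hx : ‖x‖ = 1)
    (hd : x ∈ Sm X) (h : ∀ q ∈ Ccone x, ‖S.T1 x q‖ = ‖q‖) : S.Lin := by
  have hx0 : x ≠ 0 := ne_zero_of_unit hx
  set T := S.T1 x with hT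
  -- `T` is an isometry
  have h1 : ∀ q, 0 < N1 x q → ‖T q‖ = ‖q‖ := by
    intro q hq
    apply h
    have h2 : HasDerivAt (fun t : ℝ => ‖x + t • q‖) (N1 x q) 0 :=
      comp_line (f := fun v : X => ‖v‖) (DifferentiableAt.hasFDerivAt hd) q
    have h3 := h2.tendsto_slope_zero_left
    have h4 : ∀ᶠ t : ℝ in 𝓝[<] 0, 0 < t⁻¹ • (‖x + (0 + t) • q‖ - ‖x + (0 : ℝ) • q‖) :=
      h3.eventually (lt_mem_nhds hq)
    obtain ⟨t, ht, ht0⟩ := (h4.and self_mem_nhdsWithin).exists
    have ht0 : t < 0 := ht0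
    rw [zero_add, zero_smul, add_zero, hx, smul_eq_mul] at ht
    have h5 : ‖x + t • q‖ < 1 := by
      by_contra hcon
      push Not at hcon
      have : t⁻¹ * (‖x + t • q‖ - 1) ≤ 0 :=
        mul_nonpos_of_nonpos_of_nonneg (inv_nonpos.mpr ht0.le) (by linarith)
      linarith
    refine ⟨-t⁻¹, by rw [neg_pos]; exact inv_lt_zero.mpr ht0, ?_⟩
    have e1 : (-t⁻¹) • x - q = (-t⁻¹) • (x + t • q) := by
      rw [smul_add, smul_smul, neg_mul, inv_mul_cancel₀ ht0.ne, neg_smul (1 : ℝ), one_smul]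
      abel
    rw [e1, norm_smul, hx, mul_one, Real.norm_of_nonneg (by
      rw [neg_nonneg]; exact inv_nonpos.mpr ht0.le)]
    have h6 : 0 < -t⁻¹ := by rw [neg_pos]; exact inv_lt_zero.mpr ht0
    calc -t⁻¹ * ‖x + t • q‖ < -t⁻¹ * 1 := mul_lt_mul_of_pos_left h5 h6
      _ = -t⁻¹ := mul_one _
  have h2 : ∀ q, 0 ≤ N1 x q → ‖T q‖ = ‖q‖ := by
    intro q hq
    have hNx : N1 x x = 1 := by rw [N1_self hd, hx]
    have h3 : Tendsto (fun t : ℝ => ‖T (q + t • x)‖) (𝓝[>] 0) (𝓝 ‖T q‖) := by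
      have hc : Continuous (fun t : ℝ => ‖T (q + t • x)‖) := by fun_prop
      have := hc.tendsto 0
      rw [zero_smul, add_zero] at this
      exact this.mono_left nhdsWithin_le_nhds
    have h4 : Tendsto (fun t : ℝ => ‖q + t • x‖) (𝓝[>] 0) (𝓝 ‖q‖) := by
      have hc : Continuous (fun t : ℝ => ‖q + t • x‖) := by fun_prop
      have := hc.tendsto 0
      rw [zero_smul, add_zero] at this
      exact this.mono_left nhdsWithin_le_nhds
    refine tendsto_nhds_unique h3 (h4.congr' ?_)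
    filter_upwards [self_mem_nhdsWithin] with t ht
    have ht : 0 < t := ht
    rw [h1]
    rw [_root_.map_add, _root_.map_smul, hNx, smul_eq_mul, mul_one]
    linarith
  have hiso : ∀ q, ‖T q‖ = ‖q‖ := by
    intro q
    rcases le_total 0 (N1 x q) with hq | hq
    · exact h2 q hq
    · have := h2 (-q) (by rw [_root_.map_neg]; linarith)
      rwa [_root_.map_neg, norm_neg, norm_neg] at this
  -- the inverse of `T`
  set G := S.symm.T1 (S.F x) with hG
  have hGT : ∀ v, G (T v) = v := fun v => by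
    have := congrArg (fun L : X →L[ℝ] X => L v) (S.T1_symm_comp hx0)
    exact this
  have hTG : ∀ v, T (G v) = v := fun v => by
    have := congrArg (fun L : Y →L[ℝ] Y => L v) (S.T1_comp_symm hx0)
    exact this
  have hGiso : ∀ y, ‖G y‖ = ‖y‖ := fun y => by rw [← hiso, hTG]
  let U : SphMap X X :=
    { F := fun z => G (S.F z)
      G := fun z => S.G (T z)
      left_inv := by intro z; rw [hTG, S.left_inv]
      right_inv := by intro z; rw [S.right_inv, hGT]
      map_smul := by intro t z; rw [S.map_smul, _root_.map_smul]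
      norm_sub := by
        intro z w hzw
        rw [← _root_.map_sub, hGiso, S.norm_sub _ _ hzw] }
  have hUF : ∀ z, U.F z = G (S.F z) := fun z => rfl
  have hUx : U.F x = x := by rw [hUF, ← S.T1_self' hx0, hGT]
  have hUT : U.T1 x = ContinuousLinearMap.id ℝ X := by
    have h3 : HasFDerivAt U.F (G.comp T) x := G.hasFDerivAt.comp x (S.diff hx0).hasFDerivAt
    have h4 : G.comp T = ContinuousLinearMap.id ℝ X := by ext v; exact hGT v
    rw [h4] at h3
    exact h3.fderiv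
  set A : Set X := {z | z ≠ 0 ∧ U.F z = z ∧ U.T1 z = ContinuousLinearMap.id ℝ X} with hA
  have hAopen : IsOpen A := by
    rw [isOpen_iff_mem_nhds]
    rintro z ⟨hz0, hz1, hz2⟩
    have h3 := fix_near U hz0 hz1 hz2
    filter_upwards [isOpen_ne.mem_nhds hz0, eventually_eventually_nhds.mpr h3] with w hw0 hw
    refine ⟨hw0, hw.self_of_nhds, ?_⟩
    have h4 : HasFDerivAt U.F (ContinuousLinearMap.id ℝ X) w :=
      (hasFDerivAt_id w).congr_of_eventuallyEq hw
    exact h4.fderiv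
  have hconn : IsPreconnected ({0}ᶜ : Set X) := by
    apply IsConnected.isPreconnected
    apply isConnected_compl_singleton_of_one_lt_rank
    rw [← Module.finrank_eq_rank]
    exact_mod_cast (by omega : 1 < finrank ℝ X)
  have hsub : ({0}ᶜ : Set X) ⊆ A := by
    apply hconn.subset_of_closure_inter_subset hAopen ⟨x, hx0, hx0, hUx, hUT⟩
    rintro z ⟨hz, hz0⟩
    have hz0 : z ≠ 0 := hz0
    refine ⟨hz0, ?_, ?_⟩
    · have hcl : IsClosed {z : X | U.F z = z} := isClosed_eq U.continuous continuous_id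
      exact closure_minimal (fun w hw => hw.2.1) hcl hz
    · have h3 : U.T1 z ∈ closure (U.T1 '' A) :=
        (U.T1_continuousAt hz0).continuousWithinAt.mem_closure_image hz
      have h4 : U.T1 '' A ⊆ {ContinuousLinearMap.id ℝ X} := by
        rintro _ ⟨w, hw, rfl⟩; exact hw.2.2
      have h5 := closure_mono h4 h3
      rwa [closure_singleton] at h5
  refine ⟨T, fun z => ?_⟩
  by_cases hz : z = 0
  · rw [hz, S.map_zero, _root_.map_zero]
  · have h3 := (hsub hz).2.1
    rw [hUF] at h3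
    rw [← hTG (S.F z), h3]

end Vale.Agent.P084
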