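import Vale.Agent.P084.LReg
import Vale.Agent.P084.Rigid
import Vale.Agent.P084.AlexLocal
import Vale.Agent.P084.BaireLocal

open Metric Set Filter Topology MeasureTheory Module Asymptotics

namespace Vale.Agent.P084

variable {X Y : Type*} [NormedAddCommGroup X] [NormedSpace ℝ X]
    [NormedAddCommGroup Y] [NormedSpace ℝ Y]

namespace RegLocalAux

theorem sm_smul {x : X} (hx : x ≠ 0) : ‖x‖⁻¹ • x ∈ Sm X ↔ x ∈ Sm X :=
  (differentiableAt_norm_smul (inv_ne_zero (norm_ne_zero_iff.mpr hx))).symm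

theorem sm_ne_zero [Nontrivial X] {x : X} (hx : x ∈ Sm X) : x ≠ 0 := by
  rintro rfl
  exact not_differentiableAt_norm_zero X hx

theorem rg_of_unit {E : Type*} [NormedAddCommGroup E] [NormedSpace ℝ E] {s : ℕ} {f : X → E}
    (hf : ∀ t : ℝ, 0 < t → ∀ z, f (t • z) = f z) {x : X} (hx : x ≠ 0)
    (h1 : Rg s f (‖x‖⁻¹ • x)) : Rg s f x := by
  have hx' : 0 < ‖x‖ := norm_pos_iff.mpr hx
  have h2 : Rg s (fun z : X => ‖x‖⁻¹ • z) x :=
    Rg.of_strict ((hasStrictFDerivAt_id x).const_smul ‖x‖⁻¹)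
  refine (Rg.comp (f := fun z : X => ‖x‖⁻¹ • z) h1 h2).congr ?_
  filter_upwards with z
  rw [hf _ (inv_pos.mpr hx')]

/-- the set of smooth points is open, or the map is linear -/
theorem sm_open [FiniteDimensional ℝ X] [FiniteDimensional ℝ Y] (S : SphMap X Y)
    (hdim : 2 ≤ finrank ℝ X) (hL : ¬ S.Lin) : IsOpen (Sm X) := by
  have : Nontrivial X := Module.nontrivial_of_finrank_pos (R := ℝ) (by omega)
  rw [isOpen_iff_mem_nhds]
  intro x hx
  by_contra hn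
  have hx0 := sm_ne_zero hx
  have hx' : ‖x‖ ≠ 0 := norm_ne_zero_iff.mpr hx0
  have hfr : ∃ᶠ y in 𝓝 x, y ∉ Sm X :=
    fun h => hn (Filter.mem_of_superset h (fun y hy => not_not.mp hy))
  obtain ⟨x₀, hx₀⟩ : ∃ x₀ : X, x₀ = ‖x‖⁻¹ • x := ⟨_, rfl⟩
  have hu : ‖x₀‖ = 1 := by rw [hx₀]; exact unit_of_ne hx0
  have hsm : x₀ ∈ Sm X := by rw [hx₀]; exact (sm_smul hx0).2 hx
  have hcont : Tendsto (fun y : X => ‖y‖⁻¹ • y) (𝓝 x) (𝓝 x₀) := by
    rw [hx₀]
    exact ((continuous_norm.continuousAt.inv₀ hx').smul continuousAt_id).tendsto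
  have hfr2 : ∃ᶠ y in 𝓝 x₀, ‖y‖ = 1 ∧ y ∉ Sm X := by
    refine hcont.frequently ?_
    refine (hfr.and_eventually (isOpen_ne.mem_nhds hx0)).mono ?_
    rintro y ⟨hy1, hy2⟩
    exact ⟨unit_of_ne hy2, fun h => hy1 ((sm_smul hy2).1 h)⟩
  apply hL
  refine S.rigid hdim hu hsm fun q hq => ?_
  by_contra hne
  have hc : ContinuousAt (fun y => ‖S.T1 y q‖) x₀ := by
    have h1 := S.T1_continuousAt (ne_zero_of_unit hu)
    exact (h1.clm_apply continuousAt_const).norm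
  have hev : ∀ᶠ y in 𝓝 x₀, ‖S.T1 y q‖ ≠ ‖q‖ := hc.eventually_ne hne
  have hev2 : ∀ᶠ y in 𝓝 x₀, q ∈ Ccone y := by
    obtain ⟨s, hs, hsq⟩ := hq
    have : IsOpen {y : X | ‖s • y - q‖ < s * ‖y‖} := isOpen_lt (by fun_prop) (by fun_prop)
    filter_upwards [this.mem_nhds hsq] with y hy
    exact ⟨s, hs, hy⟩
  obtain ⟨y, ⟨hy1, hy2⟩, hy3, hy4⟩ := (hfr2.and_eventually (hev.and hev2)).exists
  exact hy3 ((S.frt hy1 hy2).norm_eq hy1 hy4)

end RegLocalAux

open RegLocalAux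

/-- the chart operator `A`, which coincides with the derivative of the isometry on the tangent
space of the sphere (local version, for all unit vectors) -/
theorem SphMap.exists_A' [FiniteDimensional ℝ X] [FiniteDimensional ℝ Y]
    (S : SphMap X Y) (hO : IsOpen (Sm X)) (hO' : IsOpen (Sm Y)) {s : ℕ}
    {x₀ : X} (hx₀ : ‖x₀‖ = 1) (D : Set X) (hDW : D ⊆ Wset x₀) (hD : Wset x₀ ⊆ closure D)
    (hsm : ∀ z ∈ D, P x₀ z ∈ Sm X) (hsm' : ∀ z ∈ D, P (S.F x₀) (S.F z) ∈ Sm Y)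
    (hreg : ∀ z ∈ D, Rg s (N1 : X → X →L[ℝ] ℝ) (P x₀ z))
    (hreg' : ∀ z ∈ D, Rg s (N1 : Y → Y →L[ℝ] ℝ) (P (S.F x₀) (S.F z))) :
    ∃ A : X → X →L[ℝ] Y, Rg s A x₀ ∧
      ∀ᶠ x in 𝓝 x₀, ‖x‖ = 1 → ∀ u, (x ∈ Sm X → N1 x u = 0) → A x u = S.T1 x u := by
  have hF : Rg s S.F x₀ := Rg.of_strict (S.strict (ne_zero_of_unit hx₀))
  obtain ⟨n, z, hz, M₀, hM₀⟩ := pair_chart S.toPos S.toPos hx₀ (fun z => S.mem_Wset_iff hx₀) D hD
    (fun z hz => hsm' z hz)
  let M : X → Y →L[ℝ] (Fin n → ℝ) := fun x =>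
    ContinuousLinearMap.pi fun i => N1 (P (S.F x) (S.F (z i)))
  let L : X → X →L[ℝ] (Fin n → ℝ) := fun x =>
    ContinuousLinearMap.pi fun i => N1 (P x (z i))
  have hMx₀ : M x₀ = M₀ := by
    ext w i
    show N1 (P (S.F x₀) (S.F (z i))) w = M₀ w i
    rw [hM₀]
    rfl
  have hMreg : Rg s M x₀ := by
    apply Rg.pi
    intro i
    have h1 : Rg s (fun x => P (S.F x) (S.F (z i))) x₀ := by
      unfold P
      exact ((Rg.const ‖S.F (z i)‖).smul hF).add (Rg.const _)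
    exact (hreg' (z i) (hz i)).comp (f := fun x => P (S.F x) (S.F (z i))) h1
  have hLreg : Rg s L x₀ := by
    apply Rg.pi
    intro i
    have h1 : Rg s (fun x => P x (z i)) x₀ := by
      unfold P
      exact ((Rg.const ‖z i‖).smul Rg.id).add (Rg.const _)
    exact (hreg (z i) (hz i)).comp (f := fun x => P x (z i)) h1
  refine ⟨fun x => (ContinuousLinearMap.inverse (M x)).comp (L x),
    (hMreg.inverse M₀ hMx₀).clm_comp hLreg, ?_⟩
  -- eventually invertible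
  have hinv : ∀ᶠ x in 𝓝 x₀, M x ∈ range ((↑) : (Y ≃L[ℝ] (Fin n → ℝ)) → (Y →L[ℝ] (Fin n → ℝ))) := by
    apply hMreg.continuousAt
    rw [hMx₀]
    exact M₀.nhds
  have hgood : ∀ᶠ x in 𝓝 x₀, ∀ i, z i ∈ S.good x := by
    rw [eventually_all]
    intro i
    have e1 : ∀ᶠ x in 𝓝 x₀, z i ∈ Wset x := by
      have : IsOpen {x : X | ‖z i - x‖ < ‖z i‖ + ‖x‖} := isOpen_lt (by fun_prop) (by fun_prop)
      exact this.mem_nhds (hDW (hz i))
    have e2 : ∀ᶠ x in 𝓝 x₀, P x (z i) ∈ Sm X := by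
      have hc : ContinuousAt (fun x => P x (z i)) x₀ := by unfold P; fun_prop
      exact hc.eventually_mem (hO.mem_nhds (hsm _ (hz i)))
    have e3 : ∀ᶠ x in 𝓝 x₀, P (S.F x) (S.F (z i)) ∈ Sm Y := by
      have hc : ContinuousAt (fun x => P (S.F x) (S.F (z i))) x₀ := by
        unfold P
        exact (continuousAt_const.smul S.continuous.continuousAt).add continuousAt_const
      exact hc.eventually_mem (hO'.mem_nhds (hsm' _ (hz i)))
    filter_upwards [e1, e2, e3] with x h1 h2 h3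
    exact ⟨h1, h2, h3⟩
  filter_upwards [hinv, hgood] with x hx1 hx2 hx3 u hu
  obtain ⟨e, he⟩ := hx1
  have h1 : L x u = M x (S.T1 x u) := by
    ext i
    show N1 (P x (z i)) u = N1 (P (S.F x) (S.F (z i))) (S.T1 x u)
    symm
    exact S.chain' hx3 (hx2 i) hu
  show ContinuousLinearMap.inverse (M x) (L x u) = S.T1 x u
  rw [h1, ← he, ContinuousLinearMap.inverse_equiv]
  exact e.symm_apply_apply _

/-- regularity of the derivative of the isometry -/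
theorem SphMap.rg_T1' [FiniteDimensional ℝ X] [FiniteDimensional ℝ Y]
    (S : SphMap X Y) (hO : IsOpen (Sm X)) (hO' : IsOpen (Sm Y)) {s : ℕ}
    {x₀ : X} (hx₀ : ‖x₀‖ = 1) (hx₀s : x₀ ∈ Sm X)
    (D : Set X) (hDW : D ⊆ Wset x₀) (hD : Wset x₀ ⊆ closure D)
    (hsm : ∀ z ∈ D, P x₀ z ∈ Sm X) (hsm' : ∀ z ∈ D, P (S.F x₀) (S.F z) ∈ Sm Y)
    (hreg : ∀ z ∈ D, Rg s (N1 : X → X →L[ℝ] ℝ) (P x₀ z))
    (hreg' : ∀ z ∈ D, Rg s (N1 : Y → Y →L[ℝ] ℝ) (P (S.F x₀) (S.F z)))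
    (hN : Rg s (N1 : X → X →L[ℝ] ℝ) x₀) :
    Rg s S.T1 x₀ := by
  have hF : Rg s S.F x₀ := Rg.of_strict (S.strict (ne_zero_of_unit hx₀))
  have hn : Rg s (fun v : X => ‖v‖) x₀ := Rg.of_strict (hasStrictFDerivAt_norm' hx₀s)
  obtain ⟨A, hA, hAT⟩ := S.exists_A' hO hO' hx₀ D hDW hD hsm hsm' hreg hreg'
  have hx₀' : x₀ ≠ 0 := ne_zero_of_unit hx₀
  let R : X → X →L[ℝ] Y := fun x =>
    (A x).comp (ContinuousLinearMap.id ℝ X - (N1 x).smulRight x) + (N1 x).smulRight (S.F x)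
  have hR : Rg s R x₀ :=
    (hA.clm_comp ((Rg.const _).sub (hN.smulRight Rg.id))).add (hN.smulRight hF)
  have hRT : ∀ᶠ x in 𝓝 x₀, ‖x‖ = 1 → S.T1 x = R x := by
    filter_upwards [hAT, hO.mem_nhds hx₀s] with x hx hxs hx1
    have hx0 : x ≠ 0 := ne_zero_of_unit hx1
    ext v
    have h1 : N1 x (v - N1 x v • x) = 0 := by
      rw [_root_.map_sub, _root_.map_smul, N1_self hxs, hx1]; simp
    have h2 := hx hx1 _ (fun _ => h1)
    have h3 : S.T1 x v = S.T1 x (v - N1 x v • x) + N1 x v • S.F x := by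
      rw [_root_.map_sub, _root_.map_smul, S.T1_self' hx0]; abel
    rw [h3, ← h2]
    simp [R]
  have hnormz := rg_normalize hx₀ hn
  have e0 : ‖x₀‖⁻¹ • x₀ = x₀ := by rw [hx₀, inv_one, one_smul]
  have hR' : Rg s R ((fun x : X => ‖x‖⁻¹ • x) x₀) := by
    show Rg s R (‖x₀‖⁻¹ • x₀)
    rw [e0]; exact hR
  refine (Rg.comp (f := fun x : X => ‖x‖⁻¹ • x) hR' hnormz).congr ?_
  have hcont : Tendsto (fun x : X => ‖x‖⁻¹ • x) (𝓝 x₀) (𝓝 x₀) := by
    have := hnormz.continuousAt.tendsto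
    rwa [e0] at this
  filter_upwards [hcont.eventually hRT, isOpen_ne.mem_nhds hx₀'] with x hx hx0
  have hx0' : ‖x‖ ≠ 0 := norm_ne_zero_iff.mpr hx0
  rw [← hx (by rw [norm_smul, norm_inv, norm_norm, inv_mul_cancel₀ hx0']),
    S.T1_smul (inv_ne_zero hx0')]

/-- **Dichotomy** at smooth points. -/
theorem SphMap.dicho' [FiniteDimensional ℝ X] [FiniteDimensional ℝ Y]
    (S : SphMap X Y) (hdim : 2 ≤ finrank ℝ X) (hO : IsOpen (Sm X)) (hO' : IsOpen (Sm Y)) {s : ℕ}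
    {x₀ : X} (hx₀ : ‖x₀‖ = 1) (hx₀s : x₀ ∈ Sm X)
    (D : Set X) (hDW : D ⊆ Wset x₀) (hD : Wset x₀ ⊆ closure D)
    (hsm : ∀ z ∈ D, P x₀ z ∈ Sm X) (hsm' : ∀ z ∈ D, P (S.F x₀) (S.F z) ∈ Sm Y)
    (hreg : ∀ z ∈ D, Rg s (N1 : X → X →L[ℝ] ℝ) (P x₀ z))
    (hreg' : ∀ z ∈ D, Rg s (N1 : Y → Y →L[ℝ] ℝ) (P (S.F x₀) (S.F z))) :
    S.Lin ∨ Rg s (N1 : X → X →L[ℝ] ℝ) x₀ := by
  have hF : Rg s S.F x₀ := Rg.of_strict (S.strict (ne_zero_of_unit hx₀))
  have hn : Rg s (fun v : X => ‖v‖) x₀ := Rg.of_strict (hasStrictFDerivAt_norm' hx₀s)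
  obtain ⟨A, hA, hAT⟩ := S.exists_A' hO hO' hx₀ D hDW hD hsm hsm' hreg hreg'
  have hx₀' : x₀ ≠ 0 := ne_zero_of_unit hx₀
  by_cases hall : ∀ z ∈ D, ∀ v, N1 (P (S.F x₀) (S.F z)) (A x₀ v) = N1 (P x₀ z) v
  · left
    have hfrt : FRT S x₀ (A x₀) D := ⟨hDW, hD, fun z hz => ⟨hsm z hz, hsm' z hz, hall z hz⟩⟩
    have hker : ∀ u, N1 x₀ u = 0 → A x₀ u = S.T1 x₀ u :=
      fun u hu => hAT.self_of_nhds hx₀ u (fun _ => hu)
    obtain ⟨w, hw⟩ : ∃ w : Y, w = A x₀ x₀ - S.T1 x₀ x₀ := ⟨_, rfl⟩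
    have hAw : ∀ v, A x₀ v = S.T1 x₀ v + N1 x₀ v • w := by
      intro v
      have h1 : N1 x₀ (v - N1 x₀ v • x₀) = 0 := by
        rw [_root_.map_sub, _root_.map_smul, N1_self hx₀s, hx₀]; simp
      have h2 := hker _ h1
      rw [_root_.map_sub, _root_.map_sub, _root_.map_smul, _root_.map_smul] at h2
      rw [hw, smul_sub]
      have h3 : A x₀ v = (A x₀ v - N1 x₀ v • A x₀ x₀) + N1 x₀ v • A x₀ x₀ := by abel
      rw [h3, h2]
      abel
    have hderiv : (fun x => S.F x - S.F x₀ - A x₀ (x - x₀)) =o[𝓝[sphere (0 : X) 1] x₀]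
        (fun x => x - x₀) := by
      have h1 : (fun x => S.F x - S.F x₀ - S.T1 x₀ (x - x₀)) =o[𝓝[sphere (0 : X) 1] x₀]
          (fun x => x - x₀) :=
        (hasFDerivAt_iff_isLittleO.1 (S.strict hx₀').hasFDerivAt).mono nhdsWithin_le_nhds
      have h2 : (fun x => ‖x‖ - ‖x₀‖ - N1 x₀ (x - x₀)) =o[𝓝[sphere (0 : X) 1] x₀]
          (fun x => x - x₀) :=
        (hasFDerivAt_iff_isLittleO.1 (DifferentiableAt.hasFDerivAt hx₀s)).mono nhdsWithin_le_nhds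
      have h3 : (fun x => N1 x₀ (x - x₀)) =o[𝓝[sphere (0 : X) 1] x₀] (fun x => x - x₀) := by
        refine h2.neg_left.congr' ?_ EventuallyEq.rfl
        filter_upwards [self_mem_nhdsWithin] with x hx
        have hx1 : ‖x‖ = 1 := mem_sphere_zero_iff_norm.mp hx
        rw [hx1, hx₀]; simp
      have h4 : (fun x => N1 x₀ (x - x₀) • w) =o[𝓝[sphere (0 : X) 1] x₀] (fun x => x - x₀) := by
        have h5 := h3.norm_right.smul_isBigO
          (isBigO_refl (fun _ : X => w) (𝓝[sphere (0 : X) 1] x₀))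
        have h6 : (fun x : X => ‖x - x₀‖ • w) =O[𝓝[sphere (0 : X) 1] x₀]
            (fun x : X => x - x₀) := by
          apply IsBigO.of_bound ‖w‖
          filter_upwards with x
          rw [norm_smul, norm_norm, mul_comm]
        exact h5.trans_isBigO h6
      refine (h1.sub h4).congr' ?_ EventuallyEq.rfl
      filter_upwards with x
      rw [hAw]
      abel
    have hself : A x₀ x₀ = S.F x₀ := hfrt.map_self hx₀ hderiv S.affine
    have hAT1 : A x₀ = S.T1 x₀ := by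
      ext v
      rw [hAw v, hw, hself, S.T1_self' hx₀', sub_self, smul_zero, add_zero]
    refine S.rigid hdim hx₀ hx₀s fun q hq => ?_
    rw [← hAT1]
    exact hfrt.norm_eq hx₀ hq
  · right
    push Not at hall
    obtain ⟨z, hz, v₀, hv₀⟩ := hall
    let Γ : X → X →L[ℝ] ℝ := fun x => (N1 (P (S.F x) (S.F z))).comp (A x) - N1 (P x z)
    have hΓ : Rg s Γ x₀ := by
      have h1 : Rg s (fun x => P (S.F x) (S.F z)) x₀ := by
        unfold P
        exact ((Rg.const ‖S.F z‖).smul hF).add (Rg.const _)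
      have h2 : Rg s (fun x => P x z) x₀ := by
        unfold P
        exact ((Rg.const ‖z‖).smul Rg.id).add (Rg.const _)
      exact (((hreg' z hz).comp (f := fun x => P (S.F x) (S.F z)) h1).clm_comp hA).sub
        ((hreg z hz).comp (f := fun x => P x z) h2)
    have hgood : ∀ᶠ x in 𝓝 x₀, z ∈ S.good x := by
      have e1 : ∀ᶠ x in 𝓝 x₀, z ∈ Wset x := by
        have : IsOpen {x : X | ‖z - x‖ < ‖z‖ + ‖x‖} := isOpen_lt (by fun_prop) (by fun_prop)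
        exact this.mem_nhds (hDW hz)
      have e2 : ∀ᶠ x in 𝓝 x₀, P x z ∈ Sm X := by
        have hc : ContinuousAt (fun x => P x z) x₀ := by unfold P; fun_prop
        exact hc.eventually_mem (hO.mem_nhds (hsm _ hz))
      have e3 : ∀ᶠ x in 𝓝 x₀, P (S.F x) (S.F z) ∈ Sm Y := by
        have hc : ContinuousAt (fun x => P (S.F x) (S.F z)) x₀ := by
          unfold P
          exact (continuousAt_const.smul S.continuous.continuousAt).add continuousAt_const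
        exact hc.eventually_mem (hO'.mem_nhds (hsm' _ hz))
      filter_upwards [e1, e2, e3] with x h1 h2 h3
      exact ⟨h1, h2, h3⟩
    have hker : ∀ᶠ x in 𝓝 x₀, ‖x‖ = 1 → Γ x = Γ x x • N1 x := by
      filter_upwards [hAT, hgood, hO.mem_nhds hx₀s] with x hx hx2 hxs hx1
      have hk : ∀ u, N1 x u = 0 → Γ x u = 0 := by
        intro u hu
        show N1 (P (S.F x) (S.F z)) (A x u) - N1 (P x z) u = 0
        rw [hx hx1 u (fun _ => hu), sub_eq_zero]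
        exact S.chain' hx1 hx2 (fun _ => hu)
      ext v
      have h1 : N1 x (v - N1 x v • x) = 0 := by
        rw [_root_.map_sub, _root_.map_smul, N1_self hxs, hx1]; simp
      have h2 := hk _ h1
      rw [_root_.map_sub, _root_.map_smul, sub_eq_zero] at h2
      rw [h2, smul_apply, smul_eq_mul, smul_eq_mul, mul_comm]
    have hne : Γ x₀ x₀ ≠ 0 := by
      intro h
      have h1 := hker.self_of_nhds hx₀
      rw [h, zero_smul] at h1
      apply hv₀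
      have h2 := congrArg (fun φ : X →L[ℝ] ℝ => φ v₀) h1
      have h3 : N1 (P (S.F x₀) (S.F z)) (A x₀ v₀) - N1 (P x₀ z) v₀ = 0 := h2
      exact sub_eq_zero.mp h3
    let Ψ : X → X →L[ℝ] ℝ := fun x => (Γ x x)⁻¹ • Γ x
    have hΨ : Rg s Ψ x₀ := ((hΓ.clm_apply Rg.id).inv hne).smul hΓ
    have hne' : ∀ᶠ x in 𝓝 x₀, Γ x x ≠ 0 := (hΓ.clm_apply Rg.id).continuousAt.eventually_ne hne
    have hΨN : ∀ᶠ x in 𝓝 x₀, ‖x‖ = 1 → N1 x = Ψ x := by
      filter_upwards [hker, hne', hO.mem_nhds hx₀s] with x hx hx2 hxs hx1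
      show N1 x = (Γ x x)⁻¹ • Γ x
      have := hx hx1
      rw [this, smul_apply, smul_smul, smul_eq_mul]
      rw [N1_self hxs, hx1, mul_one, inv_mul_cancel₀ hx2, one_smul]
    have hnormz := rg_normalize hx₀ hn
    have e0 : ‖x₀‖⁻¹ • x₀ = x₀ := by rw [hx₀, inv_one, one_smul]
    have hΨ' : Rg s Ψ ((fun x : X => ‖x‖⁻¹ • x) x₀) := by
      show Rg s Ψ (‖x₀‖⁻¹ • x₀)
      rw [e0]; exact hΨ
    refine (Rg.comp (f := fun x : X => ‖x‖⁻¹ • x) hΨ' hnormz).congr ?_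
    have hcont : Tendsto (fun x : X => ‖x‖⁻¹ • x) (𝓝 x₀) (𝓝 x₀) := by
      have := hnormz.continuousAt.tendsto
      rwa [e0] at this
    filter_upwards [hcont.eventually hΨN, isOpen_ne.mem_nhds hx₀'] with x hx hx0
    have hx0' : ‖x‖ ≠ 0 := norm_ne_zero_iff.mpr hx0
    rw [← hx (by rw [norm_smul, norm_inv, norm_norm, inv_mul_cancel₀ hx0']), N1_normalize hx0]

namespace RegLocalAux

/-- local preimage of residual sets -/
theorem residual_local {Z : Type*} [TopologicalSpace Z] {X : Type*} [TopologicalSpace X]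
    {g : X → Z} (hg : Continuous g) {W : Set X}
    (hn : ∀ z ∈ W, 𝓝 (g z) ≤ map g (𝓝 z)) {R : Set Z} (hR : R ∈ residual Z) :
    {z | z ∈ W → g z ∈ R} ∈ residual X := by
  obtain ⟨T, hTo, hTd, hTc, hTR⟩ := mem_residual_iff.mp hR
  have h1 : ∀ O ∈ T, g ⁻¹' O ∪ (closure W)ᶜ ∈ residual X := by
    intro O hO
    have hopen : IsOpen (g ⁻¹' O ∪ (closure W)ᶜ) :=
      ((hTo O hO).preimage hg).union isClosed_closure.isOpen_compl
    have hdense : Dense (g ⁻¹' O ∪ (closure W)ᶜ) := by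
      rw [dense_iff_inter_open]
      intro V hV hVne
      by_cases hVW : (V ∩ W).Nonempty
      · obtain ⟨z₀, hz₀V, hz₀W⟩ := hVW
        have h2 : g '' V ∈ 𝓝 (g z₀) := hn z₀ hz₀W (image_mem_map (hV.mem_nhds hz₀V))
        obtain ⟨y, hyO, hyV⟩ := (hTd O hO).inter_nhds_nonempty h2
        obtain ⟨z, hz, rfl⟩ := hyV
        exact ⟨z, hz, Or.inl hyO⟩
      · obtain ⟨z, hz⟩ := hVne
        refine ⟨z, hz, Or.inr ?_⟩
        intro hcl
        obtain ⟨w, hw1, hw2⟩ := mem_closure_iff.mp hcl V hV hz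
        exact hVW ⟨w, hw1, hw2⟩
    exact residual_of_dense_open hopen hdense
  have h2 : ⋂ O ∈ T, (g ⁻¹' O ∪ (closure W)ᶜ) ∈ residual X := by
    rw [countable_bInter_mem hTc]
    exact h1
  refine mem_of_superset h2 ?_
  intro z hz hzW
  apply hTR
  intro O hO
  rcases mem_iInter₂.mp hz O hO with h | h
  · exact h
  · exact absurd (subset_closure hzW) h

theorem dense_null [FiniteDimensional ℝ X] [FiniteDimensional ℝ Y] [MeasurableSpace X]
    [BorelSpace X] [MeasurableSpace Y] [BorelSpace Y] (S : SphMap X Y) {x₀ : X}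
    (hx₀ : ‖x₀‖ = 1) {A : Set X} {A' : Set Y} (hA : μH[(finrank ℝ X : ℝ)] A = 0)
    (hA' : μH[(finrank ℝ Y : ℝ)] A' = 0) :
    Wset x₀ ⊆ closure {z | z ∈ Wset x₀ ∧ P x₀ z ∉ A ∧ P (S.F x₀) (S.F z) ∉ A'} := by
  have h1 := P_preimage_null' hx₀ hA
  have h2 := S.null_P (a := S.F x₀) (by rw [S.norm_map, hx₀]) hA'
  refine (open_subset_closure_diff (isOpen_Wset x₀) (measure_union_null h1 h2)).trans
    (closure_mono ?_)
  rintro z ⟨hz1, hz2⟩
  simp only [mem_union, not_or] at hz2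
  exact ⟨hz1, fun h => hz2.1 ⟨hz1, h⟩, fun h => hz2.2 ⟨S.mem_Wset hx₀ hz1, h⟩⟩

theorem dense_residual [FiniteDimensional ℝ X] [FiniteDimensional ℝ Y] (S : SphMap X Y) {x₀ : X}
    (hx₀ : ‖x₀‖ = 1) {R : Set X} {R' : Set Y} (hR : R ∈ residual X) (hR' : R' ∈ residual Y) :
    Wset x₀ ⊆ closure {z | z ∈ Wset x₀ ∧ P x₀ z ∈ R ∧ P (S.F x₀) (S.F z) ∈ R'} := by
  have : CompleteSpace X := FiniteDimensional.complete ℝ X
  have h1 := residual_local (continuous_P x₀) (W := Wset x₀) (fun z hz => P_nhds_le' hx₀ hz) hR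
  have h2 : {z | z ∈ Wset x₀ → P (S.F x₀) (S.F z) ∈ R'} ∈ residual X := by
    refine residual_local (g := fun z => P (S.F x₀) (S.F z))
      ((continuous_P _).comp S.continuous) (W := Wset x₀) ?_ hR'
    intro z hz
    have h4 := P_nhds_le' (a := S.F x₀) (by rw [S.norm_map, hx₀]) (S.mem_Wset hx₀ hz)
    have h5 : map S.F (𝓝 z) = 𝓝 (S.F z) := S.homeo.map_nhds_eq z
    rw [← h5, map_map] at h4
    exact h4
  have h3 := (dense_of_mem_residual (inter_mem h1 h2)).open_subset_closure_inter (isOpen_Wset x₀)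
  refine h3.trans (closure_mono ?_)
  rintro z ⟨hz1, hz2, hz3⟩
  exact ⟨hz1, hz2 hz1, hz3 hz1⟩

theorem dense_Sm [FiniteDimensional ℝ X] : Dense (Sm X) := by
  let _ : MeasurableSpace X := borel X
  have : BorelSpace X := ⟨rfl⟩
  exact Measure.dense_of_ae (ae_differentiableAt_norm (E := X) (μ := μH[(finrank ℝ X : ℝ)]))

theorem bad_null [FiniteDimensional ℝ X] [MeasurableSpace X] [BorelSpace X]
    (hO : IsOpen (Sm X)) : μH[(finrank ℝ X : ℝ)]
      {z : X | ¬ (z ∈ Sm X ∧ DifferentiableAt ℝ (N1 : X → X →L[ℝ] ℝ) z)} = 0 := by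
  have h1 := alexandrov_local (Sm X) hO (fun z hz => hz) (μH[(finrank ℝ X : ℝ)] : Measure X)
  have h2 : ∀ᵐ z ∂(μH[(finrank ℝ X : ℝ)] : Measure X), z ∈ Sm X :=
    ae_differentiableAt_norm (E := X) (μ := μH[(finrank ℝ X : ℝ)])
  refine ae_iff.mp ?_
  filter_upwards [h1, h2] with z hz1 hz2
  exact ⟨hz2, hz1 hz2⟩

theorem N1_diff' [FiniteDimensional ℝ X] [FiniteDimensional ℝ Y]
    (S : SphMap X Y) (hdim : 2 ≤ finrank ℝ X) (hO : IsOpen (Sm X)) (hO' : IsOpen (Sm Y))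
    (hL : ¬ S.Lin) : ∀ z ∈ Sm X, DifferentiableAt ℝ (N1 : X → X →L[ℝ] ℝ) z := by
  have : Nontrivial X := Module.nontrivial_of_finrank_pos (R := ℝ) (by omega)
  intro z hz
  have hz0 := sm_ne_zero hz
  refine rg_of_unit (s := 1) (fun t ht z => N1_smul_pos ht z) hz0 ?_
  let _ : MeasurableSpace X := borel X
  have : BorelSpace X := ⟨rfl⟩
  let _ : MeasurableSpace Y := borel Y
  have : BorelSpace Y := ⟨rfl⟩
  have hD := dense_null S (unit_of_ne hz0) (bad_null (X := X) hO) (bad_null (X := Y) hO')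
  refine (S.dicho' hdim hO hO' (s := 1) (unit_of_ne hz0) ((sm_smul hz0).2 hz) _
    (fun z hz => hz.1) hD ?_ ?_ ?_ ?_).resolve_left hL
  · intro z hz
    exact (not_not.mp hz.2.1).1
  · intro z hz
    exact (not_not.mp hz.2.2).1
  · intro z hz
    exact (not_not.mp hz.2.1).2
  · intro z hz
    exact (not_not.mp hz.2.2).2

theorem N1_strict' [FiniteDimensional ℝ X] [FiniteDimensional ℝ Y]
    (S : SphMap X Y) (hdim : 2 ≤ finrank ℝ X) (hO : IsOpen (Sm X)) (hO' : IsOpen (Sm Y))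
    (hL : ¬ S.Lin) (hNX : ∀ z ∈ Sm X, DifferentiableAt ℝ (N1 : X → X →L[ℝ] ℝ) z)
    (hNY : ∀ z ∈ Sm Y, DifferentiableAt ℝ (N1 : Y → Y →L[ℝ] ℝ) z) :
    ∀ z ∈ Sm X, Rg 2 (N1 : X → X →L[ℝ] ℝ) z := by
  have : Nontrivial X := Module.nontrivial_of_finrank_pos (R := ℝ) (by omega)
  intro z hz
  have hz0 := sm_ne_zero hz
  refine rg_of_unit (s := 2) (fun t ht z => N1_smul_pos ht z) hz0 ?_
  have hD := dense_residual S (unit_of_ne hz0)
    (residual_strict_local (Sm X) hO dense_Sm (N1 : X → X →L[ℝ] ℝ) hNX)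
    (residual_strict_local (Sm Y) hO' dense_Sm (N1 : Y → Y →L[ℝ] ℝ) hNY)
  refine (S.dicho' hdim hO hO' (s := 2) (unit_of_ne hz0) ((sm_smul hz0).2 hz) _
    (fun z hz => hz.1) hD ?_ ?_ ?_ ?_).resolve_left hL
  · intro z hz
    exact hz.2.1.1
  · intro z hz
    exact hz.2.2.1
  · intro z hz
    exact hz.2.1.2
  · intro z hz
    exact hz.2.2.2

end RegLocalAux

/-- (K) RegLocal.lean -/
theorem SphMap.lin_or_lreg [FiniteDimensional ℝ X] [FiniteDimensional ℝ Y] (S : SphMap X Y)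
    (hdim : 2 ≤ finrank ℝ X) : S.Lin ∨ S.LReg := by
  by_cases hL : S.Lin
  · exact Or.inl hL
  right
  have hL' : ¬ S.symm.Lin := fun h => hL h.of_symm
  have hdim' : 2 ≤ finrank ℝ Y := by rw [← S.finrank_eq]; exact hdim
  have hO := sm_open S hdim hL
  have hO' := sm_open S.symm hdim' hL'
  have hNX := N1_diff' S hdim hO hO' hL
  have hNY := N1_diff' S.symm hdim' hO' hO hL'
  have hNX2 := N1_strict' S hdim hO hO' hL hNX hNY
  have hNY2 := N1_strict' S.symm hdim' hO' hO hL' hNY hNX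
  refine ⟨hO, hO', hNX2, hNY2, ?_⟩
  have : Nontrivial X := Module.nontrivial_of_finrank_pos (R := ℝ) (by omega)
  intro z hz
  have hz0 := sm_ne_zero hz
  refine rg_of_unit (s := 2) (fun t ht z => S.T1_smul ht.ne' z) hz0 ?_
  exact S.rg_T1' hO hO' (s := 2) (unit_of_ne hz0) ((sm_smul hz0).2 hz) (S.good _)
    (S.good_sub _) (S.good_dense (unit_of_ne hz0)) (fun z hz => hz.2.1) (fun z hz => hz.2.2)
    (fun z hz => hNX2 _ hz.2.1) (fun z hz => hNY2 _ hz.2.2) (hNX2 _ ((sm_smul hz0).2 hz))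

end Vale.Agent.P084
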