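import Vale.Agent.P084.Density

open Metric Set Filter Topology MeasureTheory Module Asymptotics

namespace Vale.Agent.P084

variable {X Y : Type*} [NormedAddCommGroup X] [NormedSpace ℝ X]
    [NormedAddCommGroup Y] [NormedSpace ℝ Y]

/-- the map is linear -/
def SphMap.Lin (S : SphMap X Y) : Prop := ∃ T : X →L[ℝ] Y, ∀ x, S.F x = T x

theorem SphMap.Lin.of_symm {S : SphMap X Y} (h : S.symm.Lin) : S.Lin := by
  obtain ⟨T, hT⟩ := h
  have hG : ∀ y, S.G y = T y := hT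
  let T' : X →ₗ[ℝ] Y :=
    { toFun := S.F
      map_add' := by
        intro x y
        have : S.F (T (S.F x + S.F y)) = S.F x + S.F y := by rw [← hG, S.right_inv]
        rw [← this, _root_.map_add, ← hG, ← hG, S.left_inv, S.left_inv]
      map_smul' := fun t x => S.map_smul t x }
  exact ⟨⟨T', S.continuous⟩, fun x => rfl⟩

theorem unit_of_ne {x : X} (hx : x ≠ 0) : ‖‖x‖⁻¹ • x‖ = 1 := by
  rw [norm_smul, norm_inv, norm_norm, inv_mul_cancel₀ (norm_ne_zero_iff.mpr hx)]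

theorem smul_unit {x : X} (hx : x ≠ 0) : ‖x‖ • (‖x‖⁻¹ • x) = x := by
  rw [smul_smul, mul_inv_cancel₀ (norm_ne_zero_iff.mpr hx), one_smul]

theorem Rg.of_unit {E : Type*} [NormedAddCommGroup E] [NormedSpace ℝ E] {s : ℕ} {f : X → E}
    (hf : ∀ t : ℝ, 0 < t → ∀ z, f (t • z) = f z) (h : ∀ x₀ : X, ‖x₀‖ = 1 → Rg s f x₀)
    {x : X} (hx : x ≠ 0) : Rg s f x := by
  have hx' : 0 < ‖x‖ := norm_pos_iff.mpr hx
  have h1 := h _ (unit_of_ne hx)
  have h2 : Rg s (fun z : X => ‖x‖⁻¹ • z) x :=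
    Rg.of_strict ((hasStrictFDerivAt_id x).const_smul ‖x‖⁻¹)
  refine (Rg.comp (f := fun z : X => ‖x‖⁻¹ • z) h1 h2).congr ?_
  filter_upwards with z
  rw [hf _ (inv_pos.mpr hx')]

theorem norm_diff_of_unit (h : ∀ x₀ : X, ‖x₀‖ = 1 → DifferentiableAt ℝ (fun v : X => ‖v‖) x₀)
    {x : X} (hx : x ≠ 0) : DifferentiableAt ℝ (fun v : X => ‖v‖) x := by
  have hx' : ‖x‖ ≠ 0 := norm_ne_zero_iff.mpr hx
  rw [← smul_unit hx]
  exact (differentiableAt_norm_smul hx').mp (h _ (unit_of_ne hx))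

section
variable [FiniteDimensional ℝ X] [FiniteDimensional ℝ Y]
    [StrictConvexSpace ℝ X] [StrictConvexSpace ℝ Y]

theorem SphMap.dense_D0 (S : SphMap X Y) (hdim : 2 ≤ finrank ℝ X) {x₀ : X} (hx₀ : ‖x₀‖ = 1) :
    Dense (S.D0 x₀) := by
  let _ : MeasurableSpace X := borel X
  have : BorelSpace X := ⟨rfl⟩
  let _ : MeasurableSpace Y := borel Y
  have : BorelSpace Y := ⟨rfl⟩
  have h1 : μH[(finrank ℝ X : ℝ)] {z : X | ¬ DifferentiableAt ℝ (fun v : X => ‖v‖) z} = 0 :=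
    ae_iff.mp (ae_differentiableAt_norm (E := X) (μ := μH[(finrank ℝ X : ℝ)]))
  have h2 : μH[(finrank ℝ Y : ℝ)] {z : Y | ¬ DifferentiableAt ℝ (fun v : Y => ‖v‖) z} = 0 :=
    ae_iff.mp (ae_differentiableAt_norm (E := Y) (μ := μH[(finrank ℝ Y : ℝ)]))
  refine (S.dense_of_null hdim hx₀ h1 h2).mono ?_
  rintro z ⟨hz1, hz2, hz3⟩
  exact ⟨hz1, not_not.mp hz2, not_not.mp hz3⟩

theorem SphMap.norm_diff (S : SphMap X Y) (hdim : 2 ≤ finrank ℝ X) :
    S.Lin ∨ ∀ z : X, z ≠ 0 → DifferentiableAt ℝ (fun v : X => ‖v‖) z := by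
  by_cases hL : S.Lin
  · exact Or.inl hL
  · right
    intro z hz
    refine norm_diff_of_unit ?_ hz
    intro x₀ hx₀
    exact (S.step0 hx₀ (S.dense_D0 hdim hx₀)).resolve_left hL

theorem SphMap.F_diff (S : SphMap X Y) (hdim : 2 ≤ finrank ℝ X)
    (hX : ∀ z : X, z ≠ 0 → DifferentiableAt ℝ (fun v : X => ‖v‖) z) {x : X} (hx : x ≠ 0) :
    DifferentiableAt ℝ S.F x := by
  have h1 := S.differentiableAt_unit (unit_of_ne hx) (S.dense_D0 hdim (unit_of_ne hx))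
    (hX _ (by intro h; have := unit_of_ne hx; rw [h, norm_zero] at this; exact zero_ne_one this))
  have h2 := S.differentiableAt_smul (norm_ne_zero_iff.mpr hx) h1
  rwa [smul_unit hx] at h2

theorem eventually_diff (hX : ∀ z : X, z ≠ 0 → DifferentiableAt ℝ (fun v : X => ‖v‖) z) {x : X}
    (hx : x ≠ 0) : ∀ᶠ w in 𝓝 x, DifferentiableAt ℝ (fun v : X => ‖v‖) w := by
  filter_upwards [isOpen_ne.mem_nhds hx] with w hw
  exact hX w hw

theorem SphMap.P_ne_zero' (S : SphMap X Y) {x₀ z : X} (h : ¬ SameRay ℝ z (-x₀)) :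
    P (S.F x₀) (S.F z) ≠ 0 := by
  apply P_ne_zero
  intro h'
  apply h
  apply S.sameRay
  rwa [S.map_neg]

theorem SphMap.T1_cont (S : SphMap X Y) (hdim : 2 ≤ finrank ℝ X)
    (hX : ∀ z : X, z ≠ 0 → DifferentiableAt ℝ (fun v : X => ‖v‖) z)
    (hY : ∀ z : Y, z ≠ 0 → DifferentiableAt ℝ (fun v : Y => ‖v‖) z) {x : X} (hx : x ≠ 0) :
    ContinuousAt S.T1 x := by
  have key : ∀ x₀ : X, ‖x₀‖ = 1 → Rg 0 S.T1 x₀ := by
    intro x₀ hx₀
    have hx0 : x₀ ≠ 0 := by intro h; rw [h, norm_zero] at hx₀; exact zero_ne_one hx₀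
    refine S.rg_T1 hX hY (fun x hx => S.F_diff hdim hX hx) hx₀ (S.D0 x₀) (S.dense_D0 hdim hx₀)
      (fun z hz => hz.1) ?_ ?_ S.continuous.continuousAt continuous_norm.continuousAt
      (continuousAt_N1 (eventually_diff hX hx0))
    · intro z hz
      exact continuousAt_N1 (eventually_diff hX (P_ne_zero hz.1))
    · intro z hz
      exact continuousAt_N1 (eventually_diff hY (S.P_ne_zero' hz.1))
  exact Rg.of_unit (s := 0) (fun t ht z => S.T1_smul ht.ne' z) key hx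

theorem SphMap.N1_diff (S : SphMap X Y) (hdim : 2 ≤ finrank ℝ X)
    (hX : ∀ z : X, z ≠ 0 → DifferentiableAt ℝ (fun v : X => ‖v‖) z)
    (hY : ∀ z : Y, z ≠ 0 → DifferentiableAt ℝ (fun v : Y => ‖v‖) z) :
    S.Lin ∨ ∀ z : X, z ≠ 0 → DifferentiableAt ℝ (N1 : X → X →L[ℝ] ℝ) z := by
  by_cases hL : S.Lin
  · exact Or.inl hL
  · right
    intro z hz
    refine Rg.of_unit (s := 1) (fun t ht z => N1_smul_pos ht z) ?_ hz
    intro x₀ hx₀
    have hx0 : x₀ ≠ 0 := by intro h; rw [h, norm_zero] at hx₀; exact zero_ne_one hx₀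
    let _ : MeasurableSpace X := borel X
    have : BorelSpace X := ⟨rfl⟩
    let _ : MeasurableSpace Y := borel Y
    have : BorelSpace Y := ⟨rfl⟩
    have h1 : μH[(finrank ℝ X : ℝ)] {z : X | ¬ DifferentiableAt ℝ (N1 : X → X →L[ℝ] ℝ) z} = 0 :=
      ae_iff.mp (alexandrov hX μH[(finrank ℝ X : ℝ)])
    have h2 : μH[(finrank ℝ Y : ℝ)] {z : Y | ¬ DifferentiableAt ℝ (N1 : Y → Y →L[ℝ] ℝ) z} = 0 :=
      ae_iff.mp (alexandrov hY μH[(finrank ℝ Y : ℝ)])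
    have hD := S.dense_of_null hdim hx₀ h1 h2
    refine (S.dicho hX hY (fun x hx => S.F_diff hdim hX hx) (s := 1) hx₀ _ hD
      (fun z hz => hz.1) ?_ ?_ (S.F_diff hdim hX hx0) (hX x₀ hx0)).resolve_left hL
    · intro z hz
      exact not_not.mp hz.2.1
    · intro z hz
      exact not_not.mp hz.2.2

theorem SphMap.F_strict (S : SphMap X Y) (hdim : 2 ≤ finrank ℝ X)
    (hX : ∀ z : X, z ≠ 0 → DifferentiableAt ℝ (fun v : X => ‖v‖) z)
    (hY : ∀ z : Y, z ≠ 0 → DifferentiableAt ℝ (fun v : Y => ‖v‖) z) {x : X} (hx : x ≠ 0) :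
    HasStrictFDerivAt S.F (S.T1 x) x := by
  refine hasStrictFDerivAt_of_hasFDerivAt_of_continuousAt ?_ (S.T1_cont hdim hX hY hx)
  filter_upwards [isOpen_ne.mem_nhds hx] with w hw
  exact (S.F_diff hdim hX hw).hasFDerivAt

theorem SphMap.N1_strict (S : SphMap X Y) (hdim : 2 ≤ finrank ℝ X)
    (hX : ∀ z : X, z ≠ 0 → DifferentiableAt ℝ (fun v : X => ‖v‖) z)
    (hY : ∀ z : Y, z ≠ 0 → DifferentiableAt ℝ (fun v : Y => ‖v‖) z)
    (hNX : ∀ z : X, z ≠ 0 → DifferentiableAt ℝ (N1 : X → X →L[ℝ] ℝ) z)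
    (hNY : ∀ z : Y, z ≠ 0 → DifferentiableAt ℝ (N1 : Y → Y →L[ℝ] ℝ) z) :
    S.Lin ∨ ∀ z : X, z ≠ 0 → Rg 2 (N1 : X → X →L[ℝ] ℝ) z := by
  by_cases hL : S.Lin
  · exact Or.inl hL
  · right
    intro z hz
    refine Rg.of_unit (s := 2) (fun t ht z => N1_smul_pos ht z) ?_ hz
    intro x₀ hx₀
    have hx0 : x₀ ≠ 0 := by intro h; rw [h, norm_zero] at hx₀; exact zero_ne_one hx₀
    have hD := S.dense_of_residual hdim hx₀ (residual_strict _ hNX) (residual_strict _ hNY)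
    refine (S.dicho hX hY (fun x hx => S.F_diff hdim hX hx) (s := 2) hx₀ _ hD
      (fun z hz => hz.1) ?_ ?_ ⟨_, S.F_strict hdim hX hY hx0⟩
      ⟨_, hasStrictFDerivAt_norm (eventually_diff hX hx0)⟩).resolve_left hL
    · intro z hz
      exact hz.2.1
    · intro z hz
      exact hz.2.2

theorem SphMap.T1_strict (S : SphMap X Y) (hdim : 2 ≤ finrank ℝ X)
    (hX : ∀ z : X, z ≠ 0 → DifferentiableAt ℝ (fun v : X => ‖v‖) z)
    (hY : ∀ z : Y, z ≠ 0 → DifferentiableAt ℝ (fun v : Y => ‖v‖) z)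
    (hNX : ∀ z : X, z ≠ 0 → Rg 2 (N1 : X → X →L[ℝ] ℝ) z)
    (hNY : ∀ z : Y, z ≠ 0 → Rg 2 (N1 : Y → Y →L[ℝ] ℝ) z) :
    ∀ z : X, z ≠ 0 → Rg 2 S.T1 z := by
  intro z hz
  refine Rg.of_unit (s := 2) (fun t ht z => S.T1_smul ht.ne' z) ?_ hz
  intro x₀ hx₀
  have hx0 : x₀ ≠ 0 := by intro h; rw [h, norm_zero] at hx₀; exact zero_ne_one hx₀
  exact S.rg_T1 hX hY (fun x hx => S.F_diff hdim hX hx) (s := 2) hx₀ _ (S.dense_D0 hdim hx₀)
      (fun z hz => hz.1) (fun z hz => hNX _ (P_ne_zero hz.1)) (fun z hz => hNY _ (S.P_ne_zero' hz.1))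
      ⟨_, S.F_strict hdim hX hY hx0⟩ ⟨_, hasStrictFDerivAt_norm (eventually_diff hX hx0)⟩
      (hNX x₀ hx0)

/-- twice continuously differentiable situation -/
structure SphMap.Reg (S : SphMap X Y) : Prop where
  hX : ∀ z : X, z ≠ 0 → DifferentiableAt ℝ (fun v : X => ‖v‖) z
  hY : ∀ z : Y, z ≠ 0 → DifferentiableAt ℝ (fun v : Y => ‖v‖) z
  hF : ∀ z : X, z ≠ 0 → DifferentiableAt ℝ S.F z
  hNX : ∀ z : X, z ≠ 0 → Rg 2 (N1 : X → X →L[ℝ] ℝ) z
  hNY : ∀ z : Y, z ≠ 0 → Rg 2 (N1 : Y → Y →L[ℝ] ℝ) z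
  hT : ∀ z : X, z ≠ 0 → Rg 2 S.T1 z

theorem SphMap.lin_or_reg (S : SphMap X Y) (hdim : 2 ≤ finrank ℝ X) : S.Lin ∨ S.Reg := by
  by_cases hL : S.Lin
  · exact Or.inl hL
  · right
    have hL' : ¬ S.symm.Lin := fun h => hL h.of_symm
    have hdim' : 2 ≤ finrank ℝ Y := by rw [← S.finrank_eq]; exact hdim
    have hX := (S.norm_diff hdim).resolve_left hL
    have hY := (S.symm.norm_diff hdim').resolve_left hL'
    have hNX := (S.N1_diff hdim hX hY).resolve_left hL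
    have hNY := (S.symm.N1_diff hdim' hY hX).resolve_left hL'
    have hNX2 := (S.N1_strict hdim hX hY hNX hNY).resolve_left hL
    have hNY2 := (S.symm.N1_strict hdim' hY hX hNY hNX).resolve_left hL'
    exact ⟨hX, hY, fun z hz => S.F_diff hdim hX hz, hNX2, hNY2,
      S.T1_strict hdim hX hY hNX2 hNY2⟩

end

end Vale.Agent.P084
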