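import Vale.Agent.P084.Diff

open Metric Set Filter Topology MeasureTheory Module Asymptotics

namespace Vale.Agent.P084

/-- regularity of `f` at `x`: continuity (`s = 0`), differentiability (`s = 1`) or strict
differentiability (`s ≥ 2`). -/
def Rg {E G : Type*} [NormedAddCommGroup E] [NormedSpace ℝ E] [NormedAddCommGroup G]
    [NormedSpace ℝ G] (s : ℕ) (f : E → G) (x : E) : Prop :=
  match s with
  | 0 => ContinuousAt f x
  | 1 => DifferentiableAt ℝ f x
  | _ => ∃ f' : E →L[ℝ] G, HasStrictFDerivAt f f' x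

section
variable {E G H K : Type*} [NormedAddCommGroup E] [NormedSpace ℝ E] [NormedAddCommGroup G]
    [NormedSpace ℝ G] [NormedAddCommGroup H] [NormedSpace ℝ H] [NormedAddCommGroup K]
    [NormedSpace ℝ K] {s : ℕ} {x : E}

theorem Rg.of_strict {f : E → G} {f' : E →L[ℝ] G} (h : HasStrictFDerivAt f f' x) : Rg s f x := by
  match s with
  | 0 => exact h.continuousAt
  | 1 => exact h.differentiableAt
  | _ + 2 => exact ⟨f', h⟩

theorem Rg.continuousAt {f : E → G} (h : Rg s f x) : ContinuousAt f x := by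
  match s with
  | 0 => exact h
  | 1 => exact DifferentiableAt.continuousAt h
  | _ + 2 => obtain ⟨f', hf⟩ := h; exact hf.continuousAt

theorem Rg.congr {f g : E → G} (h : Rg s f x) (hfg : g =ᶠ[𝓝 x] f) : Rg s g x := by
  match s with
  | 0 => exact ContinuousAt.congr h hfg.symm
  | 1 => exact DifferentiableAt.congr_of_eventuallyEq h hfg
  | _ + 2 =>
    obtain ⟨f', hf⟩ := h
    exact ⟨f', hf.congr_of_eventuallyEq hfg.symm⟩

theorem Rg.comp {g : G → H} {f : E → G} (hg : Rg s g (f x)) (hf : Rg s f x) :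
    Rg s (fun y => g (f y)) x := by
  match s with
  | 0 => exact ContinuousAt.comp (f := f) (g := g) hg hf
  | 1 => exact DifferentiableAt.comp x hg hf
  | _ + 2 =>
    obtain ⟨g', hg⟩ := hg
    obtain ⟨f', hf⟩ := hf
    exact ⟨_, hg.comp x hf⟩

theorem Rg.clm_comp {c : E → H →L[ℝ] K} {d : E → G →L[ℝ] H} (hc : Rg s c x) (hd : Rg s d x) :
    Rg s (fun y => (c y).comp (d y)) x := by
  match s with
  | 0 => exact ContinuousAt.clm_comp hc hd
  | 1 => exact DifferentiableAt.clm_comp hc hd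
  | _ + 2 =>
    obtain ⟨c', hc⟩ := hc
    obtain ⟨d', hd⟩ := hd
    exact ⟨_, hc.clm_comp hd⟩

theorem Rg.clm_apply {c : E → H →L[ℝ] K} {u : E → H} (hc : Rg s c x) (hu : Rg s u x) :
    Rg s (fun y => c y (u y)) x := by
  match s with
  | 0 => exact ContinuousAt.clm_apply hc hu
  | 1 => exact DifferentiableAt.clm_apply hc hu
  | _ + 2 =>
    obtain ⟨c', hc⟩ := hc
    obtain ⟨d', hd⟩ := hu
    exact ⟨_, hc.clm_apply hd⟩

theorem Rg.sub {f g : E → G} (hf : Rg s f x) (hg : Rg s g x) : Rg s (fun y => f y - g y) x := by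
  match s with
  | 0 => exact ContinuousAt.sub hf hg
  | 1 => exact DifferentiableAt.sub hf hg
  | _ + 2 =>
    obtain ⟨c', hc⟩ := hf
    obtain ⟨d', hd⟩ := hg
    exact ⟨_, hc.sub hd⟩

theorem Rg.add {f g : E → G} (hf : Rg s f x) (hg : Rg s g x) : Rg s (fun y => f y + g y) x := by
  match s with
  | 0 => exact ContinuousAt.add hf hg
  | 1 => exact DifferentiableAt.add hf hg
  | _ + 2 =>
    obtain ⟨c', hc⟩ := hf
    obtain ⟨d', hd⟩ := hg
    exact ⟨_, hc.add hd⟩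

theorem Rg.smul {c : E → ℝ} {f : E → G} (hc : Rg s c x) (hf : Rg s f x) :
    Rg s (fun y => c y • f y) x := by
  match s with
  | 0 => exact ContinuousAt.smul hc hf
  | 1 => exact DifferentiableAt.smul hc hf
  | _ + 2 =>
    obtain ⟨c', hc⟩ := hc
    obtain ⟨d', hd⟩ := hf
    exact ⟨_, hc.smul hd⟩

theorem Rg.inv {c : E → ℝ} (hc : Rg s c x) (h0 : c x ≠ 0) : Rg s (fun y => (c y)⁻¹) x := by
  have h : Rg s (fun t : ℝ => t⁻¹) (c x) :=
    Rg.of_strict (hasStrictDerivAt_inv h0).hasStrictFDerivAt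
  exact h.comp hc

theorem Rg.const (c : G) : Rg s (fun _ : E => c) x := Rg.of_strict (hasStrictFDerivAt_const c x)

theorem Rg.id : Rg s (fun y : E => y) x := Rg.of_strict (hasStrictFDerivAt_id x)

theorem Rg.smulRight {c : E → G →L[ℝ] ℝ} {f : E → H} (hc : Rg s c x) (hf : Rg s f x) :
    Rg s (fun y => (c y).smulRight (f y)) x := by
  have h1 : HasStrictFDerivAt (fun p : (G →L[ℝ] ℝ) × H => p.1.smulRight p.2) _ (c x, f x) :=
    (isBoundedBilinearMap_smulRight (𝕜 := ℝ) (E := G) (F := H)).hasStrictFDerivAt (c x, f x)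
  have h3 : Rg s (fun p : (G →L[ℝ] ℝ) × H => p.1.smulRight p.2) ((fun y => (c y, f y)) x) :=
    Rg.of_strict h1
  have h2 : Rg s (fun y => (c y, f y)) x := by
    match s with
    | 0 => exact ContinuousAt.prodMk (f := c) (g := f) hc hf
    | 1 => exact DifferentiableAt.prodMk (f₁ := c) (f₂ := f) hc hf
    | _ + 2 =>
      obtain ⟨c', hc⟩ := hc
      obtain ⟨d', hd⟩ := hf
      exact ⟨_, hc.prodMk hd⟩
  exact Rg.comp (f := fun y => (c y, f y)) h3 h2

theorem Rg.sum {ι : Type*} (t : Finset ι) {f : ι → E → G} (hf : ∀ i, Rg s (f i) x) :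
    Rg s (fun y => ∑ i ∈ t, f i y) x := by
  classical
  induction t using Finset.induction_on with
  | empty => simpa using Rg.const (0 : G)
  | insert i t hi ih =>
    have : (fun y => ∑ j ∈ insert i t, f j y) = fun y => f i y + ∑ j ∈ t, f j y := by
      ext y; rw [Finset.sum_insert hi]
    rw [this]
    exact (hf i).add ih

theorem Rg.pi {n : ℕ} {f : Fin n → E → G →L[ℝ] ℝ} (hf : ∀ i, Rg s (f i) x) :
    Rg s (fun y => ContinuousLinearMap.pi fun i => f i y) x := by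
  have h1 : ∀ i, Rg s (fun y => (ContinuousLinearMap.single ℝ (fun _ : Fin n => ℝ) i).comp (f i y))
      x := fun i => Rg.clm_comp (Rg.const _) (hf i)
  have h2 := Rg.sum (Finset.univ) h1
  refine h2.congr ?_
  filter_upwards with y
  ext v j
  simp [Pi.single_apply]

theorem Rg.inverse [CompleteSpace G] {M : E → G →L[ℝ] H} (hM : Rg s M x) (e : G ≃L[ℝ] H)
    (he : M x = e) : Rg s (fun y => ContinuousLinearMap.inverse (M y)) x := by
  have h : Rg s (ContinuousLinearMap.inverse : (G →L[ℝ] H) → (H →L[ℝ] G)) (M x) := by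
    rw [he]
    exact Rg.of_strict ((contDiffAt_map_inverse (n := 1) e).hasStrictFDerivAt (by norm_num))
  exact h.comp hM

end

section
variable {X Y : Type*} [NormedAddCommGroup X] [NormedSpace ℝ X]
    [NormedAddCommGroup Y] [NormedSpace ℝ Y]

theorem P_ne_zero {a z : X} (h : ¬ SameRay ℝ z (-a)) : P a z ≠ 0 := by
  intro h0
  apply h
  have : z = ‖z‖ • (-a) := by
    unfold P at h0
    rw [smul_neg]
    exact eq_neg_of_add_eq_zero_right h0
  rw [this]
  exact SameRay.sameRay_nonneg_smul_left _ (norm_nonneg z)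

theorem N1_normalize {x : X} (hx : x ≠ 0) : N1 (‖x‖⁻¹ • x) = N1 x :=
  N1_smul_pos (inv_pos.mpr (norm_pos_iff.mpr hx)) x

/-- the chart operator `A`, which coincides with the derivative of the isometry on the tangent
space of the sphere -/
theorem SphMap.exists_A [FiniteDimensional ℝ Y] [StrictConvexSpace ℝ Y] [FiniteDimensional ℝ X]
    (S : SphMap X Y) (hX : ∀ z : X, z ≠ 0 → DifferentiableAt ℝ (fun v : X => ‖v‖) z)
    (hY : ∀ z : Y, z ≠ 0 → DifferentiableAt ℝ (fun v : Y => ‖v‖) z)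
    (hFd : ∀ x : X, x ≠ 0 → DifferentiableAt ℝ S.F x) {s : ℕ}
    {x₀ : X} (hx₀ : ‖x₀‖ = 1) (D : Set X) (hD : Dense D)
    (hray : ∀ z ∈ D, ¬ SameRay ℝ z (-x₀))
    (hreg : ∀ z ∈ D, Rg s (N1 : X → X →L[ℝ] ℝ) (P x₀ z))
    (hreg' : ∀ z ∈ D, Rg s (N1 : Y → Y →L[ℝ] ℝ) (P (S.F x₀) (S.F z)))
    (hF : Rg s S.F x₀) :
    ∃ A : X → X →L[ℝ] Y, Rg s A x₀ ∧
      ∀ᶠ x in 𝓝 x₀, ‖x‖ = 1 → ∀ u, N1 x u = 0 → A x u = S.T1 x u := by
  have hray' : ∀ z ∈ D, P (S.F x₀) (S.F z) ≠ 0 := by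
    intro z hz
    apply P_ne_zero
    intro h
    apply hray z hz
    apply S.sameRay
    rwa [S.map_neg]
  obtain ⟨n, z, hz, M₀, hM₀⟩ := S.exists_good_chart hx₀ D hD
    (fun z hz => ⟨hray z hz, hY _ (hray' z hz)⟩)
  let M : X → Y →L[ℝ] (Fin n → ℝ) := fun x =>
    ContinuousLinearMap.pi fun i => N1 (P (S.F x) (S.F (z i)))
  let L : X → X →L[ℝ] (Fin n → ℝ) := fun x =>
    ContinuousLinearMap.pi fun i => N1 (P x (z i))
  have hMx₀ : M x₀ = M₀ := by
    ext w i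
    show N1 (P (S.F x₀) (S.F (z i))) w = M₀ w i
    rw [hM₀]
  have hMreg : Rg s M x₀ := by
    apply Rg.pi
    intro i
    have h1 : Rg s (fun x => P (S.F x) (S.F (z i))) x₀ := by
      unfold P
      exact ((Rg.const ‖S.F (z i)‖).smul hF).add (Rg.const _)
    exact (hreg' (z i) (hz i)).comp (f := fun x => P (S.F x) (S.F (z i))) h1
  have hLreg : Rg s L x₀ := by
    apply Rg.pi
    intro i
    have h1 : Rg s (fun x => P x (z i)) x₀ := by
      unfold P
      exact ((Rg.const ‖z i‖).smul Rg.id).add (Rg.const _)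
    exact (hreg (z i) (hz i)).comp (f := fun x => P x (z i)) h1
  refine ⟨fun x => (ContinuousLinearMap.inverse (M x)).comp (L x),
    (hMreg.inverse M₀ hMx₀).clm_comp hLreg, ?_⟩
  -- eventually invertible
  have hinv : ∀ᶠ x in 𝓝 x₀, M x ∈ range ((↑) : (Y ≃L[ℝ] (Fin n → ℝ)) → (Y →L[ℝ] (Fin n → ℝ))) := by
    apply hMreg.continuousAt
    rw [hMx₀]
    exact M₀.nhds
  have hPne : ∀ᶠ x in 𝓝 x₀, ∀ i, P x (z i) ≠ 0 := by
    rw [eventually_all]
    intro i
    have hc : ContinuousAt (fun x => P x (z i)) x₀ := by unfold P; fun_prop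
    exact hc.eventually_ne (P_ne_zero (hray _ (hz i)))
  filter_upwards [hinv, hPne] with x hx1 hx2 hx3 u hu
  obtain ⟨e, he⟩ := hx1
  have hx0 : x ≠ 0 := by intro h; rw [h, norm_zero] at hx3; exact zero_ne_one hx3
  have h1 : L x u = M x (S.T1 x u) := by
    ext i
    show N1 (P x (z i)) u = N1 (P (S.F x) (S.F (z i))) (S.T1 x u)
    symm
    apply S.chain hx3 (ne_zero_of_not_sameRay (hray _ (hz i))) (hX x hx0) (hFd x hx0)
      (hX _ (hx2 i)) _ hu
    apply hY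
    rw [← norm_ne_zero_iff, S.norm_P hx3, norm_ne_zero_iff]
    exact hx2 i
  show ContinuousLinearMap.inverse (M x) (L x u) = S.T1 x u
  rw [h1, ← he, ContinuousLinearMap.inverse_equiv]
  exact e.symm_apply_apply _

theorem rg_normalize {s : ℕ} {x₀ : X} (hx₀ : ‖x₀‖ = 1) (hn : Rg s (fun v : X => ‖v‖) x₀) :
    Rg s (fun x : X => ‖x‖⁻¹ • x) x₀ :=
  (hn.inv (by rw [hx₀]; exact one_ne_zero)).smul Rg.id

/-- regularity of the derivative of the isometry -/
theorem SphMap.rg_T1 [FiniteDimensional ℝ Y] [StrictConvexSpace ℝ Y] [FiniteDimensional ℝ X]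
    (S : SphMap X Y) (hX : ∀ z : X, z ≠ 0 → DifferentiableAt ℝ (fun v : X => ‖v‖) z)
    (hY : ∀ z : Y, z ≠ 0 → DifferentiableAt ℝ (fun v : Y => ‖v‖) z)
    (hFd : ∀ x : X, x ≠ 0 → DifferentiableAt ℝ S.F x) {s : ℕ}
    {x₀ : X} (hx₀ : ‖x₀‖ = 1) (D : Set X) (hD : Dense D)
    (hray : ∀ z ∈ D, ¬ SameRay ℝ z (-x₀))
    (hreg : ∀ z ∈ D, Rg s (N1 : X → X →L[ℝ] ℝ) (P x₀ z))
    (hreg' : ∀ z ∈ D, Rg s (N1 : Y → Y →L[ℝ] ℝ) (P (S.F x₀) (S.F z)))
    (hF : Rg s S.F x₀) (hn : Rg s (fun v : X => ‖v‖) x₀) (hN : Rg s (N1 : X → X →L[ℝ] ℝ) x₀) :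
    Rg s S.T1 x₀ := by
  obtain ⟨A, hA, hAT⟩ := S.exists_A hX hY hFd hx₀ D hD hray hreg hreg' hF
  have hx₀' : x₀ ≠ 0 := by intro h; rw [h, norm_zero] at hx₀; exact zero_ne_one hx₀
  let R : X → X →L[ℝ] Y := fun x =>
    (A x).comp (ContinuousLinearMap.id ℝ X - (N1 x).smulRight x) + (N1 x).smulRight (S.F x)
  have hR : Rg s R x₀ :=
    (hA.clm_comp ((Rg.const _).sub (hN.smulRight Rg.id))).add (hN.smulRight hF)
  have hRT : ∀ᶠ x in 𝓝 x₀, ‖x‖ = 1 → S.T1 x = R x := by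
    filter_upwards [hAT] with x hx hx1
    have hx0 : x ≠ 0 := by intro h; rw [h, norm_zero] at hx1; exact zero_ne_one hx1
    ext v
    have h1 : N1 x (v - N1 x v • x) = 0 := by
      rw [_root_.map_sub, _root_.map_smul, N1_self (hX x hx0), hx1]; simp
    have h2 := hx hx1 _ h1
    have h3 : S.T1 x v = S.T1 x (v - N1 x v • x) + N1 x v • S.F x := by
      rw [_root_.map_sub, _root_.map_smul, S.T1_self (hFd x hx0)]; abel
    rw [h3, ← h2]
    simp [R]
  have hnormz := rg_normalize hx₀ hn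
  have e0 : ‖x₀‖⁻¹ • x₀ = x₀ := by rw [hx₀, inv_one, one_smul]
  have hR' : Rg s R ((fun x : X => ‖x‖⁻¹ • x) x₀) := by
    show Rg s R (‖x₀‖⁻¹ • x₀)
    rw [e0]; exact hR
  refine (Rg.comp (f := fun x : X => ‖x‖⁻¹ • x) hR' hnormz).congr ?_
  have hcont : Tendsto (fun x : X => ‖x‖⁻¹ • x) (𝓝 x₀) (𝓝 x₀) := by
    have := hnormz.continuousAt.tendsto
    rwa [e0] at this
  filter_upwards [hcont.eventually hRT, isOpen_ne.mem_nhds hx₀'] with x hx hx0
  have hx0' : ‖x‖ ≠ 0 := norm_ne_zero_iff.mpr hx0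
  rw [← hx (by rw [norm_smul, norm_inv, norm_norm, inv_mul_cancel₀ hx0']),
    S.T1_smul (inv_ne_zero hx0')]

/-- **Dichotomy.** Either the isometry is linear, or the derivative of the norm is as regular at
`x₀` as it is at the generic points `P x₀ z`. -/
theorem SphMap.dicho [FiniteDimensional ℝ Y] [StrictConvexSpace ℝ Y] [FiniteDimensional ℝ X]
    (S : SphMap X Y) (hX : ∀ z : X, z ≠ 0 → DifferentiableAt ℝ (fun v : X => ‖v‖) z)
    (hY : ∀ z : Y, z ≠ 0 → DifferentiableAt ℝ (fun v : Y => ‖v‖) z)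
    (hFd : ∀ x : X, x ≠ 0 → DifferentiableAt ℝ S.F x) {s : ℕ}
    {x₀ : X} (hx₀ : ‖x₀‖ = 1) (D : Set X) (hD : Dense D)
    (hray : ∀ z ∈ D, ¬ SameRay ℝ z (-x₀))
    (hreg : ∀ z ∈ D, Rg s (N1 : X → X →L[ℝ] ℝ) (P x₀ z))
    (hreg' : ∀ z ∈ D, Rg s (N1 : Y → Y →L[ℝ] ℝ) (P (S.F x₀) (S.F z)))
    (hF : Rg s S.F x₀) (hn : Rg s (fun v : X => ‖v‖) x₀) :
    (∃ T : X →L[ℝ] Y, ∀ x, S.F x = T x) ∨ Rg s (N1 : X → X →L[ℝ] ℝ) x₀ := by
  obtain ⟨A, hA, hAT⟩ := S.exists_A hX hY hFd hx₀ D hD hray hreg hreg' hF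
  have hx₀' : x₀ ≠ 0 := by intro h; rw [h, norm_zero] at hx₀; exact zero_ne_one hx₀
  have hray' : ∀ z ∈ D, P (S.F x₀) (S.F z) ≠ 0 := by
    intro z hz
    apply P_ne_zero
    intro h
    apply hray z hz
    apply S.sameRay
    rwa [S.map_neg]
  by_cases hall : ∀ z ∈ D, ∀ v, N1 (P (S.F x₀) (S.F z)) (A x₀ v) = N1 (P x₀ z) v
  · left
    refine ⟨A x₀, T_lemma S hx₀ (A x₀) D hD ?_⟩
    intro z hz
    exact ⟨hray z hz, hX _ (P_ne_zero (hray z hz)), hY _ (hray' z hz), hall z hz⟩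
  · right
    push Not at hall
    obtain ⟨z, hz, v₀, hv₀⟩ := hall
    let Γ : X → X →L[ℝ] ℝ := fun x => (N1 (P (S.F x) (S.F z))).comp (A x) - N1 (P x z)
    have hΓ : Rg s Γ x₀ := by
      have h1 : Rg s (fun x => P (S.F x) (S.F z)) x₀ := by
        unfold P
        exact ((Rg.const ‖S.F z‖).smul hF).add (Rg.const _)
      have h2 : Rg s (fun x => P x z) x₀ := by
        unfold P
        exact ((Rg.const ‖z‖).smul Rg.id).add (Rg.const _)
      exact (((hreg' z hz).comp (f := fun x => P (S.F x) (S.F z)) h1).clm_comp hA).sub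
        ((hreg z hz).comp (f := fun x => P x z) h2)
    have hPne : ∀ᶠ x in 𝓝 x₀, P x z ≠ 0 := by
      have hc : ContinuousAt (fun x => P x z) x₀ := by unfold P; fun_prop
      exact hc.eventually_ne (P_ne_zero (hray _ hz))
    have hker : ∀ᶠ x in 𝓝 x₀, ‖x‖ = 1 → Γ x = Γ x x • N1 x := by
      filter_upwards [hAT, hPne] with x hx hx2 hx1
      have hx0 : x ≠ 0 := by intro h; rw [h, norm_zero] at hx1; exact zero_ne_one hx1
      have hk : ∀ u, N1 x u = 0 → Γ x u = 0 := by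
        intro u hu
        show N1 (P (S.F x) (S.F z)) (A x u) - N1 (P x z) u = 0
        rw [hx hx1 u hu, sub_eq_zero]
        apply S.chain hx1 (ne_zero_of_not_sameRay (hray _ hz)) (hX x hx0) (hFd x hx0)
          (hX _ hx2) _ hu
        apply hY
        rw [← norm_ne_zero_iff, S.norm_P hx1, norm_ne_zero_iff]
        exact hx2
      ext v
      have h1 : N1 x (v - N1 x v • x) = 0 := by
        rw [_root_.map_sub, _root_.map_smul, N1_self (hX x hx0), hx1]; simp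
      have h2 := hk _ h1
      rw [_root_.map_sub, _root_.map_smul, sub_eq_zero] at h2
      rw [h2, smul_apply, smul_eq_mul, smul_eq_mul, mul_comm]
    have hne : Γ x₀ x₀ ≠ 0 := by
      intro h
      have h1 := hker.self_of_nhds hx₀
      rw [h, zero_smul] at h1
      apply hv₀
      have h2 := congrArg (fun φ : X →L[ℝ] ℝ => φ v₀) h1
      have h3 : N1 (P (S.F x₀) (S.F z)) (A x₀ v₀) - N1 (P x₀ z) v₀ = 0 := h2
      exact sub_eq_zero.mp h3
    let Ψ : X → X →L[ℝ] ℝ := fun x => (Γ x x)⁻¹ • Γ x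
    have hΨ : Rg s Ψ x₀ := ((hΓ.clm_apply Rg.id).inv hne).smul hΓ
    have hne' : ∀ᶠ x in 𝓝 x₀, Γ x x ≠ 0 := (hΓ.clm_apply Rg.id).continuousAt.eventually_ne hne
    have hΨN : ∀ᶠ x in 𝓝 x₀, ‖x‖ = 1 → N1 x = Ψ x := by
      filter_upwards [hker, hne'] with x hx hx2 hx1
      show N1 x = (Γ x x)⁻¹ • Γ x
      have := hx hx1
      rw [this, smul_apply, smul_smul, smul_eq_mul]
      have hx0 : x ≠ 0 := by intro h; rw [h, norm_zero] at hx1; exact zero_ne_one hx1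
      rw [N1_self (hX x hx0), hx1, mul_one, inv_mul_cancel₀ hx2, one_smul]
    have hnormz := rg_normalize hx₀ hn
    have e0 : ‖x₀‖⁻¹ • x₀ = x₀ := by rw [hx₀, inv_one, one_smul]
    have hΨ' : Rg s Ψ ((fun x : X => ‖x‖⁻¹ • x) x₀) := by
      show Rg s Ψ (‖x₀‖⁻¹ • x₀)
      rw [e0]; exact hΨ
    refine (Rg.comp (f := fun x : X => ‖x‖⁻¹ • x) hΨ' hnormz).congr ?_
    have hcont : Tendsto (fun x : X => ‖x‖⁻¹ • x) (𝓝 x₀) (𝓝 x₀) := by
      have := hnormz.continuousAt.tendsto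
      rwa [e0] at this
    filter_upwards [hcont.eventually hΨN, isOpen_ne.mem_nhds hx₀'] with x hx hx0
    have hx0' : ‖x‖ ≠ 0 := norm_ne_zero_iff.mpr hx0
    rw [← hx (by rw [norm_smul, norm_inv, norm_norm, inv_mul_cancel₀ hx0']), N1_normalize hx0]

end

end Vale.Agent.P084
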