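import Vale.Agent.P084.Chart

open Metric Set Filter Topology MeasureTheory Module Asymptotics

namespace Vale.Agent.P084

variable {X Y : Type*} [NormedAddCommGroup X] [NormedSpace ℝ X]
    [NormedAddCommGroup Y] [NormedSpace ℝ Y]

/-- first order behaviour of the isometry along the sphere, tested against derivatives of norms -/
theorem SphMap.isLittleO_test (S : SphMap X Y) {x₀ z : X} (hx₀ : ‖x₀‖ = 1) (hz : z ≠ 0)
    (hd : DifferentiableAt ℝ (fun v : X => ‖v‖) (P x₀ z))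
    (hd' : DifferentiableAt ℝ (fun v : Y => ‖v‖) (P (S.F x₀) (S.F z))) :
    (fun x => N1 (P (S.F x₀) (S.F z)) (S.F x - S.F x₀) - N1 (P x₀ z) (x - x₀))
      =o[𝓝[sphere (0 : X) 1] x₀] (fun x => x - x₀) := by
  have hzn : ‖z‖ ≠ 0 := norm_ne_zero_iff.mpr hz
  -- derivative in X
  have h1 : HasFDerivAt (fun x : X => ‖‖z‖ • x + z‖) (‖z‖ • N1 (P x₀ z)) x₀ := by
    have e : HasFDerivAt (fun x : X => ‖z‖ • x + z) (‖z‖ • ContinuousLinearMap.id ℝ X) x₀ :=
      ((hasFDerivAt_id x₀).const_smul ‖z‖).add_const z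
    have h : HasFDerivAt (fun v : X => ‖v‖) (N1 (P x₀ z)) (‖z‖ • x₀ + z) := hd.hasFDerivAt
    have := h.comp x₀ e
    refine this.congr_fderiv ?_
    ext v
    simp
  have h2 : HasFDerivAt (fun w : Y => ‖‖z‖ • w + S.F z‖) (‖z‖ • N1 (P (S.F x₀) (S.F z)))
      (S.F x₀) := by
    have e : HasFDerivAt (fun w : Y => ‖z‖ • w + S.F z) (‖z‖ • ContinuousLinearMap.id ℝ Y)
        (S.F x₀) := ((hasFDerivAt_id (S.F x₀)).const_smul ‖z‖).add_const (S.F z)
    have h : HasFDerivAt (fun v : Y => ‖v‖) (N1 (P (S.F x₀) (S.F z))) (‖z‖ • S.F x₀ + S.F z) := by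
      have := hd'.hasFDerivAt
      have e2 : P (S.F x₀) (S.F z) = ‖z‖ • S.F x₀ + S.F z := by unfold P; rw [S.norm_map]
      rw [← e2]; exact this
    have := h.comp (S.F x₀) e
    refine this.congr_fderiv ?_
    ext v
    simp
  have h1' := (hasFDerivAt_iff_isLittleO.mp h1).mono (nhdsWithin_le_nhds (s := sphere (0 : X) 1))
  have h2' := (hasFDerivAt_iff_isLittleO.mp h2).comp_tendsto
    ((S.continuous.tendsto x₀).mono_left (nhdsWithin_le_nhds (s := sphere (0 : X) 1)))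
  have hbig : (fun x => S.F x - S.F x₀) =O[𝓝[sphere (0 : X) 1] x₀] (fun x => x - x₀) := by
    apply IsBigO.of_bound 3
    filter_upwards with x
    have := S.lipschitz.dist_le_mul x x₀
    rw [dist_eq_norm, dist_eq_norm] at this
    exact_mod_cast this
  have h2'' : (fun x => ‖‖z‖ • S.F x + S.F z‖ - ‖‖z‖ • S.F x₀ + S.F z‖
      - (‖z‖ • N1 (P (S.F x₀) (S.F z))) (S.F x - S.F x₀)) =o[𝓝[sphere (0 : X) 1] x₀]
      (fun x => x - x₀) := h2'.trans_isBigO hbig
  have h3 := h1'.sub h2''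
  have h4 := h3.const_mul_left (‖z‖⁻¹)
  refine h4.congr' ?_ EventuallyEq.rfl
  filter_upwards [self_mem_nhdsWithin] with x hx
  have hx1 : ‖x‖ = 1 := mem_sphere_zero_iff_norm.mp hx
  have e1 : ∀ y : X, ‖y‖ = 1 → ‖‖z‖ • S.F y + S.F z‖ = ‖‖z‖ • y + z‖ := by
    intro y hy
    rw [← S.map_smul]
    apply S.norm_add
    rw [norm_smul, hy, mul_one, norm_norm]
  rw [e1 x hx1, e1 x₀ hx₀]
  simp only [smul_apply, smul_eq_mul]
  field_simp
  ring

/-- the set of points where the two norms are differentiable at the relevant places -/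
def SphMap.D0 (S : SphMap X Y) (x₀ : X) : Set X :=
  {z | ¬ SameRay ℝ z (-x₀) ∧ DifferentiableAt ℝ (fun v : X => ‖v‖) (P x₀ z) ∧
      DifferentiableAt ℝ (fun v : Y => ‖v‖) (P (S.F x₀) (S.F z))}

theorem ne_zero_of_not_sameRay {Z : Type*} [NormedAddCommGroup Z] [NormedSpace ℝ Z] {z a : Z}
    (h : ¬ SameRay ℝ z a) : z ≠ 0 := by
  rintro rfl; exact h (SameRay.zero_left a)

theorem SphMap.image_dense (S : SphMap X Y) {D : Set X} (hD : Dense D) :
    Dense (S.F '' D) := by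
  have := S.surjective.denseRange.dense_image S.continuous hD
  exact this

/-- a chart made of derivatives of norms at `P (F x₀) (F z)`, `z` in a dense set -/
theorem SphMap.exists_good_chart [FiniteDimensional ℝ Y] [StrictConvexSpace ℝ Y]
    (S : SphMap X Y) {x₀ : X} (hx₀ : ‖x₀‖ = 1) (D : Set X) (hD : Dense D)
    (hT : ∀ z ∈ D, ¬ SameRay ℝ z (-x₀) ∧
      DifferentiableAt ℝ (fun v : Y => ‖v‖) (P (S.F x₀) (S.F z))) :
    ∃ (n : ℕ) (z : Fin n → X), (∀ i, z i ∈ D) ∧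
      ∃ M : Y ≃L[ℝ] (Fin n → ℝ), ∀ w i, M w i = N1 (P (S.F x₀) (S.F (z i))) w := by
  obtain ⟨n, p, hp, M, hM⟩ := exists_chart
    {φ : Y →L[ℝ] ℝ | ∃ z ∈ D, φ = N1 (P (S.F x₀) (S.F z))} (by
      intro w hw
      have ha : ‖S.F x₀‖ = 1 := by rw [S.norm_map, hx₀]
      refine separating ha (S.F '' D) (S.image_dense hD) ?_ ?_
      · rintro _ ⟨z, hz, rfl⟩
        refine ⟨fun h => (hT z hz).1 ?_, (hT z hz).2⟩
        apply S.sameRay
        rwa [S.map_neg]
      · rintro _ ⟨z, hz, rfl⟩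
        exact hw _ ⟨z, hz, rfl⟩)
  choose z hzD hz using hp
  exact ⟨n, z, hzD, M, fun w i => by rw [hM, hz]⟩

/-- the isometry is differentiable along the sphere -/
theorem SphMap.exists_withinDeriv [FiniteDimensional ℝ Y] [StrictConvexSpace ℝ Y]
    [FiniteDimensional ℝ X]
    (S : SphMap X Y) {x₀ : X} (hx₀ : ‖x₀‖ = 1) (hD : Dense (S.D0 x₀)) :
    ∃ T : X →L[ℝ] Y, (fun x => S.F x - S.F x₀ - T (x - x₀))
      =o[𝓝[sphere (0 : X) 1] x₀] (fun x => x - x₀) := by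
  obtain ⟨n, z, hz, M, hM⟩ := S.exists_good_chart hx₀ (S.D0 x₀) hD (fun z hz => ⟨hz.1, hz.2.2⟩)
  let L : X →L[ℝ] (Fin n → ℝ) := ContinuousLinearMap.pi fun i => N1 (P x₀ (z i))
  refine ⟨(M.symm : (Fin n → ℝ) →L[ℝ] Y).comp L, ?_⟩
  have h1 : (fun x => M (S.F x - S.F x₀ - ((M.symm : (Fin n → ℝ) →L[ℝ] Y).comp L) (x - x₀)))
      =o[𝓝[sphere (0 : X) 1] x₀] (fun x => x - x₀) := by
    rw [isLittleO_pi]
    intro i
    have h := S.isLittleO_test hx₀ (ne_zero_of_not_sameRay (hz i).1) (hz i).2.1 (hz i).2.2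
    refine h.congr' ?_ EventuallyEq.rfl
    filter_upwards with x
    rw [_root_.map_sub M]
    simp [hM, L]
  have h2 : (fun x => S.F x - S.F x₀ - ((M.symm : (Fin n → ℝ) →L[ℝ] Y).comp L) (x - x₀))
      =O[𝓝[sphere (0 : X) 1] x₀]
      (fun x => M (S.F x - S.F x₀ - ((M.symm : (Fin n → ℝ) →L[ℝ] Y).comp L) (x - x₀))) := by
    have := (M.symm : (Fin n → ℝ) →L[ℝ] Y).isBigO_comp
      (fun x => M (S.F x - S.F x₀ - ((M.symm : (Fin n → ℝ) →L[ℝ] Y).comp L) (x - x₀)))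
      (𝓝[sphere (0 : X) 1] x₀)
    simpa using this
  exact h2.trans_isLittleO h1

/-- **Step 0.** Either the isometry is linear or the norm is differentiable at `x₀`. -/
theorem SphMap.step0 [FiniteDimensional ℝ Y] [StrictConvexSpace ℝ Y] [FiniteDimensional ℝ X]
    (S : SphMap X Y) {x₀ : X} (hx₀ : ‖x₀‖ = 1) (hD : Dense (S.D0 x₀)) :
    (∃ T : X →L[ℝ] Y, ∀ x, S.F x = T x) ∨ DifferentiableAt ℝ (fun v : X => ‖v‖) x₀ := by
  obtain ⟨T, hT⟩ := S.exists_withinDeriv hx₀ hD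
  by_cases hall : ∀ z ∈ S.D0 x₀, ∀ v, N1 (P (S.F x₀) (S.F z)) (T v) = N1 (P x₀ z) v
  · left
    refine ⟨T, T_lemma S hx₀ T (S.D0 x₀) hD ?_⟩
    intro z hz
    exact ⟨hz.1, hz.2.1, hz.2.2, hall z hz⟩
  · right
    push Not at hall
    obtain ⟨z, hz, v, hv⟩ := hall
    set g : X →L[ℝ] ℝ := (N1 (P (S.F x₀) (S.F z))).comp T - N1 (P x₀ z) with hg
    refine differentiableAt_of_isLittleO hx₀ g ?_ ?_
    · intro h
      apply hv
      have := congrArg (fun φ : X →L[ℝ] ℝ => φ v) h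
      simp only [hg] at this
      simpa [sub_eq_zero] using this
    · have h := S.isLittleO_test hx₀ (ne_zero_of_not_sameRay hz.1) hz.2.1 hz.2.2
      have h2 : (fun x => N1 (P (S.F x₀) (S.F z)) (S.F x - S.F x₀ - T (x - x₀)))
          =o[𝓝[sphere (0 : X) 1] x₀] (fun x => x - x₀) :=
        ((N1 (P (S.F x₀) (S.F z))).isBigO_comp _ _).trans_isLittleO hT
      have h3 := h.sub h2
      refine h3.congr' ?_ EventuallyEq.rfl
      filter_upwards with x
      simp only [hg, _root_.map_sub, sub_apply, ContinuousLinearMap.comp_apply]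
      ring

end Vale.Agent.P084
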