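import Vale.Agent.P084.Basic
import Vale.Agent.P084.PMap

open Metric Set Filter Topology MeasureTheory Module

namespace Vale.Agent.P084

/-- the derivative of the norm -/
noncomputable def N1 {X : Type*} [NormedAddCommGroup X] [NormedSpace ℝ X] (z : X) : X →L[ℝ] ℝ :=
  fderiv ℝ (fun v : X => ‖v‖) z

section norm

variable {X : Type*} [NormedAddCommGroup X] [NormedSpace ℝ X]

theorem N1_self {z : X} (h : DifferentiableAt ℝ (fun v : X => ‖v‖) z) : N1 z z = ‖z‖ :=
  h.fderiv_norm_self

theorem norm_N1_le (z : X) : ‖N1 z‖ ≤ 1 := by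
  have := norm_fderiv_le_of_lipschitz ℝ (lipschitzWith_one_norm (E := X)) (x₀ := z)
  simpa [N1] using this

theorem N1_apply_le (z v : X) : N1 z v ≤ ‖v‖ := by
  calc N1 z v ≤ ‖N1 z v‖ := le_abs_self _
    _ ≤ ‖N1 z‖ * ‖v‖ := (N1 z).le_opNorm v
    _ ≤ 1 * ‖v‖ := by gcongr; exact norm_N1_le z
    _ = ‖v‖ := one_mul _

theorem N1_smul_pos {t : ℝ} (ht : 0 < t) (z : X) : N1 (t • z) = N1 z := fderiv_norm_smul_pos ht

theorem N1_near {u w : X} (h : DifferentiableAt ℝ (fun v : X => ‖v‖) u) :
    ‖w‖ - 2 * ‖w - u‖ ≤ N1 u w := by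
  have h1 : N1 u w = ‖u‖ + N1 u (w - u) := by
    rw [← N1_self h, ← _root_.map_add]; congr 1; abel
  have h2 : -‖w - u‖ ≤ N1 u (w - u) := by
    have := N1_apply_le u (-(w - u))
    rw [_root_.map_neg, norm_neg] at this
    linarith
  have h3 : ‖w‖ ≤ ‖u‖ + ‖w - u‖ := by
    calc ‖w‖ = ‖u + (w - u)‖ := by congr 1; abel
      _ ≤ _ := norm_add_le _ _
  rw [h1]; linarith

end norm

variable {X Y : Type*} [NormedAddCommGroup X] [NormedSpace ℝ X]
    [NormedAddCommGroup Y] [NormedSpace ℝ Y]

theorem continuous_P (a : X) : Continuous (P a) := by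
  unfold P; fun_prop

theorem SphMap.norm_P (S : SphMap X Y) {a z : X} (ha : ‖a‖ = 1) :
    ‖P (S.F a) (S.F z)‖ = ‖P a z‖ := by
  unfold P
  rw [S.norm_map, ← S.map_smul]
  apply S.norm_add
  rw [norm_smul, ha, mul_one, norm_norm]

theorem SphMap.sameRay (S : SphMap X Y) {z w : X} (h : SameRay ℝ (S.F z) (S.F w)) :
    SameRay ℝ z w := by
  rcases h with h | h | ⟨r, s, hr, hs, h⟩
  · left; exact S.injective (by rw [h, S.map_zero])
  · right; left; exact S.injective (by rw [h, S.map_zero])
  · right; right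
    refine ⟨r, s, hr, hs, S.injective ?_⟩
    rw [S.map_smul, S.map_smul, h]

/-- **The T-lemma.**  If a continuous linear map `T` intertwines the derivatives of the norms at
`P x₀ z` and `P (F x₀) (F z)` for a dense set of `z`, then `F = T`. -/
theorem T_lemma [StrictConvexSpace ℝ Y] (S : SphMap X Y) {x₀ : X} (hx₀ : ‖x₀‖ = 1)
    (T : X →L[ℝ] Y) (D : Set X) (hD : Dense D)
    (hT : ∀ z ∈ D, ¬ SameRay ℝ z (-x₀) ∧ DifferentiableAt ℝ (fun v : X => ‖v‖) (P x₀ z) ∧
      DifferentiableAt ℝ (fun v : Y => ‖v‖) (P (S.F x₀) (S.F z)) ∧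
      ∀ v, N1 (P (S.F x₀) (S.F z)) (T v) = N1 (P x₀ z) v) :
    ∀ x, S.F x = T x := by
  set a := S.F x₀ with ha
  have ha1 : ‖a‖ = 1 := by rw [ha, S.norm_map, hx₀]
  -- Step 1
  have step1 : ∀ z ∈ D, T (P x₀ z) = P a (S.F z) := by
    intro z hz
    obtain ⟨hray, hd, hd', hN⟩ := hT z hz
    set w := P x₀ z with hw
    set w' := P a (S.F z) with hw'
    have hww : ‖w'‖ = ‖w‖ := S.norm_P hx₀
    have hray' : ¬ SameRay ℝ (S.F z) (-a) := by
      intro h
      apply hray
      apply S.sameRay
      rwa [S.map_neg]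
    have hnh := P_nhds_le ha1 hray'
    have hrange : ∀ᶠ u in 𝓝 w', ∃ ζ, P a ζ = u := by
      have : range (P a) ∈ map (P a) (𝓝 (S.F z)) := by
        rw [mem_map]; exact univ_mem' (fun x => mem_range_self x)
      exact hnh this
    set d := T w - w' with hd_def
    -- claim
    have claim : ∀ t : ℝ, 0 < t → t ≤ 1 → (∃ ζ, P a ζ = w' + t • d) → ‖w' + t • d‖ = ‖w‖ := by
      intro t ht0 ht1 ⟨ζ, hζ⟩
      apply le_antisymm
      · -- upper bound
        apply le_of_forall_pos_le_add
        intro ε hε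
        have hcont : Continuous (fun x : X => P a (S.F x)) := (continuous_P a).comp S.continuous
        obtain ⟨z₁, hz₁D, hz₁⟩ : ∃ z₁ ∈ D, ‖P a (S.F z₁) - (w' + t • d)‖ < ε / 2 := by
          have hopen : {x : X | ‖P a (S.F x) - (w' + t • d)‖ < ε / 2} ∈ 𝓝 (S.G ζ) := by
            apply (isOpen_lt (hcont.sub continuous_const).norm continuous_const).mem_nhds
            show ‖P a (S.F (S.G ζ)) - (w' + t • d)‖ < ε / 2
            rw [S.right_inv, hζ, sub_self, norm_zero]; linarith
          obtain ⟨z₁, h1, h2⟩ := hD.inter_nhds_nonempty hopen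
          exact ⟨z₁, h1, h2⟩
        obtain ⟨_, hd₁, hd₁', hN₁⟩ := hT z₁ hz₁D
        have h1 := N1_near (w := w' + t • d) hd₁'
        have h2 : N1 (P a (S.F z₁)) (w' + t • d)
            = (1 - t) * N1 (P a (S.F z₁)) w' + t * N1 (P a (S.F z₁)) (T w) := by
          rw [hd_def, smul_sub, _root_.map_add, _root_.map_sub, _root_.map_smul, _root_.map_smul]
          simp only [smul_eq_mul]; ring
        have h3 : N1 (P a (S.F z₁)) w' ≤ ‖w‖ := (N1_apply_le _ _).trans hww.le
        have h4 : N1 (P a (S.F z₁)) (T w) ≤ ‖w‖ := by rw [hN₁]; exact N1_apply_le _ _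
        have h5 : ‖w' + t • d - P a (S.F z₁)‖ < ε / 2 := by rwa [norm_sub_rev]
        nlinarith
      · -- lower bound
        have h1 : N1 w' (w' + t • d) = ‖w‖ := by
          have e1 : N1 w' w' = ‖w‖ := by rw [N1_self hd', hww]
          have e2 : N1 w' (T w) = ‖w‖ := by rw [hN, N1_self hd]
          rw [_root_.map_add, _root_.map_smul, hd_def, _root_.map_sub, e1, e2]
          simp
        rw [← h1]; exact N1_apply_le _ _
    -- find small t
    have hd0 : d = 0 := by
      have hcont : Tendsto (fun t : ℝ => w' + t • d) (𝓝 0) (𝓝 w') := by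
        have : Continuous (fun t : ℝ => w' + t • d) := by fun_prop
        have h := this.tendsto 0
        simpa using h
      have hev := hcont.eventually hrange
      obtain ⟨δ, hδ, hball⟩ := Metric.eventually_nhds_iff.mp hev
      set t := min (δ / 2) 1 with ht
      have ht0 : 0 < t := by positivity
      have ht1 : t ≤ 1 := min_le_right _ _
      have htδ : t < δ := lt_of_le_of_lt (min_le_left _ _) (by linarith)
      have c1 := claim t ht0 ht1 (hball (by rw [dist_zero_right, Real.norm_of_nonneg ht0.le]; exact htδ))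
      have c2 := claim (t / 2) (by linarith) (by linarith)
        (hball (by rw [dist_zero_right, Real.norm_of_nonneg (by linarith)]; linarith))
      have h1 : w' = w' + t • d := by
        apply eq_of_norm_eq_of_norm_add_eq
        · rw [c1, hww]
        · have : w' + (w' + t • d) = (2 : ℝ) • (w' + (t / 2) • d) := by
            rw [smul_add, smul_smul, two_smul]
            have : (2 : ℝ) * (t / 2) = t := by ring
            rw [this]; abel
          rw [this, norm_smul, c2, c1, hww, Real.norm_of_nonneg (by norm_num)]; ring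
      have h2 : t • d = 0 := by
        have := h1.symm
        rwa [add_eq_left] at this
      exact (smul_eq_zero.mp h2).resolve_left ht0.ne'
    have := sub_eq_zero.mp (hd_def ▸ hd0)
    exact this
  -- Step 2
  have step2 : ∀ z, T (P x₀ z) = P a (S.F z) := by
    have h1 : Continuous (fun z : X => T (P x₀ z)) := T.continuous.comp (continuous_P x₀)
    have h2 : Continuous (fun z : X => P a (S.F z)) := (continuous_P a).comp S.continuous
    have := Continuous.ext_on hD h1 h2 step1
    exact fun z => congrFun this z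
  have hTx₀ : T x₀ = a := by
    have h := step2 x₀
    unfold P at h
    rw [hx₀, one_smul, S.norm_map, hx₀, one_smul, ← two_smul ℝ, ← two_smul ℝ (S.F x₀), _root_.map_smul] at h
    have h2 : (2 : ℝ) ≠ 0 := by norm_num
    exact smul_right_injective Y h2 h
  intro x
  have h := step2 x
  unfold P at h
  rw [_root_.map_add, _root_.map_smul, hTx₀, S.norm_map] at h
  exact (add_left_cancel h).symm

end Vale.Agent.P084
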